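import Crest.Agent.R290.DefsG

/-! Row 290: back-and-forth systems on the graphs of a three-slot system preserve bases. -/

set_option autoImplicit false

namespace Crest.Agent.R290

namespace Base

section Game
variable {κ : ℕ} {V W : Type} {G : V → V → Bool} {H : W → W → Bool} {P : List (V × W) → Prop}

theorem BFS.inv (h : BFS κ G H P) : BFS κ H G fun p => P (p.map Prod.swap) where
  nil := h.nil
  mono p q hq hs := h.mono _ _ hq fun x hx => by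
    obtain ⟨y, hy, rfl⟩ := List.mem_map.1 hx
    exact List.mem_map.2 ⟨y, hs y hy, rfl⟩
  iso p hp x hx y hy := by
    have := h.iso _ hp x.swap (List.mem_map.2 ⟨x, hx, rfl⟩) y.swap (List.mem_map.2 ⟨y, hy, rfl⟩)
    exact ⟨this.1.symm, this.2.symm⟩
  forth p hp hl a := h.back _ hp (by simpa using hl) a
  back p hp hl a := h.forth _ hp (by simpa using hl) a

theorem ext1 (h : BFS κ G H P) (hκ : 4 ≤ κ) {a : V} {b : W} (hp : P [(a, b)]) (a₁ : V) :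
    ∃ b₁, P [(a₁, b₁)] ∧ G a a₁ = H b b₁ := by
  obtain ⟨b₁, h1⟩ := h.forth _ hp (by simp; omega) a₁
  exact ⟨b₁, h.mono _ _ h1 (by simp), (h.iso _ h1 (a, b) (by simp) (a₁, b₁) (by simp)).2⟩

theorem ext3 (h : BFS κ G H P) (hκ : 4 ≤ κ) {a : V} {b : W} (hp : P [(a, b)]) (a₁ a₂ a₃ : V) :
    ∃ b₁ b₂ b₃, G a a₁ = H b b₁ ∧ G a a₂ = H b b₂ ∧ G a a₃ = H b b₃ ∧ G a₁ a₂ = H b₁ b₂ ∧
      (a₁ = a₂ ↔ b₁ = b₂) ∧ (a₁ = a₃ ↔ b₁ = b₃) ∧ (a₂ = a₃ ↔ b₂ = b₃) := by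
  obtain ⟨b₁, h1⟩ := h.forth _ hp (by simp; omega) a₁
  obtain ⟨b₂, h2⟩ := h.forth _ h1 (by simp; omega) a₂
  obtain ⟨b₃, h3⟩ := h.forth _ h2 (by simp; omega) a₃
  have := h.iso _ h3
  exact ⟨b₁, b₂, b₃, (this (a, b) (by simp) (a₁, b₁) (by simp)).2,
    (this (a, b) (by simp) (a₂, b₂) (by simp)).2, (this (a, b) (by simp) (a₃, b₃) (by simp)).2,
    (this (a₁, b₁) (by simp) (a₂, b₂) (by simp)).2, (this (a₁, b₁) (by simp) (a₂, b₂) (by simp)).1,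
    (this (a₁, b₁) (by simp) (a₃, b₃) (by simp)).1, (this (a₂, b₂) (by simp) (a₃, b₃) (by simp)).1⟩

end Game

variable (S : Sys3) (n : ℕ)

/-- At least two neighbours. -/
def Deg2 (tw : Bool) (a : Nd) : Prop := ∃ a₁ a₂, S.Valid n a₁ ∧ S.Valid n a₂ ∧
  S.adj tw a a₁ = true ∧ S.adj tw a a₂ = true ∧ a₁ ≠ a₂

/-- At least three neighbours. -/
def Deg3 (tw : Bool) (a : Nd) : Prop := ∃ a₁ a₂ a₃, S.Valid n a₁ ∧ S.Valid n a₂ ∧ S.Valid n a₃ ∧
  S.adj tw a a₁ = true ∧ S.adj tw a a₂ = true ∧ S.adj tw a a₃ = true ∧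
  a₁ ≠ a₂ ∧ a₁ ≠ a₃ ∧ a₂ ≠ a₃

/-- In a triangle. -/
def Tri (tw : Bool) (a : Nd) : Prop := ∃ a₁ a₂, S.Valid n a₁ ∧ S.Valid n a₂ ∧
  S.adj tw a a₁ = true ∧ S.adj tw a a₂ = true ∧ S.adj tw a₁ a₂ = true

/-- Related nodes. -/
def Rel (κ : ℕ) (tw tw' : Bool) (a b : Nd) : Prop :=
  ∃ (ha : S.Valid n a) (hb : S.Valid n b) (P : _), BFS κ (S.grV n tw) (S.grV n tw') P ∧
    P [(⟨a, ha⟩, ⟨b, hb⟩)]

variable {S n} {κ : ℕ} {tw tw' : Bool} {a b : Nd}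

theorem Rel.symm (h : Rel S n κ tw tw' a b) : Rel S n κ tw' tw b a := by
  obtain ⟨ha, hb, P, h1, h2⟩ := h
  exact ⟨hb, ha, _, BFS.inv h1, h2⟩

theorem Rel.nbr (hκ : 4 ≤ κ) (h : Rel S n κ tw tw' a b) {a₁ : Nd} (h1 : S.Valid n a₁)
    (h2 : S.adj tw a a₁ = true) : ∃ b₁, S.adj tw' b b₁ = true ∧ Rel S n κ tw tw' a₁ b₁ := by
  obtain ⟨ha, hb, P, hP, hp⟩ := h
  obtain ⟨b₁, h3, h4⟩ := ext1 hP hκ hp ⟨a₁, h1⟩
  exact ⟨b₁.1, h4.symm.trans h2, h1, b₁.2, P, hP, h3⟩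

theorem Rel.deg2 (hκ : 4 ≤ κ) (h : Rel S n κ tw tw' a b) (hd : Deg2 S n tw a) :
    Deg2 S n tw' b := by
  obtain ⟨ha, hb, P, hP, hp⟩ := h
  obtain ⟨a₁, a₂, v1, v2, e1, e2, n1⟩ := hd
  obtain ⟨b₁, b₂, b₃, f1, f2, -, -, g1, -, -⟩ := ext3 hP hκ hp ⟨a₁, v1⟩ ⟨a₂, v2⟩ ⟨a₂, v2⟩
  exact ⟨b₁.1, b₂.1, b₁.2, b₂.2, f1.symm.trans e1, f2.symm.trans e2,
    fun e => n1 (congrArg Subtype.val (g1.2 (Subtype.ext e)))⟩

theorem Rel.deg3 (hκ : 4 ≤ κ) (h : Rel S n κ tw tw' a b) (hd : Deg3 S n tw a) :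
    Deg3 S n tw' b := by
  obtain ⟨ha, hb, P, hP, hp⟩ := h
  obtain ⟨a₁, a₂, a₃, v1, v2, v3, e1, e2, e3, n1, n2, n3⟩ := hd
  obtain ⟨b₁, b₂, b₃, f1, f2, f3, -, g1, g2, g3⟩ := ext3 hP hκ hp ⟨a₁, v1⟩ ⟨a₂, v2⟩ ⟨a₃, v3⟩
  exact ⟨b₁.1, b₂.1, b₃.1, b₁.2, b₂.2, b₃.2, f1.symm.trans e1, f2.symm.trans e2, f3.symm.trans e3,
    fun e => n1 (congrArg Subtype.val (g1.2 (Subtype.ext e))),
    fun e => n2 (congrArg Subtype.val (g2.2 (Subtype.ext e))),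
    fun e => n3 (congrArg Subtype.val (g3.2 (Subtype.ext e)))⟩

theorem Rel.tri (hκ : 4 ≤ κ) (h : Rel S n κ tw tw' a b) (hd : Tri S n tw a) :
    Tri S n tw' b := by
  obtain ⟨ha, hb, P, hP, hp⟩ := h
  obtain ⟨a₁, a₂, v1, v2, e1, e2, e3⟩ := hd
  obtain ⟨b₁, b₂, b₃, f1, f2, -, f3, -, -, -⟩ := ext3 hP hκ hp ⟨a₁, v1⟩ ⟨a₂, v2⟩ ⟨a₂, v2⟩
  exact ⟨b₁.1, b₂.1, b₁.2, b₂.2, f1.symm.trans e1, f2.symm.trans e2, f3.symm.trans e3⟩

theorem adj_symm (a b : Nd) : S.adj tw a b = S.adj tw b a := Bool.or_comm _ _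

theorem adj_sp {j : ℕ} (h : S.adj tw (.sp j) b = true) :
    (∃ i, b = .sp i ∧ (i = j + 1 ∨ j = i + 1 ∨ (j = 1 ∧ i = 3) ∨ (j = 3 ∧ i = 1))) ∨
      ∃ i, b = .fk i ∧ j = 4 + 2 * i := by
  cases b <;> simp [Sys3.adj, Sys3.arc] at h ⊢ <;> omega

theorem adj_fk {i : ℕ} (h : S.adj tw (.fk i) b = true) : (∃ j, b = .sp j) ∨ ∃ c, b = .dd i c := by
  cases b <;> simp [Sys3.adj, Sys3.arc] at h ⊢
  exact h.symm

theorem adj_dd {i : ℕ} {c : Bool} (h : S.adj tw (.dd i c) b = true) :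
    (∃ j, b = .fk j) ∨ ∃ j c', j ≤ i ∧ b = .cc j c' := by
  cases b <;> simp [Sys3.adj, Sys3.arc] at h ⊢
  omega

theorem adj_cc {i : ℕ} {c : Bool} (h : S.adj tw (.cc i c) b = true) :
    (∃ j c', b = .dd j c') ∨ ∃ c', b = .pt (i % S.no) c' := by
  cases b <;> simp [Sys3.adj, Sys3.arc] at h ⊢
  exact h.1

theorem adj_pt {o : ℕ} {c : Bool} (h : S.adj tw (.pt o c) b = true) :
    (∃ j c', b = .cc j c') ∨ ∃ c₁ c₂, b = .md (o / 3) c₁ c₂ := by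
  cases b <;> simp [Sys3.adj, Sys3.arc] at h ⊢
  exact h.1.symm

/-- A two-colouring which is proper away from the chord. -/
def col : Nd → ℕ
  | .sp j => j % 2
  | .fk _ => 1
  | .dd _ _ => 0
  | .cc _ _ => 1
  | .pt _ _ => 0
  | .md _ _ _ => 1

theorem col_le (a : Nd) : col a ≤ 1 := by
  cases a <;> simp [col]
  omega

theorem adj_col (h : S.adj tw a b = true) :
    col a ≠ col b ∨ (a = .sp 1 ∧ b = .sp 3) ∨ (a = .sp 3 ∧ b = .sp 1) := by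
  cases a <;> cases b <;> simp [Sys3.adj, Sys3.arc, col] at h ⊢ <;> omega

theorem tri_cases (h : Tri S n tw a) : a = .sp 1 ∨ a = .sp 2 ∨ a = .sp 3 := by
  obtain ⟨a₁, a₂, -, -, e1, e2, e3⟩ := h
  have key : S.adj tw a (.sp 1) = true → S.adj tw a (.sp 3) = true → a = .sp 2 := by
    intro h1 h2
    rw [adj_symm] at h1 h2
    rcases adj_sp h1 with ⟨i, rfl, h1⟩ | ⟨i, rfl, h1⟩
    · rcases adj_sp h2 with ⟨i', e, h2⟩ | ⟨i', e, h2⟩
      · cases e; congr 1; omega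
      · cases e
    · omega
  rcases adj_col e1 with c1 | ⟨rfl, -⟩ | ⟨rfl, -⟩
  · rcases adj_col e2 with c2 | ⟨rfl, -⟩ | ⟨rfl, -⟩
    · rcases adj_col e3 with c3 | ⟨rfl, rfl⟩ | ⟨rfl, rfl⟩
      · have := col_le a; have := col_le a₁; have := col_le a₂; omega
      · exact Or.inr (Or.inl (key e1 e2))
      · exact Or.inr (Or.inl (key e2 e1))
    · simp
    · simp
  · simp
  · simp

theorem not_deg3 {j : ℕ} (hj : j = 2 ∨ (j % 2 = 1 ∧ 5 ≤ j)) : ¬ Deg3 S n tw (.sp j) := by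
  rintro ⟨a₁, a₂, a₃, -, -, -, e1, e2, e3, n1, n2, n3⟩
  rcases adj_sp e1 with ⟨i1, rfl, h1⟩ | ⟨i1, rfl, h1⟩ <;>
    rcases adj_sp e2 with ⟨i2, rfl, h2⟩ | ⟨i2, rfl, h2⟩ <;>
    rcases adj_sp e3 with ⟨i3, rfl, h3⟩ | ⟨i3, rfl, h3⟩ <;>
    simp only [ne_eq, Nd.sp.injEq] at n1 n2 n3 <;> omega

theorem not_deg2 : ¬ Deg2 S n tw (.sp 0) := by
  rintro ⟨a₁, a₂, -, -, e1, e2, n1⟩
  rcases adj_sp e1 with ⟨i1, rfl, h1⟩ | ⟨i1, rfl, h1⟩ <;>
    rcases adj_sp e2 with ⟨i2, rfl, h2⟩ | ⟨i2, rfl, h2⟩ <;>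
    simp only [ne_eq, Nd.sp.injEq] at n1 <;> omega

theorem base_sp {j : ℕ} (h : a.base = .sp j) : a = .sp j := by
  cases a <;> simp_all [Nd.base]

theorem base_fk {j : ℕ} (h : a.base = .fk j) : a = .fk j := by
  cases a <;> simp_all [Nd.base]

theorem base_dd {j : ℕ} (h : a.base = .dd j false) : ∃ c, a = .dd j c := by
  cases a <;> simp_all [Nd.base]

theorem base_cc {j : ℕ} (h : a.base = .cc j false) : ∃ c, a = .cc j c := by
  cases a <;> simp_all [Nd.base]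

theorem base_pt {j : ℕ} (h : a.base = .pt j false) : ∃ c, a = .pt j c := by
  cases a <;> simp_all [Nd.base]

theorem base_md {j : ℕ} (h : a.base = .md j false false) : ∃ c c', a = .md j c c' := by
  cases a <;> simp_all [Nd.base]

variable (S n κ)

/-- The base `t` is preserved. -/
def Fwd (t : Nd) : Prop := ∀ tw tw' a b, Rel S n κ tw tw' a b → a.base = t → b.base = t

variable {S n κ}

theorem step (hκ : 4 ≤ κ) {t t' : Nd} (h1 : Fwd S n κ t')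
    (h2 : ∀ tw a, S.Valid n a → a.base = t → ∃ a', S.Valid n a' ∧ S.adj tw a a' = true ∧
      a'.base = t')
    (h3 : ∀ tw b b', S.Valid n b → S.adj tw b' b = true → b'.base = t' → b.base = t ∨
      Fwd S n κ b.base ∨ (Deg3 S n tw b ∧ ∀ tw a, a.base = t → ¬ Deg3 S n tw a)) :
    Fwd S n κ t := by
  intro tw tw' a b h ha
  obtain ⟨a', v1, e1, e2⟩ := h2 tw a h.1 ha
  obtain ⟨b', f1, f2⟩ := h.nbr hκ v1 e1
  rcases h3 tw' b b' h.2.1 (by rw [adj_symm]; exact f1) (h1 _ _ _ _ f2 e2) with g | g | ⟨g, g'⟩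
  · exact g
  · exact (g _ _ _ _ h.symm rfl).symm.trans ha
  · exact absurd (h.symm.deg3 hκ g) (g' _ _ ha)

section
variable (hW : S.WF) (hn : S.size ≤ n) (hκ : 4 ≤ κ)
include hW hn

theorem len_ge : 1 ≤ S.nb ∧ 4 + 2 * S.nb ≤ S.len n := by
  refine ⟨Nat.mul_pos hW.1 (by have := hW.2.1; unfold Sys3.no; omega), ?_⟩
  unfold Sys3.size at hn
  unfold Sys3.len
  omega

theorem tri_sp {j : ℕ} (hj : j = 1 ∨ j = 2) : Tri S n tw (.sp j) := by
  have := len_ge hW hn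
  rcases hj with rfl | rfl
  · exact ⟨.sp 2, .sp 3, by simp [Sys3.Valid]; omega, by simp [Sys3.Valid]; omega,
      by simp [Sys3.adj, Sys3.arc], by simp [Sys3.adj, Sys3.arc], by simp [Sys3.adj, Sys3.arc]⟩
  · exact ⟨.sp 1, .sp 3, by simp [Sys3.Valid]; omega, by simp [Sys3.Valid]; omega,
      by simp [Sys3.adj, Sys3.arc], by simp [Sys3.adj, Sys3.arc], by simp [Sys3.adj, Sys3.arc]⟩

theorem deg2_sp {j : ℕ} (hj : j ≤ 3) : Deg2 S n tw (.sp (j + 1)) := by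
  have := len_ge hW hn
  exact ⟨.sp j, .sp (j + 2), by simp [Sys3.Valid]; omega, by simp [Sys3.Valid]; omega,
    by simp [Sys3.adj, Sys3.arc], by simp [Sys3.adj, Sys3.arc], by simp⟩

include hκ

theorem fwd_sp2 : Fwd S n κ (.sp 2) := by
  intro tw tw' a b h ha
  obtain rfl := base_sp ha
  have := len_ge hW hn
  rcases tri_cases (h.tri hκ (tri_sp hW hn (Or.inr rfl))) with rfl | rfl | rfl
  · refine absurd (h.symm.deg3 hκ ⟨.sp 0, .sp 2, .sp 3, ?_, ?_, ?_, ?_, ?_, ?_, ?_, ?_, ?_⟩)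
      (not_deg3 (Or.inl rfl)) <;> simp [Sys3.Valid, Sys3.adj, Sys3.arc] <;> omega
  · rfl
  · refine absurd (h.symm.deg3 hκ ⟨.sp 1, .sp 2, .sp 4, ?_, ?_, ?_, ?_, ?_, ?_, ?_, ?_, ?_⟩)
      (not_deg3 (Or.inl rfl)) <;> simp [Sys3.Valid, Sys3.adj, Sys3.arc] <;> omega

theorem fwd_sp1 : Fwd S n κ (.sp 1) := by
  intro tw tw' a b h ha
  obtain rfl := base_sp ha
  have := len_ge hW hn
  rcases tri_cases (h.tri hκ (tri_sp hW hn (Or.inl rfl))) with rfl | rfl | rfl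
  · rfl
  · cases fwd_sp2 hW hn hκ _ _ _ _ h.symm rfl
  · obtain ⟨b', f1, f2⟩ := h.nbr hκ (a₁ := .sp 0) (by simp [Sys3.Valid]; omega)
      (by simp [Sys3.adj, Sys3.arc])
    refine absurd (f2.symm.deg2 hκ ?_) not_deg2
    rcases adj_sp f1 with ⟨i, rfl, h1⟩ | ⟨i, rfl, h1⟩
    · obtain ⟨j, rfl⟩ : ∃ j, i = j + 1 := ⟨i - 1, by omega⟩
      exact deg2_sp hW hn (by omega)
    · omega

theorem fwd_sp (j : ℕ) : Fwd S n κ (.sp j) := by
  have hl := len_ge hW hn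
  have f1 := fwd_sp1 hW hn hκ
  have f2 := fwd_sp2 hW hn hκ
  have f3 : Fwd S n κ (.sp 3) := by
    refine step hκ f2 (fun tw a _ ha => ?_) (fun tw b b' _ e hb => ?_)
    · obtain rfl := base_sp ha
      exact ⟨.sp 2, by simp [Sys3.Valid]; omega, by simp [Sys3.adj, Sys3.arc], rfl⟩
    · obtain rfl := base_sp hb
      rcases adj_sp e with ⟨i, rfl, h1⟩ | ⟨i, rfl, h1⟩
      · obtain rfl | rfl : i = 3 ∨ i = 1 := by omega
        · exact Or.inl rfl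
        · exact Or.inr (Or.inl f1)
      · omega
  have f0 : Fwd S n κ (.sp 0) := by
    refine step hκ f1 (fun tw a _ ha => ?_) (fun tw b b' _ e hb => ?_)
    · obtain rfl := base_sp ha
      exact ⟨.sp 1, by simp [Sys3.Valid]; omega, by simp [Sys3.adj, Sys3.arc], rfl⟩
    · obtain rfl := base_sp hb
      rcases adj_sp e with ⟨i, rfl, h1⟩ | ⟨i, rfl, h1⟩
      · obtain rfl | rfl | rfl : i = 0 ∨ i = 2 ∨ i = 3 := by omega
        · exact Or.inl rfl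
        · exact Or.inr (Or.inl f2)
        · exact Or.inr (Or.inl f3)
      · omega
  induction j using Nat.strong_induction_on with
  | _ j ih =>
    by_cases hj : j ≤ 3
    · obtain rfl | rfl | rfl | rfl : j = 0 ∨ j = 1 ∨ j = 2 ∨ j = 3 := by omega
      exacts [f0, f1, f2, f3]
    obtain ⟨j, rfl⟩ : ∃ i, j = i + 1 := ⟨j - 1, by omega⟩
    refine step hκ (ih j (by omega)) (fun tw a hv ha => ?_) (fun tw b b' hv e hb => ?_)
    · obtain rfl := base_sp ha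
      exact ⟨.sp j, Nat.lt_of_succ_lt hv, by simp [Sys3.adj, Sys3.arc], rfl⟩
    · obtain rfl := base_sp hb
      rcases adj_sp e with ⟨i, rfl, h1⟩ | ⟨i, rfl, h1⟩
      · by_cases hi : i = j + 1
        · exact Or.inl (by rw [hi]; rfl)
        · exact Or.inr (Or.inl (ih i (by omega)))
      · refine Or.inr (Or.inr ⟨⟨.sp j, .dd i false, .dd i true, ?_, hv, hv, ?_, ?_, ?_, ?_, ?_, ?_⟩,
          fun tw a ha => ?_⟩)
        · have : i < S.nb := hv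
          simp only [Sys3.Valid]; omega
        · simp [Sys3.adj, Sys3.arc, h1]
        · simp [Sys3.adj, Sys3.arc]
        · simp [Sys3.adj, Sys3.arc]
        · simp
        · simp
        · simp
        · obtain rfl := base_sp ha
          exact not_deg3 (by omega)

theorem fwd_fk (i : ℕ) : Fwd S n κ (.fk i) := by
  have hl := len_ge hW hn
  refine step hκ (fwd_sp hW hn hκ (4 + 2 * i)) (fun tw a hv ha => ?_) (fun tw b b' hv e hb => ?_)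
  · obtain rfl := base_fk ha
    have : i < S.nb := hv
    exact ⟨.sp (4 + 2 * i), by simp only [Sys3.Valid]; omega, by simp [Sys3.adj, Sys3.arc], rfl⟩
  · obtain rfl := base_sp hb
    rcases adj_sp e with ⟨i', rfl, h1⟩ | ⟨i', rfl, h1⟩
    · exact Or.inr (Or.inl (fwd_sp hW hn hκ _))
    · obtain rfl : i = i' := by omega
      exact Or.inl rfl

theorem fwd_dd (i : ℕ) : Fwd S n κ (.dd i false) := by
  refine step hκ (fwd_fk hW hn hκ i) (fun tw a hv ha => ?_) (fun tw b b' hv e hb => ?_)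
  · obtain ⟨c, rfl⟩ := base_dd ha
    exact ⟨.fk i, hv, by simp [Sys3.adj, Sys3.arc], rfl⟩
  · obtain rfl := base_fk hb
    rcases adj_fk e with ⟨i', rfl⟩ | ⟨c, rfl⟩
    · exact Or.inr (Or.inl (fwd_sp hW hn hκ _))
    · exact Or.inl rfl

theorem fwd_cc (i : ℕ) : Fwd S n κ (.cc i false) := by
  induction i using Nat.strong_induction_on with
  | _ i ih =>
    refine step hκ (fwd_dd hW hn hκ i) (fun tw a hv ha => ?_) (fun tw b b' hv e hb => ?_)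
    · obtain ⟨c, rfl⟩ := base_cc ha
      exact ⟨.dd i c, hv, by simp [Sys3.adj, Sys3.arc], rfl⟩
    · obtain ⟨c, rfl⟩ := base_dd hb
      rcases adj_dd e with ⟨i', rfl⟩ | ⟨j, c', hj, rfl⟩
      · exact Or.inr (Or.inl (fwd_fk hW hn hκ _))
      · rcases hj.eq_or_lt with rfl | hj
        · exact Or.inl rfl
        · exact Or.inr (Or.inl (ih j hj))

theorem fwd_pt (o : ℕ) : Fwd S n κ (.pt o false) := by
  by_cases ho : o < S.no
  swap
  · intro tw tw' a b h ha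
    obtain ⟨c, rfl⟩ := base_pt ha
    exact absurd h.1 ho
  have e1 : (S.slot (o / 3) (o % 3) * S.no + o) % S.no = o := by
    rw [Nat.add_comm, Nat.add_mul_mod_self_right, Nat.mod_eq_of_lt ho]
  have e2 : (S.slot (o / 3) (o % 3) * S.no + o) / S.no = S.slot (o / 3) (o % 3) := by
    rw [Nat.add_comm, Nat.add_mul_div_right _ _ (by omega), Nat.div_eq_of_lt ho, zero_add]
  refine step hκ (fwd_cc hW hn hκ (S.slot (o / 3) (o % 3) * S.no + o)) (fun tw a hv ha => ?_)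
    (fun tw b b' hv e hb => ?_)
  · obtain ⟨c, rfl⟩ := base_pt ha
    refine ⟨.cc (S.slot (o / 3) (o % 3) * S.no + o) c, ?_, by simp [Sys3.adj, Sys3.arc, e1, e2],
      rfl⟩
    have h1 := hW.2.2 (o / 3) (by unfold Sys3.no at ho; omega) (o % 3) (by omega)
    change _ < S.nv * S.no
    nlinarith
  · obtain ⟨c, rfl⟩ := base_cc hb
    rcases adj_cc e with ⟨i', c', rfl⟩ | ⟨c', rfl⟩
    · exact Or.inr (Or.inl (fwd_dd hW hn hκ _))
    · rw [e1]; exact Or.inl rfl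

theorem fwd_md (e : ℕ) : Fwd S n κ (.md e false false) := by
  refine step hκ (fwd_pt hW hn hκ (3 * e)) (fun tw a hv ha => ?_) (fun tw b b' hv h hb => ?_)
  · obtain ⟨c, c', rfl⟩ := base_md ha
    have : e < S.ne := hv
    exact ⟨.pt (3 * e) c, by simp only [Sys3.Valid, Sys3.no]; omega,
      by simp [Sys3.adj, Sys3.arc, Sys3.mbit], rfl⟩
  · obtain ⟨c, rfl⟩ := base_pt hb
    rcases adj_pt h with ⟨i', c', rfl⟩ | ⟨c₁, c₂, rfl⟩
    · exact Or.inr (Or.inl (fwd_cc hW hn hκ _))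
    · rw [show 3 * e / 3 = e by omega]; exact Or.inl rfl

theorem fwd_base (a : Nd) : Fwd S n κ a.base := by
  cases a
  exacts [fwd_sp hW hn hκ _, fwd_fk hW hn hκ _, fwd_dd hW hn hκ _, fwd_cc hW hn hκ _,
    fwd_pt hW hn hκ _, fwd_md hW hn hκ _]

end

end Base

theorem baseStmt : BaseStmt := fun _ _ _ tw tw' P hW hn hκ hP a b h =>
  (Base.fwd_base hW hn hκ a.1 tw tw' a.1 b.1 ⟨a.2, b.2, P, hP, h⟩ rfl).symm

end Crest.Agent.R290
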