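import Crest.Agent.R290.MatAlg

/-! Row 290: deciding equivalence under colour refinement in polynomial time. -/

set_option autoImplicit false

namespace Crest.Agent.R290

open Crest.WLRefine Crest.Agent.PT Finset

namespace CRAlg

/-- Multisets of colours of subsets of `range N` agree iff the colours of all `z < N` are counted
equally often. -/
theorem map_eq_iff {C : Type} {N : ℕ} (c : ℕ → C) (p q : ℕ → Prop) [DecidablePred p]
    [DecidablePred q] [∀ z w, Decidable (c z = c w)] :
    ((range N).filter p).val.map c = ((range N).filter q).val.map c ↔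
      ∀ z < N, ((range N).filter fun w => p w ∧ c z = c w).card =
        ((range N).filter fun w => q w ∧ c z = c w).card := by
  classical
  have key : ∀ (p : ℕ → Prop) [DecidablePred p] (a : C),
      (((range N).filter p).val.map c).count a = ((range N).filter fun w => p w ∧ a = c w).card := by
    intro p _ a
    rw [Multiset.count_map, ← Finset.filter_filter]
    rfl
  constructor
  · intro h z _
    have h1 := key p (c z)
    have h2 := key q (c z)
    rw [h, h2] at h1
    convert h1.symm
  · intro h
    refine Multiset.ext.2 fun a => ?_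
    rw [key, key]
    by_cases ha : ∃ z < N, a = c z
    · obtain ⟨z, hz, rfl⟩ := ha
      convert h z hz
    · rw [Finset.card_eq_zero.2, Finset.card_eq_zero.2] <;>
        exact Finset.filter_eq_empty_iff.2 fun w hw h => ha ⟨w, mem_range.1 hw, h.2⟩

/-- A decreasing chain that stays constant once it stalls is eventually constant. -/
theorem stable {X : Type} (R : ℕ → Finset X) (h1 : ∀ s, R (s + 1) ⊆ R s)
    (h2 : ∀ s, R (s + 1) = R s → R (s + 2) = R (s + 1)) {B : ℕ} (hB : (R 0).card ≤ B) {s : ℕ}
    (hs : B ≤ s) : R s = R B := by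
  have key : ∀ s, R (s + 1) = R s ∨ (R s).card + s < (R 0).card + 1 ∧ R (s + 1) ≠ R s := by
    intro s
    induction s with
    | zero => by_cases h : R 1 = R 0
              · exact Or.inl h
              · exact Or.inr ⟨by omega, h⟩
    | succ s ih =>
      rcases ih with h | ⟨h, h'⟩
      · exact Or.inl (h2 s h)
      · by_cases h3 : R (s + 1 + 1) = R (s + 1)
        · exact Or.inl h3
        · have := Finset.card_lt_card (Finset.ssubset_iff_subset_ne.2 ⟨h1 s, h'⟩)
          exact Or.inr ⟨by omega, h3⟩
  have st : ∀ s, B ≤ s → R (s + 1) = R s := by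
    intro s hs
    rcases key s with h | ⟨h, h'⟩
    · exact h
    · have := Finset.card_lt_card (Finset.ssubset_iff_subset_ne.2 ⟨h1 s, h'⟩)
      omega
  induction hs with
  | refl => rfl
  | step hs ih => rw [← ih]; exact st _ hs

/-- Colour refinement on the vertex set `range N`. -/
def col (N : ℕ) (A : ℕ → ℕ → Prop) [∀ x y, Decidable (A x y)] : (s : ℕ) → ℕ → CRColor s
  | 0, _ => ()
  | s + 1, x => (col N A s x, ((range N).filter (A x)).val.map (col N A s))

section
variable (N : ℕ) (A : ℕ → ℕ → Prop) [∀ x y, Decidable (A x y)]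

open Classical in
theorem col_succ (s x y : ℕ) : col N A (s + 1) x = col N A (s + 1) y ↔
    col N A s x = col N A s y ∧ ∀ z < N,
      ((range N).filter fun w => A x w ∧ col N A s z = col N A s w).card =
        ((range N).filter fun w => A y w ∧ col N A s z = col N A s w).card := by
  rw [col, col, Prod.mk.injEq, map_eq_iff]

theorem col_stable {s : ℕ} (hs : N * N ≤ s) {x y : ℕ} (hx : x < N) (hy : y < N) :
    col N A s x = col N A s y ↔ col N A (N * N) x = col N A (N * N) y := by
  classical
  let R : ℕ → Finset (ℕ × ℕ) := fun s =>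
    (range N ×ˢ range N).filter fun p => col N A s p.1 = col N A s p.2
  have hR : ∀ s x y, (x, y) ∈ R s ↔ x < N ∧ y < N ∧ col N A s x = col N A s y := by
    intro s x y; simp [R, and_assoc]
  have h0 : (R 0).card ≤ N * N := by
    have : R 0 ⊆ range N ×ˢ range N := fun p hp => by
      obtain ⟨x, y⟩ := p
      rw [hR] at hp
      simp [hp.1, hp.2.1]
    simpa using Finset.card_le_card this
  have := stable R (fun s p hp => ?_) (fun s h => ?_) h0 hs
  · have h1 := hR s x y
    rw [this, hR] at h1
    simp only [hx, hy, true_and] at h1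
    exact h1.symm
  · obtain ⟨x, y⟩ := p
    rw [hR] at hp ⊢
    exact ⟨hp.1, hp.2.1, ((col_succ N A s x y).1 hp.2.2).1⟩
  · have e : ∀ x < N, ∀ y < N,
        col N A (s + 1) x = col N A (s + 1) y ↔ col N A s x = col N A s y := by
      intro x hx y hy
      have h1 := hR (s + 1) x y
      rw [h, hR] at h1
      simp only [hx, hy, true_and] at h1
      exact h1.symm
    ext ⟨x, y⟩
    rw [hR, hR]
    refine and_congr_right fun hx => and_congr_right fun hy => ?_
    rw [col_succ N A (s + 1), e x hx y hy, ← e x hx y hy]
    refine ⟨And.left, fun h1 => ⟨h1, fun z hz => ?_⟩⟩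
    have h2 := ((col_succ N A s x y).1 h1).2 z hz
    refine Eq.trans ?_ (h2.trans ?_) <;> refine congrArg Finset.card (Finset.ext fun w => ?_) <;>
      simp only [mem_filter, mem_range] <;>
      exact and_congr_right fun hw => by rw [e z hz w hw]

end

/-- Adjacency in the disjoint union of the two graphs. -/
def adj (n : ℕ) (G H : Word) (x y : ℕ) : Prop :=
  (x < n ∧ y < n ∧ G.getD (x * n + y) false = true) ∨
    (n ≤ x ∧ n ≤ y ∧ H.getD ((x - n) * n + (y - n)) false = true)

instance (n : ℕ) (G H : Word) (x y : ℕ) : Decidable (adj n G H x y) := by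
  unfold adj; infer_instance

theorem map_lo {C : Type} (n : ℕ) (p : ℕ → Prop) [DecidablePred p] (q : Fin n → Prop)
    [DecidablePred q] (h : ∀ w, p w ↔ ∃ hw : w < n, q ⟨w, hw⟩) (c : ℕ → C) :
    ((range (n + n)).filter p).val.map c = (univ.filter q).val.map fun v : Fin n => c v := by
  have : (range (n + n)).filter p = (univ.filter q).map Fin.valEmbedding := by
    ext w
    simp only [mem_filter, mem_range, mem_map, mem_univ, true_and, Fin.valEmbedding_apply, h]
    constructor
    · rintro ⟨-, hw, hq⟩; exact ⟨⟨w, hw⟩, hq, rfl⟩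
    · rintro ⟨v, hq, rfl⟩; exact ⟨by omega, v.isLt, hq⟩
  rw [this, Finset.map_val, Multiset.map_map]
  rfl

theorem map_hi {C : Type} (n : ℕ) (p : ℕ → Prop) [DecidablePred p] (q : Fin n → Prop)
    [DecidablePred q] (h : ∀ w < n + n, p w ↔ n ≤ w ∧ ∃ hw : w - n < n, q ⟨w - n, hw⟩)
    (c : ℕ → C) :
    ((range (n + n)).filter p).val.map c = (univ.filter q).val.map fun v : Fin n => c (n + v) := by
  have : (range (n + n)).filter p =
      (univ.filter q).map (Fin.valEmbedding.trans (addLeftEmbedding n)) := by
    ext w
    simp only [mem_filter, mem_range, mem_map, mem_univ, true_and, Function.Embedding.trans_apply,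
      Fin.valEmbedding_apply, addLeftEmbedding_apply]
    constructor
    · rintro ⟨hw, hp⟩
      obtain ⟨h1, h2, h3⟩ := (h w hw).1 hp
      exact ⟨⟨w - n, h2⟩, h3, by simp only; omega⟩
    · rintro ⟨v, hq, rfl⟩
      have hv : n + v.val < n + n := by omega
      refine ⟨hv, (h _ hv).2 ⟨by omega, by omega, ?_⟩⟩
      simpa using hq
  rw [this, Finset.map_val, Multiset.map_map]
  rfl

theorem col_lo (n : ℕ) (G H : Word) (s : ℕ) (v : Fin n) :
    col (n + n) (adj n G H) s v = crcolor (mat n G) s v := by
  induction s generalizing v with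
  | zero => rfl
  | succ s ih =>
    rw [col, crcolor, ih, map_lo n _ (fun w => mat n G v w = true)]
    · simp only [ih]
    · intro w
      have := v.isLt
      simp only [adj, mat]
      constructor
      · rintro (⟨-, h1, h2⟩ | ⟨h, -⟩)
        · exact ⟨h1, h2⟩
        · omega
      · rintro ⟨h1, h2⟩; exact Or.inl ⟨this, h1, h2⟩

theorem col_hi (n : ℕ) (G H : Word) (s : ℕ) (v : Fin n) :
    col (n + n) (adj n G H) s (n + v) = crcolor (mat n H) s v := by
  induction s generalizing v with
  | zero => rfl
  | succ s ih =>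
    rw [col, crcolor, ih, map_hi n _ (fun w => mat n H v w = true)]
    · simp only [ih]
    · intro w hw
      simp only [adj, mat, Nat.add_sub_cancel_left]
      constructor
      · rintro (⟨h, -⟩ | ⟨-, h1, h2⟩)
        · omega
        · exact ⟨h1, by omega, h2⟩
      · rintro ⟨h1, -, h2⟩; exact Or.inr ⟨by omega, h1, h2⟩

open Classical in
theorem hist_iff (n : ℕ) (G H : Word) (s : ℕ) :
    (univ : Finset (Fin n)).val.map (crcolor (mat n G) s) =
      (univ : Finset (Fin n)).val.map (crcolor (mat n H) s) ↔
    ∀ z < n + n, ((range (n + n)).filter fun w => w < n ∧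
        col (n + n) (adj n G H) s z = col (n + n) (adj n G H) s w).card =
      ((range (n + n)).filter fun w => n ≤ w ∧
        col (n + n) (adj n G H) s z = col (n + n) (adj n G H) s w).card := by
  rw [← map_eq_iff, map_lo n _ (fun _ => True) (fun w => by simp),
    map_hi n _ (fun _ => True) (fun w hw => by simp only [exists_prop, and_true]; omega)]
  simp only [col_lo, col_hi, Finset.filter_true]

theorem hist_down {n : ℕ} (G H : Fin n → Fin n → Bool) {s t : ℕ} (hst : s ≤ t)
    (h : (univ : Finset (Fin n)).val.map (crcolor G t) =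
      (univ : Finset (Fin n)).val.map (crcolor H t)) :
    (univ : Finset (Fin n)).val.map (crcolor G s) =
      (univ : Finset (Fin n)).val.map (crcolor H s) := by
  induction hst with
  | refl => exact h
  | step _ ih =>
    refine ih ?_
    have := congrArg (Multiset.map Prod.fst) h
    rw [Multiset.map_map, Multiset.map_map] at this
    exact this

theorem cr_iff (n : ℕ) (G H : Word) : CREquiv (mat n G) (mat n H) ↔
    (univ : Finset (Fin n)).val.map (crcolor (mat n G) ((n + n) * (n + n))) =
      (univ : Finset (Fin n)).val.map (crcolor (mat n H) ((n + n) * (n + n))) := by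
  classical
  refine ⟨fun h => h _, fun h s => ?_⟩
  rcases le_total s ((n + n) * (n + n)) with hs | hs
  · exact hist_down _ _ hs h
  · rw [hist_iff] at h ⊢
    intro z hz
    have e : ∀ (p : ℕ → Prop) [DecidablePred p], ((range (n + n)).filter fun w => p w ∧
        col (n + n) (adj n G H) s z = col (n + n) (adj n G H) s w) =
        (range (n + n)).filter fun w => p w ∧ col (n + n) (adj n G H) ((n + n) * (n + n)) z =
          col (n + n) (adj n G H) ((n + n) * (n + n)) w := fun p _ =>
      Finset.filter_congr fun w hw => by rw [col_stable _ _ hs hz (mem_range.1 hw)]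
    rw [e, e]
    exact h z hz

/-! ### The table -/

abbrev In : Type := Un × Word × Word

def NN (a : In) : ℕ := a.1.val + a.1.val

def cnt (a : In) (T : Word) (x z : ℕ) : ℕ :=
  ((range (NN a)).filter fun w =>
    adj a.1.val a.2.1 a.2.2 x w ∧ T.getD (z * NN a + w) false = true).card

def ts (a : In) (T : Word) (i : ℕ) : Bool :=
  decide (T.getD i false = true ∧ ∀ z < NN a, cnt a T (i / NN a) z = cnt a T (i % NN a) z)

def tt (a : In) (s : ℕ) : Word :=
  (fun T => (List.range (NN a * NN a)).map (ts a T))^[s] (List.replicate (NN a * NN a) true)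

theorem idx_lt {N x y : ℕ} (hx : x < N) (hy : y < N) : x * N + y < N * N :=
  MatAlg.idx_lt ⟨x, hx⟩ ⟨y, hy⟩

theorem tt_iff (a : In) (s : ℕ) {x y : ℕ} (hx : x < NN a) (hy : y < NN a) :
    (tt a s).getD (x * NN a + y) false = true ↔
      col (NN a) (adj a.1.val a.2.1 a.2.2) s x = col (NN a) (adj a.1.val a.2.1 a.2.2) s y := by
  classical
  induction s generalizing x y with
  | zero => simp [tt, List.getD_eq_getElem?_getD, idx_lt hx hy]
  | succ s ih =>
    have h1 : (x * NN a + y) / NN a = x := by
      rw [add_comm, Nat.add_mul_div_right _ _ (by omega), Nat.div_eq_of_lt hy, zero_add]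
    have h2 : (x * NN a + y) % NN a = y := by
      rw [add_comm, Nat.add_mul_mod_self_right, Nat.mod_eq_of_lt hy]
    rw [tt, Function.iterate_succ_apply', getD_rangeMap_of_lt _ (idx_lt hx hy), ts,
      decide_eq_true_eq, h1, h2, col_succ, ← ih hx hy]
    refine and_congr Iff.rfl (forall₂_congr fun z hz => ?_)
    have e : ∀ x, cnt a (tt a s) x z = ((range (NN a)).filter fun w =>
        adj a.1.val a.2.1 a.2.2 x w ∧ col (NN a) (adj a.1.val a.2.1 a.2.2) s z =
          col (NN a) (adj a.1.val a.2.1 a.2.2) s w).card := fun x =>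
      congrArg Finset.card (Finset.filter_congr fun w hw => by rw [ih hz (mem_range.1 hw)])
    rw [← e, ← e]
    rfl

theorem NN_pu : PU NN := by unfold NN; fun_prop

theorem cnt_pt {α : Type} [Rp α] {a : α → In} {T : α → Word} {x z : α → ℕ} (ha : PTime a)
    (hT : PTime T) (hx : PTime x) (hz : PTime z) : PTime fun p => cnt (a p) (T p) (x p) (z p) := by
  have := NN_pu.ptime
  refine PTime.card_filter (c := fun p w => adj (a p).1.val (a p).2.1 (a p).2.2 (x p) w ∧
    (T p).getD (z p * NN (a p) + w) false = true) (NN_pu.comp ha) ?_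
  unfold adj
  fun_prop

theorem tt_pt : PTime fun a : In => tt a (NN a * NN a) := by
  have := NN_pu.ptime
  refine PTime.iter_table (g := ts) (NN_pu.mul NN_pu) (NN_pu.mul NN_pu)
    (PTime.replicate (NN_pu.mul NN_pu) (PTime.const _)) ?_
  unfold ts
  refine PTime.decide (PTime.and (by fun_prop) ?_)
  refine PTime.forall_lt (c := fun (p : (In × Word) × Un) z =>
    cnt p.1.1 p.1.2 (p.2.val / NN p.1.1) z = cnt p.1.1 p.1.2 (p.2.val % NN p.1.1) z)
    (NN_pu.comp (by fun_prop)) (PTime.eq ?_ ?_) <;>
  exact cnt_pt (by fun_prop) (by fun_prop) (by fun_prop) (by fun_prop)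

def test (a : In) (T : Word) : Prop :=
  ∀ z < NN a, ((range (NN a)).filter fun w => w < a.1.val ∧
      T.getD (z * NN a + w) false = true).card =
    ((range (NN a)).filter fun w => a.1.val ≤ w ∧ T.getD (z * NN a + w) false = true).card

theorem test_pt : PTime fun p : In × Word => test p.1 p.2 := by
  have := NN_pu.ptime
  refine PTime.forall_lt (c := fun (p : In × Word) z =>
    ((range (NN p.1)).filter fun w => w < p.1.1.val ∧
      p.2.getD (z * NN p.1 + w) false = true).card =
    ((range (NN p.1)).filter fun w => p.1.1.val ≤ w ∧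
      p.2.getD (z * NN p.1 + w) false = true).card) (NN_pu.comp (by fun_prop)) (PTime.eq ?_ ?_)
  · exact PTime.card_filter (c := fun (p : (In × Word) × Un) w => w < p.1.1.1.val ∧
      p.1.2.getD (p.2.val * NN p.1.1 + w) false = true) (NN_pu.comp (by fun_prop)) (by fun_prop)
  · exact PTime.card_filter (c := fun (p : (In × Word) × Un) w => p.1.1.1.val ≤ w ∧
      p.1.2.getD (p.2.val * NN p.1.1 + w) false = true) (NN_pu.comp (by fun_prop)) (by fun_prop)

end CRAlg

open CRAlg in
theorem crAlgStmt : CRAlgStmt := by
  classical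
  refine ⟨fun a => decide (test a (tt a (NN a * NN a))),
    (test_pt.comp (PTime.id.pair tt_pt)).decide, fun n G H => ?_⟩
  rw [decide_eq_true_eq, cr_iff, hist_iff]
  refine forall₂_congr fun z hz => ?_
  have e : ∀ (p : ℕ → Prop) [DecidablePred p], ((range (n + n)).filter fun w => p w ∧
      (tt (⟨n⟩, G, H) ((n + n) * (n + n))).getD (z * (n + n) + w) false = true) =
      (range (n + n)).filter fun w => p w ∧ col (n + n) (adj n G H) ((n + n) * (n + n)) z =
        col (n + n) (adj n G H) ((n + n) * (n + n)) w := fun p _ =>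
    Finset.filter_congr fun w hw =>
      and_congr Iff.rfl (tt_iff (⟨n⟩, G, H) _ hz (mem_range.1 hw))
  rw [← e, ← e]
  rfl

end Crest.Agent.R290
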