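import Crest.Agent.R290.Defs

/-! Row 290: bijective pebble strategies give equal Weisfeiler-Leman colours. -/

set_option autoImplicit false

namespace Crest.Agent.R290

open Crest.WLRefine

namespace Col

lemma map_equiv {V W C : Type} [Fintype V] [Fintype W] (β : V ≃ W) {f : V → C} {g : W → C}
    (h : ∀ a, f a = g (β a)) :
    (Finset.univ : Finset V).val.map f = (Finset.univ : Finset W).val.map g := by
  rw [← Multiset.map_univ_val_equiv β, Multiset.map_map]
  exact Multiset.map_congr rfl fun a _ => h a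

lemma atomic {k n m : ℕ} {G : Fin n → Fin n → Bool} {H : Fin m → Fin m → Bool}
    {u : Fin k → Fin n} {v : Fin k → Fin m} (h : PIso G H (List.ofFn fun i => (u i, v i))) :
    atomicType G u = atomicType H v := by
  have h' := fun i j => h (u i, v i) (List.mem_ofFn.2 ⟨i, rfl⟩) (u j, v j) (List.mem_ofFn.2 ⟨j, rfl⟩)
  refine Prod.ext ?_ ?_
  · funext i j
    exact decide_eq_decide.2 (h' i j).1
  · funext i j
    exact (h' i j).2

lemma joint {k n m : ℕ} {G : Fin n → Fin n → Bool} {H : Fin m → Fin m → Bool}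
    {P : List (Fin n × Fin m) → Prop} (hP : BGS (k + 1) G H P) (s : ℕ) :
    ∀ (u : Fin k → Fin n) (v : Fin k → Fin m), P (List.ofFn fun i => (u i, v i)) →
      jcolor G k s u = jcolor H k s v := by
  induction s with
  | zero => exact fun u v h => atomic (hP.iso _ h)
  | succ s ih =>
    intro u v h
    obtain ⟨β, hβ⟩ := hP.bij _ h (by simp)
    refine Prod.ext (ih u v h) (map_equiv β fun z => ?_)
    funext i
    refine ih _ _ (hP.mono _ _ (hβ z) fun x hx => ?_)
    obtain ⟨j, rfl⟩ := List.mem_ofFn.1 hx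
    by_cases hj : j = i
    · subst hj; simp
    · rw [Function.update_of_ne hj, Function.update_of_ne hj]
      exact List.mem_cons_of_mem _ (List.mem_ofFn.2 ⟨j, rfl⟩)

lemma sep {k n m : ℕ} {G : Fin n → Fin n → Bool} {H : Fin m → Fin m → Bool}
    {P : List (Fin n × Fin m) → Prop} (hP : BGS k G H P) (s : ℕ) :
    ∀ (u : Fin k → Fin n) (v : Fin k → Fin m), P (List.ofFn fun i => (u i, v i)) →
      scolor G k s u = scolor H k s v := by
  induction s with
  | zero => exact fun u v h => atomic (hP.iso _ h)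
  | succ s ih =>
    intro u v h
    refine Prod.ext (ih u v h) ?_
    funext i
    obtain ⟨k, rfl⟩ : ∃ k', k = k' + 1 := ⟨k - 1, by have := i.pos; omega⟩
    have h1 : P (List.ofFn fun j : Fin k => (u (i.succAbove j), v (i.succAbove j))) :=
      hP.mono _ _ h fun x hx => by
        obtain ⟨j, rfl⟩ := List.mem_ofFn.1 hx
        exact List.mem_ofFn.2 ⟨_, rfl⟩
    obtain ⟨β, hβ⟩ := hP.bij _ h1 (by simp)
    refine map_equiv β fun z => ih _ _ (hP.mono _ _ (hβ z) fun x hx => ?_)
    obtain ⟨j, rfl⟩ := List.mem_ofFn.1 hx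
    by_cases hj : j = i
    · subst hj; simp
    · rw [Function.update_of_ne hj, Function.update_of_ne hj]
      obtain ⟨j', rfl⟩ := Fin.exists_succAbove_eq hj
      exact List.mem_cons_of_mem _ (List.mem_ofFn.2 ⟨j', rfl⟩)

lemma cr {n m : ℕ} {G : Fin n → Fin n → Bool} {H : Fin m → Fin m → Bool}
    {P : List (Fin n × Fin m) → Prop} (hP : BGS 2 G H P) (s : ℕ) :
    ∀ a b, P [(a, b)] → crcolor G s a = crcolor H s b := by
  induction s with
  | zero => exact fun _ _ _ => rfl
  | succ s ih =>
    intro a b h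
    obtain ⟨β, hβ⟩ := hP.bij _ h (by simp)
    refine Prod.ext (ih a b h) ?_
    have h1 : ∀ z, G a z = H b (β z) := fun z =>
      (hP.iso _ (hβ z) (a, b) (by simp) (z, β z) (by simp)).2
    have h2 : (Finset.univ.filter fun w => H b w = true) =
        (Finset.univ.filter fun w => G a w = true).map β.toEmbedding := by
      ext w
      simp [Finset.mem_map_equiv, h1]
    show Multiset.map (crcolor G s) (Finset.univ.filter fun w => G a w = true).val =
      Multiset.map (crcolor H s) (Finset.univ.filter fun w => H b w = true).val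
    rw [h2, Finset.map_val, Multiset.map_map]
    exact Multiset.map_congr rfl fun z _ => ih _ _ (hP.mono _ _ (hβ z) (by simp))

end Col

theorem colStmt : ColStmt := fun _ _ _ _ _ _ u v h =>
  ⟨fun hP s => Col.joint hP s u v h, fun hP s => Col.sep hP s u v h⟩

theorem tupStmt : TupStmt := by
  intro κ k V W G H P hP
  induction k with
  | zero => exact fun _ => ⟨Equiv.ofUnique _ _, fun u => by simpa using hP.nil⟩
  | succ k ih =>
    intro hk
    obtain ⟨Φ, hΦ⟩ := ih (by omega)
    choose β hβ using fun u => hP.bij _ (hΦ u) (by simpa using hk)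
    refine ⟨(Fin.consEquiv fun _ => V).symm.trans (((Equiv.prodCongrLeft β).trans
      ((Equiv.refl W).prodCongr Φ)).trans (Fin.consEquiv fun _ => W)), fun u => ?_⟩
    rw [List.ofFn_succ]
    exact hβ (Fin.tail u) (u 0)

theorem bgEquivStmt : BGEquivStmt := by
  intro k n m G H
  refine ⟨fun ⟨P, hP⟩ s => ?_, fun ⟨P, hP⟩ s => ?_, fun ⟨P, hP⟩ s => ?_⟩
  · obtain ⟨Φ, hΦ⟩ := tupStmt _ k _ _ G H P hP (by omega)
    exact Col.map_equiv Φ fun u => Col.joint hP s _ _ (hΦ u)
  · obtain ⟨Φ, hΦ⟩ := tupStmt _ k _ _ G H P hP le_rfl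
    exact Col.map_equiv Φ fun u => Col.sep hP s _ _ (hΦ u)
  · obtain ⟨β, hβ⟩ := hP.bij _ hP.nil (by simp)
    exact Col.map_equiv β fun a => Col.cr hP s _ _ (hβ a)

end Crest.Agent.R290
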