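import Crest.Agent.R290.DefsL

/-! Row 290: Duplicator's side for the compressed row system. -/

set_option autoImplicit false

namespace Crest.Agent.R290

open Finset

namespace Core

theorem add_self {V : Type} (F : Fm V) : F + F = 0 := by
  ext v; simp [CharTwo.add_self_eq_zero]

theorem sum_symm {V : Type} (J₁ J₂ : Finset ℕ) (g : ℕ → Fm V) :
    ∑ l ∈ J₁, g l + ∑ l ∈ J₂, g l = ∑ l ∈ (J₁ \ J₂) ∪ (J₂ \ J₁), g l := by
  rw [sum_union disjoint_sdiff_sdiff, ← sum_inter_add_sum_sdiff J₁ J₂,
    ← sum_inter_add_sum_sdiff J₂ J₁, inter_comm J₂ J₁, add_add_add_comm, add_self, zero_add]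

theorem card_add_le {V : Type} (F G : Fm V) :
    (F + G).support.card ≤ F.support.card + G.support.card := by
  classical
  exact (card_le_card Finsupp.support_add).trans (card_union_le _ _)

theorem card_sg {V : Type} (v : V) : (sg v).support.card ≤ 1 := by
  exact (card_le_card (Finsupp.support_single_subset (a := v) (b := (1 : ZMod 2)))).trans
    (card_singleton v).le

theorem card_mapDomain_le {V W : Type} (φ : V → W) (F : Fm V) :
    (Finsupp.mapDomain φ F).support.card ≤ F.support.card := by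
  classical
  exact (card_le_card Finsupp.mapDomain_support).trans card_image_le

theorem card_sum_sg {V : Type} (J : Finset ℕ) (g : ℕ → V) :
    (∑ l ∈ J, sg (g l)).support.card ≤ J.card := by
  induction J using Finset.induction_on with
  | empty => simp
  | insert a J ha ih =>
    rw [sum_insert ha, card_insert_of_notMem ha]
    have h1 := card_add_le (sg (g a)) (∑ l ∈ J, sg (g l))
    have h2 := card_sg (g a)
    omega

theorem sum_sg_ne {V : Type} {J : Finset ℕ} {g : ℕ → V} {v : V}
    (h : (∑ l ∈ J, sg (g l)) v ≠ 0) : ∃ l ∈ J, v = g l := by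
  rw [Finsupp.finsetSum_apply] at h
  obtain ⟨l, hl, h1⟩ := exists_ne_zero_of_sum_ne_zero h
  exact ⟨l, hl, (Finsupp.single_apply_ne_zero.1 h1).1⟩

theorem add_ne {V : Type} {F G : Fm V} {v : V} (h : (F + G) v ≠ 0) : F v ≠ 0 ∨ G v ≠ 0 := by
  by_contra hc
  rw [not_or, not_not, not_not] at hc
  exact h (by rw [Finsupp.add_apply, hc.1, hc.2, add_zero])

theorem cnt_add_le {Γ : Type} (U U' : Fm (Γ × ℕ)) (γ : Γ) :
    cnt (U + U') γ ≤ cnt U γ + cnt U' γ := by
  classical
  unfold cnt
  refine le_trans (card_le_card fun p hp => ?_) (card_union_le _ _)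
  simp only [mem_filter, mem_union, Finsupp.mem_support_iff] at hp ⊢
  rcases add_ne hp.1 with h | h
  · exact Or.inl ⟨h, hp.2⟩
  · exact Or.inr ⟨h, hp.2⟩

theorem cnt_le_card {Γ : Type} (U : Fm (Γ × ℕ)) (γ : Γ) : cnt U γ ≤ U.support.card := by
  classical
  exact card_filter_le _ _

theorem card_le_used {Γ : Type} (U : Fm (Γ × ℕ)) {a c : ℕ} (h1 : (used U).card ≤ a)
    (h2 : ∀ γ, cnt U γ ≤ c) : U.support.card ≤ a * c := by
  classical
  have := card_le_mul_card_image (f := Prod.fst) U.support c fun γ _ => by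
    have := h2 γ
    unfold cnt at this
    convert this
  refine this.trans ?_
  rw [mul_comm]
  refine Nat.mul_le_mul_right _ ?_
  unfold used at h1
  convert h1

theorem Val.add {Γ : Type} {b : ℕ} {Gd : Set Γ} {U U' : Fm (Γ × ℕ)} (h : Val b Gd U)
    (h' : Val b Gd U') : Val b Gd (U + U') := fun p hp => (add_ne hp).elim (h p) (h' p)

theorem gsum_add {Γ X : Type} (b : ℕ) (rd : Γ → Bool → ℕ → X) (out : Γ → X) (U U' : Fm (Γ × ℕ)) :
    gsum b rd out (U + U') = gsum b rd out U + gsum b rd out U' := map_add _ _ _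

theorem gsum_zero {Γ X : Type} (b : ℕ) (rd : Γ → Bool → ℕ → X) (out : Γ → X) :
    gsum b rd out 0 = 0 := map_zero _

theorem gsum_single {Γ X : Type} (b : ℕ) (rd : Γ → Bool → ℕ → X) (out : Γ → X) (p : Γ × ℕ)
    (c : ZMod 2) : gsum b rd out (Finsupp.single p c) = c • geq b rd out p :=
  Finsupp.linearCombination_single _ _ _

/-- The part of a form in one row. -/
noncomputable def rowF (o : Option ℕ) : Fm V0 →+ Fm V0 :=
  Finsupp.filterAddHom fun v => rowOf v = o

theorem rowF_apply (o : Option ℕ) (F : Fm V0) (v : V0) :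
    rowF o F v = if rowOf v = o then F v else 0 :=
  Finsupp.filter_apply (fun v => rowOf v = o) F v

theorem rowF_smul (o : Option ℕ) (c : ZMod 2) (F : Fm V0) : rowF o (c • F) = c • rowF o F := by
  ext v; simp [rowF_apply]

theorem rowF_single (o : Option ℕ) (v : V0) (c : ZMod 2) :
    rowF o (Finsupp.single v c) = if rowOf v = o then Finsupp.single v c else 0 := by
  split_ifs with h
  · exact Finsupp.filter_single_of_pos _ h
  · exact Finsupp.filter_single_of_neg _ h

variable (R : RS)

theorem rowOf_prj (i : ℕ) (v : VV) : rowOf (R.prj i v) = some i := by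
  cases v <;> rfl

theorem rowF_mapDomain (o : Option ℕ) (j : ℕ) (N : Fm VV) :
    rowF o (Finsupp.mapDomain (R.prj j) N) =
      if some j = o then Finsupp.mapDomain (R.prj j) N else 0 := by
  induction N using Finsupp.induction_linear with
  | zero => simp
  | add f g hf hg => rw [Finsupp.mapDomain_add, map_add, hf, hg]; split_ifs <;> simp
  | single v c => rw [Finsupp.mapDomain_single, rowF_single, rowOf_prj]

theorem rowF_geq (o : Option ℕ) (p : GI × ℕ) :
    rowF o (geq R.b R.rd R.out p) = if some p.1.2.2.1 = o then geq R.b R.rd R.out p else 0 := by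
  have h1 : ∀ u, rowOf (Sum.inr (p.1, u)) = some p.1.2.2.1 := fun _ => rfl
  have h2 : rowOf (Sum.inl (pend R.b R.rd R.out p.1 p.2)) = some p.1.2.2.1 := by
    unfold pend; split_ifs <;> rfl
  simp only [geq, map_add, apply_ite (rowF o), map_zero, sg, rowF_single, h1, h2]
  split_ifs <;> simp

theorem rowF_gsum (o : Option ℕ) (U : Fm (GI × ℕ)) :
    rowF o (gsum R.b R.rd R.out U) =
      gsum R.b R.rd R.out (U.filter fun p => some p.1.2.2.1 = o) := by
  induction U using Finsupp.induction_linear with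
  | zero => rw [Finsupp.filter_zero, gsum_zero, map_zero]
  | add f g hf hg => rw [gsum_add, map_add, hf, hg, Finsupp.filter_add, gsum_add]
  | single p c =>
    rw [gsum_single, rowF_smul, rowF_geq]
    split_ifs with h
    · rw [Finsupp.filter_single_of_pos (fun p : GI × ℕ => some p.1.2.2.1 = o) h, gsum_single]
    · rw [Finsupp.filter_single_of_neg (fun p : GI × ℕ => some p.1.2.2.1 = o) h, gsum_zero,
        smul_zero]

/-- Sum of the projections to all rows. -/
noncomputable def Pi : Fm VV →+ Fm V0 :=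
  ∑ i ∈ range R.k, Finsupp.mapDomain.addMonoidHom (R.prj i)

theorem Pi_apply (F : Fm VV) : Pi R F = ∑ i ∈ range R.k, Finsupp.mapDomain (R.prj i) F := by
  simp [Pi]

theorem rowF_Pi {i : ℕ} (hi : i < R.k) (F : Fm VV) :
    rowF (some i) (Pi R F) = Finsupp.mapDomain (R.prj i) F := by
  rw [Pi_apply, map_sum]
  simp [rowF_mapDomain, hi]

theorem rowF_Pi_none (F : Fm VV) : rowF none (Pi R F) = 0 := by
  rw [Pi_apply, map_sum]
  simp [rowF_mapDomain]

/-- The global variables of `J`. -/
noncomputable def omS (J : Finset ℕ) : Fm V0 := ∑ l ∈ J, sg (Sum.inl (Sum.inr l))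

/-- The virtual goal variables of `J`. -/
noncomputable def glS (J : Finset ℕ) : Fm VV := ∑ l ∈ J, sg (Sum.inl (0, l, (0, 0)))

theorem rowF_omS (i : ℕ) (J : Finset ℕ) : rowF (some i) (omS J) = 0 := by
  rw [omS, map_sum]
  exact sum_eq_zero fun l _ => by rw [sg, rowF_single, if_neg (by simp [rowOf])]

theorem mapDomain_gsum {Bd ρ : ℕ} (hB : RowBasicStmt) (hR : R.Good Bd ρ) (i : ℕ)
    (U : Fm (VG × ℕ)) : Finsupp.mapDomain (R.prj i) (gsum R.b R.vrd R.vout U) =
      gsum R.b R.rd R.out (Finsupp.mapDomain (fun p => (R.prG i p.1, p.2)) U) := by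
  induction U using Finsupp.induction_linear with
  | zero => simp [gsum_zero]
  | add f g hf hg => rw [gsum_add, Finsupp.mapDomain_add, hf, hg, Finsupp.mapDomain_add, gsum_add]
  | single p c =>
    rw [gsum_single, Finsupp.mapDomain_smul, (hB R Bd ρ hR).2, Finsupp.mapDomain_single,
      gsum_single]

/-- All projections of a set of virtual equations. -/
noncomputable def prU (U : Fm (VG × ℕ)) : Fm (GI × ℕ) :=
  ∑ i ∈ range R.k, Finsupp.mapDomain (fun p => (R.prG i p.1, p.2)) U

theorem Pi_gsum {Bd ρ : ℕ} (hB : RowBasicStmt) (hR : R.Good Bd ρ) (U : Fm (VG × ℕ)) :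
    Pi R (gsum R.b R.vrd R.vout U) = gsum R.b R.rd R.out (prU R U) := by
  rw [Pi_apply, prU, gsum, gsum, map_sum]
  exact sum_congr rfl fun i _ => mapDomain_gsum R hB hR i U

theorem prU_ne {U : Fm (VG × ℕ)} {p : GI × ℕ} (h : prU R U p ≠ 0) :
    ∃ i < R.k, ∃ q, U q ≠ 0 ∧ p = (R.prG i q.1, q.2) := by
  classical
  rw [prU, Finsupp.finsetSum_apply] at h
  obtain ⟨i, hi, h1⟩ := exists_ne_zero_of_sum_ne_zero h
  obtain ⟨q, hq, e⟩ := mem_image.1 (Finsupp.mapDomain_support (Finsupp.mem_support_iff.2 h1))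
  exact ⟨i, mem_range.1 hi, q, Finsupp.mem_support_iff.1 hq, e.symm⟩

theorem cnt_prU (U : Fm (VG × ℕ)) (γ : GI) : cnt (prU R U) γ ≤ U.support.card := by
  classical
  unfold cnt
  refine le_trans (card_le_card fun p hp => ?_)
    (card_image_le (f := fun q : VG × ℕ => (R.prG γ.2.2.1 q.1, q.2)))
  simp only [mem_filter, Finsupp.mem_support_iff] at hp
  obtain ⟨i, -, q, hq, rfl⟩ := prU_ne R hp.1
  refine mem_image.2 ⟨q, Finsupp.mem_support_iff.2 hq, ?_⟩
  rw [← hp.2]; rfl

/-- The invariant, with bounds `t` for the true part and the goal part and `r` for the gadgets. -/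
def Inv (t r : ℕ) (f : Fm V0) : Prop :=
  ∃ (T : Fm VV) (J : Finset ℕ) (U : Fm (GI × ℕ)), (∀ v, T v ≠ 0 → R.VTrue v) ∧
    T.support.card ≤ t ∧ J.card ≤ t ∧ Val R.b R.Gd U ∧ (∀ γ, cnt U γ ≤ r) ∧
    f = Pi R (T + glS J) + omS J + gsum R.b R.rd R.out U

variable {R}

theorem Inv.add {t r : ℕ} {f g : Fm V0} (hf : Inv R t r f) (hg : Inv R t r g) :
    Inv R (2 * t) (2 * r) (f + g) := by
  obtain ⟨T, J, U, h1, h2, h3, h4, h5, rfl⟩ := hf
  obtain ⟨T', J', U', h1', h2', h3', h4', h5', rfl⟩ := hg
  refine ⟨T + T', (J \ J') ∪ (J' \ J), U + U', fun v hv => (add_ne hv).elim (h1 v) (h1' v), ?_, ?_,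
    Val.add h4 h4', fun γ => ?_, ?_⟩
  · have := card_add_le T T'; omega
  · have a1 := card_union_le (J \ J') (J' \ J)
    have a2 : (J \ J').card ≤ J.card := card_le_card sdiff_subset
    have a3 : (J' \ J).card ≤ J'.card := card_le_card sdiff_subset
    omega
  · have := cnt_add_le U U' γ
    have := h5 γ
    have := h5' γ
    omega
  · simp only [glS, omS, ← sum_symm, map_add, gsum_add]
    abel

theorem reduce (hE : ExpStmt) (hB : RowBasicStmt) (hG : GoodRowStmt) (hL : LiftStmt)
    (hV : VirtStmt) {C B ρ r : ℕ} (hC : 1 ≤ C) (hR : R.Good (B + (104 * C + 6)) ρ)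
    (hBox : R.Box B) (hg : ¬ R.Goal) (hM : M0 C * ρ < R.k) (hr : r < R.b) {f : Fm V0}
    {S : Finset V0} (hf : Inv R (12 * C) r f) (hcov : Cov omW S f) (hS : S.card ≤ C * R.k) :
    Inv R (6 * C) (rr (C * R.k + 24 * C) + 26 * C * rr (26 * C)) f := by
  obtain ⟨T, J, U, h1, h2, h3, h4, h5, hf⟩ := hf
  have hLines := (hB R _ ρ hR).1
  set N := T + glS J with hN
  have hNc : N.support.card ≤ 24 * C := by
    have a1 : N.support.card ≤ _ := card_add_le T (glS J)
    have a2 : (glS J).support.card ≤ J.card := card_sum_sg J _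
    omega
  -- the rows
  let Ur : ℕ → Fm (GI × ℕ) := fun i => U.filter fun p => some p.1.2.2.1 = some i
  have hUr : ∀ i p, Ur i p ≠ 0 → U p ≠ 0 ∧ p.1.2.2.1 = i := by
    intro i p hp
    simp only [Ur, Finsupp.filter_apply] at hp
    split_ifs at hp with h
    · exact ⟨hp, Option.some.inj h⟩
    · exact absurd rfl hp
  have hVal : ∀ i, Val R.b R.Gd (Ur i) := fun i p hp => h4 p (hUr i p hp).1
  have hcle : ∀ i γ, cnt (Ur i) γ ≤ cnt U γ := by
    intro i γ
    classical
    unfold cnt
    refine card_le_card fun p hp => ?_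
    simp only [mem_filter, Finsupp.mem_support_iff] at hp ⊢
    exact ⟨(hUr i p hp.1).1, hp.2⟩
  have hcge : ∀ γ, cnt U γ ≤ cnt (Ur γ.2.2.1) γ := by
    intro γ
    classical
    unfold cnt
    refine card_le_card fun p hp => ?_
    simp only [mem_filter, Finsupp.mem_support_iff, Ur, Finsupp.filter_apply] at hp ⊢
    rw [if_pos (by rw [hp.2])]
    exact hp
  have hrow : ∀ i < R.k, rowF (some i) f =
      Finsupp.mapDomain (R.prj i) N + gsum R.b R.rd R.out (Ur i) := by
    intro i hi
    rw [hf, map_add, map_add, rowF_Pi R hi, rowF_omS, add_zero, rowF_gsum]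
  have hsup : ∀ i, (rowF (some i) f).support.card ≤ (S.filter fun v => rowOf v = some i).card := by
    intro i
    refine card_le_card fun v hv => ?_
    rw [Finsupp.mem_support_iff, rowF_apply] at hv
    split_ifs at hv with h
    · rcases hcov v hv with ⟨l, rfl⟩ | h'
      · cases h
      · exact mem_filter.2 ⟨h', h⟩
    · exact absurd rfl hv
  have hgs : ∀ i < R.k, (gsum R.b R.rd R.out (Ur i)).support.card ≤
      (S.filter fun v => rowOf v = some i).card + 24 * C := by
    intro i hi
    have e : gsum R.b R.rd R.out (Ur i) = rowF (some i) f + Finsupp.mapDomain (R.prj i) N := by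
      rw [hrow i hi, add_right_comm, add_self, zero_add]
    rw [e]
    have a1 := card_add_le (rowF (some i) f) (Finsupp.mapDomain (R.prj i) N)
    have a2 := card_mapDomain_le (R.prj i) N
    have a3 := hsup i
    omega
  have hlt : ∀ i γ, cnt (Ur i) γ < R.b := fun i γ => lt_of_le_of_lt ((hcle i γ).trans (h5 γ)) hr
  have hU : ∀ γ, cnt U γ ≤ rr (C * R.k + 24 * C) := by
    intro γ
    by_cases hγ : γ.2.2.1 < R.k
    · refine (hcge γ).trans ((hE _ _ _ _ R.out _ _ _ hLines (hVal _) (hlt _) ?_).2 γ)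
      have a1 := hgs _ hγ
      have a2 := card_filter_le S fun v => rowOf v = some γ.2.2.1
      omega
    · have : cnt U γ = 0 := by
        unfold cnt
        simp only [card_eq_zero, eq_empty_iff_forall_notMem, mem_filter, not_and]
        refine fun p hp e => hγ ?_
        rw [← e]
        exact (h4 p (Finsupp.mem_support_iff.1 hp)).1.2.2.1
      omega
  -- the good row
  obtain ⟨i, hi, hi1, hi2⟩ := hG R _ ρ C (24 * C) B (52 * C + 2) N S hR hC hNc (fun v hv => by
      rcases add_ne hv with h | h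
      · have ht := h1 v h
        cases v with
        | inl x =>
          have := hBox _ _ ht
          simp only [adr]; omega
        | inr p =>
          have a1 := hBox _ _ ht.2
          have a2 := hR.sh p.1.1 (pside R.b p.2) ht.1
          simp only [adr, Prod.fst_add, Prod.snd_add, abs_le] at a1 a2 ⊢
          omega
      · obtain ⟨l, -, rfl⟩ := sum_sg_ne h
        simp only [adr]; omega) (by omega) hS (by
      have e : 4 * (52 * C + 2) + 1 = 208 * C + 9 := by ring
      rw [e]; exact hM)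
  obtain ⟨e1, e2⟩ := hE _ _ _ _ R.out _ (26 * C) _ hLines (hVal i) (hlt i) (by
    have := hgs i hi; omega)
  obtain ⟨U', l1, l2, l3, l4⟩ := hL R _ ρ (26 * C) i N (Ur i) hR (hVal i)
    (fun p hp => (hUr i p hp).2) e1 (by
      have e : 2 * (26 * C) + 2 = 52 * C + 2 := by ring
      rw [e]; exact hi2)
  rw [← hrow i hi] at l4
  obtain ⟨v1, U'', v2, v3, v4⟩ := hV R _ ρ (2 * C) T J U' hR hg h1 l1
    (fun γ => lt_of_le_of_lt (l3 γ) (hlt i _)) (l4.trans ((hsup i).trans hi1))
  have hcard : U''.support.card ≤ 26 * C * rr (26 * C) :=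
    (card_le_card v2).trans (l2.trans (card_le_used _ e1 e2))
  refine ⟨T + gsum R.b R.vrd R.vout U'', J, U + prU R U'', v3, by omega, by omega,
    Val.add h4 fun p hp => ?_, fun γ => ?_, ?_⟩
  · obtain ⟨j, hj, q, hq, rfl⟩ := prU_ne R hp
    have := l1 q (Finsupp.mem_support_iff.1 (v2 (Finsupp.mem_support_iff.2 hq)))
    refine ⟨⟨this.1.1, this.1.2, hj, ?_⟩, this.2⟩
    have := hR.red j q.1.2.2 0
    rw [add_zero, add_zero] at this
    exact this
  · have a1 := cnt_add_le U (prU R U'') γ
    have a2 := cnt_prU R U'' γ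
    have a3 := hU γ
    omega
  · rw [hf, hN, add_right_comm T, map_add (Pi R) _ (gsum _ _ _ _), Pi_gsum R hB hR, gsum_add]
    calc _ = Pi R (T + glS J) + omS J + gsum R.b R.rd R.out U +
          (gsum R.b R.rd R.out (prU R U'') + gsum R.b R.rd R.out (prU R U'')) := by
          rw [add_self, add_zero]
      _ = _ := by abel

theorem inv_base {t r : ℕ} (ht : 1 ≤ t) (hr : 1 ≤ r) {e : Fm V0} (he : e ∈ R.E0) :
    Inv R t r e := by
  have v0 : Val R.b R.Gd 0 := fun p hp => absurd rfl hp
  have c0 : ∀ γ : GI, cnt (0 : Fm (GI × ℕ)) γ ≤ r := fun γ => by simp [cnt]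
  rcases he with ⟨γ, hγ, u, hu, rfl⟩ | ⟨⟨_ | ⟨σ, A⟩, l⟩, hw, rfl⟩
  · refine ⟨0, ∅, sg (γ, u), fun v hv => absurd rfl hv, by simp, by simp, fun p hp => ?_,
      fun γ' => (cnt_le_card _ _).trans ((card_sg _).trans hr), ?_⟩
    · rw [(Finsupp.single_apply_ne_zero.1 hp).1]; exact ⟨hγ, hu⟩
    · simp [glS, omS, sg, gsum_single]
  · refine ⟨0, {l}, 0, fun v hv => absurd rfl hv, by simp, by simpa using ht, v0, c0, ?_⟩
    rw [sum_range_succ, gsum_zero, add_zero, zero_add, Pi_apply, glS, omS, sum_singleton,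
      sum_singleton]
    congr 1
    · exact sum_congr rfl fun i hi => by
        simp only [RS.pd, if_pos (mem_range.1 hi), sg, Finsupp.mapDomain_single]; rfl
    · simp [RS.pd]
  · refine ⟨sg (Sum.inl (σ, l, A)), ∅, 0, fun v hv => ?_, (card_sg _).trans ht, by simp, v0, c0,
      ?_⟩
    · rw [(Finsupp.single_apply_ne_zero.1 hv).1]
      exact Horn.Tr.ini hw.1
    · rw [sum_range_succ, gsum_zero, add_zero, glS, omS, sum_empty, sum_empty, add_zero,
        add_zero, Pi_apply, show R.pd (some (σ, A), l) R.k = 0 by simp [RS.pd], add_zero]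
      exact sum_congr rfl fun i hi => by
        simp only [RS.pd, if_pos (mem_range.1 hi), sg, Finsupp.mapDomain_single]; rfl

end Core

open _root_.Crest.Agent.R290.Core in
theorem coreStmt_of (hE : ExpStmt) (hB : RowBasicStmt) (hG : GoodRowStmt) (hL : LiftStmt)
    (hV : VirtStmt) : CoreStmt := by
  intro R C B ρ hC hR hBox hg hM hb f S hf _ _
  have key : Inv R (6 * C) (rr (C * R.k + 24 * C) + 26 * C * rr (26 * C)) f := by
    clear * - hE hB hG hL hV hC hR hBox hg hM hb hf
    induction hf with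
    | zero =>
      exact ⟨0, ∅, 0, fun v hv => absurd rfl hv, by simp, by simp, fun p hp => absurd rfl hp,
        fun γ => by simp [cnt], by simp [glS, omS, gsum_zero]⟩
    | base he => exact inv_base (by omega) (by unfold rr; omega) he
    | add S _ _ h1 h2 h3 ih1 ih2 =>
      have := ih1.add ih2
      rw [show 2 * (6 * C) = 12 * C by ring] at this
      exact reduce hE hB hG hL hV hC hR hBox hg hM (by unfold bOf at hb; omega) this
        (fun v hv => (add_ne hv).elim (h1 v) (h2 v)) h3
  obtain ⟨T, J, U, -, -, h3, -, -, rfl⟩ := key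
  classical
  refine ⟨J.image fun l => Sum.inl (Sum.inr l), card_image_le.trans h3, ?_⟩
  rintro v ⟨l, rfl⟩ hv
  have e : ∀ F : Fm V0, F (Sum.inl (Sum.inr l)) = rowF none F (Sum.inl (Sum.inr l)) := fun F => by
    rw [rowF_apply, if_pos (by rfl)]
  rw [Finsupp.add_apply, Finsupp.add_apply, e (Pi R _), e (gsum _ _ _ _), rowF_Pi_none, rowF_gsum,
    (Finsupp.filter_eq_zero_iff _ _).2 (fun p hp => by cases hp), gsum_zero] at hv
  simp only [Finsupp.coe_zero, Pi.zero_apply, zero_add, add_zero] at hv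
  obtain ⟨l', hl', e'⟩ := sum_sg_ne hv
  exact mem_image.2 ⟨l', hl', e'.symm⟩

end Crest.Agent.R290
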