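import Crest.Agent.R290.DefsL

/-! Row 290: Duplicator's side for the covering system. -/

set_option autoImplicit false

namespace Crest.Agent.R290

open Finset

namespace CoverD

abbrev Y := Option ℕ ⊕ ℕ × ℕ

def ψ (nv m : ℕ) : Option ℕ → Y
  | none => Sum.inl none
  | some v => if v < nv then Sum.inl (some v) else Sum.inr ((v - nv) / m, (v - nv) % m + 1)

noncomputable def ι (g : Fm ℕ) : Fm Y := Finsupp.mapDomain (fun v => Sum.inl (some v)) g

lemma ι_some (g : Fm ℕ) (v : ℕ) : ι g (Sum.inl (some v)) = g v :=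
  Finsupp.mapDomain_apply (fun _ _ h => by simpa using h) g v

lemma ι_none (g : Fm ℕ) : ι g (Sum.inl none) = 0 :=
  Finsupp.mapDomain_of_notMem_range _ _ (by simp)

lemma ι_inr (g : Fm ℕ) (p : ℕ × ℕ) : ι g (Sum.inr p) = 0 :=
  Finsupp.mapDomain_of_notMem_range _ _ (by simp)

lemma ι_add (g g' : Fm ℕ) : ι (g + g') = ι g + ι g' := Finsupp.mapDomain_add

lemma ι_sg (v : ℕ) : ι (sg v) = sg (Sum.inl (some v)) := Finsupp.mapDomain_single

lemma map_sg {V V' : Type} (φ : V → V') (v : V) : Finsupp.mapDomain φ (sg v) = sg (φ v) :=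
  Finsupp.mapDomain_single

lemma exists_of_map {V V' : Type} {φ : V → V'} {f : Fm V} {y : V'}
    (h : Finsupp.mapDomain φ f y ≠ 0) : ∃ v, f v ≠ 0 ∧ φ v = y := by
  classical
  obtain ⟨v, hv, e⟩ := mem_image.1 (Finsupp.mapDomain_support (Finsupp.mem_support_iff.2 h))
  exact ⟨v, Finsupp.mem_support_iff.1 hv, e⟩

lemma card_map_le {V V' : Type} (φ : V → V') (f : Fm V) :
    (Finsupp.mapDomain φ f).support.card ≤ f.support.card := by
  classical
  exact (card_le_card Finsupp.mapDomain_support).trans card_image_le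

lemma add_self {V : Type} (f : Fm V) : f + f = 0 := by
  ext v; exact CharTwo.add_self_eq_zero _

lemma gsum_inl {Γ X : Type} {b : ℕ} {rd : Γ → Bool → ℕ → X} {out : Γ → X} {U : Fm (Γ × ℕ)} {x : X}
    (h : gsum b rd out U (Sum.inl x) ≠ 0) : ∃ p, U p ≠ 0 ∧ pend b rd out p.1 p.2 = x := by
  by_contra hc
  apply h
  rw [gsum, sub, Finsupp.linearCombination_apply, Finsupp.sum, Finsupp.finsetSum_apply]
  refine sum_eq_zero fun p hp => ?_
  have h1 : pend b rd out p.1 p.2 ≠ x := fun e => hc ⟨p, Finsupp.mem_support_iff.1 hp, e⟩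
  have h2 : geq b rd out p (Sum.inl x) = 0 := by
    unfold geq
    split_ifs <;> simp [sg, h1]
  simp [h2]

lemma gsum_sg {Γ X : Type} (b : ℕ) (rd : Γ → Bool → ℕ → X) (out : Γ → X) (p : Γ × ℕ) :
    gsum b rd out (sg p) = geq b rd out p := by simp [gsum, sub, sg]

lemma cnt_add_le {Γ : Type} (U U' : Fm (Γ × ℕ)) (γ : Γ) : cnt (U + U') γ ≤ cnt U γ + cnt U' γ := by
  classical
  unfold cnt
  refine le_trans (card_le_card fun p hp => ?_) (card_union_le _ _)
  rw [mem_filter] at hp
  rcases mem_union.1 (Finsupp.support_add hp.1) with h | h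
  · exact mem_union_left _ (mem_filter.2 ⟨h, hp.2⟩)
  · exact mem_union_right _ (mem_filter.2 ⟨h, hp.2⟩)

lemma cnt_le {Γ : Type} (U : Fm (Γ × ℕ)) (γ : Γ) : cnt U γ ≤ U.support.card := by
  classical
  unfold cnt
  exact card_filter_le _ _

lemma trp_lt {b u : ℕ} (h : u < b * b) : trp b u < b * b := by
  have hb : 0 < b := Nat.pos_of_ne_zero fun h0 => by simp [h0] at h
  have h1 : u % b + 1 ≤ b := Nat.mod_lt _ hb
  have h2 : u / b < b := Nat.div_lt_of_lt_mul h
  calc trp b u < u % b * b + b := by unfold trp; omega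
    _ = (u % b + 1) * b := by ring
    _ ≤ _ := Nat.mul_le_mul_right _ h1

lemma pidx_lt {b u : ℕ} (h : u ≤ 4 * (b * b)) (h' : u ≠ 2 * (b * b)) : pidx b u < b * b := by
  unfold pidx
  split_ifs
  · assumption
  · exact trp_lt (by omega)
  · omega
  · exact trp_lt (by omega)

lemma ψ_edge {nv m g u : ℕ} (h : u < m) : ψ nv m (some (nv + g * m + u)) = Sum.inr (g, u + 1) := by
  have e : nv + g * m + u - nv = u + m * g := by rw [mul_comm m]; omega
  simp only [ψ]
  rw [if_neg (by omega), e, Nat.add_mul_div_left _ _ (by omega), Nat.add_mul_mod_self_left,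
    Nat.div_eq_of_lt h, Nat.mod_eq_of_lt h, zero_add]

lemma ψ_old {nv m v : ℕ} (h : v < nv) : ψ nv m (some v) = Sum.inl (some v) := if_pos h

def rd (rdN : ℕ → Bool → ℕ → ℕ) (g : ℕ) (s : Bool) (u : ℕ) : Option ℕ := some (rdN g s u)

def out (nv g : ℕ) : Option ℕ := if g < nv then some g else none

lemma map_eqn_old {S : Sys3} (b : ℕ) (rdN : ℕ → Bool → ℕ → ℕ) (hS : S.WF) {e : ℕ} (he : e < S.ne) :
    Finsupp.mapDomain (ψ S.nv (4 * (b * b))) ((cover S b rdN).eqn e) = ι (S.eq0 e) := by
  have h1 : e ≠ (cover S b rdN).tw := by simp only [cover]; omega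
  have h2 : ∀ j, (cover S b rdN).slot e j = S.slot e j := fun j => if_pos he
  simp only [Sys3.eqn, if_neg h1, add_zero, h2, Finsupp.mapDomain_add, map_sg, Sys3.eq0, ι_add, ι_sg]
  rw [ψ_old (hS.2.2 e he 0 (by norm_num)), ψ_old (hS.2.2 e he 1 (by norm_num)),
    ψ_old (hS.2.2 e he 2 (by norm_num))]

lemma map_eqn_new {S : Sys3} {b : ℕ} {rdN : ℕ → Bool → ℕ → ℕ} (hS : S.WF) (hb : 0 < b)
    (hr : ∀ g ≤ S.nv, ∀ s u, u < b * b → rdN g s u < S.nv) {g u : ℕ} (hg : g ≤ S.nv)
    (hu : u ≤ 4 * (b * b)) : ∃ a : ZMod 2,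
    Finsupp.mapDomain (ψ S.nv (4 * (b * b))) ((cover S b rdN).eqn (S.ne + (u + (4 * (b * b) + 1) * g))) =
      ι (a • sg 0) + geq b (rd rdN) (out S.nv) (g, u) := by
  have hbb : 0 < b * b := Nat.mul_pos hb hb
  set e := S.ne + (u + (4 * (b * b) + 1) * g) with he
  have h0 : ¬ e < S.ne := by omega
  have h1 : (e - S.ne) / (4 * (b * b) + 1) = g := by
    rw [he, Nat.add_sub_cancel_left, Nat.add_mul_div_left _ _ (by omega),
      Nat.div_eq_of_lt (by omega), zero_add]
  have h2 : (e - S.ne) % (4 * (b * b) + 1) = u := by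
    rw [he, Nat.add_sub_cancel_left, Nat.add_mul_mod_self_left, Nat.mod_eq_of_lt (by omega)]
  have h3 : e = (cover S b rdN).tw ↔ g = S.nv ∧ u = 2 * (b * b) := by
    constructor
    · intro h
      have e1 : e - S.ne = 2 * (b * b) + (4 * (b * b) + 1) * S.nv := by
        rw [h, mul_comm _ S.nv]; simp only [cover]; omega
      rw [e1, Nat.add_mul_div_left _ _ (by omega), Nat.div_eq_of_lt (by omega), zero_add] at h1
      rw [e1, Nat.add_mul_mod_self_left, Nat.mod_eq_of_lt (by omega)] at h2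
      exact ⟨h1.symm, h2.symm⟩
    · rintro ⟨rfl, rfl⟩
      rw [he, mul_comm _ S.nv]; simp only [cover]; omega
  set z : Fm Y := sg (Sum.inl (some 0)) with hz
  have s0 : sg (ψ S.nv (4 * (b * b)) (some ((cover S b rdN).slot e 0))) =
      (if u = 0 then (1 : ZMod 2) else 0) • z + if u = 0 then 0 else sg (Sum.inr (g, u)) := by
    simp only [cover, if_neg h0, if_true, h1, h2]
    split_ifs with h
    · rw [ψ_old hS.1]; simp [hz]
    · rw [ψ_edge (by omega), show u - 1 + 1 = u by omega]; simp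
  have s2 : sg (ψ S.nv (4 * (b * b)) (some ((cover S b rdN).slot e 2))) =
      (if u = 4 * (b * b) then (1 : ZMod 2) else 0) • z +
        if u = 4 * (b * b) then 0 else sg (Sum.inr (g, u + 1)) := by
    simp only [cover, if_neg h0, h1, h2, show (2 : ℕ) ≠ 0 by norm_num, show (2 : ℕ) ≠ 1 by norm_num,
      if_false]
    split_ifs with h
    · rw [ψ_old hS.1]; simp [hz]
    · rw [ψ_edge (by omega)]; simp
  have s1 : sg (ψ S.nv (4 * (b * b)) (some ((cover S b rdN).slot e 1))) +
      Finsupp.mapDomain (ψ S.nv (4 * (b * b))) (if e = (cover S b rdN).tw then sg none else 0) =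
      (if e = (cover S b rdN).tw then (1 : ZMod 2) else 0) • z +
        sg (Sum.inl (pend b (rd rdN) (out S.nv) g u)) := by
    have : (cover S b rdN).slot e 1 = pend b rdN (fun g => if g < S.nv then g else 0) g u := by
      simp only [cover, if_neg h0, h1, h2, one_ne_zero, if_false, if_true]
    rw [this]
    by_cases h : e = (cover S b rdN).tw
    · obtain ⟨rfl, rfl⟩ := h3.1 h
      simp only [if_pos h, pend, if_true, lt_irrefl, if_false, out, map_sg, ψ_old hS.1, one_smul]
      rfl
    · simp only [if_neg h, Finsupp.mapDomain_zero, add_zero, zero_smul, zero_add, pend]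
      by_cases h' : u = 2 * (b * b)
      · have : g < S.nv := lt_of_le_of_ne hg fun e => h (h3.2 ⟨e, h'⟩)
        simp only [if_pos h', if_pos this, out, ψ_old this]
      · simp only [if_neg h', rd, ψ_old (hr g hg _ _ (pidx_lt hu h'))]
  refine ⟨(if u = 0 then 1 else 0) + (if u = 4 * (b * b) then 1 else 0) +
    if e = (cover S b rdN).tw then 1 else 0, ?_⟩
  have hι : ∀ a : ZMod 2, ι (a • sg 0) = a • z := fun a => by
    rw [ι, Finsupp.mapDomain_smul, map_sg]
  simp only [Sys3.eqn, Finsupp.mapDomain_add, map_sg]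
  rw [add_assoc _ (sg _), add_comm (sg (ψ _ _ (some ((cover S b rdN).slot e 2)))), ← add_assoc,
    add_assoc (sg _), add_assoc (sg _), s0, s1, s2, hι, geq, add_smul, add_smul]
  abel

/-- what a narrow form tells about its decomposition -/
lemma narrow (hB : BdryStmt) {nv b : ℕ} {rdN : ℕ → Bool → ℕ → ℕ} {W : Set ℕ}
    (hr : ∀ g ≤ nv, ∀ s u, u < b * b → rdN g s u ∈ W) {f : Fm (Option ℕ)} {g : Fm ℕ}
    {U : Fm (ℕ × ℕ)} (h : Finsupp.mapDomain (ψ nv (4 * (b * b))) f = ι g + gsum b (rd rdN) (out nv) U)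
    (hV : Val b {g | g ≤ nv} U) (hc : ∀ γ, cnt U γ ≤ 4 * (b * b)) {T : Finset (Option ℕ)}
    (hT : Cov {none} T f) :
    (∀ p, U p ≠ 0 → p.1 ∈ T.image fun o => (o.getD 0 - nv) / (4 * (b * b))) ∧
      Cov W (T.image (fun o => o.getD 0) ∪ T.image fun o => (o.getD 0 - nv) / (4 * (b * b))) g := by
  have h1 : ∀ p, U p ≠ 0 → p.1 ∈ T.image fun o => (o.getD 0 - nv) / (4 * (b * b)) := fun p hp => by
    obtain ⟨u', -, -, h2⟩ := (hB ℕ (Option ℕ) b (rd rdN) (out nv) _ U hV).2 p.1 0 (4 * (b * b)) p.2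
      (Nat.zero_le _) (hV p hp).2 le_rfl hp (hc _)
    have h3 : Finsupp.mapDomain (ψ nv (4 * (b * b))) f (Sum.inr (p.1, u')) ≠ 0 := by
      rwa [h, Finsupp.add_apply, ι_inr, zero_add]
    obtain ⟨v, hv, e⟩ := exists_of_map h3
    cases v with
    | none => simp [ψ] at e
    | some v =>
      refine mem_image.2 ⟨some v, (hT _ hv).resolve_left (by simp), ?_⟩
      simp only [ψ] at e
      split_ifs at e
      simpa using congrArg Prod.fst (Sum.inr.inj e)
  refine ⟨h1, fun v hv => ?_⟩
  by_cases h2 : gsum b (rd rdN) (out nv) U (Sum.inl (some v)) = 0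
  · have h3 : Finsupp.mapDomain (ψ nv (4 * (b * b))) f (Sum.inl (some v)) ≠ 0 := by
      rwa [h, Finsupp.add_apply, ι_some, h2, add_zero]
    obtain ⟨w, hw, e⟩ := exists_of_map h3
    cases w with
    | none => simp [ψ] at e
    | some w =>
      refine Or.inr (mem_union_left _ (mem_image.2 ⟨some w, (hT _ hw).resolve_left (by simp), ?_⟩))
      simp only [ψ] at e
      split_ifs at e
      simpa using e
  · obtain ⟨p, hp, e⟩ := gsum_inl h2
    unfold pend at e
    split_ifs at e with h3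
    · refine Or.inr (mem_union_right _ ?_)
      unfold out at e
      split_ifs at e
      rw [← Option.some.inj e]
      exact h1 p hp
    · rw [← Option.some.inj e]
      exact Or.inl (hr _ (hV p hp).1 _ _ (pidx_lt (hV p hp).2 h3))

end CoverD

open CoverD in
theorem coverDStmt_of (_hL : LinBasicStmt) (hB : BdryStmt) (hE : ExpStmt) : CoverDStmt := by
  classical
  intro S b rdN W K c hS hZ hL hr hF hb hD
  set r := rr (6 * K + c + 1) with hrdef
  have hr1 : 1 ≤ r := by rw [hrdef, rr]; omega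
  have hb0 : 0 < b := by omega
  have hb1 : r ≤ 4 * (b * b) := by nlinarith
  have hL' : Lines b (rd rdN) {g | g ≤ S.nv} :=
    ⟨fun γ hγ s u u' h1 h2 h3 => hL.inj γ hγ s u u' h1 h2 (Option.some.inj h3),
      fun γ hγ γ' hγ' s s' h u₁ u₂ v₁ v₂ h1 h2 h3 h4 h5 h6 =>
        hL.one γ hγ γ' hγ' s s' h u₁ u₂ v₁ v₂ h1 h2 h3 h4 (Option.some.inj h5) (Option.some.inj h6)⟩
  have h0 : ∀ a : ZMod 2, Dv S.E0 W (4 * K) (a • sg 0) := fun a => by
    have e : S.eq0 0 = sg 0 := by rw [Sys3.eq0, hZ, hZ, hZ, add_self, zero_add]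
    rcases (by decide : ∀ a : ZMod 2, a = 0 ∨ a = 1) a with rfl | rfl
    · rw [zero_smul]; exact Dv.zero
    · rw [one_smul]; exact Dv.base ⟨0, hS.2.1, e.symm⟩
  have hV0 : Val b {g | g ≤ S.nv} (0 : Fm (ℕ × ℕ)) := fun p hp => absurd rfl hp
  have hc0 : ∀ γ, cnt (0 : Fm (ℕ × ℕ)) γ ≤ r := fun γ => by simp [cnt]
  have key : ∀ f, Dv (cover S b rdN).E {none} K f → ∃ g U,
      Finsupp.mapDomain (ψ S.nv (4 * (b * b))) f = ι g + gsum b (rd rdN) (out S.nv) U ∧
      Dv S.E0 W (4 * K) g ∧ Val b {g | g ≤ S.nv} U ∧ ∀ γ, cnt U γ ≤ r := fun f hf => by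
    induction hf with
    | zero => exact ⟨0, 0, by simp [ι, gsum], Dv.zero, hV0, hc0⟩
    | base he =>
      obtain ⟨e, he, rfl⟩ := he
      by_cases h : e < S.ne
      · exact ⟨S.eq0 e, 0, by rw [map_eqn_old b rdN hS h]; simp [gsum], Dv.base ⟨e, h, rfl⟩, hV0, hc0⟩
      · have h1 : (e - S.ne) / (4 * (b * b) + 1) ≤ S.nv := by
          refine Nat.le_of_lt_succ (Nat.div_lt_of_lt_mul ?_)
          simp only [cover] at he
          rw [mul_comm, Nat.succ_eq_add_one]; omega
        have h2 : (e - S.ne) % (4 * (b * b) + 1) ≤ 4 * (b * b) :=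
          Nat.le_of_lt_succ (Nat.mod_lt _ (Nat.succ_pos _))
        obtain ⟨a, ha⟩ := map_eqn_new hS hb0 (fun g hg s u hu => (hr g hg s u hu).2) h1 h2
        rw [Nat.mod_add_div, Nat.add_sub_cancel' (not_lt.1 h), ← gsum_sg] at ha
        refine ⟨_, _, ha, h0 a, fun p hp => ?_, fun γ => ?_⟩
        · obtain rfl := (Finsupp.single_apply_ne_zero.1 hp).1
          exact ⟨h1, h2⟩
        · exact (cnt_le _ _).trans ((card_le_card Finsupp.support_single_subset).trans
            (by simpa using hr1))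
    | @add f f' T _ _ hT hT' hK ih ih' =>
      obtain ⟨g, U, e, hg, hV, hc⟩ := ih
      obtain ⟨g', U', e', hg', hV', hc'⟩ := ih'
      have hW := fun g hg s u hu => (hr g hg s u hu).1
      have h1 := (narrow hB hW e hV (fun γ => (hc γ).trans hb1) hT).2
      have h2 := (narrow hB hW e' hV' (fun γ => (hc' γ).trans hb1) hT').2
      set T' := T.image (fun o => o.getD 0) ∪ T.image fun o => (o.getD 0 - S.nv) / (4 * (b * b))
      have h3 : T'.card ≤ 2 * K := by
        have : T'.card ≤ T.card + T.card :=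
          (card_union_le _ _).trans (add_le_add card_image_le card_image_le)
        omega
      have h4 := Dv.add T' hg hg' h1 h2 (by omega)
      have cov : ∀ {V : Type} {W : Set V} {T : Finset V} {f f' : Fm V}, Cov W T f → Cov W T f' →
          Cov W T (f + f') := fun h h' v hv => by
        by_contra hn
        apply hv
        rw [Finsupp.add_apply, not_not.1 fun h0 => hn (h v h0), not_not.1 fun h0 => hn (h' v h0),
          add_zero]
      obtain ⟨T'', h5, h6⟩ := hF _ T' h4 (cov h1 h2) (by omega)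
      have h7 : (g + g').support.card ≤ 2 * K + c := by
        refine (card_le_card (t := T' ∪ T'') fun v hv => ?_).trans
          ((card_union_le _ _).trans (add_le_add h3 h5))
        have hv := Finsupp.mem_support_iff.1 hv
        rcases cov h1 h2 v hv with h | h
        · exact mem_union_right _ (h6 v h hv)
        · exact mem_union_left _ h
      have h8 : (f + f').support.card ≤ K + 1 := by
        refine (card_le_card (t := insert none T) fun v hv => ?_).trans
          ((card_insert_le _ _).trans (by omega))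
        exact mem_insert.2 (cov hT hT' v (Finsupp.mem_support_iff.1 hv))
      have e'' : Finsupp.mapDomain (ψ S.nv (4 * (b * b))) (f + f') =
          ι (g + g') + gsum b (rd rdN) (out S.nv) (U + U') := by
        rw [Finsupp.mapDomain_add, e, e', ι_add, gsum, gsum, gsum, map_add]; abel
      have hVV : Val b {g | g ≤ S.nv} (U + U') := fun p hp => by
        by_cases h : U p = 0
        · exact hV' p (by simpa [h] using hp)
        · exact hV p h
      refine ⟨_, _, e'', h4, hVV, (hE ℕ (Option ℕ) b (rd rdN) (out S.nv) _ (6 * K + c + 1) _ hL' hVV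
        (fun γ => ?_) ?_).2⟩
      · have := cnt_add_le U U' γ
        have := hc γ
        have := hc' γ
        omega
      · have e3 : gsum b (rd rdN) (out S.nv) (U + U') =
            Finsupp.mapDomain (ψ S.nv (4 * (b * b))) (f + f') + ι (g + g') := by
          rw [e'', add_right_comm, add_self, zero_add]
        rw [e3]
        have h9 := (card_le_card (Finsupp.support_add
          (g₁ := Finsupp.mapDomain (ψ S.nv (4 * (b * b))) (f + f')) (g₂ := ι (g + g')))).trans
          (card_union_le _ _)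
        have := card_map_le (ψ S.nv (4 * (b * b))) (f + f')
        have := card_map_le (fun v : ℕ => (Sum.inl (some v) : Y)) (g + g')
        unfold ι at h9 ⊢
        omega
  obtain ⟨g, U, e, -, hV, hc⟩ := key _ hD
  have h1 := (narrow hB (fun g hg s u hu => (hr g hg s u hu).1) e hV (fun γ => (hc γ).trans hb1)
    (T := ∅) fun v hv => Or.inl (Finsupp.single_apply_ne_zero.1 hv).1).1
  have h2 : U = 0 := by
    ext p
    by_contra h
    simpa using h1 p h
  have h3 := congrArg (fun f : Fm Y => f (Sum.inl none)) e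
  simp [h2, gsum, ι_none, map_sg, ψ, sg] at h3

end Crest.Agent.R290
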