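import Crest.Agent.R290.DefsL

/-! Row 290: boundary edges, expansion and the total sum of one-way gadgets. -/

set_option autoImplicit false

namespace Crest.Agent.R290

open Finset

namespace Exp

theorem add_self_fm {V : Type} (f : Fm V) : f + f = 0 := by
  ext v
  simp [CharTwo.add_self_eq_zero]

open Classical in
theorem sg_apply {V : Type} (v w : V) : sg v w = if v = w then 1 else 0 := by
  simp [sg, Finsupp.single_apply]

theorem sub_apply {V V' : Type} (φ : V' → Fm V) (U : Fm V') (v : V) :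
    sub φ U v = ∑ p ∈ U.support, U p * φ p v := by
  simp [sub, Finsupp.linearCombination_apply, Finsupp.sum, Finsupp.finsetSum_apply]

/-! ### The transposition -/

theorem trp_div {b u : ℕ} (h : u < b * b) : trp b u / b = u % b := by
  have hb : 0 < b := Nat.pos_of_ne_zero (by rintro rfl; simp at h)
  have h1 : u / b < b := Nat.div_lt_of_lt_mul h
  unfold trp
  rw [Nat.add_comm, Nat.add_mul_div_right _ _ hb, Nat.div_eq_of_lt h1, Nat.zero_add]

theorem trp_mod {b u : ℕ} (h : u < b * b) : trp b u % b = u / b := by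
  have h1 : u / b < b := Nat.div_lt_of_lt_mul h
  unfold trp
  rw [Nat.add_comm, Nat.add_mul_mod_self_right, Nat.mod_eq_of_lt h1]

theorem trp_lt {b u : ℕ} (h : u < b * b) : trp b u < b * b := by
  have hb : 0 < b := Nat.pos_of_ne_zero (by rintro rfl; simp at h)
  have h1 : u / b < b := Nat.div_lt_of_lt_mul h
  have h2 : u % b < b := Nat.mod_lt _ hb
  unfold trp
  calc u % b * b + u / b < u % b * b + b := by omega
    _ = (u % b + 1) * b := by ring
    _ ≤ b * b := Nat.mul_le_mul_right b h2

theorem trp_trp {b u : ℕ} (h : u < b * b) : trp b (trp b u) = u := by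
  conv_lhs => unfold trp
  change trp b u % b * b + trp b u / b = u
  rw [trp_div h, trp_mod h, Nat.div_add_mod']

/-! ### Coefficients -/

variable {Γ X : Type} {b : ℕ} {rd : Γ → Bool → ℕ → X} {out : Γ → X}

open Classical in
theorem geq_inl (p : Γ × ℕ) (x : X) :
    geq b rd out p (Sum.inl x) = if pend b rd out p.1 p.2 = x then 1 else 0 := by
  unfold geq
  split_ifs <;> simp_all [sg_apply]

open Classical in
theorem geq_inr (p : Γ × ℕ) (γ : Γ) {u : ℕ} (h1 : 1 ≤ u) (h2 : u ≤ 4 * (b * b)) :
    geq b rd out p (Sum.inr (γ, u)) =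
      (if p = (γ, u - 1) then 1 else 0) + if p = (γ, u) then 1 else 0 := by
  obtain ⟨γ', v⟩ := p
  have e1 : (if v = 0 then (0 : Fm (X ⊕ Γ × ℕ)) else sg (Sum.inr (γ', v))) (Sum.inr (γ, u)) =
      if (γ', v) = (γ, u) then 1 else 0 := by
    by_cases hv : v = 0
    · rw [if_pos hv, if_neg (by simp only [Prod.mk.injEq]; omega)]; rfl
    · rw [if_neg hv, sg_apply]; simp
  have e2 : (if v = 4 * (b * b) then (0 : Fm (X ⊕ Γ × ℕ)) else sg (Sum.inr (γ', v + 1)))
      (Sum.inr (γ, u)) = if (γ', v) = (γ, u - 1) then 1 else 0 := by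
    by_cases hv : v = 4 * (b * b)
    · rw [if_pos hv, if_neg (by simp only [Prod.mk.injEq]; omega)]; rfl
    · rw [if_neg hv, sg_apply]
      have : v + 1 = u ↔ v = u - 1 := by omega
      simp [this]
  have e3 : (sg (Sum.inl (pend b rd out γ' v)) : Fm (X ⊕ Γ × ℕ)) (Sum.inr (γ, u)) = 0 := by
    simp [sg_apply]
  simp only [geq, Finsupp.add_apply, e1, e2, e3]
  rw [add_zero, add_comm]

theorem sum_ite_eq_apply {V : Type} [DecidableEq V] (U : Fm V) (q : V) :
    ∑ p ∈ U.support, U p * (if p = q then 1 else 0) = U q := by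
  simp only [mul_ite, mul_one, mul_zero, Finset.sum_ite_eq', Finsupp.mem_support_iff]
  split_ifs with h
  · rfl
  · exact (not_not.1 h).symm

theorem gsum_inr (U : Fm (Γ × ℕ)) (γ : Γ) {u : ℕ} (h1 : 1 ≤ u) (h2 : u ≤ 4 * (b * b)) :
    gsum b rd out U (Sum.inr (γ, u)) = U (γ, u - 1) + U (γ, u) := by
  classical
  rw [gsum, sub_apply]
  simp only [geq_inr _ γ h1 h2, mul_add, Finset.sum_add_distrib]
  congr 1
  · convert sum_ite_eq_apply U (γ, u - 1)
  · convert sum_ite_eq_apply U (γ, u)

/-- A variable read by exactly one chosen position has a nonzero coefficient. -/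
theorem gsum_inl_ne {U : Fm (Γ × ℕ)} {q : Γ × ℕ} (hq : U q ≠ 0)
    (h : ∀ p, U p ≠ 0 → pend b rd out p.1 p.2 = pend b rd out q.1 q.2 → p = q) :
    gsum b rd out U (Sum.inl (pend b rd out q.1 q.2)) ≠ 0 := by
  rw [gsum, sub_apply, Finset.sum_eq_single q]
  · rw [geq_inl, if_pos rfl, mul_one]; exact hq
  · intro p hp hne
    rw [geq_inl, if_neg (fun e => hne (h p (Finsupp.mem_support_iff.1 hp) e)), mul_zero]
  · intro h0
    exact absurd (Finsupp.mem_support_iff.2 hq) h0

theorem exists_bdry (U : Fm (Γ × ℕ)) (γ : Γ) {lo hi u : ℕ} (h1 : lo ≤ u) (h2 : u ≤ hi)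
    (h3 : hi ≤ 4 * (b * b)) (hu : U (γ, u) ≠ 0) (hc : cnt U γ ≤ hi - lo) :
    ∃ u', lo < u' ∧ u' ≤ hi ∧ gsum b rd out U (Sum.inr (γ, u')) ≠ 0 := by
  classical
  by_contra hne
  push Not at hne
  have key : ∀ j, lo ≤ j → j ≤ hi → U (γ, j) = U (γ, lo) := by
    intro j hj
    induction j, hj using Nat.le_induction with
    | base => intro _; rfl
    | succ j hj ih =>
      intro hj'
      have := hne (j + 1) (by omega) hj'
      rw [gsum_inr U γ (by omega) (by omega), Nat.add_sub_cancel, CharTwo.add_eq_zero] at this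
      rw [← this, ih (by omega)]
  have hlo : U (γ, lo) ≠ 0 := by rw [← key u h1 h2]; exact hu
  have : (Finset.Icc lo hi).card ≤ cnt U γ := by
    unfold cnt
    refine Finset.card_le_card_of_injOn (fun j => (γ, j)) (fun j hj => ?_) fun j _ j' _ e => ?_
    · simp only [Finset.coe_Icc, Set.mem_Icc] at hj
      simp only [Finset.coe_filter, Finsupp.mem_support_iff, Set.mem_ofPred_eq, and_true]
      rw [key j hj.1 hj.2]; exact hlo
    · exact (Prod.mk.inj e).2
  rw [Nat.card_Icc] at this
  omega

/-! ### Expansion -/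

/-- The position of side `s` and order `o` reading the index `i`. -/
def ps (b : ℕ) (s o : Bool) (i : ℕ) : ℕ :=
  (if s = true then 2 * (b * b) + 1 else 0) + if o = true then b * b + trp b i else i

theorem pend_ps (γ : Γ) (s o : Bool) {i : ℕ} (hi : i < b * b) :
    pend b rd out γ (ps b s o i) = rd γ s i := by
  have h1 := trp_lt hi
  have h2 := trp_trp hi
  generalize hn : b * b = n at *
  cases s <;> cases o <;> simp only [pend, pside, pidx, ps, hn, if_true, Bool.false_eq_true,
    if_false, Nat.zero_add]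
  · rw [if_neg (by omega), if_pos hi, decide_eq_false (by omega)]
  · rw [if_neg (by omega), if_neg (by omega), if_pos (by omega), decide_eq_false (by omega),
      Nat.add_sub_cancel_left, h2]
  · rw [if_neg (by omega), if_neg (by omega), if_neg (by omega), if_pos (by omega),
      decide_eq_true (by omega), show 2 * n + 1 + i - 2 * n - 1 = i by omega]
  · rw [if_neg (by omega), if_neg (by omega), if_neg (by omega), if_neg (by omega),
      decide_eq_true (by omega), show 2 * n + 1 + (n + trp b i) - 3 * n - 1 = trp b i by omega, h2]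

theorem exists_ps {u : ℕ} (h1 : u ≤ 4 * (b * b)) (h2 : u ≠ 2 * (b * b)) :
    ∃ s o i, i < b * b ∧ u = ps b s o i := by
  by_cases c1 : u < b * b
  · exact ⟨false, false, u, c1, by simp [ps]⟩
  by_cases c2 : u < 2 * (b * b)
  · have h : u - b * b < b * b := by omega
    refine ⟨false, true, trp b (u - b * b), trp_lt h, ?_⟩
    simp only [ps, trp_trp h, if_true, Bool.false_eq_true, if_false]
    omega
  by_cases c3 : u ≤ 3 * (b * b)
  · refine ⟨true, false, u - 2 * (b * b) - 1, by omega, ?_⟩
    simp only [ps, if_true, Bool.false_eq_true, if_false]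
    omega
  · have h : u - 3 * (b * b) - 1 < b * b := by omega
    refine ⟨true, true, trp b (u - 3 * (b * b) - 1), trp_lt h, ?_⟩
    simp only [ps, trp_trp h, if_true]
    omega

theorem mem_used {U : Fm (Γ × ℕ)} {p : Γ × ℕ} (h : U p ≠ 0) : p.1 ∈ used U := by
  classical
  unfold used
  convert Finset.mem_image_of_mem Prod.fst (Finsupp.mem_support_iff.2 h)

theorem exists_of_mem_used {U : Fm (Γ × ℕ)} {γ : Γ} (h : γ ∈ used U) : ∃ u, U (γ, u) ≠ 0 := by
  unfold used at h
  simp only [Finset.mem_image, Finsupp.mem_support_iff] at h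
  obtain ⟨⟨γ', u⟩, h1, rfl⟩ := h
  exact ⟨u, h1⟩

section
variable {Gd : Set Γ} {κ : ℕ} {U : Fm (Γ × ℕ)}

theorem card_used (hV : Val b Gd U) (hc : ∀ γ, cnt U γ < b)
    (hκ : (gsum b rd out U).support.card ≤ κ) : (used U).card ≤ κ := by
  refine le_trans (Finset.card_le_card_of_forall_subsingleton
    (fun γ v => ∃ u, v = Sum.inr (γ, u)) (fun γ hγ => ?_) fun v _ => ?_) hκ
  · obtain ⟨u, hu⟩ := exists_of_mem_used hγ
    have h1 := hc γ
    obtain ⟨u', -, -, h⟩ := exists_bdry (rd := rd) (out := out) U γ (Nat.zero_le u)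
      (hV _ hu).2 le_rfl hu (by have := Nat.le_mul_self b; omega)
    exact ⟨_, Finsupp.mem_support_iff.2 h, u', rfl⟩
  · rintro γ ⟨-, u, rfl⟩ γ' ⟨-, u', h⟩
    exact (Prod.mk.inj (Sum.inr.inj h)).1

/-- At most `κ` rows of length `b` starting at `off` contain chosen positions. -/
theorem card_rows (hc : ∀ γ, cnt U γ < b) (hκ : (gsum b rd out U).support.card ≤ κ) (γ : Γ)
    (off : ℕ) (hoff : off + b * b ≤ 4 * (b * b) + 1) (R : Finset ℕ)
    (hR : ∀ r ∈ R, ∃ u < b * b, u / b = r ∧ U (γ, off + u) ≠ 0) : R.card ≤ κ := by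
  have hb : 0 < b := lt_of_le_of_lt (Nat.zero_le _) (hc γ)
  refine le_trans (Finset.card_le_card_of_forall_subsingleton
    (fun r v => ∃ u, off + r * b < u ∧ u < off + r * b + b ∧ v = Sum.inr (γ, u))
    (fun r hr => ?_) fun v _ => ?_) hκ
  · obtain ⟨u, hu, rfl, h⟩ := hR r hr
    have h1 := hc γ
    have h2 := Nat.div_add_mod' u b
    have h3 := Nat.mod_lt u hb
    have h4 : u / b < b := Nat.div_lt_of_lt_mul hu
    have h5 : (u / b + 1) * b ≤ b * b := Nat.mul_le_mul_right b h4
    rw [add_mul, one_mul] at h5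
    obtain ⟨u', a1, a2, a3⟩ := exists_bdry (b := b) (rd := rd) (out := out) U γ
      (lo := off + u / b * b) (hi := off + u / b * b + b - 1) (u := off + u) (by omega) (by omega)
      (by omega) h (by omega)
    exact ⟨_, Finsupp.mem_support_iff.2 a3, u', a1, by omega, rfl⟩
  · rintro r ⟨-, u, a1, a2, rfl⟩ r' ⟨-, u', a3, a4, h⟩
    obtain rfl : u = u' := (Prod.mk.inj (Sum.inr.inj h)).2
    by_contra hne
    rcases Nat.lt_or_gt_of_ne hne with h1 | h1
    · have : (r + 1) * b ≤ r' * b := Nat.mul_le_mul_right b h1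
      rw [add_mul, one_mul] at this
      omega
    · have : (r' + 1) * b ≤ r * b := Nat.mul_le_mul_right b h1
      rw [add_mul, one_mul] at this
      omega

/-- The chosen indices of side `s` and order `o`. -/
noncomputable def ch (b : ℕ) (U : Fm (Γ × ℕ)) (γ : Γ) (s o : Bool) : Finset ℕ :=
  (range (b * b)).filter fun i => U (γ, ps b s o i) ≠ 0

theorem mem_ch {γ : Γ} {s o : Bool} {i : ℕ} :
    i ∈ ch b U γ s o ↔ i < b * b ∧ U (γ, ps b s o i) ≠ 0 := by simp [ch]

theorem card_twin (hc : ∀ γ, cnt U γ < b) (hκ : (gsum b rd out U).support.card ≤ κ) (γ : Γ)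
    (s : Bool) : (ch b U γ s false ∩ ch b U γ s true).card ≤ κ ^ 2 := by
  have h1 : ((ch b U γ s false).image (· / b)).card ≤ κ := by
    refine card_rows hc hκ γ (if s = true then 2 * (b * b) + 1 else 0)
      (by split_ifs <;> omega) _ fun r hr => ?_
    obtain ⟨i, hi, rfl⟩ := Finset.mem_image.1 hr
    obtain ⟨a1, a2⟩ := mem_ch.1 hi
    exact ⟨i, a1, rfl, by simpa [ps] using a2⟩
  have h2 : ((ch b U γ s true).image (· % b)).card ≤ κ := by
    refine card_rows hc hκ γ ((if s = true then 2 * (b * b) + 1 else 0) + b * b)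
      (by split_ifs <;> omega) _ fun r hr => ?_
    obtain ⟨i, hi, rfl⟩ := Finset.mem_image.1 hr
    obtain ⟨a1, a2⟩ := mem_ch.1 hi
    exact ⟨trp b i, trp_lt a1, trp_div a1, by simpa [ps, add_assoc] using a2⟩
  calc _ ≤ ((ch b U γ s false).image (· / b) ×ˢ (ch b U γ s true).image (· % b)).card := by
        refine Finset.card_le_card_of_injOn (fun i => (i / b, i % b)) (fun i hi => ?_)
          fun i _ j _ e => ?_
        · have := Finset.mem_inter.1 (Finset.mem_coe.1 hi)
          exact Finset.mem_coe.2 (Finset.mem_product.2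
            ⟨Finset.mem_image_of_mem _ this.1, Finset.mem_image_of_mem _ this.2⟩)
        · obtain ⟨e1, e2⟩ := Prod.mk.inj e
          rw [← Nat.div_add_mod' i b, ← Nat.div_add_mod' j b, e1, e2]
    _ ≤ κ * κ := by rw [Finset.card_product]; exact Nat.mul_le_mul h1 h2
    _ = κ ^ 2 := by ring

theorem card_nontwin (hL : Lines b rd Gd) (hV : Val b Gd U) (hc : ∀ γ, cnt U γ < b)
    (hκ : (gsum b rd out U).support.card ≤ κ) (γ : Γ) (s : Bool) (D : Finset ℕ)
    (hD : ∀ i ∈ D, ∃ o, i ∈ ch b U γ s o ∧ i ∉ ch b U γ s (!o)) : D.card ≤ 4 * κ := by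
  classical
  have hu := card_used hV hc hκ
  have hlt : ∀ i ∈ D, i < b * b := fun i hi => by
    obtain ⟨o, h, -⟩ := hD i hi
    exact (mem_ch.1 h).1
  have hγ : ∀ i ∈ D, γ ∈ Gd := fun i hi => by
    obtain ⟨o, h, -⟩ := hD i hi
    exact (hV _ (mem_ch.1 h).2).1
  have key : D.card ≤ (((gsum b rd out U).support.disjSum (used U)).disjSum
      (used U ×ˢ (Finset.univ : Finset Bool))).card := by
    refine Finset.card_le_card_of_forall_subsingleton
      (fun i t => match t with
        | Sum.inl (Sum.inl v) => v = Sum.inl (rd γ s i)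
        | Sum.inl (Sum.inr γ') => out γ' = rd γ s i
        | Sum.inr h => (γ, s) ≠ h ∧ ∃ j < b * b, rd γ s i = rd h.1 h.2 j)
      (fun i hi => ?_) fun t ht => ?_
    · obtain ⟨o, h1, h2⟩ := hD i hi
      obtain ⟨a1, a2⟩ := mem_ch.1 h1
      have a3 : U (γ, ps b s (!o) i) = 0 := by
        by_contra h3
        exact h2 (mem_ch.2 ⟨a1, h3⟩)
      by_cases hex : ∀ p, U p ≠ 0 →
          pend b rd out p.1 p.2 = pend b rd out γ (ps b s o i) → p = (γ, ps b s o i)
      · have := gsum_inl_ne (q := (γ, ps b s o i)) a2 hex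
        rw [pend_ps γ s o a1] at this
        exact ⟨Sum.inl (Sum.inl _), by simpa using this, rfl⟩
      · push Not at hex
        obtain ⟨⟨γ', u⟩, p1, p2, p3⟩ := hex
        rw [pend_ps γ s o a1] at p2
        by_cases hu2 : u = 2 * (b * b)
        · refine ⟨Sum.inl (Sum.inr γ'), by simpa using mem_used p1, ?_⟩
          simpa [pend, hu2] using p2
        · obtain ⟨s', o', j, hj, rfl⟩ := exists_ps (hV _ p1).2 hu2
          rw [pend_ps γ' s' o' hj] at p2
          refine ⟨Sum.inr (γ', s'), by simpa using mem_used p1, fun e => ?_, j, hj, p2.symm⟩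
          obtain ⟨rfl, rfl⟩ := Prod.mk.inj e
          obtain rfl := hL.inj γ (hγ i hi) s j i hj a1 p2
          by_cases ho : o' = o
          · exact p3 (by rw [ho])
          · obtain rfl : o' = !o := by cases o <;> cases o' <;> simp_all
            exact p1 a3
    · rintro i ⟨hi, h1⟩ j ⟨hj, h2⟩
      have hi' : i ∈ D := hi
      have hj' : j ∈ D := hj
      rcases t with (v | γ') | ⟨γ', s'⟩
      · exact hL.inj γ (hγ i hi') s i j (hlt i hi') (hlt j hj') (Sum.inl.inj (h1.symm.trans h2))
      · exact hL.inj γ (hγ i hi') s i j (hlt i hi') (hlt j hj') (h1.symm.trans h2)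
      · obtain ⟨hne, i', a1, a2⟩ := h1
        obtain ⟨-, j', a3, a4⟩ := h2
        have : γ' ∈ used U := by simpa using ht
        obtain ⟨u, hu'⟩ := exists_of_mem_used this
        exact hL.one γ (hγ i hi') γ' (hV _ hu').1 s s' hne i j i' j' (hlt i hi') (hlt j hj')
          a1 a3 a2 a4
  rw [Finset.card_disjSum, Finset.card_disjSum, Finset.card_product] at key
  simp only [Finset.card_univ, Fintype.card_bool] at key
  omega

theorem card_half (hL : Lines b rd Gd) (hV : Val b Gd U) (hc : ∀ γ, cnt U γ < b)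
    (hκ : (gsum b rd out U).support.card ≤ κ) (γ : Γ) (s : Bool) :
    (ch b U γ s false).card + (ch b U γ s true).card ≤ 2 * κ ^ 2 + 4 * κ := by
  have h1 := card_twin hc hκ γ s
  have h2 := card_nontwin hL hV hc hκ γ s
    ((ch b U γ s false ∪ ch b U γ s true) \ (ch b U γ s false ∩ ch b U γ s true)) (by
      intro i hi
      simp only [Finset.mem_sdiff, Finset.mem_union, Finset.mem_inter] at hi
      by_cases h : i ∈ ch b U γ s false
      · exact ⟨false, h, fun h' => hi.2 ⟨h, h'⟩⟩
      · exact ⟨true, hi.1.resolve_left h, h⟩)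
  have h3 := Finset.card_union_add_card_inter (ch b U γ s false) (ch b U γ s true)
  have h4 := Finset.card_sdiff_add_card_eq_card
    (Finset.inter_subset_union (s := ch b U γ s false) (t := ch b U γ s true))
  omega

theorem cnt_le (hV : Val b Gd U) (γ : Γ) :
    cnt U γ ≤ (ch b U γ false false).card + (ch b U γ false true).card +
      ((ch b U γ true false).card + (ch b U γ true true).card) + 1 := by
  classical
  have : cnt U γ ≤ (insert (γ, 2 * (b * b))
      (((ch b U γ false false).image (fun i => (γ, ps b false false i)) ∪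
        (ch b U γ false true).image (fun i => (γ, ps b false true i))) ∪
       ((ch b U γ true false).image (fun i => (γ, ps b true false i)) ∪
        (ch b U γ true true).image (fun i => (γ, ps b true true i))))).card := by
    unfold cnt
    refine Finset.card_le_card ?_
    rintro ⟨γ', u⟩ hp
    simp only [Finset.mem_filter, Finsupp.mem_support_iff] at hp
    obtain ⟨h1, rfl⟩ := hp
    by_cases hu : u = 2 * (b * b)
    · rw [hu]; exact Finset.mem_insert_self _ _
    · obtain ⟨s, o, i, hi, rfl⟩ := exists_ps (hV _ h1).2 hu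
      have hm : (γ', ps b s o i) ∈ (ch b U γ' s o).image (fun i => (γ', ps b s o i)) :=
        Finset.mem_image_of_mem _ (mem_ch.2 ⟨hi, h1⟩)
      refine Finset.mem_insert_of_mem ?_
      simp only [Finset.mem_union]
      cases s <;> cases o <;> tauto
  refine this.trans ((Finset.card_insert_le _ _).trans (Nat.succ_le_succ ?_))
  refine (Finset.card_union_le _ _).trans (Nat.add_le_add ?_ ?_) <;>
    exact (Finset.card_union_le _ _).trans
      (Nat.add_le_add Finset.card_image_le Finset.card_image_le)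

end

end Exp

theorem expStmt : ExpStmt := by
  intro Γ X b rd out Gd κ U hL hV hc hκ
  refine ⟨Exp.card_used hV hc hκ, fun γ => ?_⟩
  have h1 := Exp.card_half hL hV hc hκ γ false
  have h2 := Exp.card_half hL hV hc hκ γ true
  have h3 := Exp.cnt_le hV γ
  unfold rr
  omega

theorem bdryStmt : BdryStmt := fun _ _ _ _ _ _ U _ =>
  ⟨fun γ _ h1 h2 => Exp.gsum_inr U γ h1 h2,
    fun γ _ _ _ h1 h2 h3 hu hc => Exp.exists_bdry U γ h1 h2 h3 hu hc⟩

theorem gsumStmt : GsumStmt := by
  intro Γ X b rd out γ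
  have e1 : ∑ u ∈ range (4 * (b * b) + 1),
      (if u = 0 then (0 : Fm (X ⊕ Γ × ℕ)) else sg (Sum.inr (γ, u))) =
      ∑ u ∈ range (4 * (b * b)), sg (Sum.inr (γ, u + 1)) := by
    rw [Finset.sum_range_succ']; simp
  have e2 : ∑ u ∈ range (4 * (b * b) + 1),
      (if u = 4 * (b * b) then (0 : Fm (X ⊕ Γ × ℕ)) else sg (Sum.inr (γ, u + 1))) =
      ∑ u ∈ range (4 * (b * b)), sg (Sum.inr (γ, u + 1)) := by
    rw [Finset.sum_range_succ, if_pos rfl, add_zero]
    refine Finset.sum_congr rfl fun u hu => if_neg ?_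
    have := Finset.mem_range.1 hu
    omega
  have e3 : ∀ s, ∑ u ∈ range (b * b), (sg (Sum.inl (rd γ s (trp b u))) : Fm (X ⊕ Γ × ℕ)) =
      ∑ u ∈ range (b * b), sg (Sum.inl (rd γ s u)) := by
    intro s
    refine Finset.sum_nbij' (trp b) (trp b) ?_ ?_ ?_ ?_ ?_
    · intro u hu; exact Finset.mem_range.2 (Exp.trp_lt (Finset.mem_range.1 hu))
    · intro u hu; exact Finset.mem_range.2 (Exp.trp_lt (Finset.mem_range.1 hu))
    · intro u hu; exact Exp.trp_trp (Finset.mem_range.1 hu)
    · intro u hu; exact Exp.trp_trp (Finset.mem_range.1 hu)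
    · intro u _; rfl
  have e4 : ∑ u ∈ range (4 * (b * b) + 1),
      (sg (Sum.inl (pend b rd out γ u)) : Fm (X ⊕ Γ × ℕ)) = sg (Sum.inl (out γ)) := by
    set n := b * b with hn
    rw [show 4 * n + 1 = n + n + 1 + n + n by ring, Finset.sum_range_add, Finset.sum_range_add,
      Finset.sum_range_succ, Finset.sum_range_add]
    have a1 : ∑ u ∈ range n, (sg (Sum.inl (pend b rd out γ u)) : Fm (X ⊕ Γ × ℕ)) =
        ∑ u ∈ range n, sg (Sum.inl (rd γ false u)) := by
      refine Finset.sum_congr rfl fun u hu => ?_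
      have := Finset.mem_range.1 hu
      simp only [pend, pside, pidx, ← hn]
      rw [if_neg (by omega), if_pos this, decide_eq_false (by omega)]
    have a2 : ∑ u ∈ range n, (sg (Sum.inl (pend b rd out γ (n + u))) : Fm (X ⊕ Γ × ℕ)) =
        ∑ u ∈ range n, sg (Sum.inl (rd γ false (trp b u))) := by
      refine Finset.sum_congr rfl fun u hu => ?_
      have := Finset.mem_range.1 hu
      simp only [pend, pside, pidx, ← hn]
      rw [if_neg (by omega), if_neg (by omega), if_pos (by omega), decide_eq_false (by omega),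
        Nat.add_sub_cancel_left]
    have a3 : pend b rd out γ (n + n) = out γ := by
      simp only [pend, ← hn]
      rw [if_pos (by omega)]
    have a4 : ∑ u ∈ range n, (sg (Sum.inl (pend b rd out γ (n + n + 1 + u))) : Fm (X ⊕ Γ × ℕ)) =
        ∑ u ∈ range n, sg (Sum.inl (rd γ true u)) := by
      refine Finset.sum_congr rfl fun u hu => ?_
      have := Finset.mem_range.1 hu
      simp only [pend, pside, pidx, ← hn]
      rw [if_neg (by omega), if_neg (by omega), if_neg (by omega), if_pos (by omega),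
        decide_eq_true (by omega), show n + n + 1 + u - 2 * n - 1 = u by omega]
    have a5 : ∑ u ∈ range n,
        (sg (Sum.inl (pend b rd out γ (n + n + 1 + n + u))) : Fm (X ⊕ Γ × ℕ)) =
        ∑ u ∈ range n, sg (Sum.inl (rd γ true (trp b u))) := by
      refine Finset.sum_congr rfl fun u hu => ?_
      have := Finset.mem_range.1 hu
      simp only [pend, pside, pidx, ← hn]
      rw [if_neg (by omega), if_neg (by omega), if_neg (by omega), if_neg (by omega),
        decide_eq_true (by omega), show n + n + 1 + n + u - 3 * n - 1 = u by omega]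
    rw [a1, a2, a3, a4, a5, e3, e3, Exp.add_self_fm, zero_add, add_assoc, Exp.add_self_fm,
      add_zero]
  simp only [geq, Finset.sum_add_distrib]
  rw [e1, e2, e4, add_right_comm, Exp.add_self_fm, zero_add]

end Crest.Agent.R290
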