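import Crest.Agent.R290.DefsL

/-! Row 290: arithmetic of the parameters and of the codes `cd`. -/

set_option autoImplicit false

namespace Crest.Agent.R290

open Crest.Agent.PT Finset

/-! ### Positions of a gadget -/

lemma trp_lt {b u : ℕ} (h : u < b * b) : trp b u < b * b := by
  have hb : 0 < b := Nat.pos_of_ne_zero (by rintro rfl; simp at h)
  have h1 : u % b < b := Nat.mod_lt _ hb
  have h2 : u / b < b := (Nat.div_lt_iff_lt_mul hb).2 h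
  calc trp b u < u % b * b + b := by unfold trp; omega
    _ = (u % b + 1) * b := by ring
    _ ≤ b * b := Nat.mul_le_mul_right _ h1

lemma trp_trp {b u : ℕ} (h : u < b * b) : trp b (trp b u) = u := by
  have hb : 0 < b := Nat.pos_of_ne_zero (by rintro rfl; simp at h)
  have h2 : u / b < b := (Nat.div_lt_iff_lt_mul hb).2 h
  have e1 : trp b u % b = u / b := by
    rw [trp, add_comm, Nat.add_mul_mod_self_right, Nat.mod_eq_of_lt h2]
  have e2 : trp b u / b = u % b := by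
    rw [trp, add_comm, Nat.add_mul_div_right _ _ hb, Nat.div_eq_of_lt h2, zero_add]
  rw [trp, e1, e2, mul_comm]
  exact Nat.div_add_mod u b

lemma pidx_lt {b u : ℕ} (h : u ≤ 4 * (b * b)) (h' : u ≠ 2 * (b * b)) : pidx b u < b * b := by
  unfold pidx
  split_ifs
  · assumption
  · exact trp_lt (by omega)
  · omega
  · exact trp_lt (by omega)

/-! ### Rule numbers -/

lemma hact_pos {h : Word} {r : ℕ} (hr : hact h r) : 0 < hs h :=
  Nat.pos_of_ne_zero fun e => by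
    have := hr.1
    rw [e] at this
    omega

lemma rPr_lt {s : ℕ} (hs : 0 < s) (r : ℕ) (side : Bool) : rPr s r side < s := by
  unfold rPr
  split_ifs <;> exact Nat.mod_lt _ hs

lemma rCn_lt {s : ℕ} (hs : 0 < s) (r : ℕ) : rCn s r < s := Nat.mod_lt _ hs

lemma rSh_lt {s r : ℕ} (h : r < 81 * (s * s * s)) (side : Bool) : rSh s r side < 9 := by
  have h1 : r / (s * s * s) < 81 := Nat.div_lt_of_lt_mul (by rwa [mul_comm] at h)
  unfold rSh
  split_ifs <;> omega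

namespace Par

variable (a : Par)

/-! ### Sizes -/

lemma b_pos : 0 < a.b := Nat.succ_pos _

lemma bb_pos : 0 < a.b * a.b := Nat.mul_pos a.b_pos a.b_pos

lemma p_prime (i : ℕ) : (a.p i).Prime := Nat.prime_nth_prime _

lemma p_pos (i : ℕ) : 0 < a.p i := (a.p_prime i).pos

lemma p_strictMono : StrictMono a.p := fun _ _ h =>
  Nat.nth_strictMono Nat.infinite_setOfPred_prime (Nat.add_lt_add_left h _)

lemma le_p (i : ℕ) : a.P ≤ a.p i := by
  have := Nat.add_two_le_nth_prime (a.P + i)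
  unfold p
  omega

lemma two_le_Z : 2 ≤ a.Z := by unfold Z; omega

lemma Z_pos : 0 < a.Z := by unfold Z; omega

lemma s_lt_Z : a.s + 1 < a.Z := by unfold Z; omega

lemma r_lt_Z : 81 * (a.s * a.s * a.s) + 1 < a.Z := by unfold Z; omega

lemma bb_lt_Z : 4 * (a.b * a.b) + 1 < a.Z := by unfold Z; omega

lemma k_lt_Z : a.k + 1 < a.Z := by unfold Z; omega

lemma y_lt_Z : a.y.length + 1 < a.Z := by unfold Z; omega

lemma p_lt_Z {i : ℕ} (h : i ≤ a.k) : a.p i < a.Z := by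
  have := a.p_strictMono.monotone h
  unfold Z
  omega

lemma A_pos : 0 < a.A := Nat.mul_pos (Nat.mul_pos (by omega) (pow_pos a.Z_pos _)) a.bb_pos

lemma B'_pos : 0 < a.B' := Nat.mul_pos a.A_pos a.bb_pos

lemma Lm_pos : 0 < a.Lm := Nat.mul_pos a.bb_pos (Nat.mul_pos (by omega) a.B'_pos)

lemma nv_eq : a.sys1.nv = 1 + a.Lm * (6 * a.Z ^ 5) := rfl

lemma ne_eq : a.sys1.ne = 1 + a.Lm * (6 * a.Z ^ 5) := rfl

/-! ### Codes -/

lemma cd_pos (tag f1 f2 f3 f4 f5 l : ℕ) : 0 < a.cd tag f1 f2 f3 f4 f5 l := by unfold cd; omega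

lemma cd_ne_zero (tag f1 f2 f3 f4 f5 l : ℕ) : a.cd tag f1 f2 f3 f4 f5 l ≠ 0 :=
  (a.cd_pos ..).ne'

lemma digit_lt {x m y n : ℕ} (hx : x < m) (hy : y < n) : x + m * y < m * n :=
  calc x + m * y < m + m * y := by omega
    _ = m * (y + 1) := by ring
    _ ≤ m * n := Nat.mul_le_mul_left _ hy

lemma digit_mod {x m : ℕ} (hx : x < m) (y : ℕ) : (x + m * y) % m = x := by
  rw [Nat.add_mul_mod_self_left, Nat.mod_eq_of_lt hx]

lemma digit_div {x m : ℕ} (hx : x < m) (y : ℕ) : (x + m * y) / m = y := by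
  rw [Nat.add_mul_div_left _ _ (by omega : 0 < m), Nat.div_eq_of_lt hx, zero_add]

variable {a}

lemma cd_lt {tag f1 f2 f3 f4 f5 l : ℕ} (ht : tag < 6) (h1 : f1 < a.Z) (h2 : f2 < a.Z)
    (h3 : f3 < a.Z) (h4 : f4 < a.Z) (h5 : f5 < a.Z) (hl : l < a.Lm) :
    a.cd tag f1 f2 f3 f4 f5 l < a.sys1.nv := by
  have := digit_lt hl (digit_lt ht (digit_lt h1 (digit_lt h2 (digit_lt h3 (digit_lt h4 h5)))))
  rw [nv_eq, show a.Z ^ 5 = a.Z * (a.Z * (a.Z * (a.Z * a.Z))) by ring]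
  unfold cd
  omega

variable (a)

/-- The fields of a code. -/
noncomputable def dL (v : ℕ) : ℕ := (v - 1) % a.Lm
noncomputable def dT (v : ℕ) : ℕ := (v - 1) / a.Lm % 6
noncomputable def d1 (v : ℕ) : ℕ := (v - 1) / a.Lm / 6 % a.Z
noncomputable def d2 (v : ℕ) : ℕ := (v - 1) / a.Lm / 6 / a.Z % a.Z
noncomputable def d3 (v : ℕ) : ℕ := (v - 1) / a.Lm / 6 / a.Z / a.Z % a.Z
noncomputable def d4 (v : ℕ) : ℕ := (v - 1) / a.Lm / 6 / a.Z / a.Z / a.Z % a.Z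
noncomputable def d5 (v : ℕ) : ℕ := (v - 1) / a.Lm / 6 / a.Z / a.Z / a.Z / a.Z

lemma dL_lt (v : ℕ) : a.dL v < a.Lm := Nat.mod_lt _ a.Lm_pos
lemma dT_lt (v : ℕ) : a.dT v < 6 := Nat.mod_lt _ (by omega)
lemma d1_lt (v : ℕ) : a.d1 v < a.Z := Nat.mod_lt _ a.Z_pos
lemma d2_lt (v : ℕ) : a.d2 v < a.Z := Nat.mod_lt _ a.Z_pos
lemma d3_lt (v : ℕ) : a.d3 v < a.Z := Nat.mod_lt _ a.Z_pos
lemma d4_lt (v : ℕ) : a.d4 v < a.Z := Nat.mod_lt _ a.Z_pos

lemma d5_lt {v : ℕ} (hv : v < a.sys1.nv) : a.d5 v < a.Z := by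
  have hZ := a.Z_pos
  rcases Nat.eq_zero_or_pos v with rfl | h0
  · simpa [d5] using hZ
  rw [nv_eq, show a.Z ^ 5 = a.Z * (a.Z * (a.Z * (a.Z * a.Z))) by ring] at hv
  unfold d5
  refine Nat.div_lt_of_lt_mul (Nat.div_lt_of_lt_mul (Nat.div_lt_of_lt_mul (Nat.div_lt_of_lt_mul
    (Nat.div_lt_of_lt_mul (Nat.div_lt_of_lt_mul ?_)))))
  omega

/-- Every nonzero number is the code of its fields. -/
lemma cd_dec {v : ℕ} (hv : v ≠ 0) :
    a.cd (a.dT v) (a.d1 v) (a.d2 v) (a.d3 v) (a.d4 v) (a.d5 v) (a.dL v) = v := by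
  unfold cd dT d1 d2 d3 d4 d5 dL
  simp only [Nat.mod_add_div]
  omega

lemma slot_eq {e : ℕ} (he : e ≠ 0) (j : ℕ) : a.sys1.slot e j =
    a.slotF (a.dT e) (a.d1 e) (a.d2 e) (a.d3 e) (a.d4 e) (a.d5 e) (a.dL e) j := if_neg he

lemma slot_zero (j : ℕ) : a.sys1.slot 0 j = 0 := by simp [sys1]

variable {a}

/-- Decoding a code. -/
lemma dec_cd {tag f1 f2 f3 f4 l : ℕ} (f5 : ℕ) (ht : tag < 6) (h1 : f1 < a.Z) (h2 : f2 < a.Z)
    (h3 : f3 < a.Z) (h4 : f4 < a.Z) (hl : l < a.Lm) :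
    a.dT (a.cd tag f1 f2 f3 f4 f5 l) = tag ∧ a.d1 (a.cd tag f1 f2 f3 f4 f5 l) = f1 ∧
    a.d2 (a.cd tag f1 f2 f3 f4 f5 l) = f2 ∧ a.d3 (a.cd tag f1 f2 f3 f4 f5 l) = f3 ∧
    a.d4 (a.cd tag f1 f2 f3 f4 f5 l) = f4 ∧ a.d5 (a.cd tag f1 f2 f3 f4 f5 l) = f5 ∧
    a.dL (a.cd tag f1 f2 f3 f4 f5 l) = l := by
  unfold cd dT d1 d2 d3 d4 d5 dL
  simp only [Nat.add_sub_cancel_left, digit_div hl, digit_mod hl, digit_div ht, digit_mod ht,
    digit_div h1, digit_mod h1, digit_div h2, digit_mod h2, digit_div h3, digit_mod h3,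
    digit_div h4, digit_mod h4, and_self]

lemma slot_cd {tag f1 f2 f3 f4 l : ℕ} (f5 : ℕ) (ht : tag < 6) (h1 : f1 < a.Z) (h2 : f2 < a.Z)
    (h3 : f3 < a.Z) (h4 : f4 < a.Z) (hl : l < a.Lm) (j : ℕ) :
    a.sys1.slot (a.cd tag f1 f2 f3 f4 f5 l) j = a.slotF tag f1 f2 f3 f4 f5 l j := by
  obtain ⟨e0, e1, e2, e3, e4, e5, e6⟩ := dec_cd f5 ht h1 h2 h3 h4 hl
  rw [slot_eq a (a.cd_ne_zero _ _ _ _ _ _ _), e0, e1, e2, e3, e4, e5, e6]

lemma cd_inj {tag f1 f2 f3 f4 f5 l tag' f1' f2' f3' f4' f5' l' : ℕ} (ht : tag < 6) (h1 : f1 < a.Z)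
    (h2 : f2 < a.Z) (h3 : f3 < a.Z) (h4 : f4 < a.Z) (hl : l < a.Lm) (ht' : tag' < 6)
    (h1' : f1' < a.Z) (h2' : f2' < a.Z) (h3' : f3' < a.Z) (h4' : f4' < a.Z) (hl' : l' < a.Lm)
    (h : a.cd tag f1 f2 f3 f4 f5 l = a.cd tag' f1' f2' f3' f4' f5' l') :
    tag = tag' ∧ f1 = f1' ∧ f2 = f2' ∧ f3 = f3' ∧ f4 = f4' ∧ f5 = f5' ∧ l = l' := by
  obtain ⟨e0, e1, e2, e3, e4, e5, e6⟩ := dec_cd f5 ht h1 h2 h3 h4 hl
  obtain ⟨e0', e1', e2', e3', e4', e5', e6'⟩ := dec_cd f5' ht' h1' h2' h3' h4' hl'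
  rw [h] at e0 e1 e2 e3 e4 e5 e6
  exact ⟨e0.symm.trans e0', e1.symm.trans e1', e2.symm.trans e2', e3.symm.trans e3',
    e4.symm.trans e4', e5.symm.trans e5', e6.symm.trans e6'⟩

lemma om_inj {l l' : ℕ} (h : a.om l = a.om l') : l = l' := by
  unfold om cd at h
  omega

lemma om_lt {l : ℕ} (hl : l < a.Lm) : a.om l < a.sys1.nv :=
  cd_lt (by omega) a.Z_pos a.Z_pos a.Z_pos a.Z_pos a.Z_pos hl

/-! ### Lines -/

lemma off_lt {num u : ℕ} (hn : num < a.A * a.B') (hu : u < a.b * a.b) :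
    num / a.B' * u + num % a.B' < 2 * a.B' := by
  have h1 : num / a.B' < a.A := Nat.div_lt_of_lt_mul (by rwa [mul_comm] at hn)
  have h2 : num % a.B' < a.B' := Nat.mod_lt _ a.B'_pos
  have h3 : num / a.B' * u ≤ a.A * (a.b * a.b) := Nat.mul_le_mul h1.le hu.le
  have h4 : a.B' = a.A * (a.b * a.b) := rfl
  omega

lemma ln_lt {num u : ℕ} (hn : num < a.A * a.B') (hu : u < a.b * a.b) : a.ln num u < a.Lm := by
  have := digit_lt (off_lt hn hu) hu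
  unfold ln Lm
  rw [mul_comm u, mul_comm (a.b * a.b)]
  omega

lemma ln_eq {num u num' u' : ℕ} (hn : num < a.A * a.B') (hu : u < a.b * a.b)
    (hn' : num' < a.A * a.B') (hu' : u' < a.b * a.b) (h : a.ln num u = a.ln num' u') :
    u = u' ∧ num / a.B' * u + num % a.B' = num' / a.B' * u + num' % a.B' := by
  have h1 := digit_div (off_lt hn hu) u
  have h2 := digit_div (off_lt hn' hu') u'
  unfold ln at h
  rw [mul_comm u, mul_comm u', add_comm, add_comm (2 * a.B' * u')] at h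
  have e : u = u' := by rw [← h1, h, h2]
  subst e
  exact ⟨rfl, by omega⟩

lemma lines_comp {Γ X Y : Type} {b : ℕ} {Gd : Set Γ} {rd : Γ → Bool → ℕ → X} (h : Lines b rd Gd)
    (F : X → Y) (hF : F.Injective) : Lines b (fun γ s u => F (rd γ s u)) Gd where
  inj γ hγ s u u' hu hu' e := h.inj γ hγ s u u' hu hu' (hF e)
  one γ hγ γ' hγ' s s' hne u₁ u₂ v₁ v₂ h1 h2 h3 h4 e1 e2 :=
    h.one γ hγ γ' hγ' s s' hne u₁ u₂ v₁ v₂ h1 h2 h3 h4 (hF e1) (hF e2)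

lemma lines_of {Γ : Type} {Gd : Set Γ} (nm : Γ → Bool → ℕ)
    (hlt : ∀ γ ∈ Gd, ∀ s, nm γ s < a.A * a.B')
    (hinj : ∀ γ ∈ Gd, ∀ γ' ∈ Gd, ∀ s s', nm γ s = nm γ' s' → (γ, s) = (γ', s')) :
    Lines a.b (fun γ s u => a.ln (nm γ s) u) Gd where
  inj γ hγ s u u' hu hu' h := (ln_eq (hlt γ hγ s) hu (hlt γ hγ s) hu' h).1
  one γ hγ γ' hγ' s s' hne u₁ u₂ v₁ v₂ h1 h2 h3 h4 e1 e2 := by
    have k1 := (ln_eq (hlt γ hγ s) h1 (hlt γ' hγ' s') h3 e1).2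
    have k2 := (ln_eq (hlt γ hγ s) h2 (hlt γ' hγ' s') h4 e2).2
    by_contra hu
    refine hne (hinj γ hγ γ' hγ' s s' ?_)
    have d1 := Nat.div_add_mod (nm γ s) a.B'
    have d2 := Nat.div_add_mod (nm γ' s') a.B'
    generalize nm γ s / a.B' = x at *
    generalize nm γ' s' / a.B' = x' at *
    generalize nm γ s % a.B' = y at *
    generalize nm γ' s' % a.B' = y' at *
    have e : ((x : ℤ) - x') * ((u₁ : ℤ) - u₂) = 0 := by
      have k1' : (x : ℤ) * u₁ + y = x' * u₁ + y' := by exact_mod_cast k1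
      have k2' : (x : ℤ) * u₂ + y = x' * u₂ + y' := by exact_mod_cast k2
      linear_combination k1' - k2'
    have hx : x = x' := by
      rcases mul_eq_zero.1 e with h | h <;> omega
    subst hx
    omega

lemma num_lt {r l : ℕ} (hr : r < a.Z) (hl : l < a.Lm) (s : Bool) :
    (r * a.Lm + l) * 2 + s.toNat < a.A * a.B' := by
  have h1 := digit_lt hl hr
  have h2 : s.toNat < 2 := by cases s <;> simp
  have h3 : a.Z ≤ a.Z ^ 5 := Nat.le_self_pow (by omega) _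
  have h4 : a.Lm * a.Z ≤ a.Lm * a.Z ^ 5 := Nat.mul_le_mul_left _ h3
  have h5 : a.A * a.B' = 14 * (a.Lm * a.Z ^ 5) := by unfold Lm A; ring
  rw [mul_comm r]
  omega

lemma num_lt' {g : ℕ} (hg : g ≤ a.sys1.nv) (s : Bool) : 2 * g + s.toNat < a.A * a.B' := by
  have h2 : s.toNat < 2 := by cases s <;> simp
  have h5 : a.A * a.B' = 14 * (a.Lm * a.Z ^ 5) := by unfold Lm A; ring
  have h6 : 2 ≤ a.Lm * a.Z ^ 5 :=
    le_trans (a.two_le_Z.trans (Nat.le_self_pow (by omega) _))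
      (Nat.le_mul_of_pos_left _ a.Lm_pos)
  have h7 : a.Lm * (6 * a.Z ^ 5) = 6 * (a.Lm * a.Z ^ 5) := by ring
  rw [nv_eq, h7] at hg
  omega

lemma hact_lt_Z {r : ℕ} (hr : hact a.h r) : r < a.Z := by
  have h1 : r < 81 * (a.s * a.s * a.s) := hr.1
  have := a.r_lt_Z
  omega

lemma line_lt {r l u : ℕ} (hr : hact a.h r) (hl : l < a.Lm) (s : Bool) (hu : u < a.b * a.b) :
    a.line r l s u < a.Lm := ln_lt (num_lt (hact_lt_Z hr) hl s) hu

lemma crt {Bd ρ : ℕ} (h : Bd < a.P ^ (ρ + 1)) {y : ℤ} (hy : y ≠ 0) (hB : |y| ≤ Bd)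
    (I : Finset ℕ) (hI : ∀ i ∈ I, (a.p i : ℤ) ∣ y) : I.card ≤ ρ := by
  by_contra hc
  have hP : 0 < a.P := Nat.pos_of_ne_zero fun e => by simp [e] at h
  have h1 : ∏ i ∈ I, a.p i ∣ y.natAbs :=
    Finset.prod_dvd_of_isRelPrime (fun i _ j _ hij => Nat.coprime_iff_isRelPrime.1
      ((Nat.coprime_primes (a.p_prime i) (a.p_prime j)).2 fun e => hij (a.p_strictMono.injective e)))
      fun i hi => Int.natCast_dvd.1 (hI i hi)
  have h2 := Nat.le_of_dvd (Int.natAbs_pos.2 hy) h1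
  have h3 : a.P ^ I.card ≤ ∏ i ∈ I, a.p i := pow_card_le_prod _ _ _ fun i _ => a.le_p i
  have h4 : a.P ^ (ρ + 1) ≤ a.P ^ I.card := Nat.pow_le_pow_right hP (by omega)
  have h5 : y.natAbs ≤ Bd := by
    rw [Int.abs_eq_natAbs] at hB
    exact_mod_cast hB
  omega

lemma good_sh (r : ℕ) (s : Bool) (hr : hact a.h r) :
    |(shf (rSh (hs a.h) r s)).1| ≤ 1 ∧ |(shf (rSh (hs a.h) r s)).2| ≤ 1 := by
  have h9 := rSh_lt hr.1 s
  generalize rSh (hs a.h) r s = d at h9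
  simp only [shf]
  constructor <;> rw [abs_le] <;> omega

lemma good_lines : Lines a.b (fun (γ : ℕ × ℕ) s u => a.line γ.1 γ.2 s u)
    {γ | hact a.h γ.1 ∧ γ.2 < a.Lm} := by
  unfold line
  refine lines_of (a := a) (fun (γ : ℕ × ℕ) s => (γ.1 * a.Lm + γ.2) * 2 + s.toNat)
    (fun γ hγ s => num_lt (hact_lt_Z hγ.1) hγ.2 s) fun γ hγ γ' hγ' s s' e => ?_
  have k1 : γ.2 < a.Lm := hγ.2
  have k2 : γ'.2 < a.Lm := hγ'.2
  have h1 : s = s' := by
    cases s <;> cases s' <;> simp only [Bool.toNat_true, Bool.toNat_false] at e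
    · rfl
    · omega
    · omega
    · rfl
  subst h1
  have h2 : γ.2 + a.Lm * γ.1 = γ'.2 + a.Lm * γ'.1 := by
    rw [mul_comm a.Lm γ.1, mul_comm a.Lm γ'.1]
    omega
  have h3 : γ.1 = γ'.1 := by rw [← digit_div k1 γ.1, h2, digit_div k2]
  rw [h3] at h2
  rw [show γ = γ' from Prod.ext h3 (by omega)]

lemma good_crt {Bd ρ : ℕ} (h : Bd < a.P ^ (ρ + 1)) (x : ℤ × ℤ) (hx : x ≠ 0) (h1 : |x.1| ≤ Bd)
    (h2 : |x.2| ≤ Bd) (I : Finset ℕ) (hI : ∀ i ∈ I, a.rs.red i x = a.rs.red i 0) :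
    I.card ≤ ρ := by
  have key : ∀ i ∈ I, (a.p i : ℤ) ∣ x.1 ∧ (a.p i : ℤ) ∣ x.2 := fun i hi => by
    have e := hI i hi
    simp only [rs, Prod.mk.injEq, Prod.fst_zero, Prod.snd_zero, Int.zero_emod] at e
    exact ⟨Int.dvd_of_emod_eq_zero e.1, Int.dvd_of_emod_eq_zero e.2⟩
  by_cases e : x.1 = 0
  · exact crt h (fun e' => hx (Prod.ext e e')) h2 _ fun i hi => (key i hi).2
  · exact crt h e h1 _ fun i hi => (key i hi).1

lemma good {Bd ρ : ℕ} (h : Bd < a.P ^ (ρ + 1)) : a.rs.Good Bd ρ where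
  sh r s hr := good_sh r s hr
  pr r s hr := by
    cases s
    · exact hr.2.1
    · exact hr.2.2.1
  lt r l s u hr hl hu := line_lt hr hl s hu
  lines := good_lines
  red i A d := by simp only [rs, Prod.fst_add, Prod.snd_add, Int.emod_add_emod]
  crt x hx h1 h2 := good_crt h x hx h1 h2 _ fun i hi => (mem_filter.1 hi).2

lemma slotF_lt {tag f1 f2 f3 f4 f5 l : ℕ} (h1 : f1 < a.Z) (h2 : f2 < a.Z)
    (h3 : f3 < a.Z) (h4 : f4 < a.Z) (h5 : f5 < a.Z) (hl : l < a.Lm) (j : ℕ) :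
    a.slotF tag f1 f2 f3 f4 f5 l j < a.sys1.nv := by
  have h0 : 0 < a.sys1.nv := by rw [nv_eq]; omega
  have hZ := a.Z_pos
  have hs := a.s_lt_Z
  have hb := a.bb_lt_Z
  have hk := a.k_lt_Z
  have hm : ∀ x, f3 < a.k → x % a.p f3 < a.Z := fun x h =>
    (Nat.mod_lt _ (a.p_pos _)).trans (a.p_lt_Z h.le)
  unfold slotF
  split_ifs with c1 c2 c3 c4 c5 c6 c7
  all_goals first
    | with_reducible exact h0
    | with_reducible exact om_lt hl
    | (with_reducible refine cd_lt ?_ ?_ ?_ ?_ ?_ ?_ hl) <;> omega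
    | skip
  · have := rCn_lt (hact_pos c1.2.1) f1
    exact cd_lt (by omega) (lt_trans this (by change a.s < _; omega)) h3 h4 h5 hZ hl
  · have := rPr_lt (hact_pos c1.2.1) f1 (pside a.b f2)
    exact cd_lt (by omega) (lt_trans this (by change a.s < _; omega)) h3 (hm _ c1.2.2.2.1)
      (hm _ c1.2.2.2.1) hZ (line_lt c1.2.1 hl _ (pidx_lt c1.2.2.1 c5))
  · exact cd_lt (by omega) h1 h3 hZ (hm _ (by assumption)) hZ hl

lemma sys1_wf : a.sys1.WF := by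
  refine ⟨by rw [nv_eq]; omega, by rw [ne_eq]; omega, fun e he j _ => ?_⟩
  by_cases h0 : e = 0
  · rw [h0, slot_zero, nv_eq]
    omega
  · rw [slot_eq a h0]
    exact slotF_lt (a.d1_lt _) (a.d2_lt _) (a.d3_lt _) (a.d4_lt _) (a.d5_lt he) (a.dL_lt _) j

lemma lines_rdN : Lines a.b a.rdN {g | g ≤ a.sys1.nv} := by
  unfold rdN
  refine lines_comp (lines_of (a := a) (fun g s => 2 * g + s.toNat)
    (fun _ hg s => num_lt' hg s) fun g _ g' _ s s' e => ?_) a.om fun _ _ h => om_inj h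
  cases s <;> cases s' <;> simp only [Bool.toNat_true, Bool.toNat_false] at e
  · rw [show g = g' by omega]
  · omega
  · omega
  · rw [show g = g' by omega]

end Par

theorem parStmt : ParStmt := fun a =>
  ⟨fun _ _ h => Par.good h, Par.lines_rdN, fun _ hg s _ hu => Par.ln_lt (Par.num_lt' hg s) hu,
    fun _ hl => Par.om_lt hl, Par.sys1_wf, a.slot_zero⟩

end Crest.Agent.R290
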