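import Crest.Agent.R290.Lin
import Crest.Agent.R290.Exp
import Crest.Agent.R290.Par

/-! Row 290: Spoiler's side of the covering construction. -/

set_option autoImplicit false

namespace Crest.Agent.R290

open Finset

namespace CoverS

/-- From an equation with three slots and two derivable slots, derive the third. -/
lemma tri {V : Type} {E : Set (Fm V)} {W : Set V} {K : ℕ} (hK : 3 ≤ K) {a b c : V} {τ : Fm V}
    (hτ : Cov W ∅ τ) (h : Dv E W K (sg a + sg b + sg c + τ)) (ha : Dv E W K (sg a))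
    (hb : Dv E W K (sg b)) : Dv E W K (sg c + τ) := by
  classical
  have hS : ({a, b, c} : Finset V).card ≤ K := card_le_three.trans hK
  have ca : Cov W {a, b, c} (sg a) := Cov.sg_mem (by simp)
  have cb : Cov W {a, b, c} (sg b) := Cov.sg_mem (by simp)
  have cc : Cov W {a, b, c} (sg c) := Cov.sg_mem (by simp)
  have ct : Cov W {a, b, c} τ := hτ.monoS (empty_subset _)
  have h1 := Dv.add _ ha hb ca cb hS
  have h2 := Dv.add _ h1 h (ca.add cb) (((ca.add cb).add cc).add ct) hS
  rwa [add_assoc (sg a + sg b) (sg c), fm_add_cancel_left] at h2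

variable (S : Sys3) (b : ℕ) (rdN : ℕ → Bool → ℕ → ℕ)

/-- The variable of edge `u` of gadget `g` (variable `0` at the two ends). -/
def ed (g u : ℕ) : ℕ :=
  if u = 0 ∨ u = 4 * (b * b) + 1 then 0 else S.nv + g * (4 * (b * b)) + (u - 1)

/-- The pendant variable. -/
def pn (g u : ℕ) : ℕ := pend b rdN (fun g => if g < S.nv then g else 0) g u

/-- The number of an equation of a gadget. -/
def en (g u : ℕ) : ℕ := S.ne + (u + (4 * (b * b) + 1) * g)

variable {S b rdN}

lemma slot_en {g u : ℕ} (hu : u ≤ 4 * (b * b)) :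
    (cover S b rdN).slot (en S b g u) 0 = ed S b g u ∧
    (cover S b rdN).slot (en S b g u) 1 = pn S b rdN g u ∧
    (cover S b rdN).slot (en S b g u) 2 = ed S b g (u + 1) := by
  have h1 : ¬ en S b g u < S.ne := by unfold en; omega
  have h2 : en S b g u - S.ne = u + (4 * (b * b) + 1) * g := by unfold en; omega
  have h3 : (u + (4 * (b * b) + 1) * g) % (4 * (b * b) + 1) = u := Par.digit_mod (by omega) g
  have h4 : (u + (4 * (b * b) + 1) * g) / (4 * (b * b) + 1) = g := Par.digit_div (by omega) g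
  simp only [cover, if_neg h1, h2, h3, h4, ed, pn]
  refine ⟨?_, ?_, ?_⟩
  · have : u ≠ 4 * (b * b) + 1 := by omega
    simp [this]
  · simp
  · simp

lemma en_lt {g u : ℕ} (hg : g ≤ S.nv) (hu : u ≤ 4 * (b * b)) :
    en S b g u < (cover S b rdN).ne := by
  have := Par.digit_lt (show u < 4 * (b * b) + 1 by omega) (show g < S.nv + 1 by omega)
  simp only [cover, en]
  rw [mul_comm (S.nv + 1)]
  omega

lemma en_eq_tw {g u : ℕ} (hu : u ≤ 4 * (b * b)) :
    en S b g u = (cover S b rdN).tw ↔ g = S.nv ∧ u = 2 * (b * b) := by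
  simp only [cover, en]
  rw [mul_comm S.nv]
  constructor
  · intro h
    have h1 : u + (4 * (b * b) + 1) * g = 2 * (b * b) + (4 * (b * b) + 1) * S.nv := by omega
    have h2 : g = S.nv := by
      rw [← Par.digit_div (show u < 4 * (b * b) + 1 by omega) g, h1, Par.digit_div (by omega)]
    rw [h2] at h1
    exact ⟨h2, by omega⟩
  · rintro ⟨rfl, rfl⟩
    omega

lemma exists_en {e : ℕ} (h1 : S.ne ≤ e) (h2 : e < (cover S b rdN).ne) :
    ∃ g u, g ≤ S.nv ∧ u ≤ 4 * (b * b) ∧ e = en S b g u := by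
  simp only [cover] at h2
  refine ⟨(e - S.ne) / (4 * (b * b) + 1), (e - S.ne) % (4 * (b * b) + 1), ?_, ?_, ?_⟩
  · have : e - S.ne < (4 * (b * b) + 1) * (S.nv + 1) := by rw [mul_comm]; omega
    exact Nat.lt_succ_iff.1 (Nat.div_lt_of_lt_mul this)
  · exact Nat.lt_succ_iff.1 (Nat.mod_lt _ (by omega))
  · rw [en, Nat.mod_add_div]
    omega

lemma eqn_en {g u : ℕ} (hu : u ≤ 4 * (b * b)) : (cover S b rdN).eqn (en S b g u) =
    sg (some (ed S b g u)) + sg (some (pn S b rdN g u)) + sg (some (ed S b g (u + 1))) +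
      if g = S.nv ∧ u = 2 * (b * b) then sg none else 0 := by
  obtain ⟨h0, h1, h2⟩ := slot_en (S := S) (rdN := rdN) (g := g) hu
  simp only [Sys3.eqn, h0, h1, h2, en_eq_tw hu]

lemma der_en {g u : ℕ} (hg : g ≤ S.nv) (hu : u ≤ 4 * (b * b)) (w : ℕ) : (cover S b rdN).Der w
    (sg (some (ed S b g u)) + sg (some (pn S b rdN g u)) + sg (some (ed S b g (u + 1))) +
      if g = S.nv ∧ u = 2 * (b * b) then sg none else 0) :=
  Dv.base ⟨_, en_lt hg hu, (eqn_en hu).symm⟩

lemma eqn_old {e : ℕ} (he : e < S.ne) :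
    (cover S b rdN).eqn e = Finsupp.mapDomain some (S.eq0 e) := by
  have h : e ≠ (cover S b rdN).tw := by simp only [cover]; omega
  rw [Sys3.eqn, if_neg h, add_zero]
  simp only [cover, if_pos he, Sys3.eq0, Finsupp.mapDomain_add, sg, Finsupp.mapDomain_single]

lemma der_old {w : ℕ} {f : Fm ℕ} (h : Dv S.E0 ∅ w f) :
    (cover S b rdN).Der w (Finsupp.mapDomain some f) :=
  Dv.mapDomain some (fun _ h => absurd h (Set.notMem_empty _)) (fun _ hg => by
    obtain ⟨e, he, hf⟩ := hg
    exact Dv.base ⟨e, by simp only [cover]; omega, by rw [hf, eqn_old he]⟩) h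

lemma der_zero (hW : S.WF) (hZ : S.Zero) (w : ℕ) : (cover S b rdN).Der w (sg (some 0)) := by
  have := der_old (b := b) (rdN := rdN) (Dv.base (W := ∅) (K := w) ⟨0, hW.2.1, rfl⟩ : Dv S.E0 ∅ w _)
  rwa [Sys3.eq0, hZ 0, hZ 1, hZ 2, fm_add_self, zero_add, sg, Finsupp.mapDomain_single] at this

lemma ed_lt (hW : S.WF) {g u : ℕ} (hg : g ≤ S.nv) (hu : u ≤ 4 * (b * b) + 1) :
    ed S b g u < (cover S b rdN).nv := by
  have h0 := hW.1
  have : (g + 1) * (4 * (b * b)) ≤ (S.nv + 1) * (4 * (b * b)) := Nat.mul_le_mul_right _ (by omega)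
  rw [add_mul, one_mul] at this
  simp only [ed, cover]
  split_ifs <;> omega

lemma pn_lt (hW : S.WF) (hr : ∀ g ≤ S.nv, ∀ s u, u < b * b → rdN g s u < S.nv) {g u : ℕ}
    (hg : g ≤ S.nv) (hu : u ≤ 4 * (b * b)) : pn S b rdN g u < S.nv := by
  have h0 := hW.1
  simp only [pn, pend]
  split_ifs with h1 h2
  · exact h2
  · exact h0
  · exact hr g hg _ _ (pidx_lt hu h1)

lemma wf (hW : S.WF) (hr : ∀ g ≤ S.nv, ∀ s u, u < b * b → rdN g s u < S.nv) :
    (cover S b rdN).WF := by
  have h0 := hW.1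
  have h1 := hW.2.1
  have hnv : S.nv ≤ (cover S b rdN).nv := Nat.le_add_right _ _
  refine ⟨by omega, by simp only [cover]; omega, fun e he j hj => ?_⟩
  by_cases h : e < S.ne
  · have : (cover S b rdN).slot e j = S.slot e j := if_pos h
    rw [this]
    exact (hW.2.2 e h j hj).trans_le hnv
  · obtain ⟨g, u, hg, hu, rfl⟩ := exists_en (not_lt.1 h) he
    obtain ⟨k0, k1, k2⟩ := slot_en (S := S) (rdN := rdN) (g := g) hu
    have : j = 0 ∨ j = 1 ∨ j = 2 := by omega
    rcases this with rfl | rfl | rfl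
    · rw [k0]; exact ed_lt hW hg (by omega)
    · rw [k1]; exact (pn_lt hW hr hg hu).trans_le hnv
    · rw [k2]; exact ed_lt hW hg (by omega)

lemma cov_tw {T : Finset (Option ℕ)} (c : Prop) [Decidable c] :
    Cov {none} T (if c then sg none else 0) :=
  Cov.ite (fun _ => Cov.sg_memW rfl) fun _ => Cov.zero _ _

lemma unsat (hW : S.WF) (hZ : S.Zero) (hr : ∀ g ≤ S.nv, ∀ s u, u < b * b → rdN g s u < S.nv) :
    ∃ w, (cover S b rdN).Der w (sg none) := by
  set T : Finset (Option ℕ) := (range (cover S b rdN).nv).image some with hT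
  have hnv : S.nv ≤ (cover S b rdN).nv := Nat.le_add_right _ _
  have hc : ∀ v < (cover S b rdN).nv, Cov {none} T (sg (some v)) := fun v hv =>
    Cov.sg_mem (mem_image_of_mem _ (mem_range.2 hv))
  have hcov : ∀ u ∈ range (4 * (b * b) + 1), Cov {none} T (sg (some (ed S b S.nv u)) +
      sg (some (pn S b rdN S.nv u)) + sg (some (ed S b S.nv (u + 1))) +
      if S.nv = S.nv ∧ u = 2 * (b * b) then sg none else 0) := fun u hu => by
    have hu' := Nat.lt_succ_iff.1 (mem_range.1 hu)
    exact (((hc _ (ed_lt hW le_rfl (by omega))).add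
      (hc _ ((pn_lt hW hr le_rfl hu').trans_le hnv))).add
        (hc _ (ed_lt hW le_rfl (by omega)))).add (cov_tw _)
  have h1 := Dv.sum (E := (cover S b rdN).E) T le_rfl fun u hu =>
    ⟨der_en le_rfl (Nat.lt_succ_iff.1 (mem_range.1 hu)) _, hcov u hu⟩
  have h2 := Dv.add T h1 (der_zero hW hZ _) (Cov.sum hcov) (hc 0 (hW.1.trans_le hnv)) le_rfl
  refine ⟨T.card, ?_⟩
  -- the total sum
  have e1 : ∑ u ∈ range (4 * (b * b) + 1), (sg (some (ed S b S.nv u)) +
      sg (some (ed S b S.nv (u + 1))) : Fm (Option ℕ)) = 0 := by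
    have : ∀ n, ∑ u ∈ range n, (sg (some (ed S b S.nv u)) +
        sg (some (ed S b S.nv (u + 1))) : Fm (Option ℕ)) =
        sg (some (ed S b S.nv 0)) + sg (some (ed S b S.nv n)) := fun n => by
      induction n with
      | zero => simp
      | succ n ih => rw [sum_range_succ, ih, add_assoc, fm_add_cancel_left]
    rw [this]
    simp [ed]
  have e2 : ∑ u ∈ range (4 * (b * b) + 1), (sg (some (pn S b rdN S.nv u)) : Fm (Option ℕ)) =
      sg (some 0) := by
    have := congrArg (sub fun v : ℕ ⊕ ℕ × ℕ => (match v with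
      | Sum.inl x => sg (some x)
      | Sum.inr _ => 0 : Fm (Option ℕ)))
      (gsumStmt ℕ ℕ b rdN (fun g => if g < S.nv then g else 0) S.nv)
    rw [map_sum, sub_sg] at this
    simp only [lt_irrefl, if_false] at this
    rw [← this]
    refine sum_congr rfl fun u _ => ?_
    simp only [geq, map_add, apply_ite, map_zero, sub_sg, ite_self, zero_add, add_zero, pn]
  have e3 : ∑ u ∈ range (4 * (b * b) + 1), (if S.nv = S.nv ∧ u = 2 * (b * b) then sg none else 0 :
      Fm (Option ℕ)) = sg none := by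
    simp only [true_and]
    rw [sum_ite_eq' , if_pos (mem_range.2 (by omega))]
  rw [sum_add_distrib, e3, sum_congr rfl fun u _ => add_right_comm _ _ _, sum_add_distrib, e1, e2,
    zero_add, add_comm (sg (some 0)), fm_add_cancel_right] at h2
  exact h2

lemma der_all (hW : S.WF) (hZ : S.Zero) {w : ℕ} (hw : 3 ≤ w)
    (hr : ∀ g ≤ S.nv, ∀ s u, u < b * b → Dv S.E0 ∅ w (sg (rdN g s u))) :
    (∀ g ≤ S.nv, ∀ u ≤ 4 * (b * b) + 1, (cover S b rdN).Der w (sg (some (ed S b g u)))) ∧
    (cover S b rdN).Der w (sg none) ∧ ∀ v < S.nv, (cover S b rdN).Der w (sg (some v)) := by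
  have hz := der_zero (b := b) (rdN := rdN) hW hZ w
  have hp : ∀ g ≤ S.nv, ∀ u ≤ 4 * (b * b), u ≠ 2 * (b * b) →
      (cover S b rdN).Der w (sg (some (pn S b rdN g u))) := fun g hg u hu h => by
    have := der_old (b := b) (rdN := rdN) (hr g hg (pside b u) _ (pidx_lt hu h))
    rw [sg, Finsupp.mapDomain_single] at this
    rwa [pn, pend, if_neg h]
  have hl : ∀ g ≤ S.nv, ∀ u ≤ 2 * (b * b), (cover S b rdN).Der w (sg (some (ed S b g u))) := by
    intro g hg u
    induction u with
    | zero => exact fun _ => by simpa [ed] using hz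
    | succ u ih =>
      intro hu
      have h := der_en (rdN := rdN) hg (show u ≤ 4 * (b * b) by omega) w
      have := tri hw (cov_tw _) h (ih (by omega)) (hp g hg u (by omega) (by omega))
      rwa [if_neg (by omega), add_zero] at this
  have hrt : ∀ g ≤ S.nv, ∀ n ≤ 2 * (b * b),
      (cover S b rdN).Der w (sg (some (ed S b g (4 * (b * b) + 1 - n)))) := by
    intro g hg n
    induction n with
    | zero => exact fun _ => by simpa [ed] using hz
    | succ n ih =>
      intro hn
      have h := der_en (rdN := rdN) hg (show 4 * (b * b) + 1 - (n + 1) ≤ 4 * (b * b) by omega) w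
      rw [add_comm (sg _), add_right_comm (sg _), show 4 * (b * b) + 1 - (n + 1) + 1 =
        4 * (b * b) + 1 - n by omega] at h
      have := tri hw (cov_tw _) h (hp g hg _ (by omega) (by omega)) (ih (by omega))
      rwa [if_neg (by omega), add_zero] at this
  have he : ∀ g ≤ S.nv, ∀ u ≤ 4 * (b * b) + 1, (cover S b rdN).Der w (sg (some (ed S b g u))) := by
    intro g hg u hu
    by_cases h : u ≤ 2 * (b * b)
    · exact hl g hg u h
    · have := hrt g hg (4 * (b * b) + 1 - u) (by omega)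
      rwa [show 4 * (b * b) + 1 - (4 * (b * b) + 1 - u) = u by omega] at this
  have hroot : ∀ g ≤ S.nv, (cover S b rdN).Der w (sg (some (if g < S.nv then g else 0)) +
      if g = S.nv then sg none else 0) := fun g hg => by
    have h := der_en (rdN := rdN) hg (show 2 * (b * b) ≤ 4 * (b * b) by omega) w
    rw [add_right_comm (sg _)] at h
    have := tri hw (cov_tw _) h (he g hg _ (by omega)) (he g hg _ (by omega))
    simpa only [Sys3.Der, pn, pend, if_true, and_true] using this
  refine ⟨he, ?_, fun v hv => ?_⟩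
  · have h := hroot S.nv le_rfl
    rw [if_neg (lt_irrefl _), if_pos rfl] at h
    have c0 : Cov {none} {some 0} (sg (some 0) : Fm (Option ℕ)) := Cov.sg_mem (by simp)
    have := Dv.add {some 0} hz h c0 (c0.add (Cov.sg_memW rfl)) (by simp; omega)
    rwa [fm_add_cancel_left] at this
  · have h := hroot v hv.le
    rwa [if_pos hv, if_neg hv.ne, add_zero] at h

end CoverS

open CoverS in
theorem coverSStmt : CoverSStmt := by
  intro S b rdN hW hZ hb hr
  refine ⟨wf hW hr, unsat hW hZ hr, fun w hw hd => ?_⟩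
  obtain ⟨h1, h2, h3⟩ := der_all hW hZ (show 3 ≤ w by omega) hd
  refine ⟨h2, fun v hv => ?_⟩
  by_cases h : v < S.nv
  · exact h3 v h
  · have hb' : 0 < 4 * (b * b) := Nat.mul_pos (by omega) (Nat.mul_pos hb hb)
    have hv' : v - S.nv < 4 * (b * b) * (S.nv + 1) := by
      simp only [cover] at hv
      rw [mul_comm]
      omega
    have k1 := Nat.mod_lt (v - S.nv) hb'
    have k2 := Nat.div_add_mod (v - S.nv) (4 * (b * b))
    have := h1 _ (Nat.lt_succ_iff.1 (Nat.div_lt_of_lt_mul hv')) ((v - S.nv) % (4 * (b * b)) + 1)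
      (by omega)
    rw [ed, if_neg (by omega), mul_comm _ (4 * (b * b))] at this
    convert this using 3
    omega

theorem coverSStmt_of (_hL : LinBasicStmt) : CoverSStmt := coverSStmt

end Crest.Agent.R290
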