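import Crest.Agent.R290.Nbr

/-! Row 290: the numbering of the nodes, and the basic properties of the graph. -/

set_option autoImplicit false

namespace Crest.Agent.R290

open Crest.WLRefine Finset

namespace Dec

variable (S : Sys3) (n : ℕ)

def enc : Nd → ℕ
  | .sp j => j
  | .fk i => S.len n + 5 * i
  | .dd i b => S.len n + 5 * i + 1 + b.toNat
  | .cc i b => S.len n + 5 * i + 3 + b.toNat
  | .pt o b => S.len n + 5 * S.nb + 10 * (o / 3) + 2 * (o % 3) + b.toNat
  | .md e b₁ b₂ => S.len n + 5 * S.nb + 10 * e + 6 + 2 * b₁.toNat + b₂.toNat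

variable {S n}

theorem toNat_decide (p : Prop) [Decidable p] :
    (p ∧ (decide p).toNat = 1) ∨ (¬ p ∧ (decide p).toNat = 0) := by
  by_cases h : p <;> simp [h]

theorem enc_dec (v : ℕ) : enc S n (S.dec n v) = v := by
  unfold Sys3.dec
  split_ifs <;> simp only [enc]
  · omega
  · have := toNat_decide ((v - S.len n) % 5 = 2); omega
  · have := toNat_decide ((v - S.len n) % 5 = 4); omega
  · have := toNat_decide ((v - S.len n - 5 * S.nb) % 10 % 2 = 1); omega
  · have := toNat_decide ((v - S.len n - 5 * S.nb) % 10 % 2 = 1)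
    have := toNat_decide (8 ≤ (v - S.len n - 5 * S.nb) % 10); omega

theorem valid_dec (h : S.size ≤ n) {v : ℕ} (hv : v < n) : S.Valid n (S.dec n v) := by
  have := Sys3.len_add h
  unfold Sys3.dec
  split_ifs <;> simp only [Sys3.Valid, Sys3.no] <;> omega

theorem enc_lt (h : S.size ≤ n) {a : Nd} (ha : S.Valid n a) : enc S n a < n := by
  have := Sys3.len_add h
  cases a with
  | sp j => simp only [Sys3.Valid, enc] at ha ⊢; omega
  | fk i => simp only [Sys3.Valid, enc] at ha ⊢; omega
  | dd i b => have := b.toNat_le; simp only [Sys3.Valid, enc] at ha ⊢; omega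
  | cc i b => have := b.toNat_le; simp only [Sys3.Valid, enc] at ha ⊢; omega
  | pt o b => have := b.toNat_le; simp only [Sys3.Valid, enc, Sys3.no] at ha ⊢; omega
  | md e b₁ b₂ =>
    have := b₁.toNat_le; have := b₂.toNat_le; simp only [Sys3.Valid, enc] at ha ⊢; omega

theorem enc_inj {a a' : Nd} (ha : S.Valid n a) (ha' : S.Valid n a')
    (h : enc S n a = enc S n a') : a = a' := by
  rcases a with j | i | ⟨i, _ | _⟩ | ⟨i, _ | _⟩ | ⟨o, _ | _⟩ | ⟨e, _ | _, _ | _⟩ <;>
  rcases a' with j | i | ⟨i, _ | _⟩ | ⟨i, _ | _⟩ | ⟨o, _ | _⟩ | ⟨e, _ | _, _ | _⟩ <;>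
  simp only [Sys3.Valid, enc, Bool.toNat_true, Bool.toNat_false] at ha ha' h <;>
  first | (exfalso; omega) | (congr 1 <;> omega)

noncomputable def eqv (h : S.size ≤ n) : Fin n ≃ {a // S.Valid n a} where
  toFun v := ⟨S.dec n v.val, valid_dec h v.2⟩
  invFun a := ⟨enc S n a.1, enc_lt h a.2⟩
  left_inv v := Fin.ext (enc_dec v.val)
  right_inv a := Subtype.ext (enc_inj (valid_dec h (enc_lt h a.2)) a.2 (enc_dec _))

end Dec

theorem decStmt : DecStmt := fun _ _ h => ⟨Dec.eqv h, fun _ => rfl⟩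

theorem graphBasicStmt_of (hD : DecStmt) : GraphBasicStmt := by
  intro S n tw hS h
  obtain ⟨e, he⟩ := hD S n h
  have hlen := Sys3.len_ge h
  refine ⟨⟨fun v w => Sys3.adj_comm _ _, fun v => Sys3.adj_self _⟩, ?_, fun v => ?_⟩
  · have h0 : S.Valid n (.sp 0) := by simp only [Sys3.Valid]; omega
    let R : Nd → Prop := fun a => ∀ ha : S.Valid n a,
      (adjGraph (S.gr n tw)).Reachable (e.symm ⟨a, ha⟩) (e.symm ⟨.sp 0, h0⟩)
    have step : ∀ a a', S.Valid n a' → S.adj tw a a' = true → R a' → R a := by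
      intro a a' ha' hadj hR ha
      refine SimpleGraph.Reachable.trans ?_ (hR ha')
      by_cases hne : e.symm ⟨a, ha⟩ = e.symm ⟨a', ha'⟩
      · rw [hne]
      · refine SimpleGraph.Adj.reachable ?_
        rw [adjGraph, SimpleGraph.fromRel_adj]
        refine ⟨hne, Or.inl ?_⟩
        unfold Sys3.gr
        rw [← he, ← he, e.apply_symm_apply, e.apply_symm_apply]
        exact hadj
    have hsp : ∀ j, R (.sp j) := by
      intro j
      induction j with
      | zero => exact fun _ => SimpleGraph.Reachable.refl _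
      | succ j ih =>
        intro hj
        exact step _ (.sp j) (by simp only [Sys3.Valid] at hj ⊢; omega)
          (Sys3.adj_sp.2 (Or.inr (Or.inl ⟨j, rfl, rfl⟩))) ih hj
    have hfk : ∀ i, R (.fk i) := fun i hi =>
      step _ (.sp (4 + 2 * i)) (by simp only [Sys3.Valid] at hi ⊢; omega)
        (Sys3.adj_fk.2 (Or.inl rfl)) (hsp _) hi
    have hdd : ∀ i b, R (.dd i b) := fun i b hi =>
      step _ (.fk i) hi (Sys3.adj_dd.2 (Or.inl rfl)) (hfk _) hi
    have hcc : ∀ i b, R (.cc i b) := fun i b hi =>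
      step _ (.dd i b) hi (Sys3.adj_cc.2 (Or.inl rfl)) (hdd _ _) hi
    have hpt : ∀ o b, R (.pt o b) := fun o b ho =>
      step _ (.cc _ b) (Sys3.slot_block_lt hS ho) ((Sys3.adj_pt ho).2 (Or.inl rfl)) (hcc _ _) ho
    have hmd : ∀ e b₁ b₂, R (.md e b₁ b₂) := fun e b₁ b₂ he =>
      step _ (.pt (3 * e + 0) _) (by simp only [Sys3.Valid, Sys3.no] at he ⊢; omega)
        (Sys3.adj_md.2 ⟨0, by norm_num, rfl⟩) (hpt _ _) he
    have hall : ∀ a, R a := by
      intro a
      cases a
      exacts [hsp _, hfk _, hdd _ _, hcc _ _, hpt _ _, hmd _ _ _]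
    have hv : ∀ v, (adjGraph (S.gr n tw)).Reachable v (e.symm ⟨.sp 0, h0⟩) := by
      intro v
      have := hall (e v).1 (e v).2
      rwa [Subtype.coe_eta, e.symm_apply_apply] at this
    have : Nonempty (Fin n) := ⟨e.symm ⟨.sp 0, h0⟩⟩
    exact ⟨fun v w => (hv v).trans (hv w).symm⟩
  · obtain ⟨x, y, z, hxyz⟩ := Sys3.three_nbrs (S := S) (tw := tw) (S.dec n v.val)
    refine le_trans (Finset.card_le_card_of_injOn (fun w : Fin n => S.dec n w.val)
      (t := {x, y, z}) ?_ ?_) Finset.card_le_three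
    · intro w hw
      simp only [coe_filter, mem_univ, true_and, Set.mem_ofPred_eq] at hw
      simpa using hxyz _ hw
    · intro w _ w' _ hww
      apply e.injective
      apply Subtype.ext
      rw [he, he]; exact hww

theorem graphBasicStmt : GraphBasicStmt := graphBasicStmt_of decStmt

end Crest.Agent.R290
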