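import Crest.Agent.R290.Defs

/-!
Row 290: padding (`padStmt`) and membership in EXPTIME through a unary pad (`inExpStmt`).
-/

set_option autoImplicit false

namespace Crest.Agent.R290

open Crest.Agent.PT Turing Function

namespace Pad

/-- The machine of a program with both alphabets `Bool`. -/
noncomputable def mach (p : Prog) : TM2ComputableAux Bool Bool where
  tm := machine p
  inputAlphabet := Equiv.refl _
  outputAlphabet := Equiv.refl _

theorem out_of_run (p : Prog) (y : Word) (b : Bool) (t : ℕ)
    (h : Run p (update (fun _ => []) 0 y) (update (fun _ => []) 1 [b]) t) :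
    Out (mach p) y b t := by
  obtain ⟨t', ht', h⟩ := h
  refine ⟨{ steps := t', evals_in_steps := ?_, steps_le_m := ht' }⟩
  have hs := sim (R := p.maxReg + 1) (code p id none) h (Nat.le_succ _) id none
    (fun _ => rfl)
  have e0 : initList (machine p) (List.map (Equiv.refl Bool).invFun y) =
      (⟨some (entry p), none, res _ (update (fun _ => []) 0 y)⟩ : Cf (p.maxReg + 1) (Lbl p)) := by
    rw [← res_update (Nat.zero_le _)]
    unfold initList
    congr 1
    funext k
    by_cases hk : k = reg (p.maxReg + 1) 0
    · subst hk; simp [machine]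
    · exact (dif_neg hk).trans (update_of_ne (β := fun _ => List Bool) hk _
        (res (p.maxReg + 1) fun _ => [])).symm
  have e1 : haltList (machine p) (List.map (Equiv.refl Bool).invFun [b]) =
      (⟨none, none, res _ (update (fun _ => []) 1 [b])⟩ : Cf (p.maxReg + 1) (Lbl p)) := by
    rw [← res_update (Nat.le_add_left _ _)]
    unfold haltList
    congr 1
    funext k
    by_cases hk : k = reg (p.maxReg + 1) 1
    · subst hk; simp [machine]
    · exact (dif_neg hk).trans (update_of_ne (β := fun _ => List Bool) hk _
        (res (p.maxReg + 1) fun _ => [])).symm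
  simp only [Option.map_some]
  exact (congrArg (fun c => iter (code p id none) _ (some c)) e0).trans
    (hs.trans (congrArg some e1.symm))

/-- Doubling the unary register `4` (scratch registers `5`, `6`). -/
def dblP : Prog := .seq (copyP 4 5 6) (move1 5 4)

theorem run_dbl (s : St) (n : ℕ) (h4 : s 4 = List.replicate n true) (h5 : s 5 = [])
    (h6 : s 6 = []) :
    Run dblP s (update s 4 (List.replicate (2 * n) true)) (13 * n + 3) := by
  have h1 := run_copy (x := 4) (y := 5) (t := 6) (by omega) (by omega) (by omega) s h6
  have h2 := run_move1 (r := 5) (u := 4) (by omega) (update s 5 (s 4 ++ s 5))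
  refine (h1.seq h2).cast (by simp [h4, h5]; omega) ?_
  funext k
  by_cases hk : k = 4
  · subst hk; simp [h4, h5, two_mul]
  · by_cases hk' : k = 5
    · subst hk'; simp [h5]
    · simp [update_of_ne hk, update_of_ne hk']

/-- Value of a word read from its most significant bit, starting from `n`. -/
def val (n : ℕ) (l : Word) : ℕ := l.foldl (fun n b => 2 * n + b.toNat) n

theorem le_val (l : Word) : ∀ n, n ≤ val n l := by
  induction l with
  | nil => intro n; exact le_rfl
  | cons b l ih =>
      intro n
      have := ih (2 * n + b.toNat)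
      show n ≤ val (2 * n + b.toNat) l
      omega

theorem val_bits (n : ℕ) : val 0 n.bits.reverse = n := by
  induction n using Nat.binaryRec' with
  | zero => simp [val]
  | bit b n h ih =>
      rw [Nat.bits_append_bit n b h, List.reverse_cons]
      unfold val at ih ⊢
      rw [List.foldl_append, ih, Nat.bit_val]
      rfl

/-- Expanding register `3` (most significant bit first) into the unary register `4`. -/
def expP : Prog :=
  .loop 3 (.seq (.seq dblP (.ite 3 .skip (.push 4 true) .skip)) (.pop 3))

theorem run_exp (l : Word) : ∀ (s : St) (n : ℕ), s 3 = l → s 4 = List.replicate n true →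
    s 5 = [] → s 6 = [] →
    Run expP s (update (update s 3 []) 4 (List.replicate (val n l) true))
      (l.length * (13 * val n l + 7) + 1) := by
  induction l with
  | nil =>
      intro s n h3 h4 _ _
      have : update (update s 3 []) 4 (List.replicate (val n []) true) = s := by
        show update (update s 3 []) 4 (List.replicate n true) = s
        rw [← h3, update_eq_self, ← h4, update_eq_self]
      rw [this]
      exact (Run.loopN h3).mono (by simp)
  | cons b l ih =>
      intro s n h3 h4 h5 h6
      have h1 := run_dbl s n h4 h5 h6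
      have h2 : Run (.ite 3 .skip (.push 4 true) .skip)
          (update s 4 (List.replicate (2 * n) true))
          (update s 4 (List.replicate (2 * n + b.toNat) true)) 2 := by
        cases b
        · exact Run.iteF (by simp [h3]) (Run.skip _)
        · refine Run.iteT (by simp [h3]) ((Run.push 4 true _).cast le_rfl ?_)
          simp [List.replicate_succ]
      have h3' := (h1.seq h2).seq (Run.pop 3 _)
      have h4' := ih (update (update s 4 (List.replicate (2 * n + b.toNat) true)) 3
        (update s 4 (List.replicate (2 * n + b.toNat) true) 3).tail) (2 * n + b.toNat)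
        (by simp [h3]) (by simp) (by simp [h5]) (by simp [h6])
      have h5' := Run.loopC (by simp [h3]) h3' h4'
      have hv : val n (b :: l) = val (2 * n + b.toNat) l := rfl
      have hle := le_val l (2 * n + b.toNat)
      refine h5'.cast ?_ ?_
      · rw [hv, List.length_cons, add_mul]
        omega
      · rw [hv]
        funext k
        by_cases hk : k = 4
        · subst hk; simp
        · by_cases hk' : k = 3
          · subst hk'; simp
          · simp [update_of_ne hk, update_of_ne hk']

theorem pu_eval (q : Polynomial ℕ) : PU fun x : Word => q.eval x.length := by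
  induction q using Polynomial.induction_on' with
  | add p q hp hq => simpa only [Polynomial.eval_add] using hp.add hq
  | monomial k c =>
      simp only [Polynomial.eval_monomial]
      exact (PU.const c).mul ((PU.length PTime.id).pow_const k)

theorem eval_le_two_pow (p : Polynomial ℕ) :
    ∃ a, ∀ m e, m ≤ 2 ^ e → p.eval m ≤ 2 ^ (a * e + a) := by
  induction p using Polynomial.induction_on' with
  | add p q hp hq =>
      obtain ⟨a, ha⟩ := hp
      obtain ⟨b, hb⟩ := hq
      refine ⟨a + b + 1, fun m e h => ?_⟩
      have h1 : 2 ^ (a * e + a) ≤ 2 ^ ((a + b + 1) * e + (a + b)) :=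
        Nat.pow_le_pow_right (by omega) (by rw [add_mul, add_mul]; omega)
      have h2 : 2 ^ (b * e + b) ≤ 2 ^ ((a + b + 1) * e + (a + b)) :=
        Nat.pow_le_pow_right (by omega) (by rw [add_mul, add_mul]; omega)
      have h3 := ha m e h
      have h4 := hb m e h
      rw [Polynomial.eval_add, ← add_assoc ((a + b + 1) * e), pow_succ]
      omega
  | monomial k c =>
      refine ⟨c + k, fun m e h => ?_⟩
      rw [Polynomial.eval_monomial]
      calc c * m ^ k ≤ 2 ^ c * (2 ^ e) ^ k :=
            Nat.mul_le_mul Nat.lt_two_pow_self.le (Nat.pow_le_pow_left h k)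
        _ = 2 ^ (c + e * k) := by rw [← pow_mul, ← pow_add]
        _ ≤ 2 ^ ((c + k) * e + (c + k)) :=
            Nat.pow_le_pow_right (by omega) (by rw [add_mul, mul_comm k e]; omega)

theorem eval_le_mul_pow (p : Polynomial ℕ) : ∃ c d, ∀ n, p.eval n ≤ c * n ^ d + c := by
  induction p using Polynomial.induction_on' with
  | add p q hp hq =>
      obtain ⟨a, d, ha⟩ := hp
      obtain ⟨b, e, hb⟩ := hq
      refine ⟨2 * (a + b), d + e, fun n => ?_⟩
      have key : ∀ i, i ≤ d + e → n ^ i ≤ n ^ (d + e) + 1 := by
        intro i hi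
        rcases Nat.eq_zero_or_pos n with rfl | hn
        · have : (0 : ℕ) ^ i ≤ 1 := by
            rcases i with _ | i <;> simp
          exact this.trans (Nat.le_add_left _ _)
        · have := Nat.pow_le_pow_right hn hi
          omega
      have h1 := Nat.mul_le_mul_left a (key d (by omega))
      have h2 := Nat.mul_le_mul_left b (key e (by omega))
      have h3 := ha n
      have h4 := hb n
      rw [Polynomial.eval_add]
      nlinarith [Nat.zero_le (a * n ^ (d + e)), Nat.zero_le (b * n ^ (d + e))]
  | monomial k c =>
      exact ⟨c, k, fun n => by rw [Polynomial.eval_monomial]; omega⟩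

theorem eval_le_pow (p : Polynomial ℕ) : ∃ k b, ∀ n, p.eval n ≤ n ^ k + b := by
  obtain ⟨c, d, h⟩ := eval_le_mul_pow p
  refine ⟨d + 1, c * c ^ d + c, fun n => ?_⟩
  have := h n
  rcases le_total c n with hc | hc
  · have : c * n ^ d ≤ n ^ (d + 1) := by
      rw [pow_succ, mul_comm]; exact Nat.mul_le_mul_left _ hc
    omega
  · have : c * n ^ d ≤ c * c ^ d := Nat.mul_le_mul_left _ (Nat.pow_le_pow_left hc d)
    omega

theorem time_bound (q q2 : Polynomial ℕ) :
    ∃ k c, ∀ n, q2.eval (n + 2 ^ q.eval n) ≤ c * 2 ^ (n ^ k) + c := by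
  obtain ⟨a, ha⟩ := eval_le_two_pow q2
  obtain ⟨k, b, hb⟩ := eval_le_pow
    (Polynomial.C a * (Polynomial.X + q + 1) + Polynomial.C a)
  refine ⟨k, 2 ^ b, fun n => ?_⟩
  have h1 : n + 2 ^ q.eval n ≤ 2 ^ (n + q.eval n + 1) := by
    have e1 : n ≤ 2 ^ (n + q.eval n) :=
      Nat.lt_two_pow_self.le.trans (Nat.pow_le_pow_right (by omega) (by omega))
    have e2 : 2 ^ q.eval n ≤ 2 ^ (n + q.eval n) := Nat.pow_le_pow_right (by omega) (by omega)
    rw [pow_succ]; omega
  have h2 := ha _ _ h1
  have h3 := hb n
  simp only [Polynomial.eval_add, Polynomial.eval_mul, Polynomial.eval_C, Polynomial.eval_X,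
    Polynomial.eval_one] at h3
  have h4 : 2 ^ (a * (n + q.eval n + 1) + a) ≤ 2 ^ (n ^ k + b) :=
    Nat.pow_le_pow_right (by omega) h3
  rw [pow_add 2 (n ^ k), mul_comm (2 ^ n ^ k)] at h4
  exact (h2.trans h4).trans (Nat.le_add_right _ _)

end Pad

open Pad

theorem padStmt : PadStmt := by
  intro g τ hg hτ
  obtain ⟨T1, ⟨q1, hq1⟩, h1⟩ := hτ ()
  obtain ⟨T2, ⟨q2, hq2⟩, h2⟩ := hg ()
  obtain ⟨p1, hp1⟩ := h1 (fun _ => 0) 2 7 (fun _ => by omega) (by omega) (fun _ => by omega)
  obtain ⟨p2, hp2⟩ := h2 (Sum.elim (fun _ => 0) (fun _ => 4)) 1 7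
    (fun i => by rcases i with _ | _ <;> simp) (by omega)
    (fun i => by rcases i with _ | _ <;> simp)
  refine ⟨mach (.seq (.seq (.seq (.seq (.seq p1 (move1 2 3)) expP) p2) (clearP 0)) (clearP 4)),
    q1 + q2 + Polynomial.C 13 * Polynomial.X * Polynomial.X + Polynomial.C 13 * Polynomial.X +
      Polynomial.C 4, fun x => out_of_run _ _ _ _ ?_⟩
  have e1 : Run p1 (update (fun _ => []) 0 x)
      (update (update (fun _ => []) 0 x) 2 (τ x).bits) (T1 x) :=
    hp1 x _ (fun _ => by simp; rfl) (by simp) (fun r hr => update_of_ne (by omega) _ _)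
  have e2 := run_move1 (r := 2) (u := 3) (by omega)
    (update (update (fun _ => []) 0 x) 2 (τ x).bits)
  have e2' : Run (move1 2 3) (update (update (fun _ => []) 0 x) 2 (τ x).bits)
      (update (update (fun _ => []) 0 x) 3 (τ x).bits.reverse) (4 * (τ x).bits.length + 1) := by
    refine e2.cast (by simp) ?_
    funext k
    by_cases hk : k = 3
    · subst hk; simp
    · by_cases hk' : k = 2
      · subst hk'; simp
      · simp [update_of_ne hk, update_of_ne hk']
  have e3 := run_exp (τ x).bits.reverse (update (update (fun _ => []) 0 x) 3 (τ x).bits.reverse) 0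
    (by simp) (by simp) (by simp) (by simp)
  rw [val_bits] at e3
  have e3' : Run expP (update (update (fun _ => []) 0 x) 3 (τ x).bits.reverse)
      (update (update (fun _ => []) 0 x) 4 (List.replicate (τ x) true))
      ((τ x).bits.length * (13 * τ x + 7) + 1) := by
    refine e3.cast (by simp) ?_
    funext k
    by_cases hk : k = 4
    · subst hk; simp
    · by_cases hk' : k = 3
      · subst hk'; simp
      · simp [update_of_ne hk, update_of_ne hk']
  have e4 : Run p2 (update (update (fun _ => []) 0 x) 4 (List.replicate (τ x) true))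
      (update (update (update (fun _ => []) 0 x) 4 (List.replicate (τ x) true)) 1
        [g (x, ⟨τ x⟩)]) (T2 (x, ⟨τ x⟩)) :=
    hp2 (x, ⟨τ x⟩) _ (fun i => by rcases i with _ | _ <;> simp <;> rfl) (by simp)
      (fun r hr => by rw [update_of_ne (by omega), update_of_ne (by omega)])
  have e5 := ((((e1.seq e2').seq e3').seq e4).seq (run_clear 0 _)).seq (run_clear 4 _)
  refine e5.cast ?_ ?_
  · have a1 := (hq1 x).trans (eval_mono q1 (show sz x ≤ x.length + τ x by simp))
    have a2 := hq2 (x, ⟨τ x⟩)
    rw [sz_prod, sz_word, sz_un] at a2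
    have a3 : (τ x).bits.length ≤ τ x := by
      have := sz_nat_le_self (τ x)
      rwa [sz_nat, ← Nat.size_eq_bits_len] at this
    have a4 : (τ x).bits.length * (13 * τ x + 7) ≤ (x.length + τ x) * (13 * (x.length + τ x) + 7) :=
      Nat.mul_le_mul (by omega) (by omega)
    simp only [Polynomial.eval_add, Polynomial.eval_mul, Polynomial.eval_C, Polynomial.eval_X]
    simp
    nlinarith
  · funext k
    by_cases hk : k = 4
    · subst hk; simp
    · by_cases hk' : k = 0
      · subst hk'; simp
      · by_cases hk'' : k = 1
        · subst hk''; simp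
        · simp [update_of_ne hk, update_of_ne hk', update_of_ne hk'']

theorem inExpStmt : InExpStmt := by
  intro L g q hg h
  have hτ : PTime fun x : Word => 2 ^ q.eval x.length := (PTime.const 2).pow (pu_eval q)
  obtain ⟨M, q2, hM⟩ := padStmt g _ hg hτ
  obtain ⟨k, c, hc⟩ := time_bound q q2
  refine ⟨k, fun x => g (x, ⟨2 ^ q.eval x.length⟩), c,
    ⟨{ M with time := fun n => q2.eval (n + 2 ^ q.eval n), outputsFun := fun x => (hM x).some },
      hc⟩, fun x => h x _ le_rfl⟩

end Crest.Agent.R290
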