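import Crest.Agent.R290.DefsG
import Crest.Agent.R290.PTx
import Crest.Agent.R290.Pad

/-!
Row 290: the diagonal argument (`diagStmt_of`).
-/

set_option autoImplicit false

namespace Crest.Agent.R290

open Crest.WLRefine Crest.Agent.PT Turing

namespace Diag

theorem sq_le_two_pow (j : ℕ) (hj : 6 ≤ j) : (j + 1) * (j + 1) ≤ 2 ^ j := by
  induction j, hj using Nat.le_induction with
  | base => norm_num
  | succ j hj ih => rw [pow_succ]; nlinarith

theorem lin_le_two_pow (D j : ℕ) (hj : D + 6 ≤ j) : D * (j + 1) ≤ 2 ^ j :=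
  (Nat.mul_le_mul_right _ (by omega)).trans (sq_le_two_pow j (by omega))

/-- The arithmetic of the parameters. -/
theorem arith (R cD e b e1 b1 hl k a C ρ : ℕ) (ha : 1 ≤ a)
    (hρ : 2 * (e1 + 1) * (a * e + 2) ≤ ρ + 1) :
    ∃ n₀, ∀ m ≥ n₀, ∃ P, ∀ dl xl, dl ≤ C * (Nat.size (m + 1) + 1) →
      xl = 2 * hl + 1 + (2 * dl + 1 + (2 * k + 1 + (2 * P + 1 +
        (2 * Nat.size m + 1 + Nat.size ((m + 1) ^ a))))) →
      (hl + (xl + (k + P))) ^ e1 + b1 ≤ m ∧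
        cD * ((xl + (m + 1) ^ a) ^ e + b + 1) + xl + R < P ^ (ρ + 1) := by
  obtain ⟨D1, hD1⟩ : ∃ D1, D1 = 2 * hl + 2 * k + 5 + (2 * C + 2 + a) * (2 * (e1 + 1)) + 2 * C :=
    ⟨_, rfl⟩
  obtain ⟨D2, hD2⟩ : ∃ D2, D2 = 6 ^ e1 + b1 + 1 := ⟨_, rfl⟩
  obtain ⟨F, hF⟩ : ∃ F, F = 4 ^ e := ⟨_, rfl⟩
  obtain ⟨D3, hD3⟩ : ∃ D3, D3 = cD * (F + b + 1) + 3 + R + 1 := ⟨_, rfl⟩
  refine ⟨2 ^ ((e1 + 1) * (D1 + D2 + D3 + 6)), fun m hm => ?_⟩
  set n := m + 1 with hn
  have hn0 : n ≠ 0 := by omega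
  obtain ⟨L, hL1, hL2⟩ : ∃ L, 2 ^ L ≤ n ∧ n < 2 ^ (L + 1) :=
    ⟨Nat.log 2 n, Nat.pow_log_le_self 2 hn0, Nat.lt_pow_succ_log_self (by omega) n⟩
  have hL3 : (e1 + 1) * (D1 + D2 + D3 + 6) ≤ L := by
    have : 2 ^ ((e1 + 1) * (D1 + D2 + D3 + 6)) < 2 ^ (L + 1) := by omega
    have := (Nat.pow_lt_pow_iff_right (by omega)).1 this
    omega
  obtain ⟨j, hj⟩ : ∃ j, j = L / (e1 + 1) := ⟨_, rfl⟩
  have hj1 : D1 + D2 + D3 + 6 ≤ j := by
    rw [hj, Nat.le_div_iff_mul_le (by omega), mul_comm]; exact hL3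
  have hj2 : j * (e1 + 1) ≤ L := hj ▸ Nat.div_mul_le_self _ _
  have hj3 : L + 1 ≤ 2 * (e1 + 1) * j := by
    have h1 : L < (e1 + 1) * (j + 1) := hj ▸ Nat.lt_mul_div_succ L (by omega)
    have h2 : (e1 + 1) * (j + 1) ≤ (e1 + 1) * (2 * j) := Nat.mul_le_mul_left _ (by omega)
    have h3 : (e1 + 1) * (2 * j) = 2 * (e1 + 1) * j := by ring
    omega
  have hP := lin_le_two_pow (D1 + D2 + D3) j hj1
  obtain ⟨P, hPdef⟩ : ∃ P, P = 2 ^ j := ⟨_, rfl⟩
  rw [← hPdef] at hP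
  have hP1 : D1 * (j + 1) ≤ P := (Nat.mul_le_mul_right _ (by omega)).trans hP
  have hP23 : D2 + D3 ≤ P := by
    have : (D1 + D2 + D3) * 1 ≤ (D1 + D2 + D3) * (j + 1) := Nat.mul_le_mul_left _ (by omega)
    omega
  have hPn : P ^ (e1 + 1) ≤ n := by
    rw [hPdef, ← pow_mul]
    exact (Nat.pow_le_pow_right (by omega) hj2).trans hL1
  have hP0 : 1 ≤ P := hPdef ▸ Nat.one_le_two_pow
  have hPn' : P ≤ n := (Nat.le_self_pow (by omega) P).trans hPn
  refine ⟨P, fun dl xl hdl hxl => ?_⟩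
  have s1 : Nat.size n ≤ L + 1 := Nat.size_le.2 hL2
  have s2 : Nat.size m ≤ L + 1 := (Nat.size_le_size (by omega)).trans s1
  have s3 : Nat.size (n ^ a) ≤ a * (L + 1) := by
    rw [Nat.size_le, mul_comm, pow_mul]
    exact Nat.pow_lt_pow_left hL2 (by omega)
  have s4 : dl ≤ C * (L + 1) + C := by
    have := Nat.mul_le_mul_left C (show Nat.size n + 1 ≤ L + 1 + 1 by omega)
    rw [mul_add C (L + 1), mul_one] at this
    omega
  have hx : xl ≤ 3 * P := by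
    have h1 : (2 * C + 2 + a) * (L + 1) ≤ (2 * C + 2 + a) * (2 * (e1 + 1) * j) :=
      Nat.mul_le_mul_left _ hj3
    have h2 : (2 * C + 2 + a) * (L + 1) = 2 * (C * (L + 1)) + 2 * (L + 1) + a * (L + 1) := by ring
    have h3 : D1 * (j + 1) = (2 * C + 2 + a) * (2 * (e1 + 1) * j) + (2 * hl + 2 * k + 5 + 2 * C) +
        ((2 * hl + 2 * k + 5 + 2 * C) * j + (2 * C + 2 + a) * (2 * (e1 + 1))) := by
      rw [hD1]; ring
    omega
  constructor
  · have h1 : (hl + (xl + (k + P))) ^ e1 ≤ (6 * P) ^ e1 := Nat.pow_le_pow_left (by omega) _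
    have h2 : 1 ≤ P ^ e1 := Nat.one_le_pow _ _ hP0
    have h3 : D2 * P ^ e1 ≤ P ^ (e1 + 1) := by
      rw [pow_succ, mul_comm]; exact Nat.mul_le_mul_left _ (by omega)
    have h4 : (b1 + 1) * 1 ≤ (b1 + 1) * P ^ e1 := Nat.mul_le_mul_left _ h2
    have h5 : D2 * P ^ e1 = (6 * P) ^ e1 + (b1 + 1) * P ^ e1 := by rw [hD2, mul_pow]; ring
    omega
  · have h0 : n ≤ n ^ a := Nat.le_self_pow (by omega) n
    have h1 : (xl + n ^ a) ^ e ≤ (4 * n ^ a) ^ e := Nat.pow_le_pow_left (by omega) _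
    rw [mul_pow, ← pow_mul, ← hF] at h1
    have h2 : 1 ≤ n ^ (a * e) := Nat.one_le_pow _ _ (by omega)
    have h3 : n ^ (a * e) ≤ n ^ (a * e + 1) := Nat.pow_le_pow_right (by omega) (by omega)
    have h4 : n ≤ n ^ (a * e + 1) := Nat.le_self_pow (by omega) n
    generalize hN : n ^ (a * e + 1) = N at h3 h4
    have h5 : (xl + n ^ a) ^ e + b + 1 ≤ (F + b + 1) * N := by
      have := Nat.mul_le_mul_left F h3
      have := Nat.mul_le_mul_left (b + 1) (h2.trans h3)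
      have : (F + b + 1) * N = F * N + (b + 1) * N := by ring
      omega
    have h6 := Nat.mul_le_mul_left cD h5
    have h7 : R * 1 ≤ R * N := Nat.mul_le_mul_left _ (h2.trans h3)
    have h8 : D3 * N = cD * ((F + b + 1) * N) + 3 * N + R * N + N := by rw [hD3]; ring
    have h9 : D3 * N ≤ n * N := Nat.mul_le_mul_right _ (by omega)
    have h10 : n * N = n ^ (a * e + 2) := by rw [← hN]; ring
    have h11 : n ^ (a * e + 2) ≤ P ^ (ρ + 1) := by
      calc n ^ (a * e + 2) ≤ (2 ^ (L + 1)) ^ (a * e + 2) := Nat.pow_le_pow_left hL2.le _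
        _ = 2 ^ ((L + 1) * (a * e + 2)) := by rw [← pow_mul]
        _ ≤ 2 ^ (j * (ρ + 1)) := by
            refine Nat.pow_le_pow_right (by omega) ?_
            calc (L + 1) * (a * e + 2) ≤ 2 * (e1 + 1) * j * (a * e + 2) :=
                  Nat.mul_le_mul_right _ hj3
              _ = j * (2 * (e1 + 1) * (a * e + 2)) := by ring
              _ ≤ j * (ρ + 1) := Nat.mul_le_mul_left _ hρ
        _ = P ^ (ρ + 1) := by rw [hPdef, ← pow_mul]
    omega

/-- The code of the data `(h, d, k, P, m, τ)`. -/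
def enc (h d : Word) (k P m τ : ℕ) : Word :=
  enc2 h (enc2 d (enc2 (List.replicate k true) (enc2 (List.replicate P true) (enc2 m.bits τ.bits))))

def fh (x : Word) : Word := dec2a x
def fd (x : Word) : Word := dec2a (dec2b x)
def fk (x : Word) : ℕ := (dec2a (dec2b (dec2b x))).length
def fP (x : Word) : ℕ := (dec2a (dec2b (dec2b (dec2b x)))).length
def fm (x : Word) : ℕ := ofB (dec2a (dec2b (dec2b (dec2b (dec2b x)))))
def ft (x : Word) : ℕ := ofB (dec2b (dec2b (dec2b (dec2b (dec2b x)))))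

section
variable (h d : Word) (k P m τ : ℕ)
theorem fh_enc : fh (enc h d k P m τ) = h := by simp [fh, enc]
theorem fd_enc : fd (enc h d k P m τ) = d := by simp [fd, enc]
theorem fk_enc : fk (enc h d k P m τ) = k := by simp [fk, enc]
theorem fP_enc : fP (enc h d k P m τ) = P := by simp [fP, enc]
theorem fm_enc : fm (enc h d k P m τ) = m := by simp [fm, enc, ofB_bits]
theorem ft_enc : ft (enc h d k P m τ) = τ := by simp [ft, enc, ofB_bits]
theorem length_enc : (enc h d k P m τ).length = 2 * h.length + 1 + (2 * d.length + 1 +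
    (2 * k + 1 + (2 * P + 1 + (2 * Nat.size m + 1 + Nat.size τ)))) := by
  simp only [enc, length_enc2, List.length_replicate, Nat.size_eq_bits_len]
end

theorem pt_ft : PTime ft := by unfold ft; fun_prop

/-- The argument of the reduction read off `(x, t)`. -/
def arg (p : Word × Un) : (Word × Word × Un × Un) × Un :=
  ((fh p.1, p.1, ⟨fk p.1⟩, ⟨fP p.1⟩), ⟨min (fm p.1) p.2.val⟩)

theorem pt_arg : PTime arg := by
  have h1 : PU fun p : Word × Un => min (fm p.1) p.2.val :=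
    PU.min_right (by unfold fm; fun_prop) (by fun_prop)
  have h2 : PU fun p : Word × Un => fk p.1 := by unfold fk; fun_prop
  have h3 : PU fun p : Word × Un => fP p.1 := by unfold fP; fun_prop
  have h4 : PTime fun p : Word × Un => fh p.1 := by unfold fh; fun_prop
  exact (h4.pair ((PTime.fst PTime.id).pair (PTime.pair h2 h3))).pair h1

theorem arg_enc (h d : Word) (k P m τ : ℕ) (hm : m ≤ τ) :
    arg (enc h d k P m τ, ⟨τ⟩) = ((h, enc h d k P m τ, ⟨k⟩, ⟨P⟩), ⟨m⟩) := by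
  simp only [arg, fh_enc, fk_enc, fP_enc, fm_enc, min_eq_left hm]

end Diag

open Diag

theorem diagStmt_of (hR : RedStmt) (hH : HornStmt) (hP : PadStmt) (hG : GameBasicStmt)
    (hA : ApexStmt) : DiagStmt := by
  intro U hU
  obtain ⟨sz, G, M, R, hsz, -, hGa, hred⟩ := hR
  let cw : (Word × Word × Un × Un) × Un → Word := fun z =>
    adjMatrixCode (apex (G z.1 z.2.val false)) ++ adjMatrixCode (apex (G z.1 z.2.val true))
  have hcw : PTime cw := (hGa false).append (hGa true)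
  let g : Word × Un → Bool := fun p => U (fd p.1, cw (arg p), p.2)
  have hg : PTime g :=
    hU.comp (PTime.pair (by unfold fd; fun_prop) ((hcw.comp pt_arg).pair (PTime.snd PTime.id)))
  obtain ⟨Mc, q, hq⟩ := hP g ft hg pt_ft
  obtain ⟨hD, cD, hHorn⟩ := hH Mc true
  obtain ⟨q1, hq1⟩ := hsz.pb
  obtain ⟨e, b, he⟩ := Pad.eval_le_pow q
  obtain ⟨e1, b1, he1⟩ := Pad.eval_le_pow q1
  set M' := M * (2 * (e1 + 1) * (e + 2)) with hM'
  set N := 3 * M' + 17 with hN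
  have hN0 : (0 : ℝ) < N := by rw [hN]; positivity
  refine ⟨1 / (2 * N), by positivity, N, fun κ hκ Eq hE1 hE2 dd C hdd T hT => ?_⟩
  set a := κ / N with ha
  have ha1 : 1 ≤ a := (Nat.le_div_iff_mul_le (by omega)).2 (by omega)
  have ha2 : N * a ≤ κ := Nat.mul_div_le _ _
  have ha3 : κ ≤ 2 * N * a := by
    have h1 : κ < N * (a + 1) := Nat.lt_mul_div_succ κ (by omega)
    have h2 : N * (a + 1) ≤ N * (2 * a) := Nat.mul_le_mul_left _ (by omega)
    have h3 : N * (2 * a) = 2 * N * a := by ring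
    omega
  set k := (κ - 9) / 3 with hk
  set ρ := 2 * (e1 + 1) * (e + 2) * a with hρ
  have hρ1 : 1 ≤ ρ := Nat.mul_pos (by positivity) ha1
  have hρ2 : 2 * (e1 + 1) * (a * e + 2) ≤ ρ + 1 := by
    have h1 : 2 * (e1 + 1) * (a * e + 2) ≤ 2 * (e1 + 1) * ((e + 2) * a) :=
      Nat.mul_le_mul_left _ (by nlinarith)
    have h2 : 2 * (e1 + 1) * ((e + 2) * a) = ρ := by rw [hρ]; ring
    omega
  have hk1 : M * ρ < k := by
    have h1 : M * ρ = M' * a := by rw [hρ, hM']; ring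
    have h2 : N * a = 3 * (M' * a) + 17 * a := by rw [hN]; ring
    omega
  have hk2 : 3 * k + 9 ≤ κ := by omega
  have hk3 : κ + 1 ≤ 10 * k := by omega
  obtain ⟨n₀, hn₀⟩ := arith R cD e b e1 b1 hD.length k a C ρ ha1 hρ2
  refine ⟨n₀ + 1, fun n hn => ?_⟩
  obtain ⟨m, rfl⟩ : ∃ m, n = m + 1 := ⟨n - 1, by omega⟩
  obtain ⟨P, hPar⟩ := hn₀ m (by omega)
  have key : (m + 1) ^ a < T (m + 1) := by
    by_contra hlt
    have hle : T (m + 1) ≤ (m + 1) ^ a := not_lt.1 hlt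
    set τ := (m + 1) ^ a with hτ
    have hmτ : m ≤ τ := (Nat.le_succ m).trans (Nat.le_self_pow (by omega) _)
    set x := enc hD (dd (m + 1)) k P m τ with hx
    obtain ⟨b1', b2'⟩ := hPar _ x.length (hdd (m + 1)) (length_enc _ _ _ _ _ _)
    have hszle : sz (hD, x, ⟨k⟩, ⟨P⟩) ≤ m := by
      have h1 := hq1 (hD, x, ⟨k⟩, ⟨P⟩)
      simp only [sz_prod, sz_word, sz_un] at h1
      exact (h1.trans (he1 _)).trans b1'
    obtain ⟨h5, hS, -, hmain⟩ := hred hD x k P m hszle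
    have hft : ft x = τ := ft_enc _ _ _ _ _ _
    have hout := hq x
    rw [hft] at hout
    obtain ⟨hbox, hgoal⟩ := hHorn x _ _ hout
    have hB : cD * (q.eval (x.length + τ) + 1) + x.length + R < P ^ (ρ + 1) := by
      have h1 := Nat.mul_le_mul_left cD (Nat.add_le_add_right (he (x.length + τ)) 1)
      omega
    obtain ⟨hyes, hno⟩ := hmain ρ _ hρ1 hk1 hB hbox
    have hgx : g (x, ⟨τ⟩) = U (dd (m + 1), adjMatrixCode (apex (G (hD, x, ⟨k⟩, ⟨P⟩) m false)) ++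
        adjMatrixCode (apex (G (hD, x, ⟨k⟩, ⟨P⟩) m true)), ⟨τ⟩) := by
      show U (fd x, cw (arg (x, ⟨τ⟩)), ⟨τ⟩) = _
      rw [hx, fd_enc, arg_enc _ _ _ _ _ _ hmτ]
    have hA0 := hA κ m (G (hD, x, ⟨k⟩, ⟨P⟩) m false) (G (hD, x, ⟨k⟩, ⟨P⟩) m true)
    have hA1 := hA (κ + 1) m (G (hD, x, ⟨k⟩, ⟨P⟩) m false) (G (hD, x, ⟨k⟩, ⟨P⟩) m true)
    have hA2 := hA κ m (G (hD, x, ⟨k⟩, ⟨P⟩) m true) (G (hD, x, ⟨k⟩, ⟨P⟩) m true)
    have hU' := hT (m + 1) _ _ (hA0.1 (hS false).1) (hA2.1 (hS true).1) τ hle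
    rw [← hgx, ← hgoal] at hU'
    by_cases hgl : (horn hD x).Goal
    · have h1 := hE2 _ _ _ (hU'.1 hgl)
      have h2 := hA0.2.2 (by omega) h5 (hS false).1 (hS true).1 (hS false).2.2 (hS true).2.2 h1
      exact (hyes hgl).1 ((hG.1 κ (3 * k + 9) _ _ _ _ hk2).2.1 h2)
    · have h1 := (hG.1 (10 * k) (κ + 1) _ _ _ _ hk3).1 (hno hgl)
      exact hgl (hU'.2 (hE1 _ _ _ (hA1.2.1 h1)))
  have hexp : 1 / (2 * (N : ℝ)) * κ ≤ (a : ℝ) := by
    rw [one_div, inv_mul_le_iff₀ (by positivity)]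
    exact_mod_cast ha3
  calc ((m + 1 : ℕ) : ℝ) ^ (1 / (2 * (N : ℝ)) * κ) ≤ ((m + 1 : ℕ) : ℝ) ^ (a : ℝ) :=
        Real.rpow_le_rpow_of_exponent_le (by exact_mod_cast Nat.le_add_left 1 m) hexp
    _ = (((m + 1) ^ a : ℕ) : ℝ) := by rw [Real.rpow_natCast]; push_cast; rfl
    _ ≤ T (m + 1) := by exact_mod_cast key.le

end Crest.Agent.R290
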