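import Crest.Agent.R290.Defs

/-! Row 290: equivalence gives a back-and-forth system and equal orders. -/

set_option autoImplicit false

namespace Crest.Agent.R290

open Crest.WLRefine Finset

namespace EBF

theorem pigeon {α : Type} [Finite α] (Q : ℕ → α → Prop) (hanti : ∀ s a, Q (s + 1) a → Q s a)
    (h : ∀ s, ∃ a, Q s a) : ∃ a, ∀ s, Q s a := by
  by_contra hc
  push Not at hc
  choose f hf using hc
  obtain ⟨N, hN⟩ := (Set.finite_range f).bddAbove
  obtain ⟨a, ha⟩ := h N
  have hle : f a ≤ N := hN ⟨a, rfl⟩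
  have key : ∀ d s, Q (s + d) a → Q s a := by
    intro d
    induction d with
    | zero => exact fun s hs => hs
    | succ d ih => exact fun s hs => ih s (hanti _ _ hs)
  obtain ⟨d, rfl⟩ := Nat.exists_eq_add_of_le hle
  exact hf a (key d _ ha)

theorem free_coord {k : ℕ} {β : Type} (p : List β) (f : Fin k → β) (hp : ∀ x ∈ p, ∃ i, x = f i)
    (hl : p.length < k) : ∃ i, ∀ x ∈ p, ∃ j, j ≠ i ∧ x = f j := by
  classical
  have hk : 0 < k := by omega
  let g : β → Fin k := fun x => if h : ∃ i, x = f i then h.choose else ⟨0, hk⟩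
  have hg : ∀ x ∈ p, x = f (g x) := by
    intro x hx
    have h := hp x hx
    simp only [g, dif_pos h]
    exact h.choose_spec
  have hcard : ((p.map g).toFinset).card < (univ : Finset (Fin k)).card := by
    have := List.toFinset_card_le (p.map g)
    simp only [List.length_map] at this
    simp only [card_univ, Fintype.card_fin]
    omega
  obtain ⟨i, -, hi⟩ := exists_mem_notMem_of_card_lt_card hcard
  refine ⟨i, fun x hx => ⟨g x, fun e => hi ?_, hg x hx⟩⟩
  rw [← e]
  simp only [List.mem_toFinset, List.mem_map]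
  exact ⟨x, hx, rfl⟩

theorem abs_bf {k n m : ℕ} (G : Fin n → Fin n → Bool) (H : Fin m → Fin m → Bool)
    (E : ℕ → (Fin k → Fin n) → (Fin k → Fin m) → Prop)
    (hanti : ∀ s u v, E (s + 1) u v → E s u v)
    (h0 : ∀ u v, E 0 u v → atomicType G u = atomicType H v)
    (hf : ∀ s u v i z, E (s + 1) u v → ∃ z', E s (Function.update u i z) (Function.update v i z'))
    (hb : ∀ s u v i z', E (s + 1) u v → ∃ z, E s (Function.update u i z) (Function.update v i z'))
    (hex : ∀ s u, ∃ v, E s u v) (hex' : ∀ s v, ∃ u, E s u v) : BF k G H := by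
  have ext : ∀ (u : Fin k → Fin n) (v : Fin k → Fin m) (p : List (Fin n × Fin m)) (i : Fin k)
      (a : Fin n) (b : Fin m), (∀ x ∈ p, ∃ j, j ≠ i ∧ x = (u j, v j)) →
      ∀ x ∈ (a, b) :: p, ∃ j, x = (Function.update u i a j, Function.update v i b j) := by
    intro u v p i a b hp x hx
    rcases List.mem_cons.1 hx with rfl | hx
    · exact ⟨i, by simp⟩
    · obtain ⟨j, hj, rfl⟩ := hp x hx
      exact ⟨j, by simp [Function.update_of_ne hj]⟩
  refine ⟨fun p => p = [] ∨ ∃ u v, (∀ s, E s u v) ∧ ∀ x ∈ p, ∃ i, x = (u i, v i),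
    ⟨⟨Or.inl rfl, ?_, ?_⟩, ?_, ?_⟩⟩
  · rintro p q (rfl | ⟨u, v, hE, hq⟩) hpq
    · exact Or.inl (List.eq_nil_iff_forall_not_mem.2 fun x hx => by simpa using hpq x hx)
    · exact Or.inr ⟨u, v, hE, fun x hx => hq x (hpq x hx)⟩
  · rintro p (rfl | ⟨u, v, hE, hp⟩) x hx y hy
    · simp at hx
    · obtain ⟨i, rfl⟩ := hp x hx
      obtain ⟨j, rfl⟩ := hp y hy
      have h := h0 u v (hE 0)
      simp only [atomicType, Prod.mk.injEq] at h
      have h1 := congrFun (congrFun h.1 i) j
      have h2 := congrFun (congrFun h.2 i) j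
      exact ⟨by simpa using h1, h2⟩
  · intro p hp hl a
    obtain ⟨u, v, hE, hp⟩ : ∃ u v, (∀ s, E s u v) ∧ ∀ x ∈ p, ∃ i, x = (u i, v i) := by
      rcases hp with rfl | hp
      · obtain ⟨v, hv⟩ := pigeon (fun s v => E s (fun _ => a) v) (fun s v => hanti s _ v)
          (fun s => hex s _)
        exact ⟨_, v, hv, by simp⟩
      · exact hp
    obtain ⟨i, hi⟩ := free_coord p (fun i => (u i, v i)) hp hl
    obtain ⟨b, hb'⟩ := pigeon (fun s b => E s (Function.update u i a) (Function.update v i b))
      (fun s b => hanti s _ _) (fun s => hf s u v i a (hE (s + 1)))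
    exact ⟨b, Or.inr ⟨_, _, hb', ext u v p i a b hi⟩⟩
  · intro p hp hl b
    obtain ⟨u, v, hE, hp⟩ : ∃ u v, (∀ s, E s u v) ∧ ∀ x ∈ p, ∃ i, x = (u i, v i) := by
      rcases hp with rfl | hp
      · obtain ⟨u, hu⟩ := pigeon (fun s u => E s u (fun _ => b)) (fun s u => hanti s u _)
          (fun s => hex' s _)
        exact ⟨u, _, hu, by simp⟩
      · exact hp
    obtain ⟨i, hi⟩ := free_coord p (fun i => (u i, v i)) hp hl
    obtain ⟨a, ha'⟩ := pigeon (fun s a => E s (Function.update u i a) (Function.update v i b))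
      (fun s a => hanti s _ _) (fun s => hb s u v i b (hE (s + 1)))
    exact ⟨a, Or.inr ⟨_, _, ha', ext u v p i a b hi⟩⟩

theorem ex_of_map {α β γ : Type} [Fintype α] [Fintype β] {f : α → γ} {g : β → γ}
    (h : (univ : Finset α).val.map f = (univ : Finset β).val.map g) (a : α) : ∃ b, f a = g b := by
  have : f a ∈ (univ : Finset β).val.map g := by
    rw [← h]; exact Multiset.mem_map_of_mem _ (by simp)
  obtain ⟨b, -, hb⟩ := Multiset.mem_map.1 this
  exact ⟨b, hb.symm⟩

theorem ex_of_map' {α β γ : Type} [Fintype α] [Fintype β] {f : α → γ} {g : β → γ}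
    (h : (univ : Finset α).val.map f = (univ : Finset β).val.map g) (b : β) : ∃ a, f a = g b := by
  obtain ⟨a, ha⟩ := ex_of_map h.symm b
  exact ⟨a, ha.symm⟩

theorem card_of_map {α β γ : Type} [Fintype α] [Fintype β] {f : α → γ} {g : β → γ}
    (h : (univ : Finset α).val.map f = (univ : Finset β).val.map g) :
    Fintype.card α = Fintype.card β := by
  simpa using congrArg Multiset.card h

theorem eq_of_map {k n m : ℕ} (hk : 1 ≤ k) {γ : Type} {f : (Fin k → Fin n) → γ}
    {g : (Fin k → Fin m) → γ}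
    (h : (univ : Finset (Fin k → Fin n)).val.map f = (univ : Finset (Fin k → Fin m)).val.map g) :
    n = m := by
  have := card_of_map h
  simp only [Fintype.card_pi, Fintype.card_fin, prod_const, card_univ] at this
  exact Nat.pow_left_injective (by omega) this

end EBF

open EBF in
theorem equivBFStmt : EquivBFStmt := by
  intro k n m G H hk
  refine ⟨?_, fun h => by simpa using card_of_map (h 0)⟩
  rintro (h | h)
  · refine ⟨eq_of_map hk (h 0), abs_bf G H (fun s u v => jcolor G k s u = jcolor H k s v)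
      (fun s u v e => congrArg Prod.fst e) (fun u v e => e) (fun s u v i z e => ?_)
      (fun s u v i z e => ?_) (fun s u => ex_of_map (h s) u) (fun s v => ex_of_map' (h s) v)⟩
    · simp only [jcolor, Prod.mk.injEq] at e
      obtain ⟨z', hz⟩ := ex_of_map e.2 z
      exact ⟨z', congrFun hz i⟩
    · simp only [jcolor, Prod.mk.injEq] at e
      obtain ⟨z', hz⟩ := ex_of_map' e.2 z
      exact ⟨z', congrFun hz i⟩
  · refine ⟨eq_of_map hk (h 0), abs_bf G H (fun s u v => scolor G k s u = scolor H k s v)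
      (fun s u v e => congrArg Prod.fst e) (fun u v e => e) (fun s u v i z e => ?_)
      (fun s u v i z e => ?_) (fun s u => ex_of_map (h s) u) (fun s v => ex_of_map' (h s) v)⟩
    · simp only [scolor, Prod.mk.injEq] at e
      exact ex_of_map (congrFun e.2 i) z
    · simp only [scolor, Prod.mk.injEq] at e
      exact ex_of_map' (congrFun e.2 i) z

end Crest.Agent.R290
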