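import Crest.Agent.R290.Defs
import Crest.Agent.R290.PTx

/-! Row 290: evaluating a Horn system inside a box. -/

set_option autoImplicit false

namespace Crest.Agent.R290

open Crest.Agent.PT Function

namespace Eval

/-- An inflationary update of a table of `N` bits is stable after `N + 1` rounds. -/
theorem table_fixed (N : ℕ) (g : Word → ℕ → Bool)
    (hg : ∀ T i, T.getD i false = true → g T i = true) (T₀ : Word) :
    (List.range N).map (g ((fun T => (List.range N).map (g T))^[N + 1] T₀)) =
      (fun T => (List.range N).map (g T))^[N + 1] T₀ := by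
  set st : Word → Word := fun T => (List.range N).map (g T) with hst
  let S : ℕ → Finset ℕ := fun m => (Finset.range N).filter fun i => g (st^[m] T₀) i = true
  have hsub : ∀ m, S m ⊆ S (m + 1) := fun m i hi => by
    simp only [S, Finset.mem_filter, Finset.mem_range] at hi ⊢
    refine ⟨hi.1, hg _ _ ?_⟩
    rw [iterate_succ_apply', hst, getD_rangeMap_of_lt _ hi.1]
    exact hi.2
  have heq : ∀ m, S m = S (m + 1) → st (st^[m + 1] T₀) = st^[m + 1] T₀ := fun m h => by
    conv_rhs => rw [iterate_succ_apply']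
    refine List.map_congr_left fun i hi => ?_
    have := Finset.ext_iff.1 h i
    simp only [S, Finset.mem_filter, Finset.mem_range, List.mem_range.1 hi, true_and] at this
    exact Bool.eq_iff_iff.2 this.symm
  obtain ⟨m, hm, h⟩ : ∃ m ≤ N, S m = S (m + 1) := by
    by_contra hc
    push Not at hc
    have key : ∀ m ≤ N + 1, m ≤ (S m).card := by
      intro m
      induction m with
      | zero => intro _; exact Nat.zero_le _
      | succ m ih =>
        intro hm
        have h1 := ih (by omega)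
        have h2 := Finset.card_lt_card ((hsub m).ssubset_of_ne (hc m (by omega)))
        omega
    have h1 := key _ le_rfl
    have h2 : (S (N + 1)).card ≤ N := (Finset.card_filter_le _ _).trans (Finset.card_range _).le
    omega
  have h1 := heq m h
  have h2 : st^[N + 1] T₀ = st^[m + 1] T₀ := by
    rw [show N + 1 = (N - m) + (m + 1) by omega, iterate_add_apply, iterate_fixed h1]
  show st (st^[N + 1] T₀) = st^[N + 1] T₀
  rw [h2, h1]

/-- Table lookup of the fact `(σ, A)`. -/
def look (B : ℕ) (T : Word) (σ : ℕ) (A : ℤ × ℤ) : Prop :=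
  0 ≤ A.1 ∧ A.1 ≤ (B : ℤ) ∧ 0 ≤ A.2 ∧ A.2 ≤ (B : ℤ) ∧
    T.getD ((σ * (B + 1) + A.1.toNat) * (B + 1) + A.2.toNat) false = true

/-- One round at the entry `(σ, t, j)`. -/
def upd (h y : Word) (B : ℕ) (T : Word) (σ t j : ℕ) : Prop :=
  (t = 0 ∧ hini h y σ j) ∨ ∃ r < 81 * (hs h * hs h * hs h), hact h r ∧ rCn (hs h) r = σ ∧
    look B T (rPr (hs h) r false) (((t : ℤ), (j : ℤ)) + shf (rSh (hs h) r false)) ∧
    look B T (rPr (hs h) r true) (((t : ℤ), (j : ℤ)) + shf (rSh (hs h) r true))

open Classical in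
noncomputable def bit (h y : Word) (B : ℕ) (T : Word) (i : ℕ) : Bool :=
  decide (T.getD i false = true ∨
    upd h y B T (i / (B + 1) / (B + 1)) (i / (B + 1) % (B + 1)) (i % (B + 1)))

theorem bit_iff (h y : Word) (B : ℕ) (T : Word) (i : ℕ) : bit h y B T i = true ↔
    T.getD i false = true ∨
      upd h y B T (i / (B + 1) / (B + 1)) (i / (B + 1) % (B + 1)) (i % (B + 1)) := by
  classical
  rw [bit, decide_eq_true_eq]

noncomputable def tab (h y : Word) (B m : ℕ) : Word :=
  (fun T => (List.range (hs h * (B + 1) * (B + 1))).map (bit h y B T))^[m] []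

theorem idx_facts {b σ t j : ℕ} (ht : t < b) (hj : j < b) :
    ((σ * b + t) * b + j) / b / b = σ ∧ ((σ * b + t) * b + j) / b % b = t ∧
      ((σ * b + t) * b + j) % b = j := by
  have hb : 0 < b := by omega
  have h1 : ((σ * b + t) * b + j) / b = σ * b + t := by
    rw [add_comm, Nat.add_mul_div_right _ _ hb, Nat.div_eq_of_lt hj, zero_add]
  refine ⟨?_, ?_, ?_⟩
  · rw [h1, add_comm, Nat.add_mul_div_right _ _ hb, Nat.div_eq_of_lt ht, zero_add]
  · rw [h1, add_comm, Nat.add_mul_mod_self_right, Nat.mod_eq_of_lt ht]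
  · rw [add_comm, Nat.add_mul_mod_self_right, Nat.mod_eq_of_lt hj]

theorem idx_lt {b s σ t j : ℕ} (hσ : σ < s) (ht : t < b) (hj : j < b) :
    (σ * b + t) * b + j < s * b * b := by
  have h1 : σ * b + t + 1 ≤ s * b := by nlinarith
  nlinarith

theorem sound (h y : Word) (B m : ℕ) :
    ∀ σ A, look B (tab h y B m) σ A → (horn h y).Tr σ A := by
  induction m with
  | zero => intro σ A hl; simp [look, tab] at hl
  | succ m ih =>
    rintro σ ⟨a, b⟩ ⟨h1, h2, h3, h4, h5⟩
    dsimp only at h1 h2 h3 h4 h5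
    obtain ⟨t, rfl⟩ := Int.eq_ofNat_of_zero_le h1
    obtain ⟨j, rfl⟩ := Int.eq_ofNat_of_zero_le h3
    have ht : t < B + 1 := by omega
    have hj : j < B + 1 := by omega
    rw [tab, iterate_succ_apply', getD_rangeMap, Bool.and_eq_true, bit_iff,
      Int.toNat_natCast, Int.toNat_natCast, (idx_facts ht hj).1,
      (idx_facts ht hj).2.1, (idx_facts ht hj).2.2] at h5
    rcases h5.2 with h6 | ⟨rfl, h6⟩ | ⟨r, -, h6, rfl, h7, h8⟩
    · exact ih σ _ ⟨h1, h2, h3, h4, by simpa [tab] using h6⟩
    · exact Horn.Tr.ini ⟨j, rfl, h6⟩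
    · exact Horn.Tr.rule (H := horn h y) h6 (ih _ _ h7) (ih _ _ h8)

theorem complete (h y : Word) (B : ℕ) (hB : (horn h y).Box B) (T : Word)
    (hT : (List.range (hs h * (B + 1) * (B + 1))).map (bit h y B T) = T) {σ : ℕ} {A : ℤ × ℤ}
    (hA : (horn h y).Tr σ A) : look B T σ A := by
  have key : ∀ σ A, (horn h y).Tr σ A → σ < hs h →
      upd h y B T σ A.1.toNat A.2.toNat → look B T σ A := by
    intro σ A hA hσ hu
    obtain ⟨h1, h2, h3, h4⟩ := hB σ A hA
    have ht : A.1.toNat < B + 1 := by omega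
    have hj : A.2.toNat < B + 1 := by omega
    refine ⟨h1, h2, h3, h4, ?_⟩
    rw [← hT, getD_rangeMap_of_lt _ (idx_lt hσ ht hj), bit_iff,
      (idx_facts ht hj).1, (idx_facts ht hj).2.1, (idx_facts ht hj).2.2]
    exact Or.inr hu
  induction hA with
  | @ini σ A hi =>
    obtain ⟨j, rfl, hj⟩ := id hi
    exact key _ _ (Horn.Tr.ini hi) hj.1 (Or.inl ⟨rfl, by simpa using hj⟩)
  | @rule r A hr h1 h2 ih1 ih2 =>
    have hA := Horn.Tr.rule hr h1 h2
    obtain ⟨b1, -, b3, -⟩ := hB _ _ hA
    have hr' : hact h r := hr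
    have hs0 : 0 < hs h := by
      rcases Nat.eq_zero_or_pos (hs h) with h0 | h0
      · have := hr'.1
        rw [h0] at this
        omega
      · exact h0
    refine key _ _ hA (Nat.mod_lt _ hs0) (Or.inr ⟨r, hr'.1, hr', rfl, ?_, ?_⟩)
    · rw [Int.toNat_of_nonneg b1, Int.toNat_of_nonneg b3]; exact ih1
    · rw [Int.toNat_of_nonneg b1, Int.toNat_of_nonneg b3]; exact ih2

section
variable {α : Type} [Rp α]

theorem pu_hs {h : α → Word} (hh : PTime h) : PU fun a => hs (h a) := PU.lead hh

theorem pt_kind {y : α → Word} {j : α → ℕ} (hy : PTime y) (hj : PTime j) :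
    PTime fun a => kind (y a) (j a) := by
  unfold kind; fun_prop

theorem pt_hini {h y : α → Word} {σ j : α → ℕ} (hh : PTime h) (hy : PTime y) (hσ : PTime σ)
    (hj : PTime j) : PTime fun a => hini (h a) (y a) (σ a) (j a) := by
  have h1 := (pu_hs hh).ptime
  have h2 := pt_kind hy hj
  unfold hini; fun_prop

theorem pt_rPr {s r : α → ℕ} (hs : PTime s) (hr : PTime r) (side : Bool) :
    PTime fun a => rPr (s a) (r a) side := by
  cases side <;> simp only [rPr, if_true, Bool.false_eq_true, if_false] <;> fun_prop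

theorem pt_rSh {s r : α → ℕ} (hs : PTime s) (hr : PTime r) (side : Bool) :
    PTime fun a => rSh (s a) (r a) side := by
  cases side <;> simp only [rSh, if_true, Bool.false_eq_true, if_false] <;> fun_prop

theorem pt_rCn {s r : α → ℕ} (hs : PTime s) (hr : PTime r) : PTime fun a => rCn (s a) (r a) := by
  unfold rCn; fun_prop

theorem pt_hact {h : α → Word} {r : α → ℕ} (hh : PTime h) (hr : PTime r) :
    PTime fun a => hact (h a) (r a) := by
  have h1 := (pu_hs hh).ptime
  have h2 := pt_rPr h1 hr false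
  have h3 := pt_rPr h1 hr true
  unfold hact; fun_prop

theorem pt_shf {d : α → ℕ} (hd : PTime d) : PTime fun a => shf (d a) := by
  unfold shf; fun_prop

theorem pt_look {B σ : α → ℕ} {T : α → Word} {A : α → ℤ × ℤ} (hB : PTime B) (hT : PTime T)
    (hσ : PTime σ) (hA : PTime A) : PTime fun a => look (B a) (T a) (σ a) (A a) := by
  unfold look; fun_prop

theorem pt_upd {h y T : α → Word} {B σ t j : α → ℕ} (hh : PTime h) (hy : PTime y) (hB : PTime B)
    (hT : PTime T) (hσ : PTime σ) (ht : PTime t) (hj : PTime j) :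
    PTime fun a => upd (h a) (y a) (B a) (T a) (σ a) (t a) (j a) := by
  have h1 := pu_hs hh
  have h2 := pt_hini hh hy hσ hj
  unfold upd
  refine PTime.or (by fun_prop) (PTime.exists_lt (by fun_prop) ?_)
  have hs' : PTime fun p : α × Un => hs (h p.1) := (pu_hs (by fun_prop)).ptime
  have hr : PTime fun p : α × Un => p.2.val := by fun_prop
  have hl : ∀ side, PTime fun p : α × Un => look (B p.1) (T p.1) (rPr (hs (h p.1)) p.2.val side)
      (((t p.1 : ℤ), (j p.1 : ℤ)) + shf (rSh (hs (h p.1)) p.2.val side)) := fun side => by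
    have h3 := pt_shf (pt_rSh hs' hr side)
    refine pt_look (by fun_prop) (by fun_prop) (pt_rPr hs' hr side) ?_
    exact PTime.pair (PTime.iadd (by fun_prop) h3.fst) (PTime.iadd (by fun_prop) h3.snd)
  exact (pt_hact (by fun_prop) hr).and (((pt_rCn hs' hr).eq (by fun_prop)).and
    ((hl false).and (hl true)))

end

end Eval

open Eval

theorem evalStmt : EvalStmt := by
  classical
  refine ⟨fun a => decide (look a.2.2.val
    (tab a.1 a.2.1 a.2.2.val (hs a.1 * (a.2.2.val + 1) * (a.2.2.val + 1) + 1)) 0 (0, 0)), ?_,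
    fun h y B hB => ?_⟩
  · have hN : PU fun a : Word × Word × Un => hs a.1 * (a.2.2.val + 1) * (a.2.2.val + 1) := by
      have := pu_hs (h := fun a : Word × Word × Un => a.1) (by fun_prop)
      fun_prop
    refine (pt_look (by fun_prop) ?_ (by fun_prop) (by fun_prop)).decide
    refine PTime.iter_table (g := fun a : Word × Word × Un => bit a.1 a.2.1 a.2.2.val) hN
      (hN.add (PU.const 1)) (PTime.const _) ?_
    unfold bit
    refine PTime.decide (PTime.or (by fun_prop) ?_)
    exact pt_upd (by fun_prop) (by fun_prop) (by fun_prop) (by fun_prop) (by fun_prop)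
      (by fun_prop) (by fun_prop)
  · rw [decide_eq_true_eq]
    refine ⟨sound h y B _ _ _, complete h y B hB _ (table_fixed _ _ (fun T i hi => ?_) _)⟩
    exact (bit_iff _ _ _ _ _).2 (Or.inl hi)

end Crest.Agent.R290
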