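import Crest.Agent.R290.DefsG
import Crest.Agent.R290.PTx

/-! Row 290: the two lower bounds from the diagonal lemma. -/

set_option autoImplicit false

namespace Crest.Agent.R290

open Crest.WLRefine Crest.Agent.PT Crest.Enc Filter

namespace Fin0

theorem pair_inj (hP : ParseStmt) {n n' m' : ℕ} {G H : Fin n → Fin n → Bool}
    {G' : Fin n' → Fin n' → Bool} {H' : Fin m' → Fin m' → Bool}
    (h : adjMatrixCode G ++ adjMatrixCode H = adjMatrixCode G' ++ adjMatrixCode H')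
    (Q : (a b : ℕ) → (Fin a → Fin a → Bool) → (Fin b → Fin b → Bool) → Prop)
    (hq : Q n' m' G' H') : Q n n G H := by
  obtain ⟨gn, gm, gr, ok, -, -, -, -, -, -, h2⟩ := hP
  have a1 := h2 n G (adjMatrixCode H)
  have a2 := h2 n' G' (adjMatrixCode H')
  rw [h] at a1
  have hn : n = n' := a1.2.1.symm.trans a2.2.1
  subst hn
  have hG : G = G' := a1.2.2.2.symm.trans a2.2.2.2
  have hr : adjMatrixCode H = adjMatrixCode H' := a1.2.2.1.symm.trans a2.2.2.1
  have b1 := h2 n H []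
  have b2 := h2 m' H' []
  rw [hr] at b1
  have hm : n = m' := b1.2.1.symm.trans b2.2.1
  subst hm
  have hH : H = H' := b1.2.2.2.symm.trans b2.2.2.2
  subst hG hH
  exact hq

theorem length_code {n : ℕ} (G : Fin n → Fin n → Bool) :
    (adjMatrixCode G).length = (natCode n).length + n * n := by
  simp [adjMatrixCode, List.length_flatMap]

theorem box_mono {H : Horn} {B B' : ℕ} (h : H.Box B) (hB : B ≤ B') : H.Box B' := by
  intro σ A hA
  obtain ⟨h1, h2, h3, h4⟩ := h σ A hA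
  have : (B : ℤ) ≤ B' := by exact_mod_cast hB
  exact ⟨h1, h2.trans this, h3, h4.trans this⟩

theorem size_le (n : ℕ) : n.size ≤ n := Nat.size_le.2 Nat.lt_two_pow_self

/-- Removing the overhead of the simulation. -/
theorem absorb (x : ℝ) (hx : 6 ≤ x) (c : ℕ) (T : ℕ → ℕ)
    (h : ∃ n₀ : ℕ, ∀ n ≥ n₀, (n : ℝ) ^ x ≤
      ((c * (T n + 1) + 2 * ((natCode n).length + n * n) : ℕ) : ℝ)) :
    ∃ n₀ : ℕ, ∀ n ≥ n₀, (n : ℝ) ^ (x / 2) ≤ T n := by
  obtain ⟨n₀, h⟩ := h
  refine ⟨max n₀ (2 * c + 12), fun n hn => ?_⟩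
  have h1 := h n (le_trans (le_max_left _ _) hn)
  have hn2 : 2 * c + 12 ≤ n := le_trans (le_max_right _ _) hn
  have hn1 : (1 : ℝ) ≤ n := by exact_mod_cast (by omega : 1 ≤ n)
  have hlen : (natCode n).length ≤ 2 * n + 2 := by
    rw [length_natCode]; have := size_le n; omega
  set y : ℝ := (n : ℝ) ^ (x / 2) with hy
  have hy2 : (n : ℝ) ^ x = y * y := by
    rw [hy, ← Real.rpow_add (by linarith)]; congr 1; ring
  have hy3 : (n : ℝ) ^ 3 ≤ y := by
    have : (n : ℝ) ^ (3 : ℝ) ≤ y := Real.rpow_le_rpow_of_exponent_le hn1 (by linarith)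
    simpa using this
  by_contra hlt
  push Not at hlt
  have hc : (2 * c + 12 : ℝ) ≤ n := by exact_mod_cast hn2
  have h2 : ((c * (T n + 1) + 2 * ((natCode n).length + n * n) : ℕ) : ℝ) ≤
      c * (y + 1) + 2 * (2 * n + 2 + n * n) := by
    push_cast
    have : ((natCode n).length : ℝ) ≤ 2 * n + 2 := by exact_mod_cast hlen
    have hc0 : (0 : ℝ) ≤ c := by positivity
    nlinarith
  have hc0 : (0 : ℝ) ≤ c := by positivity
  have hn3 : (n : ℝ) ≤ n ^ 3 := by nlinarith [mul_self_nonneg (n : ℝ)]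
  have hn4 : 2 * (2 * (n : ℝ) + 2 + n * n) ≤ n ^ 3 := by nlinarith
  have hy1 : (1 : ℝ) ≤ y := by linarith
  have : y * y ≤ c * (y + 1) + y := by linarith
  nlinarith

end Fin0

open Fin0

theorem tm_lower (hD : DiagStmt) (hH : HornStmt) (hE : EvalStmt) :
    ∃ c : ℝ, 0 < c ∧ ∃ k₀ : ℕ, ∀ k ≥ k₀,
      ∀ Eq : (n : ℕ) → (Fin n → Fin n → Bool) → (Fin n → Fin n → Bool) → Prop,
      (∀ n G H, BG (k + 1) G H → Eq n G H) → (∀ n G H, Eq n G H → BF k G H) →
      ∀ (g : diamTwoPairCodes → Bool),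
        (∀ n G H (hx : adjMatrixCode G ++ adjMatrixCode H ∈ diamTwoPairCodes),
          SimpleConnDiamTwo G → SimpleConnDiamTwo H → (g ⟨_, hx⟩ = true ↔ Eq n G H)) →
        ∀ M : Turing.TM2ComputableInTime (fun x : diamTwoPairCodes => x.1)
            Computability.encodeBool g,
          ∃ n₀ : ℕ, ∀ n ≥ n₀,
            (n : ℝ) ^ (c * k) ≤ M.time (2 * ((natCode n).length + n * n)) := by
  obtain ⟨ev, hev, hev2⟩ := hE
  obtain ⟨c, hc, κ₀, hκ⟩ := hD ev hev
  obtain ⟨k₁, hk₁⟩ := exists_nat_ge (6 / c)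
  refine ⟨c / 2, by positivity, max κ₀ k₁, fun k hk Eq h1 h2 g hg M => ?_⟩
  obtain ⟨h, cM, hh⟩ := hH M.toTM2ComputableAux true
  have h6 : 6 ≤ c * k := by
    have : (k₁ : ℝ) ≤ k := by exact_mod_cast le_trans (le_max_right _ _) hk
    rw [div_le_iff₀ hc] at hk₁
    nlinarith
  have key := hκ k (le_trans (le_max_left _ _) hk) Eq h1 h2 (fun _ => h) h.length
    (fun n => by nlinarith)
    (fun n => cM * (M.time (2 * ((natCode n).length + n * n)) + 1) +
      2 * ((natCode n).length + n * n))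
    (fun n G H hG hH τ hτ => by
      have hx : adjMatrixCode G ++ adjMatrixCode H ∈ diamTwoPairCodes := ⟨n, G, H, hG, hH, rfl⟩
      have hlen : (adjMatrixCode G ++ adjMatrixCode H).length =
          2 * ((natCode n).length + n * n) := by
        rw [List.length_append, length_code, length_code]; ring
      have ho : Out M.toTM2ComputableAux (adjMatrixCode G ++ adjMatrixCode H) (g ⟨_, hx⟩)
          (M.time (adjMatrixCode G ++ adjMatrixCode H).length) := ⟨M.outputsFun ⟨_, hx⟩⟩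
      obtain ⟨b1, b2⟩ := hh _ _ _ ho
      rw [hlen] at b1
      rw [hev2 h _ τ (box_mono b1 hτ), b2]
      exact hg n G H hx hG hH)
  have := absorb (c * k) h6 cM (fun n => M.time (2 * ((natCode n).length + n * n))) key
  have e : c / 2 * k = c * k / 2 := by ring
  rw [e]; exact this

theorem s435_of (hD : DiagStmt) (hH : HornStmt) (hE : EvalStmt) (hP : ParseStmt)
    (hB : BGEquivStmt) (hQ : EquivBFStmt) (hG : GameBasicStmt) :
    ∃ c : ℝ, 0 < c ∧ ∃ k₀ : ℕ, ∀ k ≥ k₀,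
      (∀ (g : Crest.WLRefine.diamTwoPairCodes → Bool),
        (∀ x, x.1 ∈ Crest.WLRefine.jointEquivLang k ↔ g x = true) →
        ∀ M : Turing.TM2ComputableInTime (fun x : Crest.WLRefine.diamTwoPairCodes => x.1)
            Computability.encodeBool g,
          ∃ n₀ : ℕ, ∀ n ≥ n₀,
            (n : ℝ) ^ (c * k) ≤ M.time (2 * ((Crest.Enc.natCode n).length + n * n))) ∧
      (∀ (g : Crest.WLRefine.diamTwoPairCodes → Bool),
        (∀ x, x.1 ∈ Crest.WLRefine.sepEquivLang k ↔ g x = true) →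
        ∀ M : Turing.TM2ComputableInTime (fun x : Crest.WLRefine.diamTwoPairCodes => x.1)
            Computability.encodeBool g,
          ∃ n₀ : ℕ, ∀ n ≥ n₀,
            (n : ℝ) ^ (c * k) ≤ M.time (2 * ((Crest.Enc.natCode n).length + n * n))) := by
  obtain ⟨c, hc, k₀, h⟩ := tm_lower hD hH hE
  refine ⟨c, hc, max k₀ 1, fun k hk => ⟨fun g hg M => ?_, fun g hg M => ?_⟩⟩
  · have hk1 : 1 ≤ k := le_trans (le_max_right _ _) hk
    refine h k (le_trans (le_max_left _ _) hk) (fun _ G H => JEquiv k G H)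
      (fun n G H hb => (hB k n n G H).1 hb)
      (fun n G H he => ((hQ k n n G H hk1).1 (Or.inl he)).2) g (fun n G H hx hG' hH' => ?_) M
    rw [← hg]
    constructor
    · rintro ⟨n', m', G', H', -, -, he, hw⟩
      exact pair_inj hP hw (fun _ _ A B => JEquiv k A B) he
    · intro he; exact ⟨n, n, G, H, hG'.1, hH'.1, he, rfl⟩
  · have hk1 : 1 ≤ k := le_trans (le_max_right _ _) hk
    refine h k (le_trans (le_max_left _ _) hk) (fun _ G H => SEquiv k G H)
      (fun n G H hb => (hB k n n G H).2.1 ((hG.1 (k + 1) k _ _ G H (by omega)).1 hb))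
      (fun n G H he => ((hQ k n n G H hk1).1 (Or.inr he)).2) g (fun n G H hx hG' hH' => ?_) M
    rw [← hg]
    constructor
    · rintro ⟨n', m', G', H', -, -, he, hw⟩
      exact pair_inj hP hw (fun _ _ A B => SEquiv k A B) he
    · intro he; exact ⟨n, n, G, H, hG'.1, hH'.1, he, rfl⟩

theorem clog_le (n : ℕ) : Nat.clog 2 (n + 2) ≤ 2 * (n.size + 1) := by
  rw [Nat.clog_le_iff_le_pow (by norm_num)]
  have h := Nat.lt_size_self n
  have e : 2 ^ (2 * (n.size + 1)) = 4 * (2 ^ n.size * 2 ^ n.size) := by ring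
  have h1 : 1 ≤ 2 ^ n.size := Nat.one_le_two_pow
  rw [e]; nlinarith

theorem ram_lower (hD : DiagStmt) (hR : RamStmt) :
    ∃ c : ℝ, 0 < c ∧ ∃ k₀ : ℕ, ∀ k ≥ k₀, ∀ c₀ : ℕ,
      ∀ Eq : (n : ℕ) → (Fin n → Fin n → Bool) → (Fin n → Fin n → Bool) → Prop,
      (∀ n G H, BG (k + 1) G H → Eq n G H) → (∀ n G H, Eq n G H → BF k G H) →
      ∀ (P : Crest.WordRAM.Program) (T : ℕ → ℕ),
        (∀ (n : ℕ) (G H : Fin n → Fin n → Bool), SimpleConnDiamTwo G →
          SimpleConnDiamTwo H → ∀ ρ : ℕ → ℕ,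
            (Crest.WordRAM.run P (c₀ * Nat.clog 2 (n + 2)) ρ (((adjMatrixCode G ++ adjMatrixCode H).map fun b => if b then 1 else 0)) (T n)).halted = true ∧
            ((Crest.WordRAM.run P (c₀ * Nat.clog 2 (n + 2)) ρ (((adjMatrixCode G ++ adjMatrixCode H).map fun b => if b then 1 else 0)) (T n)).output = [1] ↔ Eq n G H)) →
        ∃ n₀ : ℕ, ∀ n ≥ n₀, (n : ℝ) ^ (c * k) ≤ T n := by
  obtain ⟨ram, hram, hram2⟩ := hR
  obtain ⟨c, hc, κ₀, hκ⟩ := hD
    (fun x => ram (dec2a x.1, ⟨(dec2b x.1).length⟩, x.2.1, x.2.2)) (hram.comp (by fun_prop))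
  refine ⟨c, hc, κ₀, fun k hk c₀ Eq h1 h2 P T hT => ?_⟩
  obtain ⟨d, hd⟩ := hram2 P
  refine hκ k hk Eq h1 h2 (fun n => enc2 d (List.replicate (c₀ * Nat.clog 2 (n + 2)) true))
    (2 * d.length + 1 + 2 * c₀) (fun n => ?_) T (fun n G H hG hH τ hτ => ?_)
  · have := Nat.mul_le_mul_left c₀ (clog_le n)
    simp only [length_enc2, List.length_replicate]
    nlinarith
  · obtain ⟨a1, a2⟩ := hT n G H hG hH (fun _ => 0)
    simp only [dec2a_enc2, dec2b_enc2, List.length_replicate]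
    rw [hd _ _ _ τ hτ a1, a2]

theorem s439_of (hD : DiagStmt) (hR : RamStmt) (hB : BGEquivStmt) (hQ : EquivBFStmt)
    (hG : GameBasicStmt) :
    ∃ c : ℝ, 0 < c ∧ ∃ k₀ : ℕ, ∀ k ≥ k₀, ∀ c₀ : ℕ,
      (∀ (P : Crest.WordRAM.Program) (T : ℕ → ℕ),
        (∀ (n : ℕ) (G H : Fin n → Fin n → Bool), Crest.WLRefine.SimpleConnDiamTwo G →
          Crest.WLRefine.SimpleConnDiamTwo H → ∀ ρ : ℕ → ℕ,
            (Crest.WordRAM.run P (c₀ * Nat.clog 2 (n + 2)) ρ (((Crest.WLRefine.adjMatrixCode G ++ Crest.WLRefine.adjMatrixCode H).map fun b => if b then 1 else 0)) (T n)).halted = true ∧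
            ((Crest.WordRAM.run P (c₀ * Nat.clog 2 (n + 2)) ρ (((Crest.WLRefine.adjMatrixCode G ++ Crest.WLRefine.adjMatrixCode H).map fun b => if b then 1 else 0)) (T n)).output = [1] ↔ Crest.WLRefine.JEquiv k G H)) →
        ∃ n₀ : ℕ, ∀ n ≥ n₀, (n : ℝ) ^ (c * k) ≤ T n) ∧
      (∀ (P : Crest.WordRAM.Program) (T : ℕ → ℕ),
        (∀ (n : ℕ) (G H : Fin n → Fin n → Bool), Crest.WLRefine.SimpleConnDiamTwo G →
          Crest.WLRefine.SimpleConnDiamTwo H → ∀ ρ : ℕ → ℕ,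
            (Crest.WordRAM.run P (c₀ * Nat.clog 2 (n + 2)) ρ (((Crest.WLRefine.adjMatrixCode G ++ Crest.WLRefine.adjMatrixCode H).map fun b => if b then 1 else 0)) (T n)).halted = true ∧
            ((Crest.WordRAM.run P (c₀ * Nat.clog 2 (n + 2)) ρ (((Crest.WLRefine.adjMatrixCode G ++ Crest.WLRefine.adjMatrixCode H).map fun b => if b then 1 else 0)) (T n)).output = [1] ↔ Crest.WLRefine.SEquiv k G H)) →
        ∃ n₀ : ℕ, ∀ n ≥ n₀, (n : ℝ) ^ (c * k) ≤ T n) := by
  obtain ⟨c, hc, k₀, h⟩ := ram_lower hD hR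
  refine ⟨c, hc, max k₀ 1, fun k hk c₀ => ⟨fun P T hT => ?_, fun P T hT => ?_⟩⟩
  · have hk1 : 1 ≤ k := le_trans (le_max_right _ _) hk
    exact h k (le_trans (le_max_left _ _) hk) c₀ (fun _ G H => JEquiv k G H)
      (fun n G H hb => (hB k n n G H).1 hb)
      (fun n G H he => ((hQ k n n G H hk1).1 (Or.inl he)).2) P T hT
  · have hk1 : 1 ≤ k := le_trans (le_max_right _ _) hk
    exact h k (le_trans (le_max_left _ _) hk) c₀ (fun _ G H => SEquiv k G H)
      (fun n G H hb => (hB k n n G H).2.1 ((hG.1 (k + 1) k _ _ G H (by omega)).1 hb))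
      (fun n G H he => ((hQ k n n G H hk1).1 (Or.inr he)).2) P T hT

end Crest.Agent.R290
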