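import Crest.Agent.R290.Defs

/-! Row 290: elementary facts on the pebble games, and the apex construction. -/

set_option autoImplicit false

namespace Crest.Agent.R290

open Crest.WLRefine

namespace GameB

variable {κ : ℕ} {V W V' W' : Type} {G : V → V → Bool} {H : W → W → Bool}
  {P : List (V × W) → Prop}

theorem fam_comap (h : Fam G H P) {e : V' → V} {e' : W' → W} (he : Function.Injective e)
    (he' : Function.Injective e') :
    Fam (fun a b => G (e a) (e b)) (fun a b => H (e' a) (e' b))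
      fun p => P (p.map (Prod.map e e')) where
  nil := h.nil
  mono p q hq hpq := h.mono _ _ hq fun x hx => by
    obtain ⟨y, hy, rfl⟩ := List.mem_map.1 hx
    exact List.mem_map_of_mem (hpq y hy)
  iso p hp x hx y hy := by
    have := h.iso _ hp _ (List.mem_map_of_mem hx) _ (List.mem_map_of_mem hy)
    simpa [he.eq_iff, he'.eq_iff] using this

theorem bgs_comap (h : BGS κ G H P) (e : V' ≃ V) (e' : W' ≃ W) :
    BGS κ (fun a b => G (e a) (e b)) (fun a b => H (e' a) (e' b))
      fun p => P (p.map (Prod.map e e')) where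
  toFam := fam_comap h.toFam e.injective e'.injective
  bij p hp hl := by
    obtain ⟨β, hβ⟩ := h.bij _ hp (by simpa using hl)
    exact ⟨e.trans (β.trans e'.symm), fun a => by simpa using hβ (e a)⟩

theorem bfs_comap (h : BFS κ G H P) (e : V' ≃ V) (e' : W' ≃ W) :
    BFS κ (fun a b => G (e a) (e b)) (fun a b => H (e' a) (e' b))
      fun p => P (p.map (Prod.map e e')) where
  toFam := fam_comap h.toFam e.injective e'.injective
  forth p hp hl a := by
    obtain ⟨b, hb⟩ := h.forth _ hp (by simpa using hl) (e a)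
    exact ⟨e'.symm b, by simpa using hb⟩
  back p hp hl b := by
    obtain ⟨a, ha⟩ := h.back _ hp (by simpa using hl) (e' b)
    exact ⟨e.symm a, by simpa using ha⟩

theorem bg_iff (e : V' ≃ V) (e' : W' ≃ W) :
    BG κ G H ↔ BG κ (fun a b => G (e a) (e b)) (fun a b => H (e' a) (e' b)) :=
  ⟨fun ⟨_, h⟩ => ⟨_, bgs_comap h e e'⟩, fun ⟨_, h⟩ =>
    ⟨_, by simpa only [Equiv.apply_symm_apply] using bgs_comap h e.symm e'.symm⟩⟩

theorem bf_iff (e : V' ≃ V) (e' : W' ≃ W) :
    BF κ G H ↔ BF κ (fun a b => G (e a) (e b)) (fun a b => H (e' a) (e' b)) :=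
  ⟨fun ⟨_, h⟩ => ⟨_, bfs_comap h e e'⟩, fun ⟨_, h⟩ =>
    ⟨_, by simpa only [Equiv.apply_symm_apply] using bfs_comap h e.symm e'.symm⟩⟩

theorem rigid_of (e : V' ≃ V) (h : Rigid κ fun a b => G (e a) (e b)) : Rigid κ G := by
  intro P hP a b hab
  exact e.symm.injective (h _ (bfs_comap hP e e) (e.symm a) (e.symm b) (by simpa using hab))

theorem rigid_iff (e : V' ≃ V) : Rigid κ G ↔ Rigid κ fun a b => G (e a) (e b) :=
  ⟨fun h => rigid_of e.symm (by simpa using h), rigid_of e⟩

theorem exists_pos (h : BFS κ G H P) (l : List V) (hl : l.length ≤ κ) :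
    ∃ p, P p ∧ p.map Prod.fst = l := by
  induction l with
  | nil => exact ⟨[], h.nil, rfl⟩
  | cons a l ih =>
    obtain ⟨p, hp, rfl⟩ := ih (by simp at hl; omega)
    obtain ⟨b, hb⟩ := h.forth p hp (by simp at hl; omega) a
    exact ⟨_, hb, rfl⟩

theorem bfs_self (h : BFS κ G H P) (g₀ : V × V → W) :
    BFS κ G G fun p => ∃ g : V × V → W,
      P (p.map fun x => (x.1, g x)) ∧ P (p.map fun x => (x.2, g x)) := by
  classical
  have mono : ∀ p q : List (V × V), (∃ g : V × V → W,
      P (q.map fun x => (x.1, g x)) ∧ P (q.map fun x => (x.2, g x))) → (∀ x ∈ p, x ∈ q) →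
      ∃ g : V × V → W, P (p.map fun x => (x.1, g x)) ∧ P (p.map fun x => (x.2, g x)) := by
    rintro p q ⟨g, h1, h2⟩ hpq
    refine ⟨g, h.mono _ _ h1 fun x hx => ?_, h.mono _ _ h2 fun x hx => ?_⟩ <;>
    · obtain ⟨y, hy, rfl⟩ := List.mem_map.1 hx
      exact List.mem_map.2 ⟨y, hpq y hy, rfl⟩
  have ext : ∀ (p : List (V × V)) (g : V × V → W) (a a' : V) (b : W),
      P ((a, b) :: p.map fun x => (x.1, g x)) → P ((a', b) :: p.map fun x => (x.2, g x)) →
      ∃ g : V × V → W, P (((a, a') :: p).map fun x => (x.1, g x)) ∧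
        P (((a, a') :: p).map fun x => (x.2, g x)) := by
    intro p g a a' b h1 h2
    have e : ∀ x ∈ p, Function.update g (a, a') b x = g x := fun x hx => by
      by_cases hxa : x = (a, a')
      · subst hxa
        rw [Function.update_self]
        exact ((h.iso _ h1 (a, b) List.mem_cons_self (a, g (a, a'))
          (List.mem_cons_of_mem _ (List.mem_map.2 ⟨_, hx, rfl⟩))).1.1 rfl)
      · exact Function.update_of_ne hxa _ _
    refine ⟨Function.update g (a, a') b, ?_, ?_⟩
    · rwa [List.map_cons, Function.update_self,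
        List.map_congr_left (g := fun x => (x.1, g x)) fun x hx => by rw [e x hx]]
    · rwa [List.map_cons, Function.update_self,
        List.map_congr_left (g := fun x => (x.2, g x)) fun x hx => by rw [e x hx]]
  refine ⟨⟨⟨g₀, h.nil, h.nil⟩, mono, ?_⟩, ?_, ?_⟩
  · rintro p ⟨g, h1, h2⟩ x hx y hy
    have k1 := h.iso _ h1 _ (List.mem_map.2 ⟨x, hx, rfl⟩) _ (List.mem_map.2 ⟨y, hy, rfl⟩)
    have k2 := h.iso _ h2 _ (List.mem_map.2 ⟨x, hx, rfl⟩) _ (List.mem_map.2 ⟨y, hy, rfl⟩)
    exact ⟨k1.1.trans k2.1.symm, k1.2.trans k2.2.symm⟩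
  · rintro p ⟨g, h1, h2⟩ hl a
    obtain ⟨b, hb⟩ := h.forth _ h1 (by simpa using hl) a
    obtain ⟨a', ha'⟩ := h.back _ h2 (by simpa using hl) b
    exact ⟨a', ext p g a a' b hb ha'⟩
  · rintro p ⟨g, h1, h2⟩ hl a'
    obtain ⟨b, hb⟩ := h.forth _ h2 (by simpa using hl) a'
    obtain ⟨a, ha⟩ := h.back _ h1 (by simpa using hl) b
    exact ⟨a, ext p g a a' b ha hb⟩

/-- the apex construction on `Option` -/
def apO (G : V → V → Bool) : Option V → Option V → Bool
  | some a, some b => G a b
  | none, none => false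
  | _, _ => true

theorem apex_eq {n : ℕ} (G : Fin n → Fin n → Bool) :
    apex G = fun a b => apO G (finSuccEquivLast a) (finSuccEquivLast b) := by
  funext a b
  induction a using Fin.lastCases <;> induction b using Fin.lastCases <;> simp [apex, apO]

/-- forgetting the apex -/
def dn : Option V × Option W → Option (V × W)
  | (some a, some b) => some (a, b)
  | _ => none

theorem mem_dn {p : List (Option V × Option W)} {x : V × W} :
    x ∈ p.filterMap dn ↔ (some x.1, some x.2) ∈ p := by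
  rw [List.mem_filterMap]
  refine ⟨?_, fun h => ⟨_, h, rfl⟩⟩
  rintro ⟨⟨_ | a, _ | b⟩, h1, h2⟩ <;> simp only [dn, reduceCtorEq, Option.some.injEq] at h2
  rwa [← h2]

theorem bg_apO (h : BG κ G H) : BG κ (apO G) (apO H) := by
  obtain ⟨P, h⟩ := h
  refine ⟨fun p => (∀ x ∈ p, x.1 = none ↔ x.2 = none) ∧ P (p.filterMap dn),
    ⟨⟨by simp, h.nil⟩, fun p q hq hpq => ⟨fun x hx => hq.1 x (hpq x hx),
      h.mono _ _ hq.2 fun x hx => mem_dn.2 (hpq _ (mem_dn.1 hx))⟩, ?_⟩, fun p hp hl => ?_⟩
  · rintro p ⟨h1, h2⟩ x hx y hy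
    have k1 := h1 x hx
    have k2 := h1 y hy
    obtain ⟨_ | a, _ | b⟩ := x <;> obtain ⟨_ | a', _ | b'⟩ := y <;>
      simp only [reduceCtorEq, iff_false, false_iff, not_true_eq_false] at k1 k2 <;>
      try exact ⟨by simp, rfl⟩
    simpa [apO] using h.iso _ h2 (a, b) (mem_dn.2 hx) (a', b') (mem_dn.2 hy)
  · obtain ⟨β, hβ⟩ := h.bij _ hp.2 ((List.length_filterMap_le _ _).trans_lt hl)
    refine ⟨β.optionCongr, fun a => ⟨?_, ?_⟩⟩
    · rw [List.forall_mem_cons]
      exact ⟨by cases a <;> simp, hp.1⟩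
    · cases a with
      | none => exact hp.2
      | some a => exact hβ a

theorem deg_contra {n : ℕ} (hn : 5 ≤ n) {G : Fin n → Fin n → Bool} (hG : MaxDegLeThree G)
    (a : Fin n) (h : ∀ a', a' ≠ a → G a a' = true) : False := by
  have h1 := hG a
  have h2 : Finset.univ.erase a ⊆ Finset.univ.filter fun w => G a w = true := fun w hw =>
    Finset.mem_filter.2 ⟨Finset.mem_univ _, h w (Finset.ne_of_mem_erase hw)⟩
  have h3 := Finset.card_le_card h2
  rw [Finset.card_erase_of_mem (Finset.mem_univ _), Finset.card_univ, Fintype.card_fin] at h3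
  omega

theorem bf_of_apO {n : ℕ} (hκ : 2 ≤ κ) (hn : 5 ≤ n) {G H : Fin n → Fin n → Bool}
    (hG : MaxDegLeThree G) (hH : MaxDegLeThree H) (h : BF κ (apO G) (apO H)) : BF κ G H := by
  obtain ⟨P, h⟩ := h
  refine ⟨_, fam_comap h.toFam (Option.some_injective _) (Option.some_injective _),
    fun p hp hl a => ?_, fun p hp hl b => ?_⟩
  · obtain ⟨_ | b, hb⟩ := h.forth _ hp (by simpa using hl) (some a)
    · refine (deg_contra hn hG a fun a' ha' => ?_).elim
      obtain ⟨b', hb'⟩ := h.forth [(some a, none)] (h.mono _ _ hb (by simp)) hκ (some a')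
      have := h.iso _ hb' (some a, none) (by simp) (some a', b') (by simp)
      cases b' with
      | none => simp [ha'.symm] at this
      | some b' => exact this.2
    · exact ⟨b, hb⟩
  · obtain ⟨_ | a, ha⟩ := h.back _ hp (by simpa using hl) (some b)
    · refine (deg_contra hn hH b fun b' hb' => ?_).elim
      obtain ⟨a', ha'⟩ := h.back [(none, some b)] (h.mono _ _ ha (by simp)) hκ (some b')
      have := h.iso _ ha' (none, some b) (by simp) (a', some b') (by simp)
      cases a' with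
      | none => simp [hb'.symm] at this
      | some a' => exact this.2.symm
    · exact ⟨a, ha⟩

end GameB

open GameB in
theorem gameBasicStmt : GameBasicStmt := by
  refine ⟨fun κ κ' V W G H hκ => ⟨?_, ?_, ?_⟩,
    fun κ V W V' W' G H e e' => ⟨bg_iff e e', bf_iff e e', rigid_iff e⟩,
    fun κ n m G H => ⟨?_, ?_, ?_⟩⟩
  · rintro ⟨P, h⟩
    exact ⟨P, h.toFam, fun p hp hl => h.bij p hp (hl.trans_le hκ)⟩
  · rintro ⟨P, h⟩
    exact ⟨P, h.toFam, fun p hp hl => h.forth p hp (hl.trans_le hκ),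
      fun p hp hl => h.back p hp (hl.trans_le hκ)⟩
  · rintro ⟨P, h⟩
    refine ⟨P, h.toFam, fun p hp hl a => ?_, fun p hp hl b => ?_⟩
    · obtain ⟨β, hβ⟩ := h.bij p hp hl
      exact ⟨_, hβ a⟩
    · obtain ⟨β, hβ⟩ := h.bij p hp hl
      exact ⟨β.symm b, by simpa using hβ (β.symm b)⟩
  · rintro ⟨e, he⟩
    refine ⟨fun p => ∀ x ∈ p, x.2 = e x.1, ⟨by simp, fun p q hq hpq x hx => hq x (hpq x hx),
      fun p hp x hx y hy => ?_⟩, fun p hp _ => ⟨e, fun a => List.forall_mem_cons.2 ⟨rfl, hp⟩⟩⟩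
    rw [hp x hx, hp y hy, he, e.injective.eq_iff]
    exact ⟨Iff.rfl, rfl⟩
  · rintro rfl hn ⟨P, h⟩
    obtain ⟨p, hp, hl⟩ := exists_pos h (List.finRange n) (by simpa using hn)
    have : ∀ a, ∃ b, (a, b) ∈ p := fun a => by
      obtain ⟨x, hx, rfl⟩ := List.mem_map.1 (hl ▸ List.mem_finRange a)
      exact ⟨x.2, hx⟩
    choose f hf using this
    have hinj : Function.Injective f := fun a a' e => (h.iso p hp _ (hf a) _ (hf a')).1.2 e
    exact ⟨Equiv.ofBijective f (Finite.injective_iff_bijective.1 hinj),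
      fun a a' => (h.iso p hp _ (hf a) _ (hf a')).2.symm⟩
  · rintro rfl hκ hR ⟨P, h⟩
    have key : ∀ a a' b, P [(a, b)] → P [(a', b)] → a = a' := fun a a' b h1 h2 =>
      hR _ (bfs_self h Prod.fst) a a' ⟨fun _ => b, h1, h2⟩
    choose f hf using h.forth [] h.nil (by simp; omega)
    have hinj : Function.Injective f := fun a a' e => key a a' _ (hf a) (e ▸ hf a')
    have hbij := Finite.injective_iff_bijective.1 hinj
    refine ⟨Equiv.ofBijective f hbij, fun a a' => ?_⟩
    obtain ⟨b', hb'⟩ := h.forth _ (hf a) hκ a'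
    obtain ⟨a'', rfl⟩ := hbij.2 b'
    obtain rfl := key a' a'' _ (h.mono _ _ hb' (by simp)) (hf a'')
    exact (h.iso _ hb' (a, f a) (by simp) (a', f a') (by simp)).2.symm

open GameB in
theorem apexStmt : ApexStmt := by
  intro κ n G H
  refine ⟨fun hG => ⟨⟨fun a b => ?_, fun a => ?_⟩, ?_, fun a b hab => ?_⟩, fun h => ?_,
    fun hκ hn _ _ hG hH h => ?_⟩
  · induction a using Fin.lastCases <;> induction b using Fin.lastCases <;> simp [apex]
    exact hG.1 _ _
  · induction a using Fin.lastCases <;> simp [apex]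
    exact hG.2 _
  · rw [SimpleGraph.connected_iff_exists_forall_reachable]
    refine ⟨Fin.last n, fun w => ?_⟩
    induction w using Fin.lastCases with
    | last => rfl
    | cast w =>
      refine SimpleGraph.Adj.reachable ?_
      rw [adjGraph, SimpleGraph.fromRel_adj]
      exact ⟨(Fin.castSucc_lt_last w).ne', Or.inl (by simp [apex])⟩
  · induction a using Fin.lastCases <;> induction b using Fin.lastCases
    · exact absurd rfl hab
    · left; simp [apex]
    · left; simp [apex]
    · right; exact ⟨Fin.last n, by simp [apex], by simp [apex]⟩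
  · rw [apex_eq, apex_eq]
    exact (bg_iff _ _).1 (bg_apO h)
  · rw [apex_eq, apex_eq] at h
    exact bf_of_apO hκ hn hG hH ((bf_iff _ _).2 h)

end Crest.Agent.R290
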