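import Crest.Agent.R290.DefsG

/-!
Row 290: Duplicator's bijective strategy on the graphs of a three-slot system that is not refuted.
-/

set_option autoImplicit false

namespace Crest.Agent.R290

open Finset

namespace GraphBG

/-- The variables seen by a node. -/
def touch (S : Sys3) : Nd → Finset (Option ℕ)
  | .dd i _ => {some (i / S.no)}
  | .cc i _ => {some (i / S.no)}
  | .pt o _ => {some (S.slot (o / 3) (o % 3))}
  | .md e _ _ => {some (S.slot e 0), some (S.slot e 1), some (S.slot e 2)}
  | _ => ∅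

def fl (δ : Option ℕ → ZMod 2) (x : ℕ) : Bool := decide (δ (some x) = 1)

/-- Flipping the bits of a node along an assignment. -/
def shift (S : Sys3) (δ : Option ℕ → ZMod 2) : Nd → Nd
  | .dd i b => .dd i (xor b (fl δ (i / S.no)))
  | .cc i b => .cc i (xor b (fl δ (i / S.no)))
  | .pt o b => .pt o (xor b (fl δ (S.slot (o / 3) (o % 3))))
  | .md e b₁ b₂ => .md e (xor b₁ (fl δ (S.slot e 0))) (xor b₂ (fl δ (S.slot e 1)))
  | .sp j => .sp j
  | .fk i => .fk i

theorem card_touch (S : Sys3) (a : Nd) : (touch S a).card ≤ 3 := by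
  cases a <;> simp only [touch, card_singleton, card_empty] <;> first | omega | exact card_le_three

theorem touch_shift (S : Sys3) (δ : Option ℕ → ZMod 2) (a : Nd) :
    touch S (shift S δ a) = touch S a := by
  cases a <;> rfl

theorem shift_shift (S : Sys3) (δ : Option ℕ → ZMod 2) (a : Nd) :
    shift S δ (shift S δ a) = a := by
  cases a <;> simp [shift]

theorem valid_shift (S : Sys3) (δ : Option ℕ → ZMod 2) (n : ℕ) (a : Nd) (h : S.Valid n a) :
    S.Valid n (shift S δ a) := by
  cases a <;> exact h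

theorem shift_congr (S : Sys3) (δ δ' : Option ℕ → ZMod 2) (a : Nd)
    (h : ∀ v ∈ touch S a, δ' v = δ v) : shift S δ' a = shift S δ a := by
  cases a <;> simp only [touch, mem_singleton, mem_insert, forall_eq, forall_eq_or_imp] at h <;>
    simp only [shift, fl, h]

theorem sat_mono {V : Type} {E : Set (Fm V)} {o : V} {K : ℕ} {δ : V → ZMod 2} {T T' : Finset V}
    (h : Sat E o K δ T') (hT : T ⊆ T') : Sat E o K δ T :=
  ⟨h.1, fun f hf hc => h.2 f hf fun v hv => (hc v hv).imp id fun h' => hT h'⟩

theorem ev_sg {V : Type} (δ : V → ZMod 2) (v : V) : ev δ (sg v) = δ v := by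
  simp [ev, sg]

theorem sg_zero {V : Type} {v w : V} (h : w ≠ v) : sg v w = 0 := Finsupp.single_eq_of_ne h

theorem parity (S : Sys3) (K : ℕ) (δ : Option ℕ → ZMod 2) (e : ℕ) (he : e < S.ne)
    (h : Sat S.E none K δ {some (S.slot e 0), some (S.slot e 1), some (S.slot e 2)}) :
    fl δ (S.slot e 2) = xor (xor (fl δ (S.slot e 0)) (fl δ (S.slot e 1))) (decide (e = S.tw)) := by
  have h0 : ev δ (S.eqn e) = 0 := by
    refine h.2 _ (Dv.base ⟨e, he, rfl⟩) fun v hv => ?_
    by_contra hne
    simp only [Set.mem_singleton_iff, mem_insert, mem_singleton, not_or] at hne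
    apply hv
    unfold Sys3.eqn
    simp only [Finsupp.add_apply, sg_zero hne.2.1, sg_zero hne.2.2.1, sg_zero hne.2.2.2]
    split_ifs
    · simp [sg_zero hne.1]
    · simp
  unfold Sys3.eqn at h0
  simp only [map_add, ev_sg] at h0
  unfold fl
  by_cases htw : e = S.tw
  · rw [if_pos htw, ev_sg, h.1] at h0
    rw [decide_eq_true htw]
    revert h0
    generalize δ (some (S.slot e 0)) = x
    generalize δ (some (S.slot e 1)) = y
    generalize δ (some (S.slot e 2)) = z
    revert x y z
    decide
  · rw [if_neg htw, map_zero] at h0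
    rw [decide_eq_false htw]
    revert h0
    generalize δ (some (S.slot e 0)) = x
    generalize δ (some (S.slot e 1)) = y
    generalize δ (some (S.slot e 2)) = z
    revert x y z
    decide

theorem arc_shift (S : Sys3) (K n : ℕ) (δ : Option ℕ → ZMod 2) (a a' : Nd) (ha : S.Valid n a')
    (h : Sat S.E none K δ (touch S a')) :
    S.arc false a a' = S.arc true (shift S δ a) (shift S δ a') := by
  cases a <;> cases a' <;> try rfl
  · rename_i i b i' b'
    simp only [shift, Sys3.arc, decide_eq_decide]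
    constructor
    · rintro ⟨rfl, rfl⟩
      exact ⟨rfl, rfl⟩
    · rintro ⟨rfl, h2⟩
      exact ⟨rfl, by simpa using h2⟩
  · rename_i i b i' b'
    simp only [shift, Sys3.arc, decide_eq_decide]
    refine and_congr_right fun h1 => and_congr_right fun h2 => ?_
    have : i' / S.no = i / S.no := by
      subst h1
      exact Nat.succ_div_of_not_dvd fun hd => h2 (Nat.mod_eq_zero_of_dvd hd)
    rw [this]
    simp
  · rename_i i b o b'
    simp only [shift, Sys3.arc, decide_eq_decide]
    refine and_congr_right fun h1 => and_congr_right fun h2 => ?_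
    rw [h2]
    simp
  · rename_i o b e b₁ b₂
    simp only [shift, Sys3.arc, decide_eq_decide]
    refine and_congr_right fun h1 => ?_
    rw [h1]
    have hp := parity S K δ e ha h
    have h3 : o % 3 = 0 ∨ o % 3 = 1 ∨ o % 3 = 2 := by omega
    rcases h3 with h3 | h3 | h3 <;> rw [h3]
    · simp [Sys3.mbit]
    · simp [Sys3.mbit]
    · rw [hp]
      simp only [Sys3.mbit]
      generalize fl δ (S.slot e 0) = x
      generalize fl δ (S.slot e 1) = y
      generalize decide (e = S.tw) = z
      clear hp h ha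
      revert b b₁ b₂ x y z
      decide

/-- The variables seen by a position. -/
def tl (S : Sys3) (n : ℕ) : List ({a // S.Valid n a} × {a // S.Valid n a}) → Finset (Option ℕ)
  | [] => ∅
  | x :: p => touch S x.1.1 ∪ tl S n p

theorem mem_tl (S : Sys3) (n : ℕ) (p : List ({a // S.Valid n a} × {a // S.Valid n a}))
    (v : Option ℕ) : v ∈ tl S n p ↔ ∃ x ∈ p, v ∈ touch S x.1.1 := by
  induction p with
  | nil => simp [tl]
  | cons x p ih => simp only [tl, mem_union, ih, List.mem_cons, exists_eq_or_imp]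

theorem card_tl (S : Sys3) (n : ℕ) (p : List ({a // S.Valid n a} × {a // S.Valid n a})) :
    (tl S n p).card ≤ 3 * p.length := by
  induction p with
  | nil => simp [tl]
  | cons x p ih =>
    have h1 := card_union_le (touch S x.1.1) (tl S n p)
    have h2 := card_touch S x.1.1
    simp only [tl, List.length_cons]
    omega

end GraphBG

open GraphBG in
theorem graphBGStmt_of (hL : LinBasicStmt) : GraphBGStmt := by
  intro S n κ K _ _ hK hD
  obtain ⟨h0, hext⟩ := hL.2.2.2 (Option ℕ) S.E none K
  refine ⟨fun p => ∃ δ, Sat S.E none K δ (tl S n p) ∧ ∀ x ∈ p, x.2.1 = shift S δ x.1.1,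
    ⟨⟨?_, ?_, ?_⟩, ?_⟩⟩
  · obtain ⟨δ, hδ⟩ := h0 hD
    exact ⟨δ, hδ, by simp⟩
  · rintro p q ⟨δ, hδ, hq⟩ hpq
    refine ⟨δ, sat_mono hδ fun v hv => ?_, fun x hx => hq x (hpq x hx)⟩
    rw [mem_tl] at hv ⊢
    obtain ⟨x, hx, hv⟩ := hv
    exact ⟨x, hpq x hx, hv⟩
  · rintro p ⟨δ, hδ, hp⟩ x hx y hy
    have hsx : Sat S.E none K δ (touch S x.1.1) :=
      sat_mono hδ fun v hv => (mem_tl S n p v).2 ⟨x, hx, hv⟩
    have hsy : Sat S.E none K δ (touch S y.1.1) :=
      sat_mono hδ fun v hv => (mem_tl S n p v).2 ⟨y, hy, hv⟩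
    refine ⟨⟨fun h => ?_, fun h => ?_⟩, ?_⟩
    · apply Subtype.ext
      rw [hp x hx, hp y hy, h]
    · apply Subtype.ext
      have h' : x.2.1 = y.2.1 := by rw [h]
      rw [hp x hx, hp y hy] at h'
      rw [← shift_shift S δ x.1.1, h', shift_shift]
    · simp only [Sys3.grV, Sys3.adj]
      rw [hp x hx, hp y hy, arc_shift S K n δ _ _ y.1.2 hsy, arc_shift S K n δ _ _ x.1.2 hsx]
  · rintro p ⟨δ, hδ, hp⟩ hlen
    have hch : ∀ T : Finset (Option ℕ), ∃ δ', T.card ≤ 3 →
        Sat S.E none K δ' (T ∪ tl S n p) ∧ ∀ v ∈ tl S n p, δ' v = δ v := by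
      intro T
      by_cases hT : T.card ≤ 3
      · have h1 := card_union_le T (tl S n p)
        have h2 := card_tl S n p
        obtain ⟨δ', h⟩ := hext δ (tl S n p) (T ∪ tl S n p) subset_union_right (by omega) hδ
        exact ⟨δ', fun _ => h⟩
      · exact ⟨δ, fun h => absurd h hT⟩
    choose D hD' using hch
    let f : {a // S.Valid n a} → {a // S.Valid n a} := fun a =>
      ⟨shift S (D (touch S a.1)) a.1, valid_shift S _ n a.1 a.2⟩
    have hf : Function.Involutive f := by
      intro a
      apply Subtype.ext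
      simp only [f, touch_shift, shift_shift]
    refine ⟨hf.toPerm f, fun a => ?_⟩
    obtain ⟨h1, h2⟩ := hD' (touch S a.1) (card_touch S a.1)
    refine ⟨D (touch S a.1), h1, fun x hx => ?_⟩
    rcases List.mem_cons.1 hx with rfl | hx
    · rfl
    · rw [hp x hx]
      exact (shift_congr S δ _ _ fun v hv => h2 v ((mem_tl S n p v).2 ⟨x, hx, hv⟩)).symm

end Crest.Agent.R290
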