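import Crest.Agent.R290.Defs
import Crest.Agent.R290.PTx

/-! Row 290: polynomial-time tests on matrices and the parser of graph codes. -/

set_option autoImplicit false

namespace Crest.Agent.R290

open Crest.WLRefine Crest.Agent.PT

namespace MatAlg

theorem card_fin (n : ℕ) (c : ℕ → Prop) [DecidablePred c] :
    (Finset.univ.filter fun j : Fin n => c j.val).card = ((Finset.range n).filter c).card := by
  rw [Finset.card_filter, Finset.card_filter,
    Fin.sum_univ_eq_sum_range (fun j => if c j then 1 else 0) n]

theorem simple : PTime fun a : Un × Word => IsSimple (mat a.1.val a.2) := by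
  have h1 : PTime fun a : Un × Word => ∀ i : Fin a.1.val, ∀ j : Fin a.1.val,
      a.2.getD (i.val * a.1.val + j.val) false = a.2.getD (j.val * a.1.val + i.val) false :=
    PTime.forall_fin (c := fun (a : Un × Word) i => ∀ j : Fin a.1.val,
      a.2.getD (i * a.1.val + j.val) false = a.2.getD (j.val * a.1.val + i) false) (by fun_prop)
      (PTime.forall_fin (c := fun (p : (Un × Word) × Un) j =>
        p.1.2.getD (p.2.val * p.1.1.val + j) false = p.1.2.getD (j * p.1.1.val + p.2.val) false)
        (by fun_prop) (by fun_prop))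
  have h2 : PTime fun a : Un × Word => ∀ i : Fin a.1.val,
      a.2.getD (i.val * a.1.val + i.val) false = false :=
    PTime.forall_fin (c := fun (a : Un × Word) i => a.2.getD (i * a.1.val + i) false = false)
      (by fun_prop) (by fun_prop)
  exact h1.and h2

theorem deg : PTime fun a : Un × Word => MaxDegLeThree (mat a.1.val a.2) := by
  have h1 : PTime fun a : Un × Word => ∀ i : Fin a.1.val,
      ((Finset.range a.1.val).filter fun j =>
        a.2.getD (i.val * a.1.val + j) false = true).card ≤ 3 :=
    PTime.forall_fin (c := fun (a : Un × Word) i => ((Finset.range a.1.val).filter fun j =>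
        a.2.getD (i * a.1.val + j) false = true).card ≤ 3) (by fun_prop)
      (PTime.le (PTime.card_filter (c := fun (p : (Un × Word) × Un) j =>
        p.1.2.getD (p.2.val * p.1.1.val + j) false = true) (by fun_prop) (by fun_prop))
        (PTime.const 3))
  refine h1.congr fun a => propext (forall_congr' fun i => ?_)
  rw [← card_fin]
  rfl

open Classical in
/-- One round of the reachability table. -/
noncomputable def rs (a : Un × Word) (T : Word) (i : ℕ) : Bool :=
  decide (T.getD i false = true ∨ ∃ j < a.1.val, T.getD j false = true ∧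
    (a.2.getD (j * a.1.val + i) false = true ∨ a.2.getD (i * a.1.val + j) false = true))

noncomputable def rt (a : Un × Word) (s : ℕ) : Word :=
  (fun T => (List.range a.1.val).map (rs a T))^[s] [true]

theorem rt_ptime : PTime fun a : Un × Word => rt a a.1.val := by
  refine PTime.iter_table (g := rs) (N := fun a : Un × Word => a.1.val) (by fun_prop) (by fun_prop)
    (PTime.const _) ?_
  unfold rs
  refine PTime.decide (PTime.or (by fun_prop) ?_)
  exact PTime.exists_lt (c := fun (p : ((Un × Word) × Word) × Un) j => p.1.2.getD j false = true ∧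
    (p.1.1.2.getD (j * p.1.1.1.val + p.2.val) false = true ∨
      p.1.1.2.getD (p.2.val * p.1.1.1.val + j) false = true)) (by fun_prop) (by fun_prop)

theorem rt_succ (n : ℕ) (w : Word) (s : ℕ) {i : ℕ} (hi : i < n) :
    (rt (⟨n⟩, w) (s + 1)).getD i false = true ↔ (rt (⟨n⟩, w) s).getD i false = true ∨
      ∃ j < n, (rt (⟨n⟩, w) s).getD j false = true ∧
        (w.getD (j * n + i) false = true ∨ w.getD (i * n + j) false = true) := by
  rw [rt, Function.iterate_succ_apply', getD_rangeMap_of_lt _ hi, rs, decide_eq_true_eq]
  rfl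

theorem rt_sound {n : ℕ} (hn : 0 < n) (w : Word) (s : ℕ) (i : Fin n)
    (h : (rt (⟨n⟩, w) s).getD i false = true) : (adjGraph (mat n w)).Reachable ⟨0, hn⟩ i := by
  induction s generalizing i with
  | zero =>
    obtain ⟨i, hi⟩ := i
    cases i with
    | zero => rfl
    | succ i => simp [rt] at h
  | succ s ih =>
    rcases (rt_succ n w s i.isLt).1 h with h | ⟨j, hj, h1, h2⟩
    · exact ih i h
    · refine (ih ⟨j, hj⟩ h1).trans ?_
      by_cases e : (⟨j, hj⟩ : Fin n) = i
      · rw [e]
      · exact SimpleGraph.Adj.reachable ((SimpleGraph.fromRel_adj _ _ _).2 ⟨e, h2⟩)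

theorem rt_mono (n : ℕ) (w : Word) {s t : ℕ} (hst : s ≤ t) {i : ℕ} (hi : i < n)
    (h : (rt (⟨n⟩, w) s).getD i false = true) : (rt (⟨n⟩, w) t).getD i false = true := by
  induction hst with
  | refl => exact h
  | step _ ih => exact (rt_succ n w _ hi).2 (Or.inl ih)

theorem rt_walk {n : ℕ} (w : Word) {u v : Fin n} (p : (adjGraph (mat n w)).Walk u v) (s : ℕ)
    (h : (rt (⟨n⟩, w) s).getD u false = true) :
    (rt (⟨n⟩, w) (s + p.length)).getD v false = true := by
  induction p generalizing s with
  | nil => exact h
  | @cons a b c hab p ih =>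
    have := ih (s + 1) ((rt_succ n w s b.isLt).2 (Or.inr ⟨a, a.isLt, h,
      ((SimpleGraph.fromRel_adj _ _ _).1 hab).2⟩))
    rwa [SimpleGraph.Walk.length_cons, ← add_assoc, add_right_comm]

theorem conn_iff (n : ℕ) (w : Word) : (adjGraph (mat n w)).Connected ↔
    0 < n ∧ ∀ i : Fin n, (rt (⟨n⟩, w) n).getD i false = true := by
  constructor
  · intro h
    obtain ⟨v⟩ := h.nonempty
    have hn : 0 < n := v.pos
    refine ⟨hn, fun i => ?_⟩
    obtain ⟨p, hp⟩ := (h.preconnected ⟨0, hn⟩ i).exists_isPath
    have h1 := rt_walk w p 0 (by simp [rt])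
    have h2 := hp.length_lt
    rw [Fintype.card_fin] at h2
    exact rt_mono n w (by omega) i.isLt h1
  · rintro ⟨hn, h⟩
    have : Nonempty (Fin n) := ⟨⟨0, hn⟩⟩
    exact ⟨fun u v => (rt_sound hn w n u (h u)).symm.trans (rt_sound hn w n v (h v))⟩

theorem conn : PTime fun a : Un × Word => (adjGraph (mat a.1.val a.2)).Connected := by
  have h0 := rt_ptime
  have h1 : PTime fun a : Un × Word => ∀ i : Fin a.1.val, (rt a a.1.val).getD i.val false = true :=
    PTime.forall_fin (c := fun (a : Un × Word) i => (rt a a.1.val).getD i false = true)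
      (by fun_prop)
      (PTime.beq (PTime.getD (h0.comp PTime.fst') (by fun_prop) (PTime.const _)) (PTime.const _))
  have h2 : PTime fun a : Un × Word => 0 < a.1.val := by fun_prop
  exact (h2.and h1).congr fun a => propext (conn_iff _ _)

/-! ### Parsing -/

theorem flat_range (m n : ℕ) (f : ℕ → Bool) :
    ((List.range m).flatMap fun v => (List.range n).map fun w => f (v * n + w)) =
      (List.range (m * n)).map f := by
  induction m with
  | zero => simp
  | succ m ih =>
    rw [List.range_succ, List.flatMap_append, ih, add_mul, one_mul, List.range_add]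
    simp [Function.comp_def]

theorem flat_fin (n : ℕ) (f : ℕ → Bool) :
    ((List.finRange n).flatMap fun v => (List.finRange n).map fun w => f (v.val * n + w.val)) =
      (List.range (n * n)).map f := by
  rw [← flat_range, ← List.map_coe_finRange_eq_range, List.flatMap_map]
  simp only [List.map_map, Function.comp_def]

theorem code_mat (n : ℕ) (w : Word) : adjMatrixCode (mat n w) =
    Crest.Enc.natCode n ++ (List.range (n * n)).map fun i => w.getD i false := by
  rw [adjMatrixCode, ← flat_fin]
  rfl

theorem idx_lt {n : ℕ} (i j : Fin n) : i.val * n + j.val < n * n := by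
  have h1 : i.val + 1 ≤ n := i.isLt
  have h2 := j.isLt
  have h3 := Nat.mul_le_mul_right n h1
  rw [add_mul] at h3
  omega

theorem exists_word {n : ℕ} (G : Fin n → Fin n → Bool) :
    ∃ w : Word, w.length = n * n ∧ mat n w = G ∧ adjMatrixCode G = Crest.Enc.natCode n ++ w := by
  let f : ℕ → Bool := fun k =>
    if h : k / n < n ∧ k % n < n then G ⟨k / n, h.1⟩ ⟨k % n, h.2⟩ else false
  have hf : ∀ i j : Fin n, f (i.val * n + j.val) = G i j := by
    intro i j
    have h1 : (i.val * n + j.val) / n = i.val := by
      rw [add_comm, Nat.add_mul_div_right _ _ i.pos, Nat.div_eq_of_lt j.isLt, zero_add]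
    have h2 : (i.val * n + j.val) % n = j.val := by
      rw [add_comm, Nat.add_mul_mod_self_right, Nat.mod_eq_of_lt j.isLt]
    simp only [f, h1, h2, i.isLt, j.isLt, and_self, dite_true]
  refine ⟨(List.range (n * n)).map f, by simp, ?_, ?_⟩
  · funext i j
    rw [mat, getD_rangeMap_of_lt _ (idx_lt i j), hf]
  · rw [adjMatrixCode, ← flat_fin]
    simp only [hf]

def gn (x : Word) : ℕ := min (natVal x) x.length
def gm (x : Word) : Word := (natRest x).take (gn x * gn x)
def gr (x : Word) : Word := (natRest x).drop (gn x * gn x)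

theorem gn_pu : PU gn := PU.min_right (by fun_prop) (by fun_prop)

theorem gm_pt : PTime gm := by
  have := gn_pu.ptime
  unfold gm; fun_prop

theorem gr_pt : PTime gr := PTime.drop (gn_pu.mul gn_pu) (by fun_prop)

end MatAlg

theorem matAlgStmt : MatAlgStmt := ⟨MatAlg.simple, MatAlg.deg, MatAlg.conn⟩

open MatAlg in
theorem parseStmt : ParseStmt := by
  refine ⟨gn, gm, gr, fun x => x = adjMatrixCode (mat (gn x) (gm x)) ++ gr x, gn_pu, gm_pt, gr_pt,
    ?_, fun x => min_le_right _ _, fun x h => h, fun n G r => ?_⟩
  · have h1 : PTime fun x : Word => (List.range (gn x * gn x)).map fun i => (gm x).getD i false :=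
      PTime.rangeMap (g := fun x i => (gm x).getD i false) (gn_pu.mul gn_pu)
        (PTime.getD (gm_pt.comp PTime.fst') (by fun_prop) (PTime.const _))
    refine (PTime.weq PTime.id (((PTime.natCode gn_pu.ptime).append h1).append gr_pt)).congr
      fun x => ?_
    rw [code_mat]
  · obtain ⟨w, h1, h2, h3⟩ := exists_word G
    have e1 : gn (adjMatrixCode G ++ r) = n := by
      rw [gn, h3, List.append_assoc, natVal_natCode]
      refine min_eq_left ?_
      simp only [List.length_append, h1]
      nlinarith [Nat.le_mul_self n]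
    have e2 : gm (adjMatrixCode G ++ r) = w := by
      rw [gm, e1, h3, List.append_assoc, natRest_natCode, ← h1, List.take_left]
    have e3 : gr (adjMatrixCode G ++ r) = r := by
      rw [gr, e1, h3, List.append_assoc, natRest_natCode, ← h1, List.drop_left]
    refine ⟨?_, e1, e3, by rw [e2, h2]⟩
    have : adjMatrixCode (mat (gn (adjMatrixCode G ++ r)) (gm (adjMatrixCode G ++ r))) =
        adjMatrixCode G := by
      rw [code_mat, e1, e2, ← code_mat, h2]
    show _ = _
    rw [this, e3]

end Crest.Agent.R290
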