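import Crest.Agent.R290.DefsG
import Crest.Agent.R290.MatAlg

/-!
Row 290: the graphs of a polynomial-time family of three-slot systems are computable in polynomial
time (`graphPTStmt`).
-/

set_option autoImplicit false

namespace Crest.Agent.R290

open Crest.WLRefine Crest.Agent.PT

namespace GraphPT

/-- Nodes as tuples. -/
def code : Nd → ℕ × ℕ × Bool × Bool
  | .sp j => (0, j, false, false)
  | .fk i => (1, i, false, false)
  | .dd i b => (2, i, b, false)
  | .cc i b => (3, i, b, false)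
  | .pt o b => (4, o, b, false)
  | .md e b₁ b₂ => (5, e, b₁, b₂)

/-- The code of node number `v`; `l` is the length of the spine and `nb` the number of blocks. -/
def decN (l nb v : ℕ) : ℕ × ℕ × Bool × Bool :=
  if v < l then (0, v, false, false)
  else if v < l + 5 * nb then
    (if (v - l) % 5 = 0 then (1, (v - l) / 5, false, false)
     else if (v - l) % 5 ≤ 2 then (2, (v - l) / 5, decide ((v - l) % 5 = 2), false)
     else (3, (v - l) / 5, decide ((v - l) % 5 = 4), false))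
  else
    (if (v - l - 5 * nb) % 10 < 6 then
      (4, 3 * ((v - l - 5 * nb) / 10) + (v - l - 5 * nb) % 10 / 2,
        decide ((v - l - 5 * nb) % 10 % 2 = 1), false)
     else (5, (v - l - 5 * nb) / 10, decide (8 ≤ (v - l - 5 * nb) % 10),
        decide ((v - l - 5 * nb) % 10 % 2 = 1)))

theorem code_dec (S : Sys3) (n v : ℕ) : code (S.dec n v) = decN (S.len n) S.nb v := by
  unfold Sys3.dec decN
  split_ifs <;> rfl

/-- Arcs on codes. -/
def arcN (S : Sys3) (tw : Bool) (a c : ℕ × ℕ × Bool × Bool) : Prop :=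
  (a.1 = 0 ∧ c.1 = 0 ∧ (c.2.1 = a.2.1 + 1 ∨ (a.2.1 = 1 ∧ c.2.1 = 3))) ∨
  (a.1 = 0 ∧ c.1 = 1 ∧ a.2.1 = 4 + 2 * c.2.1) ∨
  (a.1 = 1 ∧ c.1 = 2 ∧ a.2.1 = c.2.1) ∨
  (a.1 = 2 ∧ c.1 = 3 ∧ a.2.1 = c.2.1 ∧ a.2.2.1 = c.2.2.1) ∨
  (a.1 = 3 ∧ c.1 = 2 ∧ c.2.1 = a.2.1 + 1 ∧ c.2.1 % S.no ≠ 0 ∧ a.2.2.1 = c.2.2.1) ∨
  (a.1 = 3 ∧ c.1 = 4 ∧ c.2.1 = a.2.1 % S.no ∧ S.slot (c.2.1 / 3) (c.2.1 % 3) = a.2.1 / S.no ∧
    a.2.2.1 = c.2.2.1) ∨
  (a.1 = 4 ∧ c.1 = 5 ∧ a.2.1 / 3 = c.2.1 ∧
    a.2.2.1 = S.mbit tw c.2.1 c.2.2.1 c.2.2.2 (a.2.1 % 3))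

theorem arc_iff (S : Sys3) (tw : Bool) (a c : Nd) :
    S.arc tw a c = true ↔ arcN S tw (code a) (code c) := by
  cases a <;> cases c <;> simp [Sys3.arc, arcN, code]

section
variable {α : Type} [Rp α]

theorem pt_decN {l nb v : α → ℕ} (hl : PTime l) (hnb : PTime nb) (hv : PTime v) :
    PTime fun x => decN (l x) (nb x) (v x) := by
  unfold decN; fun_prop

theorem pt_arcN {S : α → Sys3} (hS : PSys S) (tw : Bool) {β : Type} [Rp β] {f : β → α}
    {a c : β → ℕ × ℕ × Bool × Bool} (hf : PTime f) (ha : PTime a) (hc : PTime c) :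
    PTime fun x => arcN (S (f x)) tw (a x) (c x) := by
  obtain ⟨-, h2, h3, h4⟩ := hS
  have e1 : PTime fun x => (S (f x)).no := ((PU.const 3).mul h2).ptime.comp hf
  have e2 : PTime fun x => (S (f x)).tw := h3.comp hf
  have e3 : PTime fun x => (S (f x)).slot ((c x).2.1 / 3) ((c x).2.1 % 3) :=
    h4.comp (f := fun x => (f x, (c x).2.1 / 3, (c x).2.1 % 3)) (by fun_prop)
  have e4 : PTime fun x =>
      (S (f x)).mbit tw (c x).2.1 (c x).2.2.1 (c x).2.2.2 ((a x).2.1 % 3) := by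
    unfold Sys3.mbit; fun_prop
  unfold arcN; fun_prop

/-- The code of a matrix whose entries are computable. -/
theorem pt_code {n : α → ℕ} (G : (x : α) → Fin (n x) → Fin (n x) → Bool) (g : α → ℕ → ℕ → Bool)
    (hn : PU n) (hg : PTime fun p : α × ℕ × ℕ => g p.1 p.2.1 p.2.2)
    (h : ∀ x v w, G x v w = g x v.val w.val) : PTime fun x => adjMatrixCode (G x) := by
  have h0 : PTime fun p : α × Un => n p.1 := hn.ptime.comp PTime.fst'
  have h1 : PTime fun x => (List.range (n x * n x)).map fun i => g x (i / n x) (i % n x) :=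
    PTime.rangeMap (g := fun x i => g x (i / n x) (i % n x)) (hn.mul hn)
      (hg.comp (f := fun p : α × Un => (p.1, p.2.val / n p.1, p.2.val % n p.1)) (by fun_prop))
  refine ((PTime.natCode hn.ptime).append h1).congr fun x => ?_
  rw [adjMatrixCode, ← MatAlg.flat_fin]
  congr 2
  funext v
  congr 1
  funext w
  rw [h, add_comm, Nat.add_mul_div_right _ _ v.pos, Nat.div_eq_of_lt w.isLt, zero_add,
    Nat.add_mul_mod_self_right, Nat.mod_eq_of_lt w.isLt]

end

end GraphPT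

open GraphPT in
theorem graphPTStmt : GraphPTStmt := by
  intro α _ S n tw hS hn
  have h1 := hS.1
  have h2 := hS.2.1
  have hnb : PU fun x => (S x).nb := h1.mul ((PU.const 3).mul h2)
  have hlen : PU fun x => (S x).len (n x) :=
    (hn.sub ((PU.const 5).mul hnb)).sub ((PU.const 10).mul h2)
  have d1 : PTime fun p : α × ℕ × ℕ => decN ((S p.1).len (n p.1)) (S p.1).nb p.2.1 :=
    pt_decN (hlen.ptime.comp PTime.fst') (hnb.ptime.comp PTime.fst') (by fun_prop)
  have d2 : PTime fun p : α × ℕ × ℕ => decN ((S p.1).len (n p.1)) (S p.1).nb p.2.2 :=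
    pt_decN (hlen.ptime.comp PTime.fst') (hnb.ptime.comp PTime.fst') (by fun_prop)
  have hg : PTime fun p : α × ℕ × ℕ =>
      (S p.1).adj tw ((S p.1).dec (n p.1) p.2.1) ((S p.1).dec (n p.1) p.2.2) := by
    classical
    refine ((pt_arcN hS tw PTime.fst' d1 d2).or (pt_arcN hS tw PTime.fst' d2 d1)).decide.congr
      fun p => ?_
    rw [← code_dec, ← code_dec, ← arc_iff, ← arc_iff, Sys3.adj]
    simp
  refine ⟨((PU.const 4).add ((PU.const 7).mul hnb)).add ((PU.const 10).mul h2),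
    pt_code _ (fun x v w => (S x).adj tw ((S x).dec (n x) v) ((S x).dec (n x) w)) hn hg
      fun _ _ _ => rfl, ?_⟩
  have h0 : PTime fun p : α × ℕ × ℕ => n p.1 := hn.ptime.comp PTime.fst'
  refine pt_code (n := fun x => n x + 1) _ (fun x v w => if v < n x then
    (if w < n x then (S x).adj tw ((S x).dec (n x) v) ((S x).dec (n x) w) else true)
    else decide (w < n x)) (hn.add (PU.const 1)) ?_ fun x v w => ?_
  · exact PTime.ite (by fun_prop) (PTime.ite (by fun_prop) hg (PTime.const _)) (by fun_prop)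
  · unfold apex
    split_ifs <;> rfl

end Crest.Agent.R290
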