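import Crest.Agent.R290.DefsL

/-! Row 290: replacing wide equations by grids keeps Duplicator's side. -/

set_option autoImplicit false

namespace Crest.Agent.R290

open Finset

namespace GridD

lemma change {α : Type} (a : ℕ → α) (n : ℕ) (h : a 0 ≠ a n) : ∃ j < n, a j ≠ a (j + 1) := by
  induction n with
  | zero => exact absurd rfl h
  | succ n ih =>
    by_cases h1 : a 0 = a n
    · exact ⟨n, Nat.lt_succ_self n, fun h2 => h (h1.trans h2)⟩
    · obtain ⟨j, hj, h2⟩ := ih h1
      exact ⟨j, by omega, h2⟩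

/-- Edge isoperimetry in the square grid. -/
lemma iso {X : Type} (u : ℕ → ℕ → ZMod 2) (q : ℕ) (N : Finset X) (eh ev : ℕ → ℕ → X)
    (ih : ∀ i c i' c', eh i c = eh i' c' → i = i') (iv : ∀ i c i' c', ev i c = ev i' c' → c = c')
    (hh : ∀ i c, c + 1 < q → u i c ≠ u i (c + 1) → eh i (c + 1) ∈ N)
    (hv : ∀ i c, i + 1 < q → u i c ≠ u (i + 1) c → ev (i + 1) c ∈ N)
    (hI : 2 * ((range q).filter fun i => u i 0 ≠ 0).card ≤ q) :
    ((range q).filter fun i => u i 0 ≠ 0).card ≤ N.card := by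
  by_cases hc : ∃ c < q, ∀ i < q, u i c = u 0 c
  · obtain ⟨c, hcq, hc⟩ := hc
    have h1 : ∀ i ∈ (range q).filter fun i => u i 0 ≠ u 0 c, ∃ j, eh i j ∈ N := by
      intro i hi
      rw [mem_filter, mem_range] at hi
      obtain ⟨j, hj, h2⟩ := change (u i) c (by rw [hc i hi.1]; exact hi.2)
      exact ⟨j + 1, hh i j (by omega) h2⟩
    choose! j hj using h1
    have h2 : ((range q).filter fun i => u i 0 ≠ u 0 c).card ≤ N.card :=
      card_le_card_of_injOn (fun i => eh i (j i)) (fun i hi => hj i hi)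
        fun i _ i' _ h => ih _ _ _ _ h
    refine le_trans ?_ h2
    by_cases h0 : u 0 c = 0
    · rw [h0]
    · have h3 : ((range q).filter fun i => ¬ (u i 0 ≠ 0)).card ≤
          ((range q).filter fun i => u i 0 ≠ u 0 c).card := by
        refine card_le_card fun i hi => ?_
        rw [mem_filter] at hi ⊢
        refine ⟨hi.1, fun h => h0 ?_⟩
        rw [← h]; exact not_not.1 hi.2
      have h4 := card_filter_add_card_filter_not (s := range q) (fun i => u i 0 ≠ 0)
      rw [card_range] at h4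
      omega
  · have h1 : ∀ c ∈ range q, ∃ j, ev j c ∈ N := by
      intro c hcq
      rw [mem_range] at hcq
      have : ∃ i < q, u i c ≠ u 0 c := by
        by_contra h
        exact hc ⟨c, hcq, fun i hi => by_contra fun h' => h ⟨i, hi, h'⟩⟩
      obtain ⟨i, hi, h2⟩ := this
      obtain ⟨j, hj, h3⟩ := change (fun i => u i c) i (Ne.symm h2)
      exact ⟨j + 1, hv j c (by omega) h3⟩
    choose! j hj using h1
    have h2 : (range q).card ≤ N.card :=
      card_le_card_of_injOn (fun c => ev (j c) c) (fun c hc => hj c hc)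
        fun c _ c' _ h => iv _ _ _ _ h
    exact le_trans (card_filter_le _ _) h2

lemma fm_add_self {V : Type} (f : Fm V) : f + f = 0 := by
  ext v
  simp only [Finsupp.add_apply, Finsupp.zero_apply]
  exact CharTwo.add_self_eq_zero _

lemma sub_sg {V V' : Type} (φ : V' → Fm V) (v : V') : sub φ (sg v) = φ v := by
  simp [sub, sg]

lemma sub_ne {V V' : Type} (φ : V' → Fm V) (U : Fm V') (x : V) (h : sub φ U x ≠ 0) :
    ∃ p, U p ≠ 0 ∧ φ p x ≠ 0 := by
  rw [sub, Finsupp.linearCombination_apply, Finsupp.sum, Finsupp.finsetSum_apply] at h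
  obtain ⟨p, hp, h1⟩ := Finset.exists_ne_zero_of_sum_ne_zero h
  refine ⟨p, Finsupp.mem_support_iff.1 hp, fun h2 => h1 ?_⟩
  rw [Finsupp.smul_apply, h2, smul_zero]

lemma sub_two {V V' : Type} (φ : V' → Fm V) (x : V) (p1 p2 : V')
    (h : ∀ p, φ p x = sg p p1 + sg p p2) (U : Fm V') : sub φ U x = U p1 + U p2 := by
  induction U using Finsupp.induction_linear with
  | zero => simp
  | add f g hf hg =>
    rw [map_add, Finsupp.add_apply, hf, hg, Finsupp.add_apply, Finsupp.add_apply]; ring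
  | single p a =>
    have : Finsupp.single p a = a • sg p := by simp [sg]
    rw [this, map_smul, sub_sg, Finsupp.smul_apply, Finsupp.smul_apply, Finsupp.smul_apply, h,
      smul_add]

lemma tele {M : Type} [AddCommMonoid M] (h2 : ∀ x : M, x + x = 0) (q : ℕ) (hq : 1 ≤ q) (A : M)
    (h : ℕ → M) :
    ∑ c ∈ range q, ((if c = 0 then A else h c) + if c + 1 < q then h (c + 1) else 0) = A := by
  obtain ⟨n, rfl⟩ : ∃ n, q = n + 1 := ⟨q - 1, by omega⟩
  rw [sum_add_distrib, sum_range_succ', sum_range_succ]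
  have e1 : ∑ c ∈ range n, (if c + 1 = 0 then A else h (c + 1)) = ∑ c ∈ range n, h (c + 1) :=
    sum_congr rfl fun c _ => if_neg (by omega)
  have e2 : ∑ c ∈ range n, (if c + 1 < n + 1 then h (c + 1) else 0) = ∑ c ∈ range n, h (c + 1) :=
    sum_congr rfl fun c hc => if_pos (by rw [mem_range] at hc; omega)
  rw [e1, e2, if_pos rfl, if_neg (by omega), add_zero, add_right_comm, h2, zero_add]

variable {V Wd : Type} (pd : Wd → ℕ → Fm V) (q : ℕ)

/-- The cell equations as a family. -/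
noncomputable def gc (p : Wd × ℕ × ℕ) : Fm (V ⊕ Wd × Bool × ℕ × ℕ) :=
  gcell pd q p.1 p.2.1 p.2.2

lemma full (hq : 1 ≤ q) (w : Wd) :
    ∑ i ∈ range q, ∑ c ∈ range q, gcell pd q w i c =
      Finsupp.mapDomain Sum.inl (∑ i ∈ range q, pd w i) := by
  have e : ∀ i c, gcell pd q w i c =
      ((if c = 0 then Finsupp.mapDomain Sum.inl (pd w i) else sg (Sum.inr (w, false, i, c))) +
        (if c + 1 < q then sg (Sum.inr (w, false, i, c + 1)) else 0)) +
      ((if i = 0 then 0 else sg (Sum.inr (w, true, i, c))) +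
        (if i + 1 < q then sg (Sum.inr (w, true, i + 1, c)) else 0)) := fun i c => by
    rw [gcell, add_assoc]
  rw [Finsupp.mapDomain_finsetSum,
    sum_congr rfl fun i _ => (sum_congr rfl fun c _ => e i c).trans sum_add_distrib,
    sum_add_distrib, sum_comm (s := range q) (t := range q)
      (f := fun i c => (if i = 0 then (0 : Fm (V ⊕ Wd × Bool × ℕ × ℕ))
        else sg (Sum.inr (w, true, i, c))) +
          (if i + 1 < q then sg (Sum.inr (w, true, i + 1, c)) else 0)),
    sum_congr rfl fun i _ => tele fm_add_self q hq (Finsupp.mapDomain Sum.inl (pd w i))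
      (fun c => sg (Sum.inr (w, false, i, c))),
    sum_congr rfl fun c _ => tele fm_add_self q hq (0 : Fm (V ⊕ Wd × Bool × ℕ × ℕ))
      (fun i => sg (Sum.inr (w, true, i, c)))]
  simp

lemma md_inr (g : Fm V) (y : Wd × Bool × ℕ × ℕ) :
    (Finsupp.mapDomain Sum.inl g : Fm (V ⊕ Wd × Bool × ℕ × ℕ)) (Sum.inr y) = 0 :=
  Finsupp.mapDomain_of_notMem_range _ _ (by simp)

lemma md_inl (g : Fm V) (v : V) :
    (Finsupp.mapDomain Sum.inl g : Fm (V ⊕ Wd × Bool × ℕ × ℕ)) (Sum.inl v) = g v :=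
  Finsupp.mapDomain_apply Sum.inl_injective _ _

lemma gc_inl (p : Wd × ℕ × ℕ) (v : V) (h : gc pd q p (Sum.inl v) ≠ 0) :
    p.2.2 = 0 ∧ pd p.1 p.2.1 v ≠ 0 := by
  obtain ⟨w, i, c⟩ := p
  simp only [gc, gcell, Finsupp.add_apply] at h
  by_cases hc : c = 0
  · refine ⟨hc, fun h0 => h ?_⟩
    rw [if_pos hc, md_inl]
    split_ifs <;> simp [sg, h0]
  · exfalso
    apply h
    rw [if_neg hc]
    split_ifs <;> simp [sg]

lemma gc_h (w : Wd) (i c : ℕ) (hc : c + 1 < q) (p : Wd × ℕ × ℕ) :
    gc pd q p (Sum.inr (w, false, i, c + 1)) = sg p (w, i, c + 1) + sg p (w, i, c) := by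
  classical
  obtain ⟨w', i', c'⟩ := p
  simp only [gc, gcell, Finsupp.add_apply]
  have e3 : (if i' = 0 then 0 else sg (Sum.inr (w', true, i', c')) :
      Fm (V ⊕ Wd × Bool × ℕ × ℕ)) (Sum.inr (w, false, i, c + 1)) = 0 := by
    split_ifs <;> simp [sg]
  have e4 : (if i' + 1 < q then sg (Sum.inr (w', true, i' + 1, c')) else 0 :
      Fm (V ⊕ Wd × Bool × ℕ × ℕ)) (Sum.inr (w, false, i, c + 1)) = 0 := by
    split_ifs <;> simp [sg]
  rw [e3, e4, add_zero, add_zero]
  congr 1
  · split_ifs with h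
    · rw [md_inr]; simp [sg, h]
    · simp [sg, Finsupp.single_apply]
  · split_ifs with h
    · simp [sg, Finsupp.single_apply]
    · have : c' ≠ c := by omega
      simp [sg, this]

lemma gc_v (w : Wd) (i c : ℕ) (hi : i + 1 < q) (p : Wd × ℕ × ℕ) :
    gc pd q p (Sum.inr (w, true, i + 1, c)) = sg p (w, i + 1, c) + sg p (w, i, c) := by
  classical
  obtain ⟨w', i', c'⟩ := p
  simp only [gc, gcell, Finsupp.add_apply]
  have e1 : (if c' = 0 then Finsupp.mapDomain Sum.inl (pd w' i')
      else sg (Sum.inr (w', false, i', c')) :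
      Fm (V ⊕ Wd × Bool × ℕ × ℕ)) (Sum.inr (w, true, i + 1, c)) = 0 := by
    split_ifs
    · exact md_inr _ _
    · simp [sg]
  have e2 : (if c' + 1 < q then sg (Sum.inr (w', false, i', c' + 1)) else 0 :
      Fm (V ⊕ Wd × Bool × ℕ × ℕ)) (Sum.inr (w, true, i + 1, c)) = 0 := by
    split_ifs <;> simp [sg]
  rw [e1, e2, add_zero, zero_add]
  congr 1
  · split_ifs with h
    · simp [sg, h]
    · simp [sg, Finsupp.single_apply]
  · split_ifs with h
    · simp [sg, Finsupp.single_apply]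
    · have : i' ≠ i := by omega
      simp [sg, this]

/-- Chosen rows of the first column of the grid of `w`. -/
noncomputable def II (U : Fm (Wd × ℕ × ℕ)) (w : Wd) : Finset ℕ :=
  (range q).filter fun i => U (w, i, 0) ≠ 0

/-- Chosen cells of the first columns. -/
noncomputable def PP (U : Fm (Wd × ℕ × ℕ)) : Finset (Wd × ℕ × ℕ) :=
  U.support.filter fun p => p.2.2 = 0

def key : V ⊕ Wd × Bool × ℕ × ℕ → Option Wd
  | Sum.inl _ => none
  | Sum.inr y => some y.1

lemma zmod_ne {a b : ZMod 2} (h : a ≠ b) : b + a ≠ 0 := by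
  revert a b; decide

lemma pp_le (W : Set V) (S : Finset (V ⊕ Wd × Bool × ℕ × ℕ)) (g : Fm V) (U : Fm (Wd × ℕ × ℕ))
    (hU : ∀ p, U p ≠ 0 → p.2.1 < q) (hI : ∀ w, 2 * (II q U w).card ≤ q)
    (hS : Cov (Sum.inl '' W) S (Finsupp.mapDomain Sum.inl g + sub (gc pd q) U)) :
    (PP U).card ≤ S.card := by
  classical
  have hin : ∀ y, sub (gc pd q) U (Sum.inr y) ≠ 0 → Sum.inr y ∈ S := by
    intro y hy
    have := hS (Sum.inr y) (by rwa [Finsupp.add_apply, md_inr, zero_add])
    simpa using this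
  have h1 : ∀ w, (II q U w).card ≤ (S.filter fun x => key x = some w).card := by
    intro w
    refine iso (fun i c => U (w, i, c)) q _ (fun i c => Sum.inr (w, false, i, c))
      (fun i c => Sum.inr (w, true, i, c)) (fun i c i' c' h => by simp at h; exact h.1)
      (fun i c i' c' h => by simp at h; exact h.2) (fun i c hc h => ?_) (fun i c hc h => ?_) (hI w)
    · refine mem_filter.2 ⟨hin _ ?_, rfl⟩
      rw [sub_two _ _ _ _ (gc_h pd q w i c hc)]
      exact zmod_ne h
    · refine mem_filter.2 ⟨hin _ ?_, rfl⟩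
      rw [sub_two _ _ _ _ (gc_v pd q w i c hc)]
      exact zmod_ne h
  have h2 : ∀ w, ((PP U).filter fun p => p.1 = w).card ≤ (II q U w).card := by
    intro w
    refine card_le_card_of_injOn (fun p => p.2.1) (fun p hp => ?_) fun p hp p' hp' h => ?_
    · simp only [PP, coe_filter, mem_filter, Finsupp.mem_support_iff, Set.mem_ofPred_eq] at hp
      obtain ⟨⟨h3, h4⟩, h5⟩ := hp
      obtain ⟨w', i, c⟩ := p
      simp only at h4 h5
      subst h4 h5
      simp only [II, coe_filter, mem_range, Set.mem_ofPred_eq]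
      exact ⟨hU _ h3, h3⟩
    · simp only [PP, coe_filter, mem_filter, Finsupp.mem_support_iff, Set.mem_ofPred_eq] at hp hp'
      exact Prod.ext (hp.2.trans hp'.2.symm) (Prod.ext h (hp.1.2.trans hp'.1.2.symm))
  set t := (PP U).image Prod.fst with ht
  calc (PP U).card = ∑ w ∈ t, ((PP U).filter fun p => p.1 = w).card :=
        card_eq_sum_card_fiberwise fun p hp => mem_image_of_mem _ hp
    _ ≤ ∑ w ∈ t, (S.filter fun x => key x = some w).card :=
        sum_le_sum fun w _ => (h2 w).trans (h1 w)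
    _ = ∑ o ∈ t.image some, (S.filter fun x => key x = o).card := by
        rw [sum_image fun a _ b _ h => Option.some.inj h]
    _ = (S.filter fun x => key x ∈ t.image some).card := sum_card_fiberwise_eq_card_filter _ _ _
    _ ≤ S.card := card_filter_le _ _

open Classical in
/-- The pendant variables of a set of cells. -/
noncomputable def pv (P : Finset (Wd × ℕ × ℕ)) : Finset V :=
  P.biUnion fun p => (pd p.1 p.2.1).support

lemma pv_le (hpd : ∀ w i, (pd w i).support.card ≤ 1) (P : Finset (Wd × ℕ × ℕ)) :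
    (pv pd P).card ≤ P.card := by
  classical
  refine le_trans card_biUnion_le ?_
  refine le_trans (sum_le_sum fun p _ => hpd p.1 p.2.1) ?_
  simp

lemma mem_pv {P : Finset (Wd × ℕ × ℕ)} {p : Wd × ℕ × ℕ} (hp : p ∈ P) {v : V}
    (h : pd p.1 p.2.1 v ≠ 0) : v ∈ pv pd P := by
  classical
  unfold pv
  exact mem_biUnion.2 ⟨p, hp, Finsupp.mem_support_iff.2 h⟩

lemma mem_pv' (U : Fm (Wd × ℕ × ℕ)) (w : Wd) (i : ℕ) (hU : U (w, i, 0) ≠ 0) {v : V}
    (h : pd w i v ≠ 0) : v ∈ pv pd (PP U) := by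
  have h1 : (w, i, 0) ∈ PP U := by
    unfold PP
    rw [mem_filter, Finsupp.mem_support_iff]
    exact ⟨hU, rfl⟩
  exact mem_pv pd h1 h

lemma sub_inl (U : Fm (Wd × ℕ × ℕ)) (v : V) (h : sub (gc pd q) U (Sum.inl v) ≠ 0) :
    v ∈ pv pd (PP U) := by
  obtain ⟨p, hp, h1⟩ := sub_ne _ _ _ h
  obtain ⟨h2, h3⟩ := gc_inl pd q p v h1
  exact mem_pv pd (mem_filter.2 ⟨Finsupp.mem_support_iff.2 hp, h2⟩) h3

lemma cov_g [DecidableEq V] (W : Set V) (S : Finset (V ⊕ Wd × Bool × ℕ × ℕ)) (g : Fm V)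
    (U : Fm (Wd × ℕ × ℕ))
    (hS : Cov (Sum.inl '' W) S (Finsupp.mapDomain Sum.inl g + sub (gc pd q) U)) :
    Cov W (S.toLeft ∪ pv pd (PP U)) g := by
  intro v hv
  by_cases h : sub (gc pd q) U (Sum.inl v) = 0
  · rcases hS (Sum.inl v) (by rwa [Finsupp.add_apply, md_inl, h, add_zero]) with h1 | h1
    · obtain ⟨v', h2, h3⟩ := h1
      obtain rfl := Sum.inl_injective h3
      exact Or.inl h2
    · exact Or.inr (mem_union_left _ (mem_toLeft.2 h1))
  · exact Or.inr (mem_union_right _ (sub_inl pd q U v h))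

lemma cov_mono {W : Set V} {S S' : Finset V} {g : Fm V} (h : Cov W S g) (hs : S ⊆ S') :
    Cov W S' g := fun v hv => (h v hv).imp id fun h1 => hs h1

lemma cov_add {W : Set V} {S : Finset V} {g g' : Fm V} (h : Cov W S g) (h' : Cov W S g') :
    Cov W S (g + g') := by
  intro v hv
  by_cases h1 : g v = 0
  · exact h' v (by rwa [Finsupp.add_apply, h1, zero_add] at hv)
  · exact h v h1

lemma cov_sum {ι : Type} {W : Set V} {S : Finset V} (I : Finset ι) (f : ι → Fm V)
    (h : ∀ i ∈ I, Cov W S (f i)) : Cov W S (∑ i ∈ I, f i) := by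
  intro v hv
  rw [Finsupp.finsetSum_apply] at hv
  obtain ⟨i, hi, h1⟩ := exists_ne_zero_of_sum_ne_zero hv
  exact h i hi v h1

/-- All cells of the grids of `B`. -/
noncomputable def FF (B : Finset Wd) : Fm (Wd × ℕ × ℕ) :=
  ∑ p ∈ B ×ˢ range q ×ˢ range q, sg p

lemma FF_apply [DecidableEq Wd] (B : Finset Wd) (p : Wd × ℕ × ℕ) :
    FF q B p = if p.1 ∈ B ∧ p.2.1 < q ∧ p.2.2 < q then 1 else 0 := by
  rw [FF, Finsupp.finsetSum_apply]
  simp only [sg, Finsupp.single_apply]
  rw [sum_ite_eq']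
  simp

lemma sub_FF (hq : 1 ≤ q) (B : Finset Wd) :
    sub (gc pd q) (FF q B) = Finsupp.mapDomain Sum.inl (∑ w ∈ B, ∑ i ∈ range q, pd w i) := by
  rw [FF, map_sum, sum_product, Finsupp.mapDomain_finsetSum]
  refine sum_congr rfl fun w _ => ?_
  rw [sum_product, ← full pd q hq w]
  exact sum_congr rfl fun i _ => sum_congr rfl fun c _ => sub_sg _ _

/-- The invariant. -/
def Inv (En : Set (Fm V)) (ok : Wd → Prop) (W : Set V) (K : ℕ)
    (f : Fm (V ⊕ Wd × Bool × ℕ × ℕ)) : Prop :=
  ∃ (g : Fm V) (U : Fm (Wd × ℕ × ℕ)), f = Finsupp.mapDomain Sum.inl g + sub (gc pd q) U ∧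
    (∀ p, U p ≠ 0 → ok p.1 ∧ p.2.1 < q) ∧ Dv (wideE En ok pd q) W (5 * K) g ∧
    ∀ w, 2 * (II q U w).card ≤ q

lemma zmod_one {a : ZMod 2} : a + 1 ≠ 0 ↔ ¬ (a ≠ 0) := by
  revert a; decide

lemma inv (hL : LinBasicStmt) (En : Set (Fm V)) (ok : Wd → Prop) (W : Set V) (K : ℕ) (hq : 2 ≤ q)
    (hpd : ∀ w i, (pd w i).support.card ≤ 1) (f : Fm (V ⊕ Wd × Bool × ℕ × ℕ))
    (hf : Dv (gridE En ok pd q) (Sum.inl '' W) K f) : Inv pd q En ok W K f := by
  classical
  induction hf with
  | zero => exact ⟨0, 0, by simp, by simp, Dv.zero, fun w => by simp [II]⟩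
  | base he =>
    rcases he with ⟨g, hg, rfl⟩ | ⟨w, i, c, hw, hi, hc, rfl⟩
    · exact ⟨g, 0, by simp, by simp, Dv.base (Or.inl hg), fun w => by simp [II]⟩
    · refine ⟨0, sg (w, i, c), by simp [sub_sg, gc], fun p hp => ?_, Dv.zero, fun w' => ?_⟩
      · have : (w, i, c) = p := by
          by_contra h
          exact hp (by simp [sg, h])
        subst this
        exact ⟨hw, hi⟩
      · have : II q (sg (w, i, c)) w' ⊆ {i} := by
          intro j hj
          have h1 := (mem_filter.1 hj).2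
          have : (w, i, c) = (w', j, 0) := by
            by_contra h
            exact h1 (by simp [sg, h])
          simp only [Prod.mk.injEq] at this
          simp [this.2.1]
        have := card_le_card this
        rw [card_singleton] at this
        omega
  | @add f1 f2 S _ _ hc1 hc2 hS ih1 ih2 =>
    obtain ⟨g1, U1, rfl, hU1, hg1, hI1⟩ := ih1
    obtain ⟨g2, U2, rfl, hU2, hg2, hI2⟩ := ih2
    have hU : ∀ p, (U1 + U2) p ≠ 0 → U1 p ≠ 0 ∨ U2 p ≠ 0 := by
      intro p hp
      by_contra h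
      push Not at h
      exact hp (by rw [Finsupp.add_apply, h.1, h.2, add_zero])
    have hUv : ∀ p, (U1 + U2) p ≠ 0 → ok p.1 ∧ p.2.1 < q := fun p hp =>
      (hU p hp).elim (hU1 p) (hU2 p)
    set B := ((U1 + U2).support.image Prod.fst).filter fun w => q < 2 * (II q (U1 + U2) w).card
      with hB
    have hBok : ∀ w ∈ B, ok w := by
      intro w hw
      obtain ⟨p, hp, rfl⟩ := mem_image.1 (mem_filter.1 hw).1
      exact (hUv p (Finsupp.mem_support_iff.1 hp)).1
    have heq : Finsupp.mapDomain Sum.inl g1 + sub (gc pd q) U1 +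
        (Finsupp.mapDomain Sum.inl g2 + sub (gc pd q) U2) =
        Finsupp.mapDomain Sum.inl (g1 + g2 + ∑ w ∈ B, ∑ i ∈ range q, pd w i) +
          sub (gc pd q) (U1 + U2 + FF q B) := by
      rw [map_add, map_add, sub_FF pd q (by omega), Finsupp.mapDomain_add, Finsupp.mapDomain_add]
      have := fm_add_self (Finsupp.mapDomain (Sum.inl : V → V ⊕ Wd × Bool × ℕ × ℕ)
        (∑ w ∈ B, ∑ i ∈ range q, pd w i))
      calc _ = Finsupp.mapDomain Sum.inl g1 + sub (gc pd q) U1 +
          (Finsupp.mapDomain Sum.inl g2 + sub (gc pd q) U2) + 0 := (add_zero _).symm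
        _ = _ := by rw [← this]; abel
    have hV : ∀ p, (U1 + U2 + FF q B) p ≠ 0 → ok p.1 ∧ p.2.1 < q := by
      intro p hp
      by_cases h : (U1 + U2) p = 0
      · rw [Finsupp.add_apply, h, zero_add, FF_apply] at hp
        have h1 : p.1 ∈ B ∧ p.2.1 < q ∧ p.2.2 < q := by
          by_contra h2
          exact hp (if_neg h2)
        exact ⟨hBok _ h1.1, h1.2.1⟩
      · exact hUv p h
    have hI : ∀ w, 2 * (II q (U1 + U2 + FF q B) w).card ≤ q := by
      intro w
      by_cases hw : w ∈ B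
      · have h1 : II q (U1 + U2 + FF q B) w =
            (range q).filter fun i => ¬ ((U1 + U2) (w, i, 0) ≠ 0) := by
          refine filter_congr fun i hi => ?_
          rw [Finsupp.add_apply, FF_apply, if_pos ⟨hw, mem_range.1 hi, by simp only; omega⟩]
          exact zmod_one
        have h2 := card_filter_add_card_filter_not (s := range q)
          (fun i => (U1 + U2) (w, i, 0) ≠ 0)
        have h3 := (mem_filter.1 hw).2
        rw [card_range] at h2
        rw [h1]
        unfold II at h3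
        omega
      · have h1 : II q (U1 + U2 + FF q B) w = II q (U1 + U2) w := by
          refine filter_congr fun i hi => ?_
          rw [Finsupp.add_apply, FF_apply, if_neg fun h => hw h.1, add_zero]
        rw [h1]
        by_contra h2
        apply hw
        refine mem_filter.2 ⟨?_, by omega⟩
        obtain ⟨i, hi⟩ : (II q (U1 + U2) w).Nonempty := card_pos.1 (by omega)
        exact mem_image.2 ⟨(w, i, 0), Finsupp.mem_support_iff.2 (mem_filter.1 hi).2, rfl⟩
    refine ⟨_, _, heq, hV, ?_, hI⟩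
    have p1 := pp_le pd q W S g1 U1 (fun p hp => (hU1 p hp).2) hI1 hc1
    have p2 := pp_le pd q W S g2 U2 (fun p hp => (hU2 p hp).2) hI2 hc2
    have p3 := pp_le pd q W S _ _ (fun p hp => (hV p hp).2) hI (heq ▸ cov_add hc1 hc2)
    obtain ⟨S', hcard, s0, s1, s2, s3⟩ : ∃ S' : Finset V, S'.card ≤ 5 * K ∧ S.toLeft ⊆ S' ∧
        pv pd (PP U1) ⊆ S' ∧ pv pd (PP U2) ⊆ S' ∧ pv pd (PP (U1 + U2 + FF q B)) ⊆ S' := by
      refine ⟨S.toLeft ∪ pv pd (PP U1) ∪ (pv pd (PP U2) ∪ pv pd (PP (U1 + U2 + FF q B))), ?_,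
        subset_union_left.trans subset_union_left, subset_union_right.trans subset_union_left,
        subset_union_left.trans subset_union_right, subset_union_right.trans subset_union_right⟩
      have a1 := card_union_le (S.toLeft ∪ pv pd (PP U1))
        (pv pd (PP U2) ∪ pv pd (PP (U1 + U2 + FF q B)))
      have a2 := card_union_le (pv pd (PP U2)) (pv pd (PP (U1 + U2 + FF q B)))
      have a3 := card_union_le S.toLeft (pv pd (PP U1))
      have a4 := card_toLeft_le (u := S)
      have a5 := pv_le pd hpd (PP U1)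
      have a6 := pv_le pd hpd (PP U2)
      have a7 := pv_le pd hpd (PP (U1 + U2 + FF q B))
      omega
    have c1 : Cov W S' g1 := cov_mono (cov_g pd q W S g1 U1 hc1) (union_subset s0 s1)
    have c2 : Cov W S' g2 := cov_mono (cov_g pd q W S g2 U2 hc2) (union_subset s0 s2)
    have c3 : ∀ w ∈ B, Cov W S' (∑ i ∈ range q, pd w i) := by
      intro w hw
      refine cov_sum _ _ fun i hi v hv => Or.inr ?_
      by_cases h : (U1 + U2) (w, i, 0) = 0
      · refine s3 (mem_pv' pd _ w i ?_ hv)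
        rw [Finsupp.add_apply, h, FF_apply, if_pos ⟨hw, mem_range.1 hi, by simp only; omega⟩]
        decide
      · rcases hU _ h with h1 | h1
        · exact s1 (mem_pv' pd _ w i h1 hv)
        · exact s2 (mem_pv' pd _ w i h1 hv)
    refine Dv.add S' (Dv.add S' hg1 hg2 c1 c2 hcard) ?_ (cov_add c1 c2) (cov_sum _ _ c3) hcard
    exact hL.2.1 V Wd _ W _ B _ S' hcard fun w hw =>
      ⟨Dv.base (Or.inr ⟨w, hBok w hw, rfl⟩), c3 w hw⟩

end GridD

theorem gridDStmt_of (hL : LinBasicStmt) : GridDStmt := by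
  classical
  intro V Wd En ok pd q W K c hq hpd hF f S hf hc hS
  obtain ⟨g, U, rfl, hU, hg, hI⟩ := GridD.inv pd q hL En ok W K hq hpd f hf
  have p1 := GridD.pp_le pd q W S g U (fun p hp => (hU p hp).2) hI hc
  have p2 := GridD.pv_le pd hpd (GridD.PP U)
  obtain ⟨T, hT, hT'⟩ := hF g _ hg (GridD.cov_g pd q W S g U hc) (by
    have a3 := card_union_le S.toLeft (GridD.pv pd (GridD.PP U))
    have a4 := card_toLeft_le (u := S)
    omega)
  refine ⟨(T ∪ GridD.pv pd (GridD.PP U)).image Sum.inl, ?_, ?_⟩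
  · have a1 := card_image_le (s := T ∪ GridD.pv pd (GridD.PP U))
      (f := (Sum.inl : V → V ⊕ Wd × Bool × ℕ × ℕ))
    have a2 := card_union_le T (GridD.pv pd (GridD.PP U))
    omega
  · rintro _ ⟨v, hv, rfl⟩ h
    refine mem_image_of_mem _ ?_
    by_cases h1 : g v = 0
    · rw [Finsupp.add_apply, GridD.md_inl, h1, zero_add] at h
      exact mem_union_right _ (GridD.sub_inl pd q U v h)
    · exact mem_union_left _ (hT' v hv h1)

end Crest.Agent.R290
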