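import Crest.Agent.R290.DefsG
import Crest.Agent.R290.PTx

/-!
Row 290: the three hardness claims from the reduction interface.
-/

set_option autoImplicit false

namespace Crest.Agent.R290

open Crest.WLRefine Crest.Agent.PT Turing

namespace Hard

theorem box_mono {H : Horn} {B B' : ℕ} (h : H.Box B) (hB : B ≤ B') : H.Box B' := by
  intro σ A hA
  obtain ⟨h1, h2, h3, h4⟩ := h σ A hA
  have : (B : ℤ) ≤ B' := by exact_mod_cast hB
  exact ⟨h1, h2.trans this, h3, h4.trans this⟩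

theorem bound (c c' R a n : ℕ) :
    c' * (c * 2 ^ a + c + 1) + n + R < 2 ^ (a + n + (c' * (2 * c + 1) + R + 1) + 1) := by
  have ha : 1 ≤ 2 ^ a := Nat.one_le_two_pow
  have hn : n + 1 ≤ 2 ^ n := Nat.lt_two_pow_self
  have hd : c' * (2 * c + 1) + R + 1 + 1 ≤ 2 ^ (c' * (2 * c + 1) + R + 1) := Nat.lt_two_pow_self
  rw [pow_succ, pow_add, pow_add]
  generalize 2 ^ a = x at ha ⊢
  generalize 2 ^ n = y at hn ⊢
  generalize 2 ^ (c' * (2 * c + 1) + R + 1) = z at hd ⊢
  have h1 : c' * (c * x + c + 1) ≤ x * (c' * (2 * c + 1)) := by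
    have : c * x + c + 1 ≤ x * (2 * c + 1) := by nlinarith
    calc c' * (c * x + c + 1) ≤ c' * (x * (2 * c + 1)) := Nat.mul_le_mul_left _ this
      _ = x * (c' * (2 * c + 1)) := by ring
  have h2 : x * (c' * (2 * c + 1)) ≤ x * y * z := by
    rw [mul_assoc]
    refine Nat.mul_le_mul_left _ ?_
    calc c' * (2 * c + 1) ≤ 1 * z := by omega
      _ ≤ y * z := Nat.mul_le_mul_right _ (by omega)
  have h3 : n + R < x * y * z := by
    have : (n + 1) * (R + 1) ≤ y * z := Nat.mul_le_mul hn (by omega)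
    have h4 : 1 * (y * z) ≤ x * (y * z) := Nat.mul_le_mul_right _ ha
    rw [mul_assoc]
    nlinarith
  omega

/-- The reduction, specialised to a language in EXPTIME. -/
theorem core (hR : RedStmt) (hH : HornStmt) (hG : GameBasicStmt) (A : Set Word)
    (hA : Crest.ExpTime.InEXP A) (pol : Bool) :
    ∃ (κ n : Word → ℕ) (G : (x : Word) → Bool → Fin (n x) → Fin (n x) → Bool),
      PU κ ∧ (∀ tw, PTime fun x => adjMatrixCode (G x tw)) ∧
      ∀ x, 2 ≤ κ x ∧ 0 < n x ∧ (∀ tw, SimpleConnSubcubic (G x tw)) ∧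
        ¬ AdjIso (G x false) (G x true) ∧
        ((x ∈ A ↔ pol = true) → ¬ BF (κ x) (G x false) (G x true) ∧ Rigid (κ x) (G x false)) ∧
        (¬ (x ∈ A ↔ pol = true) → BG (κ x + 1) (G x false) (G x true)) := by
  obtain ⟨e, f, c, ⟨T, hT⟩, hf⟩ := hA
  obtain ⟨sz, G, M, R, hsz, hG1, -, hred⟩ := hR
  obtain ⟨h, c', hh⟩ := hH T.toTM2ComputableAux pol
  set D := c' * (2 * c + 1) + R + 1 with hD
  let ρ : Word → ℕ := fun x => x.length ^ e + x.length + D
  let k : Word → ℕ := fun x => M * ρ x + 10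
  have hρ : PU ρ := ((PU.length PTime.id).pow_const e).add (PU.length PTime.id) |>.add (PU.const D)
  have hk : PU k := ((PU.const M).mul hρ).add (PU.const 10)
  let a : Word → Word × Word × Un × Un := fun x => (h, x, ⟨k x⟩, ⟨2⟩)
  have ha : PTime a :=
    (PTime.const h).pair (PTime.id.pair ((PTime.unMk hk).pair (PTime.const _)))
  have hn : PU fun x => sz (a x) := hsz.comp ha
  refine ⟨fun x => 3 * k x + 9, fun x => sz (a x), fun x tw => G (a x) (sz (a x)) tw,
    ((PU.const 3).mul hk).add (PU.const 9), fun tw => ?_, fun x => ?_⟩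
  · exact (hG1 tw).comp (f := fun x => (a x, (⟨sz (a x)⟩ : Un))) (ha.pair (PTime.unMk hn))
  · obtain ⟨h5, hs, hi, hm⟩ := hred h x (k x) 2 (sz (a x)) le_rfl
    have hout : Out T.toTM2ComputableAux x (f x) (T.time x.length) := ⟨T.outputsFun x⟩
    obtain ⟨hbox, hgoal⟩ := hh x (f x) _ hout
    have hbox' : (horn h x).Box (c' * (c * 2 ^ (x.length ^ e) + c + 1) + x.length) :=
      box_mono hbox (Nat.add_le_add_right (Nat.mul_le_mul_left _
        (Nat.add_le_add_right (hT x.length) 1)) _)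
    have hk10 : 10 ≤ k x := Nat.le_add_left _ _
    obtain ⟨m1, m2⟩ := hm (ρ x) _ (by simp only [ρ]; omega) (by simp only [k]; omega)
      (bound c c' R (x.length ^ e) x.length) hbox'
    have hiff : (horn h x).Goal ↔ (x ∈ A ↔ pol = true) := by
      rw [hgoal, hf x]
      cases f x <;> cases pol <;> simp
    refine ⟨(by omega : 2 ≤ 3 * k x + 9), (by omega : 0 < sz (a x)), hs, hi,
      fun hx => m1 (hiff.2 hx), fun hx => ?_⟩
    exact (hG.1 _ _ _ _ _ _ (by omega : 3 * k x + 9 + 1 ≤ 10 * k x)).1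
      (m2 fun hg => hx (hiff.1 hg))

theorem code_inj (hP : ParseStmt) {n m : ℕ} {G : Fin n → Fin n → Bool} {H : Fin m → Fin m → Bool}
    {r r' : Word} (h : adjMatrixCode G ++ r = adjMatrixCode H ++ r') :
    n = m ∧ HEq G H ∧ r = r' := by
  obtain ⟨gn, gm, gr, ok, -, -, -, -, -, -, hp⟩ := hP
  obtain ⟨-, a1, a2, a3⟩ := hp n G r
  obtain ⟨-, b1, b2, b3⟩ := hp m H r'
  rw [h] at a1 a2 a3
  have hnm : n = m := a1.symm.trans b1
  subst hnm
  exact ⟨rfl, heq_of_eq (a3.symm.trans b3), a2.symm.trans b2⟩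

theorem nat_inj {k k' : ℕ} {r r' : Word}
    (h : Crest.Enc.natCode k ++ r = Crest.Enc.natCode k' ++ r') : k = k' ∧ r = r' := by
  have h1 := congrArg natVal h
  have h2 := congrArg natRest h
  rw [natVal_natCode, natVal_natCode] at h1
  rw [natRest_natCode, natRest_natCode] at h2
  exact ⟨h1, h2⟩

theorem pair_inj (hP : ParseStmt) {k k' n m n' m' : ℕ} {G : Fin n → Fin n → Bool}
    {H : Fin m → Fin m → Bool} {G' : Fin n' → Fin n' → Bool} {H' : Fin m' → Fin m' → Bool}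
    (h : Crest.Enc.natCode k ++ adjMatrixCode G ++ adjMatrixCode H =
      Crest.Enc.natCode k' ++ adjMatrixCode G' ++ adjMatrixCode H')
    (hJ : JEquiv k' G' H') : JEquiv k G H := by
  rw [List.append_assoc, List.append_assoc] at h
  obtain ⟨rfl, h2⟩ := nat_inj h
  obtain ⟨rfl, h3, h4⟩ := code_inj hP h2
  obtain rfl := eq_of_heq h3
  obtain ⟨rfl, h5, -⟩ := code_inj hP (congrArg (· ++ []) h4)
  obtain rfl := eq_of_heq h5
  exact hJ

end Hard

open Hard

theorem hard1Stmt_of (hR : RedStmt) (hH : HornStmt) (hG : GameBasicStmt) (hB : BGEquivStmt)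
    (hE : EquivBFStmt) (hP : ParseStmt) : Hard1Stmt := by
  intro A hA
  obtain ⟨κ, n, G, hκ, hG1, hx⟩ := core hR hH hG A hA false
  refine ⟨fun x => Crest.Enc.natCode (κ x) ++ adjMatrixCode (G x false) ++ adjMatrixCode (G x true),
    PTime.polyTime (((PTime.natCode hκ.ptime).append (hG1 false)).append (hG1 true)), fun x => ?_⟩
  obtain ⟨h2, h0, hs, -, m1, m2⟩ := hx x
  constructor
  · intro hxA
    exact ⟨κ x, n x, n x, G x false, G x true, h2, (hs false).1, (hs true).1,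
      (hB _ _ _ _ _).1 (m2 (by simp [hxA])), rfl⟩
  · rintro ⟨k, n', m', G', H', -, -, -, hJ, heq⟩
    by_contra hxA
    exact (m1 (by simp [hxA])).1
      ((hE _ _ _ _ _ (by omega)).1 (Or.inl (pair_inj hP heq hJ))).2

theorem hard2Stmt_of (hR : RedStmt) (hH : HornStmt) (hG : GameBasicStmt) (hB : BGEquivStmt)
    (hE : EquivBFStmt) (hP : ParseStmt) : Hard2Stmt := by
  intro A hA
  obtain ⟨κ, n, G, hκ, hG1, hx⟩ := core hR hH hG A hA false
  refine ⟨fun x => Crest.Enc.natCode (κ x) ++ adjMatrixCode (G x false) ++ adjMatrixCode (G x true),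
    PTime.polyTime (((PTime.natCode hκ.ptime).append (hG1 false)).append (hG1 true)), fun x => ?_⟩
  obtain ⟨h2, h0, hs, -, m1, m2⟩ := hx x
  constructor
  · intro hxA
    exact ⟨κ x, n x, G x false, G x true, h2, h0, hs false, hs true,
      (hB _ _ _ _ _).1 (m2 (by simp [hxA])), rfl⟩
  · rintro ⟨k, n', G', H', -, -, -, -, hJ, heq⟩
    by_contra hxA
    exact (m1 (by simp [hxA])).1
      ((hE _ _ _ _ _ (by omega)).1 (Or.inl (pair_inj hP heq hJ))).2

theorem hard3Stmt_of (hR : RedStmt) (hH : HornStmt) (hG : GameBasicStmt) (hB : BGEquivStmt)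
    (hE : EquivBFStmt) (hP : ParseStmt) : Hard3Stmt := by
  intro A hA
  obtain ⟨κ, n, G, hκ, hG1, hx⟩ := core hR hH hG A hA true
  refine ⟨fun x => Crest.Enc.natCode (κ x) ++ adjMatrixCode (G x false),
    PTime.polyTime ((PTime.natCode hκ.ptime).append (hG1 false)), fun x => ?_⟩
  obtain ⟨h2, h0, hs, hi, m1, m2⟩ := hx x
  constructor
  · intro hxA
    refine ⟨κ x, n x, G x false, by omega, h0, (hs false).1, ⟨κ x, by omega, le_rfl, ?_⟩, rfl⟩
    intro m H _ hW
    rw [WLEquiv, if_neg (by omega)] at hW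
    obtain ⟨e1, e2⟩ := (hE _ _ _ _ _ (by omega)).1 (Or.inl hW)
    exact (hG.2.2 _ _ _ _ _).2.2 e1 h2 (m1 (by simp [hxA])).2 e2
  · rintro ⟨k, n', G', -, -, -, ⟨k', k1, k2, hid⟩, heq⟩
    by_contra hxA
    obtain ⟨rfl, h3⟩ := nat_inj heq
    obtain ⟨rfl, h5, -⟩ := code_inj hP (congrArg (· ++ []) h3)
    obtain rfl := eq_of_heq h5
    have hbg := m2 (by simp [hxA])
    refine hi (hid _ _ (hs true).1 ?_)
    unfold WLEquiv
    split_ifs with hk
    · exact (hB 0 _ _ _ _).2.2 ((hG.1 _ _ _ _ _ _ (by omega)).1 hbg)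
    · exact (hB _ _ _ _ _).1 ((hG.1 _ _ _ _ _ _ (by omega)).1 hbg)

end Crest.Agent.R290
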