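import Crest.Agent.R290.Refine

/-! Row 290: deciding the joint equivalence in time polynomial in `n ^ k`. -/

set_option autoImplicit false

namespace Crest.Agent.R290

open Crest.WLRefine Crest.Agent.PT Finset Refine

namespace JAlg

def dig (n i t : ℕ) : ℕ := t / n ^ i % n

def upd (n i z a : ℕ) : ℕ := 2 * (a / 2 - dig n i (a / 2) * n ^ i + z * n ^ i) + a % 2

def wd (G H : Word) (a : ℕ) : Word := if a % 2 = 0 then G else H

def base (k n : ℕ) (G H : Word) (a b : ℕ) : Prop := ∀ i < k, ∀ j < k,
  (dig n i (a / 2) = dig n j (a / 2) ↔ dig n i (b / 2) = dig n j (b / 2)) ∧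
    (wd G H a).getD (dig n i (a / 2) * n + dig n j (a / 2)) false =
      (wd G H b).getD (dig n i (b / 2) * n + dig n j (b / 2)) false

def step (k n M : ℕ) (T : Word) (a b : ℕ) : Prop := look M T a b ∧ ∀ z < n,
  cnt n (fun z' => ∀ i < k, look M T (upd n i z a) (upd n i z' a)) =
    cnt n (fun z' => ∀ i < k, look M T (upd n i z a) (upd n i z' b))

def final (N : ℕ) (T : Word) : Prop := ∀ a < N,
  cnt N (fun a' => look (2 * N) T (2 * a) (2 * a')) =
    cnt N (fun b => look (2 * N) T (2 * a) (2 * b + 1))

def test (k n N : ℕ) (G H : Word) : Prop :=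
  final N (tabs (2 * N) (base k n G H) (step k n (2 * N)) (2 * N * (2 * N)))

/-! ### Correctness -/

section
variable {k n : ℕ}

abbrev Ob (k n : ℕ) : Type := Bool × (Fin k → Fin n)

def code (x : Ob k n) : ℕ := 2 * (finFunctionFinEquiv x.2 : ℕ) + if x.1 = true then 1 else 0

theorem code_lt (x : Ob k n) : code x < 2 * n ^ k := by
  have := (finFunctionFinEquiv x.2).isLt
  unfold code; split_ifs <;> omega

theorem code_div (x : Ob k n) : code x / 2 = finFunctionFinEquiv x.2 := by
  unfold code; split_ifs <;> omega

theorem code_mod (x : Ob k n) : code x % 2 = if x.1 = true then 1 else 0 := by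
  unfold code; split_ifs <;> omega

theorem dig_enc (v : Fin k → Fin n) (i : Fin k) : dig n i (finFunctionFinEquiv v) = v i := by
  rw [dig, ← finFunctionFinEquiv_symm_apply_val, Equiv.symm_apply_apply]

theorem upd_code (x : Ob k n) (i : Fin k) (z : Fin n) :
    upd n i z (code x) = code (x.1, Function.update x.2 i z) := by
  rw [upd, code_div, code_mod, dig_enc, code]
  congr 2
  dsimp only
  rw [finFunctionFinEquiv_apply, finFunctionFinEquiv_apply,
    ← add_sum_erase _ _ (mem_univ i), ← add_sum_erase _ _ (mem_univ i), Function.update_self,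
    Nat.add_sub_cancel_left, add_comm]
  congr 1
  exact sum_congr rfl fun j hj => by rw [Function.update_of_ne (ne_of_mem_erase hj)]

variable (G H : Word)

def col (s : ℕ) (x : Ob k n) : JColor k s := jcolor (mat n (if x.1 = true then H else G)) k s x.2

theorem wd_code (x : Ob k n) : wd G H (code x) = if x.1 = true then H else G := by
  rw [wd, code_mod]; cases x.1 <;> simp

open Classical in
/-- One round of refinement on relations. -/
def Phi (R : Ob k n × Ob k n → Prop) (p : Ob k n × Ob k n) : Prop := R p ∧ ∀ z : Fin n,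
  (univ.filter fun z' : Fin n => ∀ i, R ((p.1.1, Function.update p.1.2 i z),
      (p.1.1, Function.update p.1.2 i z'))).card =
    (univ.filter fun z' : Fin n => ∀ i, R ((p.1.1, Function.update p.1.2 i z),
      (p.2.1, Function.update p.2.2 i z'))).card

def EE (s : ℕ) (p : Ob k n × Ob k n) : Prop := col G H s p.1 = col G H s p.2

theorem EE_succ (s : ℕ) : EE (k := k) (n := n) G H (s + 1) = Phi (EE G H s) := by
  funext p
  refine propext ?_
  have := map_eq_iff (univ : Finset (Fin n)) (univ : Finset (Fin n)) rfl
    (fun z i => col G H s (p.1.1, Function.update p.1.2 i z))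
    (fun z i => col G H s (p.2.1, Function.update p.2.2 i z))
  simp only [mem_univ, true_imp_iff] at this
  refine Prod.ext_iff.trans (and_congr Iff.rfl (this.trans ?_))
  refine forall_congr' fun z => ?_
  congr! <;> exact funext_iff

theorem look_tabs (s : ℕ) (x y : Ob k n) :
    look (2 * n ^ k) (tabs (2 * n ^ k) (base k n G H) (step k n (2 * n ^ k)) s) (code x) (code y) ↔
      EE G H s (x, y) := by
  induction s generalizing x y with
  | zero =>
    rw [tabs, look_table (code_lt x) (code_lt y), base, wd_code, wd_code, code_div, code_div]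
    simp only [EE, col, jcolor, atomicType, Prod.ext_iff, funext_iff, decide_eq_decide, mat]
    constructor
    · intro h
      refine ⟨fun i j => ?_, fun i j => ?_⟩
      · have := (h i i.isLt j j.isLt).1
        simpa only [dig_enc, Fin.val_inj] using this
      · have := (h i i.isLt j j.isLt).2
        simpa only [dig_enc] using this
    · rintro ⟨h1, h2⟩ i hi j hj
      have e1 := dig_enc x.2 ⟨i, hi⟩
      have e2 := dig_enc x.2 ⟨j, hj⟩
      have e3 := dig_enc y.2 ⟨i, hi⟩
      have e4 := dig_enc y.2 ⟨j, hj⟩
      simp only at e1 e2 e3 e4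
      rw [e1, e2, e3, e4, Fin.val_inj, Fin.val_inj]
      exact ⟨h1 _ _, h2 _ _⟩
  | succ s ih =>
    rw [tabs, look_table (code_lt x) (code_lt y), step, ih, EE_succ, Phi]
    refine and_congr Iff.rfl ?_
    have key : ∀ (y : Ob k n) (z z' : Fin n), (∀ i < k, look (2 * n ^ k)
        (tabs (2 * n ^ k) (base k n G H) (step k n (2 * n ^ k)) s) (upd n i z (code x))
          (upd n i z' (code y))) ↔ ∀ i, EE G H s ((x.1, Function.update x.2 i z),
            (y.1, Function.update y.2 i z')) := by
      intro y z z'
      simp only [← ih, ← upd_code]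
      exact ⟨fun h i => h i i.isLt, fun h i hi => h ⟨i, hi⟩⟩
    constructor
    · intro h z
      have := h z z.isLt
      rw [cnt_fin (key x z), cnt_fin (key y z)] at this
      convert this
    · intro h z hz
      rw [cnt_fin (key x ⟨z, hz⟩), cnt_fin (key y ⟨z, hz⟩)]
      convert h ⟨z, hz⟩

open Classical in
/-- The histogram test on a relation. -/
def Hist (R : Ob k n × Ob k n → Prop) : Prop := ∀ v : Fin k → Fin n,
  (univ.filter fun v' => R ((false, v), (false, v'))).card =
    (univ.filter fun v' => R ((false, v), (true, v'))).card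

theorem hist_iff (s : ℕ) : (univ : Finset (Fin k → Fin n)).val.map (jcolor (mat n G) k s) =
    (univ : Finset (Fin k → Fin n)).val.map (jcolor (mat n H) k s) ↔
      Hist (k := k) (n := n) (EE G H s) := by
  rw [map_eq_iff _ _ rfl]
  simp only [mem_univ, true_imp_iff]
  exact Iff.rfl

theorem jequiv_iff {S : ℕ} (hS : 2 * n ^ k * (2 * n ^ k) ≤ S) :
    JEquiv k (mat n G) (mat n H) ↔ Hist (k := k) (n := n) (EE G H S) := by
  refine ⟨fun h => (hist_iff G H S).1 (h S), fun h s => ?_⟩
  have down : ∀ t, (univ : Finset (Fin k → Fin n)).val.map (jcolor (mat n G) k (s + t)) =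
      (univ : Finset (Fin k → Fin n)).val.map (jcolor (mat n H) k (s + t)) →
      (univ : Finset (Fin k → Fin n)).val.map (jcolor (mat n G) k s) =
      (univ : Finset (Fin k → Fin n)).val.map (jcolor (mat n H) k s) := by
    intro t
    induction t with
    | zero => exact id
    | succ t ih =>
      intro h
      have := congrArg (Multiset.map Prod.fst) h
      rw [Multiset.map_map, Multiset.map_map] at this
      exact ih this
  have hc : Fintype.card (Ob k n × Ob k n) ≤ S := by simpa using hS
  refine down S ((hist_iff G H _).2 ?_)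
  rw [stable (EE (k := k) (n := n) G H) (fun s x hx => by rw [EE_succ] at hx; exact hx.1)
    (fun s t e => by rw [EE_succ, EE_succ, e]) (s := s + S) (t := S) (by omega) hc]
  exact h

theorem test_iff : test k n (n ^ k) G H ↔ JEquiv k (mat n G) (mat n H) := by
  rw [jequiv_iff G H le_rfl, test, final, Hist]
  have key := fun (v v' : Fin k → Fin n) (b : Bool) =>
    look_tabs G H (2 * n ^ k * (2 * n ^ k)) (false, v) (b, v')
  have k1 : ∀ v : Fin k → Fin n, cnt (n ^ k) (fun a' => look (2 * n ^ k)
      (tabs (2 * n ^ k) (base k n G H) (step k n (2 * n ^ k)) (2 * n ^ k * (2 * n ^ k)))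
      (2 * (finFunctionFinEquiv v : ℕ)) (2 * a')) = _ := fun v =>
    cnt_equiv finFunctionFinEquiv (fun v' => key v v' false)
  have k2 : ∀ v : Fin k → Fin n, cnt (n ^ k) (fun a' => look (2 * n ^ k)
      (tabs (2 * n ^ k) (base k n G H) (step k n (2 * n ^ k)) (2 * n ^ k * (2 * n ^ k)))
      (2 * (finFunctionFinEquiv v : ℕ)) (2 * a' + 1)) = _ := fun v =>
    cnt_equiv finFunctionFinEquiv (fun v' => key v v' true)
  constructor
  · intro h v
    rw [← k1, ← k2]
    exact h _ (finFunctionFinEquiv v).isLt
  · intro h a ha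
    have := h (finFunctionFinEquiv.symm ⟨a, ha⟩)
    rw [← k1, ← k2, Equiv.apply_symm_apply] at this
    exact this

end

/-! ### Running time -/

section
variable {α : Type} [Rp α]

@[fun_prop] theorem pt_dig {n i t : α → ℕ} (hn : PTime n) (hi : PU i) (ht : PTime t) :
    PTime fun a => dig (n a) (i a) (t a) := by
  unfold dig; fun_prop

@[fun_prop] theorem pt_upd {n i z t : α → ℕ} (hn : PTime n) (hi : PU i) (hz : PTime z)
    (ht : PTime t) : PTime fun a => upd (n a) (i a) (z a) (t a) := by
  unfold upd; fun_prop

@[fun_prop] theorem pt_wd {G H : α → Word} {t : α → ℕ} (hG : PTime G) (hH : PTime H)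
    (ht : PTime t) : PTime fun a => wd (G a) (H a) (t a) := by
  unfold wd; fun_prop

theorem pt_base {k n a b : α → ℕ} {G H : α → Word} (hk : PU k) (hn : PTime n) (hG : PTime G)
    (hH : PTime H) (ha : PTime a) (hb : PTime b) :
    PTime fun x => base (k x) (n x) (G x) (H x) (a x) (b x) := by
  unfold base
  refine pt_forall hk (pt_forall (by fun_prop) ?_)
  fun_prop

theorem pt_step {k n M a b : α → ℕ} {T : α → Word} (hk : PU k) (hn : PU n) (hM : PTime M)
    (hT : PTime T) (ha : PTime a) (hb : PTime b) :
    PTime fun x => step (k x) (n x) (M x) (T x) (a x) (b x) := by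
  unfold step
  have := hn.ptime
  refine PTime.and (by fun_prop) (pt_forall hn (PTime.eq ?_ ?_))
  · refine pt_cnt (by fun_prop) (pt_forall (by fun_prop) ?_)
    fun_prop
  · refine pt_cnt (by fun_prop) (pt_forall (by fun_prop) ?_)
    fun_prop

theorem pt_final {N : α → ℕ} {T : α → Word} (hN : PU N) (hT : PTime T) :
    PTime fun x => final (N x) (T x) := by
  unfold final
  have := hN.ptime
  refine pt_forall hN (PTime.eq ?_ ?_)
  · refine pt_cnt (by fun_prop) ?_
    fun_prop
  · refine pt_cnt (by fun_prop) ?_
    fun_prop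

theorem pt_test {k n N : α → ℕ} {G H : α → Word} (hk : PU k) (hn : PU n) (hN : PU N)
    (hG : PTime G) (hH : PTime H) : PTime fun x => test (k x) (n x) (N x) (G x) (H x) := by
  unfold test
  have h1 := hn.ptime
  have h2 := hN.ptime
  refine pt_final hN (pt_tabs (base := fun x => base (k x) (n x) (G x) (H x))
    (step := fun x => step (k x) (n x) (2 * N x)) (by fun_prop) (by fun_prop) ?_ ?_)
  · exact pt_base (by fun_prop) (by fun_prop) (by fun_prop) (by fun_prop) (by fun_prop)
      (by fun_prop)
  · exact pt_step (by fun_prop) (by fun_prop) (by fun_prop) (by fun_prop) (by fun_prop)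
      (by fun_prop)

end

end JAlg

theorem jAlgStmt : JAlgStmt := by
  classical
  refine ⟨fun p => decide (JAlg.test p.1.1.val p.1.2.1.val
    (min (p.1.2.1.val ^ p.1.1.val) p.2.val) p.1.2.2.1 p.1.2.2.2), PTime.decide ?_,
    fun k n G H τ _ h => ?_⟩
  · exact JAlg.pt_test (by fun_prop) (by fun_prop) (PU.min_right (by fun_prop) (by fun_prop))
      (by fun_prop) (by fun_prop)
  · simp only [decide_eq_true_eq, min_eq_left h]
    exact JAlg.test_iff G H

end Crest.Agent.R290
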