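import Crest.Agent.R290.DefsL

/-!
Row 290: lifting the gadget equations of a good row to the virtual system.
-/

set_option autoImplicit false

namespace Crest.Agent.R290

open Finset

namespace Lift

theorem sg_ne {V : Type} {v w : V} (h : sg v w ≠ 0) : w = v := by
  by_contra hne
  exact h (Finsupp.single_eq_of_ne hne)

theorem geq_ne {Γ X : Type} {b : ℕ} {rd : Γ → Bool → ℕ → X} {out : Γ → X} {p : Γ × ℕ}
    {w : X ⊕ Γ × ℕ} (h : geq b rd out p w ≠ 0) :
    (∃ u, w = Sum.inr (p.1, u)) ∨ w = Sum.inl (out p.1) ∨ ∃ s u, w = Sum.inl (rd p.1 s u) := by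
  by_contra hne
  push Not at hne
  obtain ⟨h1, h2, h3⟩ := hne
  apply h
  have e1 : ∀ u, sg (Sum.inr (p.1, u) : X ⊕ Γ × ℕ) w = 0 := fun u => by
    by_contra h'
    exact h1 u (sg_ne h')
  have e2 : sg (Sum.inl (pend b rd out p.1 p.2) : X ⊕ Γ × ℕ) w = 0 := by
    by_contra h'
    have := sg_ne h'
    unfold pend at this
    split_ifs at this
    · exact h2 this
    · exact h3 _ _ this
  unfold geq
  simp only [Finsupp.add_apply, e2]
  split_ifs <;> simp [e1]

theorem gsum_ne {Γ X : Type} {b : ℕ} {rd : Γ → Bool → ℕ → X} {out : Γ → X} {U : Fm (Γ × ℕ)}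
    {w : X ⊕ Γ × ℕ} (h : gsum b rd out U w ≠ 0) : ∃ p, U p ≠ 0 ∧ geq b rd out p w ≠ 0 := by
  by_contra hne
  push Not at hne
  apply h
  unfold gsum sub
  rw [Finsupp.linearCombination_apply, Finsupp.sum, Finsupp.finsetSum_apply]
  refine Finset.sum_eq_zero fun p hp => ?_
  rw [Finsupp.smul_apply, hne p (Finsupp.mem_support_iff.1 hp), smul_zero]

theorem near_mono {N : Fm VV} {a c : ℕ} {A : ℤ × ℤ} (h : Near N a A) (hac : a ≤ c) :
    Near N c A := by
  obtain ⟨v, hv, h1, h2⟩ := h
  have : (a : ℤ) ≤ c := by exact_mod_cast hac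
  exact ⟨v, hv, h1.trans this, h2.trans this⟩

theorem near_add {N : Fm VV} {a : ℕ} {A d : ℤ × ℤ} (h : Near N a A) (h1 : |d.1| ≤ 1)
    (h2 : |d.2| ≤ 1) : Near N (a + 1) (A + d) := by
  obtain ⟨v, hv, e1, e2⟩ := h
  refine ⟨v, hv, ?_, ?_⟩
  · rw [abs_le] at *
    simp only [Prod.fst_add]
    push_cast
    constructor <;> linarith [e1.1, e1.2, h1.1, h1.2]
  · rw [abs_le] at *
    simp only [Prod.snd_add]
    push_cast
    constructor <;> linarith [e2.1, e2.2, h2.1, h2.2]

theorem near_self {N : Fm VV} {a : ℕ} {v : VV} (hv : N v ≠ 0) : Near N a (adr v) :=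
  ⟨v, hv, by simp, by simp⟩

/-- A monotone family of predicates stabilises on a small finite set. -/
theorem exists_stable {α : Type} (T : Finset α) (κ : ℕ) (hT : T.card ≤ κ) (P : ℕ → α → Prop)
    (hP : ∀ s a, P s a → P (s + 1) a) : ∃ s ≤ κ, ∀ a ∈ T, P (s + 1) a → P s a := by
  classical
  by_contra hne
  push Not at hne
  have key : ∀ s ≤ κ + 1, s ≤ (T.filter (P s)).card := by
    intro s
    induction s with
    | zero => intro _; exact Nat.zero_le _
    | succ s ih =>
      intro hs
      obtain ⟨a, ha, h1, h2⟩ := hne s (by omega)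
      have hlt : (T.filter (P s)).card < (T.filter (P (s + 1))).card := by
        apply Finset.card_lt_card
        refine ⟨fun x hx => ?_, fun hsub => ?_⟩
        · rw [Finset.mem_filter] at hx ⊢
          exact ⟨hx.1, hP s x hx.2⟩
        · exact h2 (Finset.mem_filter.1 (hsub (Finset.mem_filter.2 ⟨ha, h1⟩))).2
      have := ih (by omega)
      omega
  have h1 := key (κ + 1) le_rfl
  have h2 : (T.filter (P (κ + 1))).card ≤ T.card := Finset.card_filter_le _ _
  omega

theorem prj_inj (R : RS) (i : ℕ) {v v' : VV} (h : R.prj i v = R.prj i v')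
    (hA : R.red i (adr v) = R.red i (adr v') → adr v = adr v') : v = v' := by
  rcases v with ⟨σ, l, A⟩ | ⟨⟨r, l, A⟩, u⟩ <;> rcases v' with ⟨σ', l', A'⟩ | ⟨⟨r', l', A'⟩, u'⟩
  · simp only [RS.prj, Sum.inl.injEq, Prod.mk.injEq, true_and] at h
    have := hA h.2.2
    simp only [adr] at this
    rw [h.1, h.2.1, this]
  · simp [RS.prj] at h
  · simp [RS.prj] at h
  · simp only [RS.prj, RS.prG, Sum.inr.injEq, Prod.mk.injEq, true_and] at h
    have := hA h.1.2.2
    simp only [adr] at this
    rw [h.1.1, h.1.2.1, this, h.2]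

theorem map_gsum (R : RS) (i : ℕ)
    (hB : ∀ p, Finsupp.mapDomain (R.prj i) (geq R.b R.vrd R.vout p) =
      geq R.b R.rd R.out (R.prG i p.1, p.2)) (U' : Fm (VG × ℕ)) :
    Finsupp.mapDomain (R.prj i) (gsum R.b R.vrd R.vout U') =
      gsum R.b R.rd R.out (Finsupp.mapDomain (fun p => (R.prG i p.1, p.2)) U') := by
  induction U' using Finsupp.induction_linear with
  | zero => simp [gsum]
  | add f g hf hg =>
    unfold gsum at *
    rw [map_add, Finsupp.mapDomain_add, Finsupp.mapDomain_add, map_add, hf, hg]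
  | single p c =>
    unfold gsum sub
    rw [Finsupp.mapDomain_single, Finsupp.linearCombination_single,
      Finsupp.linearCombination_single, Finsupp.mapDomain_smul, hB]

end Lift

open Lift in
theorem liftStmt_of (hB : RowBasicStmt) : LiftStmt := by
  classical
  intro R Bd ρ κ i N U hG hV hrow hκ hinj
  obtain ⟨-, hB2⟩ := hB R Bd ρ hG
  let Hit : ℕ → GI → Prop := fun ϱ g => ∃ A, Near N ϱ A ∧ R.red i A = g.2.2.2
  have hitm : ∀ a c g, Hit a g → a ≤ c → Hit c g := fun a c g ⟨A, h1, h2⟩ hac =>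
    ⟨A, near_mono h1 hac, h2⟩
  obtain ⟨s, hs, hstab⟩ := exists_stable (used U) κ hκ (fun s g => Hit (2 * s) g)
    (fun s g h => hitm _ _ g h (by omega))
  have hstab' : ∀ p, U p ≠ 0 → Hit (2 * s + 2) p.1 → Hit (2 * s) p.1 := fun p hp h =>
    hstab p.1 (by
      unfold used
      simp only [Finset.mem_image, Finsupp.mem_support_iff]
      exact ⟨p, hp, rfl⟩) h
  let Ad : GI → ℤ × ℤ := fun g => if h : Hit (2 * s) g then h.choose else 0
  have hAd : ∀ g, Hit (2 * s) g → Near N (2 * s) (Ad g) ∧ R.red i (Ad g) = g.2.2.2 := by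
    intro g h
    simp only [Ad, dif_pos h]
    exact h.choose_spec
  let lift : GI × ℕ → VG × ℕ := fun p => ((p.1.1, p.1.2.1, Ad p.1), p.2)
  let prp : VG × ℕ → GI × ℕ := fun p => (R.prG i p.1, p.2)
  let Uin : Fm (GI × ℕ) := U.filter fun p => Hit (2 * s) p.1
  let Uout : Fm (GI × ℕ) := U.filter fun p => ¬ Hit (2 * s) p.1
  have hUio : Uin + Uout = U := Finsupp.filter_add_filter_not _ _
  have hin : ∀ p, Uin p ≠ 0 → U p ≠ 0 ∧ Hit (2 * s) p.1 := by
    intro p hp
    simp only [Uin, Finsupp.filter_apply] at hp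
    split_ifs at hp with h
    · exact ⟨hp, h⟩
    · exact absurd rfl hp
  have hout : ∀ p, Uout p ≠ 0 → U p ≠ 0 ∧ ¬ Hit (2 * s) p.1 := by
    intro p hp
    simp only [Uout, Finsupp.filter_apply] at hp
    split_ifs at hp with h
    · exact absurd rfl hp
    · exact ⟨hp, h⟩
  have hpl : ∀ p, Uin p ≠ 0 → prp (lift p) = p := by
    intro p hp
    obtain ⟨h1, h2⟩ := hin p hp
    have e1 := hrow p h1
    have e2 := (hAd p.1 h2).2
    rcases p with ⟨⟨r, l, j, t⟩, u⟩
    simp only at e1 e2
    simp only [prp, lift, RS.prG, e2]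
    rw [e1]
  let U' : Fm (VG × ℕ) := Finsupp.mapDomain lift Uin
  have hU' : ∀ q, U' q ≠ 0 → ∃ p, Uin p ≠ 0 ∧ lift p = q := by
    intro q hq
    have := Finsupp.mapDomain_support (f := lift) (s := Uin) (Finsupp.mem_support_iff.2 hq)
    obtain ⟨p, hp, e⟩ := Finset.mem_image.1 this
    exact ⟨p, Finsupp.mem_support_iff.1 hp, e⟩
  have hback : Finsupp.mapDomain prp U' = Uin := by
    simp only [U']
    rw [← Finsupp.mapDomain_comp]
    conv_rhs => rw [← Finsupp.mapDomain_id (v := Uin)]
    exact Finsupp.mapDomain_congr fun p hp => hpl p (Finsupp.mem_support_iff.1 hp)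
  have hmaps : ∀ q, U' q ≠ 0 → U (prp q) ≠ 0 := by
    intro q hq
    obtain ⟨p, hp, rfl⟩ := hU' q hq
    rw [hpl p hp]
    exact (hin p hp).1
  have hinjp : Set.InjOn prp (U'.support : Set (VG × ℕ)) := by
    intro q hq q' hq' e
    obtain ⟨p, hp, rfl⟩ := hU' q (Finsupp.mem_support_iff.1 hq)
    obtain ⟨p', hp', rfl⟩ := hU' q' (Finsupp.mem_support_iff.1 hq')
    rw [hpl p hp, hpl p' hp'] at e
    rw [e]
  refine ⟨U', ?_, ?_, ?_, ?_⟩
  · intro q hq
    obtain ⟨p, hp, rfl⟩ := hU' q hq
    obtain ⟨h1, h2⟩ := hV p (hin p hp).1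
    exact ⟨⟨h1.1, h1.2.1⟩, h2⟩
  · refine Finset.card_le_card_of_injOn prp (fun q hq => ?_) hinjp
    exact Finsupp.mem_support_iff.2 (hmaps q (Finsupp.mem_support_iff.1 hq))
  · intro γ
    unfold cnt
    refine Finset.card_le_card_of_injOn prp (fun q hq => ?_) (hinjp.mono fun q hq => ?_)
    · simp only [Finset.coe_filter, Finsupp.mem_support_iff, Set.mem_ofPred_eq] at hq ⊢
      refine ⟨hmaps q hq.1, ?_⟩
      rw [← hq.2]
    · simp only [Finset.coe_filter, Set.mem_ofPred_eq] at hq
      exact hq.1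
  · set F : Fm VV := N + gsum R.b R.vrd R.vout U' with hF
    have hnear : ∀ v, F v ≠ 0 → Near N (2 * s + 1) (adr v) := by
      intro v hv
      by_cases hN : N v = 0
      · have hg : gsum R.b R.vrd R.vout U' v ≠ 0 := by
          intro h0
          apply hv
          rw [hF, Finsupp.add_apply, hN, h0, add_zero]
        obtain ⟨q, hq, hqv⟩ := gsum_ne hg
        obtain ⟨p, hp, rfl⟩ := hU' q hq
        obtain ⟨hp1, hp2⟩ := hin p hp
        have hn := (hAd p.1 hp2).1
        rcases geq_ne hqv with ⟨u, rfl⟩ | rfl | ⟨σ, u, rfl⟩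
        · exact near_mono hn (by omega)
        · exact near_mono hn (by omega)
        · have hsh := hG.sh p.1.1 σ (hV p hp1).1.1
          exact near_add hn hsh.1 hsh.2
      · exact near_self hN
    have hinjF : Set.InjOn (R.prj i) (F.support : Set VV) := by
      intro v hv v' hv' e
      refine prj_inj R i e fun h => hinj _ _ ?_ ?_ h
      · exact near_mono (hnear v (Finsupp.mem_support_iff.1 hv)) (by omega)
      · exact near_mono (hnear v' (Finsupp.mem_support_iff.1 hv')) (by omega)
    have hmapF : Finsupp.mapDomain (R.prj i) F =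
        Finsupp.mapDomain (R.prj i) N + gsum R.b R.rd R.out Uin := by
      rw [hF, Finsupp.mapDomain_add, map_gsum R i (hB2 i), ← hback]
    have hG' : Finsupp.mapDomain (R.prj i) N + gsum R.b R.rd R.out U =
        Finsupp.mapDomain (R.prj i) F + gsum R.b R.rd R.out Uout := by
      rw [hmapF, add_assoc]
      congr 1
      conv_lhs => rw [← hUio]
      unfold gsum
      rw [map_add]
    have hzero : ∀ v, F v ≠ 0 → gsum R.b R.rd R.out Uout (R.prj i v) = 0 := by
      intro v hv
      by_contra hne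
      obtain ⟨p, hp, hpv⟩ := gsum_ne hne
      obtain ⟨hp1, hp2⟩ := hout p hp
      have hn := hnear v hv
      have hGd := (hV p hp1).1
      have hr := hrow p hp1
      apply hp2
      apply hstab' p hp1
      rcases geq_ne hpv with ⟨u, e⟩ | e | ⟨σ, u, e⟩
      · rcases v with x | q
        · simp [RS.prj] at e
        · simp only [RS.prj, Sum.inr.injEq, Prod.mk.injEq] at e
          refine ⟨adr (Sum.inr q), near_mono hn (by omega), ?_⟩
          rw [← e.1]
          rfl
      · rcases v with x | q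
        · simp only [RS.prj, RS.out, Sum.inl.injEq, Prod.mk.injEq] at e
          exact ⟨adr (Sum.inl x), near_mono hn (by omega), e.2.2.2⟩
        · simp [RS.prj] at e
      · rcases v with x | q
        · simp only [RS.prj, RS.rd, Sum.inl.injEq, Prod.mk.injEq] at e
          have hsh := hG.sh p.1.1 σ hGd.1
          refine ⟨adr (Sum.inl x) + -R.sh p.1.1 σ, near_add hn ?_ ?_, ?_⟩
          · simpa using hsh.1
          · simpa using hsh.2
          · have e4 := e.2.2.2
            have e5 := hGd.2.2.2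
            rw [hr] at e4 e5
            simp only [adr]
            rw [← hG.red i x.2.2, e4, hG.red, add_neg_cancel_right, e5]
        · simp [RS.prj] at e
    rw [hG']
    refine Finset.card_le_card_of_injOn (R.prj i) (fun v hv => ?_) hinjF
    have hv' := Finsupp.mem_support_iff.1 hv
    simp only [Finset.mem_coe, Finsupp.mem_support_iff, Finsupp.add_apply]
    rw [hzero v hv', add_zero,
      Finsupp.mapDomain_apply' (F.support : Set VV) F subset_rfl hinjF hv]
    exact hv'

end Crest.Agent.R290
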