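import Crest.Agent.R290.DefsL

/-!
Row 290: elementary facts on forms over `ZMod 2` and on bounded-width derivations.
-/

set_option autoImplicit false

namespace Crest.Agent.R290

open Finset

/-! ### Forms -/

theorem z2_cases (c : ZMod 2) : c = 0 ∨ c = 1 := by revert c; decide

theorem z2_eq_one {c : ZMod 2} (h : c ≠ 0) : c = 1 := (z2_cases c).resolve_left h

theorem z2_add_self (c : ZMod 2) : c + c = 0 := by revert c; decide

theorem z2_eq_of_add {c d : ZMod 2} (h : c + d = 0) : c = d := by revert c d; decide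

section
variable {V V' : Type}

@[simp] theorem fm_add_self (f : Fm V) : f + f = 0 := by
  ext v; simp [z2_add_self]

@[simp] theorem fm_add_cancel_left (f g : Fm V) : f + (f + g) = g := by
  rw [← add_assoc, fm_add_self, zero_add]

@[simp] theorem fm_add_cancel_right (f g : Fm V) : f + g + g = f := by
  rw [add_assoc, fm_add_self, add_zero]

theorem fm_neg (f : Fm V) : -f = f := neg_eq_of_add_eq_zero_left (fm_add_self f)

theorem fm_eq_of_add {f g : Fm V} (h : f + g = 0) : f = g := by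
  rw [← fm_add_cancel_right f g, h, zero_add]

theorem sg_apply [DecidableEq V] (v x : V) : sg v x = if v = x then 1 else 0 := by
  simp [sg, Finsupp.single_apply]

@[simp] theorem sg_self (v : V) : sg v v = 1 := by simp [sg]

theorem sg_of_ne {v x : V} (h : v ≠ x) : sg v x = 0 := by
  classical
  simp [sg_apply, h]

theorem sg_ne_zero_iff {v x : V} : sg v x ≠ 0 ↔ x = v := by
  classical
  rw [sg_apply]
  by_cases h : v = x
  · simp [h]
  · simp [h, Ne.symm h]

theorem sg_ne_zero (v : V) : sg v ≠ 0 := fun h => by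
  have := sg_self v
  rw [h] at this
  exact zero_ne_one this

theorem support_sg (v : V) : (sg v).support = {v} :=
  Finsupp.support_single _ one_ne_zero

@[simp] theorem sub_sg (φ : V' → Fm V) (v : V') : sub φ (sg v) = φ v := by
  simp [sub, sg]

@[simp] theorem ev_sg (δ : V → ZMod 2) (v : V) : ev δ (sg v) = δ v := by
  simp [ev, sg]

@[simp] theorem mapDomain_sg (π : V' → V) (v : V') : Finsupp.mapDomain π (sg v) = sg (π v) :=
  Finsupp.mapDomain_single

/-- A form is the sum of its variables. -/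
theorem eq_sum_sg (f : Fm V) : f = ∑ v ∈ f.support, sg v := by
  conv_lhs => rw [← Finsupp.sum_single f]
  refine Finset.sum_congr rfl fun v hv => ?_
  rw [z2_eq_one (Finsupp.mem_support_iff.1 hv), sg]

theorem sub_eq_sum (φ : V' → Fm V) (f : Fm V') : sub φ f = ∑ v ∈ f.support, φ v := by
  conv_lhs => rw [eq_sum_sg f]
  simp [map_sum]

theorem ev_eq_sum (δ : V → ZMod 2) (f : Fm V) : ev δ f = ∑ v ∈ f.support, δ v := by
  conv_lhs => rw [eq_sum_sg f]
  simp [map_sum]

theorem mapDomain_eq_sub (π : V' → V) (f : Fm V') :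
    Finsupp.mapDomain π f = sub (fun v => sg (π v)) f := by
  conv_lhs => rw [eq_sum_sg f]
  rw [sub_eq_sum, Finsupp.mapDomain_finsetSum]
  simp

theorem ev_sub (δ : V → ZMod 2) (φ : V' → Fm V) (f : Fm V') :
    ev δ (sub φ f) = ev (fun v => ev δ (φ v)) f := by
  rw [sub_eq_sum, map_sum, ev_eq_sum (f := f)]

theorem ev_congr {δ δ' : V → ZMod 2} {f : Fm V} (h : ∀ v, f v ≠ 0 → δ v = δ' v) :
    ev δ f = ev δ' f := by
  rw [ev_eq_sum, ev_eq_sum]
  exact Finset.sum_congr rfl fun v hv => h v (Finsupp.mem_support_iff.1 hv)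

theorem exists_of_sum_ne {ι : Type} {I : Finset ι} {f : ι → Fm V} {x : V}
    (h : (∑ i ∈ I, f i) x ≠ 0) : ∃ i ∈ I, f i x ≠ 0 := by
  rw [Finsupp.finsetSum_apply] at h
  exact Finset.exists_ne_zero_of_sum_ne_zero h

theorem exists_of_sub_ne {φ : V' → Fm V} {f : Fm V'} {x : V} (h : sub φ f x ≠ 0) :
    ∃ v, f v ≠ 0 ∧ φ v x ≠ 0 := by
  rw [sub_eq_sum] at h
  obtain ⟨v, hv, h'⟩ := exists_of_sum_ne h
  exact ⟨v, Finsupp.mem_support_iff.1 hv, h'⟩

theorem ne_or_ne_of_add_ne {f g : Fm V} {x : V} (h : (f + g) x ≠ 0) : f x ≠ 0 ∨ g x ≠ 0 := by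
  by_contra hc
  push Not at hc
  exact h (by simp [hc.1, hc.2])

/-! ### Covering -/

theorem Cov.zero (W : Set V) (S : Finset V) : Cov W S 0 := fun _ h => absurd rfl h

theorem Cov.mono {W W' : Set V} {S S' : Finset V} {f : Fm V} (h : Cov W S f) (hW : W ⊆ W')
    (hS : S ⊆ S') : Cov W' S' f := fun v hv => (h v hv).imp (fun a => hW a) fun a => hS a

theorem Cov.monoS {W : Set V} {S S' : Finset V} {f : Fm V} (h : Cov W S f) (hS : S ⊆ S') :
    Cov W S' f := h.mono subset_rfl hS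

theorem Cov.add {W : Set V} {S : Finset V} {f g : Fm V} (hf : Cov W S f) (hg : Cov W S g) :
    Cov W S (f + g) := fun v hv => (ne_or_ne_of_add_ne hv).elim (hf v) (hg v)

theorem Cov.smul {W : Set V} {S : Finset V} {f : Fm V} (hf : Cov W S f) (c : ZMod 2) :
    Cov W S (c • f) := fun v hv => hf v fun h => hv (by simp [h])

theorem Cov.sum {ι : Type} {W : Set V} {S : Finset V} {I : Finset ι} {f : ι → Fm V}
    (h : ∀ i ∈ I, Cov W S (f i)) : Cov W S (∑ i ∈ I, f i) := fun v hv => by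
  obtain ⟨i, hi, h'⟩ := exists_of_sum_ne hv
  exact h i hi v h'

theorem Cov.sg_iff {W : Set V} {S : Finset V} {v : V} : Cov W S (sg v) ↔ v ∈ W ∨ v ∈ S :=
  ⟨fun h => h v (by simp), fun h x hx => by rw [sg_ne_zero_iff.1 hx]; exact h⟩

theorem Cov.sg_mem {W : Set V} {S : Finset V} {v : V} (h : v ∈ S) : Cov W S (sg v) :=
  Cov.sg_iff.2 (Or.inr h)

theorem Cov.sg_memW {W : Set V} {S : Finset V} {v : V} (h : v ∈ W) : Cov W S (sg v) :=
  Cov.sg_iff.2 (Or.inl h)

theorem Cov.ite {W : Set V} {S : Finset V} {c : Prop} [Decidable c] {f g : Fm V}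
    (hf : c → Cov W S f) (hg : ¬ c → Cov W S g) : Cov W S (if c then f else g) := by
  split_ifs with h
  exacts [hf h, hg h]

theorem Cov.support (W : Set V) (f : Fm V) : Cov W f.support f :=
  fun _ hv => Or.inr (Finsupp.mem_support_iff.2 hv)

theorem cov_empty_iff {S : Finset V} {f : Fm V} : Cov ∅ S f ↔ f.support ⊆ S :=
  ⟨fun h v hv => (h v (Finsupp.mem_support_iff.1 hv)).resolve_left fun a => a,
    fun h _ hv => Or.inr (h (Finsupp.mem_support_iff.2 hv))⟩

theorem Cov.sub {W : Set V} {S : Finset V} {φ : V' → Fm V} {f : Fm V'}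
    (h : ∀ v, f v ≠ 0 → Cov W S (φ v)) : Cov W S (sub φ f) := fun x hx => by
  obtain ⟨v, hv, h'⟩ := exists_of_sub_ne hx
  exact h v hv x h'

theorem Cov.mapDomain {W : Set V} {S : Finset V} {π : V' → V} {f : Fm V'}
    (h : ∀ v, f v ≠ 0 → π v ∈ W ∨ π v ∈ S) : Cov W S (Finsupp.mapDomain π f) := by
  rw [mapDomain_eq_sub]
  exact Cov.sub fun v hv => Cov.sg_iff.2 (h v hv)

/-! ### Derivations -/

theorem Dv.mono {E E' : Set (Fm V)} {W W' : Set V} {K K' : ℕ} {f : Fm V} (h : Dv E W K f)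
    (hE : E ⊆ E') (hW : W ⊆ W') (hK : K ≤ K') : Dv E' W' K' f := by
  induction h with
  | zero => exact Dv.zero
  | base he => exact Dv.base (hE he)
  | add S _ _ h1 h2 h3 i1 i2 =>
    exact Dv.add S i1 i2 (h1.mono hW subset_rfl) (h2.mono hW subset_rfl) (h3.trans hK)

theorem Dv.monoK {E : Set (Fm V)} {W : Set V} {K K' : ℕ} {f : Fm V} (h : Dv E W K f)
    (hK : K ≤ K') : Dv E W K' f := h.mono subset_rfl subset_rfl hK

theorem Dv.smul {E : Set (Fm V)} {W : Set V} {K : ℕ} {f : Fm V} (h : Dv E W K f) (c : ZMod 2) :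
    Dv E W K (c • f) := by
  rcases z2_cases c with rfl | rfl
  · rw [zero_smul]; exact Dv.zero
  · rwa [one_smul]

theorem Dv.sum {ι : Type} {E : Set (Fm V)} {W : Set V} {K : ℕ} {I : Finset ι} {f : ι → Fm V}
    (S : Finset V) (hS : S.card ≤ K) (h : ∀ i ∈ I, Dv E W K (f i) ∧ Cov W S (f i)) :
    Dv E W K (∑ i ∈ I, f i) := by
  classical
  induction I using Finset.induction_on with
  | empty => exact Dv.zero
  | insert a I ha ih =>
    rw [Finset.sum_insert ha]
    have h' : ∀ i ∈ I, Dv E W K (f i) ∧ Cov W S (f i) := fun i hi => h i (mem_insert_of_mem hi)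
    exact Dv.add S (h a (mem_insert_self _ _)).1 (ih h') (h a (mem_insert_self _ _)).2
      (Cov.sum fun i hi => (h' i hi).2) hS

/-- Adding two derivable forms whose supports are small together. -/
theorem Dv.add' [DecidableEq V] {E : Set (Fm V)} {W : Set V} {K : ℕ} {f g : Fm V}
    {S T : Finset V} (hf : Dv E W K f) (hg : Dv E W K g) (hS : Cov W S f) (hT : Cov W T g)
    (h : S.card + T.card ≤ K) : Dv E W K (f + g) :=
  Dv.add (S ∪ T) hf hg (hS.monoS subset_union_left) (hT.monoS subset_union_right)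
    ((card_union_le _ _).trans h)

theorem Dv.subst {E : Set (Fm V)} {E' : Set (Fm V')} {W : Set V} {W' : Set V'} {K d : ℕ}
    (φ : V' → Fm V) (h1 : ∀ v, v ∉ W' → ∃ T : Finset V, T.card ≤ d ∧ Cov W T (φ v))
    (h2 : ∀ v ∈ W', Cov W ∅ (φ v)) (h3 : ∀ e ∈ E', Dv E W (d * K) (sub φ e)) {f : Fm V'}
    (h : Dv E' W' K f) : Dv E W (d * K) (sub φ f) := by
  classical
  have h4 : ∀ v, ∃ T : Finset V, T.card ≤ d ∧ Cov W T (φ v) := fun v => by
    by_cases hv : v ∈ W'
    · exact ⟨∅, by simp, h2 v hv⟩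
    · exact h1 v hv
  choose T hT hc using h4
  have key : ∀ (S : Finset V') (g : Fm V'), Cov W' S g → Cov W (S.biUnion T) (sub φ g) :=
    fun S g hg => Cov.sub fun v hv => (hg v hv).elim (fun a => (h2 v a).monoS (empty_subset _))
      fun a => (hc v).monoS (subset_biUnion_of_mem T a)
  induction h with
  | zero => rw [map_zero]; exact Dv.zero
  | base he => exact h3 _ he
  | add S _ _ c1 c2 c3 i1 i2 =>
    rw [map_add]
    refine Dv.add (S.biUnion T) i1 i2 (key S _ c1) (key S _ c2) ?_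
    calc (S.biUnion T).card ≤ S.card * d := card_biUnion_le_card_mul _ _ _ fun v _ => hT v
      _ ≤ d * K := by rw [mul_comm]; exact Nat.mul_le_mul_left _ c3

/-- Renaming variables. -/
theorem Dv.mapDomain {E : Set (Fm V)} {E' : Set (Fm V')} {W : Set V} {W' : Set V'} {K : ℕ}
    (π : V' → V) (h2 : ∀ v ∈ W', π v ∈ W)
    (h3 : ∀ e ∈ E', Dv E W K (Finsupp.mapDomain π e)) {f : Fm V'}
    (h : Dv E' W' K f) : Dv E W K (Finsupp.mapDomain π f) := by
  have := Dv.subst (E := E) (W := W) (d := 1) (fun v => sg (π v))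
    (fun v _ => ⟨{π v}, by simp, Cov.sg_mem (mem_singleton_self _)⟩)
    (fun v hv => Cov.sg_memW (h2 v hv))
    (fun e he => by rw [one_mul, ← mapDomain_eq_sub]; exact h3 e he) h
  rwa [one_mul, ← mapDomain_eq_sub] at this

/-- Derivable forms vanish at the solutions of the system. -/
theorem Dv.ev_eq_zero {E : Set (Fm V)} {W : Set V} {K : ℕ} {δ : V → ZMod 2}
    (hδ : ∀ e ∈ E, ev δ e = 0) {f : Fm V} (h : Dv E W K f) : ev δ f = 0 := by
  induction h with
  | zero => exact map_zero _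
  | base he => exact hδ _ he
  | add S _ _ _ _ _ i1 i2 => rw [map_add, i1, i2, add_zero]

/-! ### Satisfying assignments -/

theorem Sat.mono {E : Set (Fm V)} {o : V} {K : ℕ} {δ : V → ZMod 2} {S S' : Finset V}
    (h : Sat E o K δ S') (hS : S ⊆ S') : Sat E o K δ S :=
  ⟨h.1, fun f hf hc => h.2 f hf (hc.monoS hS)⟩

theorem Sat.congr {E : Set (Fm V)} {o : V} {K : ℕ} {δ δ' : V → ZMod 2} {S : Finset V}
    (h : Sat E o K δ S) (ho : δ' o = 1) (hS : ∀ v ∈ S, δ' v = δ v) : Sat E o K δ' S :=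
  ⟨ho, fun f hf hc => by
    rw [← h.2 f hf hc]
    refine ev_congr fun v hv => (hc v hv).elim (fun a => ?_) (hS v)
    rw [Set.mem_singleton_iff.1 a, ho, h.1]⟩

theorem exists_sat_empty {E : Set (Fm V)} {o : V} {K : ℕ} (h : ¬ Dv E {o} K (sg o)) :
    ∃ δ, Sat E o K δ ∅ := by
  refine ⟨fun _ => 1, rfl, fun f hf hc => ?_⟩
  have h1 : f = Finsupp.single o (f o) := by
    refine Finsupp.support_subset_singleton.1 fun v hv => ?_
    rcases hc v (Finsupp.mem_support_iff.1 hv) with a | a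
    · exact mem_singleton.2 a
    · exact absurd a (notMem_empty _)
  rcases z2_cases (f o) with h0 | h0
  · rw [h1, h0, Finsupp.single_zero, map_zero]
  · rw [h0] at h1
    rw [h1] at hf
    exact absurd hf h

theorem Sat.extend {E : Set (Fm V)} {o : V} {K : ℕ} {δ : V → ZMod 2} {S S' : Finset V}
    (h : Sat E o K δ S) (_hS : S ⊆ S') (hK : S'.card ≤ K) :
    ∃ δ', Sat E o K δ' S' ∧ ∀ v ∈ S, δ' v = δ v := by
  let L : Submodule (ZMod 2) (Fm V) :=
    { carrier := {f | Dv E {o} K f ∧ Cov {o} S' f}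
      add_mem' := fun hf hg => ⟨Dv.add S' hf.1 hg.1 hf.2 hg.2 hK, hf.2.add hg.2⟩
      zero_mem' := ⟨Dv.zero, Cov.zero _ _⟩
      smul_mem' := fun c _ hf => ⟨hf.1.smul c, hf.2.smul c⟩ }
  let M : Submodule (ZMod 2) (Fm V) :=
    { carrier := {f | ev δ f = 0 ∧ Cov {o} S f}
      add_mem' := fun hf hg => ⟨by rw [map_add, hf.1, hg.1, add_zero], hf.2.add hg.2⟩
      zero_mem' := ⟨map_zero _, Cov.zero _ _⟩
      smul_mem' := fun c _ hf => ⟨by rw [map_smul, hf.1, smul_zero], hf.2.smul c⟩ }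
  have hno : sg o ∉ L ⊔ M := by
    intro hm
    obtain ⟨f, hf, g, hg, e⟩ := Submodule.mem_sup.1 hm
    have e' : f = sg o + g := by rw [← e, fm_add_cancel_right]
    have h1 : Cov {o} S f := by
      rw [e']; exact (Cov.sg_memW (Set.mem_singleton _)).add hg.2
    have h2 := h.2 f hf.1 h1
    rw [e', map_add, hg.1, ev_sg, h.1, add_zero] at h2
    exact one_ne_zero h2
  obtain ⟨φ, h1, h2⟩ := Submodule.exists_le_ker_of_notMem hno
  have e : ∀ f, ev (fun v => φ (sg v)) f = φ f := fun f => by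
    conv_rhs => rw [eq_sum_sg f]
    rw [ev_eq_sum, map_sum]
  have ho := z2_eq_one h1
  refine ⟨fun v => φ (sg v), ⟨ho, fun f hf hc => ?_⟩, fun v hv => ?_⟩
  · rw [e]
    exact h2 (Submodule.mem_sup_left (show f ∈ L from ⟨hf, hc⟩))
  · have : sg v + δ v • sg o ∈ M :=
      ⟨by rw [map_add, map_smul, ev_sg, ev_sg, h.1, smul_eq_mul, mul_one, z2_add_self],
        (Cov.sg_mem hv).add ((Cov.sg_memW (Set.mem_singleton _)).smul _)⟩
    have h3 : φ (sg v + δ v • sg o) = 0 := h2 (Submodule.mem_sup_right this)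
    rw [map_add, map_smul, ho, smul_eq_mul, mul_one] at h3
    exact z2_eq_of_add h3

end

theorem linBasicStmt : LinBasicStmt :=
  ⟨fun _ _ _ _ _ _ _ _ hE hW hK h => h.mono hE hW hK,
    fun _ _ _ _ _ _ _ S hS h => Dv.sum S hS h,
    fun _ _ _ _ _ _ _ _ φ h1 h2 h3 _ h => Dv.subst φ h1 h2 h3 h,
    fun _ _ _ _ => ⟨exists_sat_empty, fun _ _ _ hS hK h => h.extend hS hK⟩⟩

end Crest.Agent.R290
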