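import Crest.Agent.R290.Defs
import Crest.Agent.R290.PTx

/-!
Row 290: the three languages with the dimension in the input are in EXPTIME.
-/

set_option autoImplicit false

namespace Crest.Agent.R290

open Crest.WLRefine Crest.Agent.PT Crest.Enc

namespace Mem

/-- Membership in EXPTIME through a polynomial-time predicate with a pad of length
`2 ^ (|x| (|x| + 2))`. -/
theorem inexp_of (hI : InExpStmt) (L : Set Word) (c : Word × Un → Prop) (hc : PTime c)
    (h : ∀ x τ, 2 ^ (x.length * (x.length + 2)) ≤ τ → (x ∈ L ↔ c (x, ⟨τ⟩))) :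
    Crest.ExpTime.InEXP L := by
  classical
  refine hI L (fun p => decide (c p)) (Polynomial.X * (Polynomial.X + 2)) hc.decide fun x τ hτ => ?_
  rw [decide_eq_true_iff]
  exact h x τ (by simpa using hτ)

theorem pow_le {n j l τ : ℕ} (hn : n ≤ l) (hj : j ≤ n + 2) (hτ : 2 ^ (l * (l + 2)) ≤ τ) :
    n ^ j ≤ τ := by
  refine le_trans ?_ hτ
  calc n ^ j ≤ (2 ^ n) ^ j := Nat.pow_le_pow_left Nat.lt_two_pow_self.le _
    _ = 2 ^ (n * j) := (pow_mul _ _ _).symm
    _ ≤ 2 ^ (l * (l + 2)) :=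
      Nat.pow_le_pow_right (by omega) (Nat.mul_le_mul hn (by omega))

/-- For a large dimension the joint equivalence is isomorphism. -/
theorem jequiv_big (hG : GameBasicStmt) (hB : BGEquivStmt) (hE : EquivBFStmt) {k n m : ℕ}
    (G : Fin n → Fin n → Bool) (H : Fin m → Fin m → Bool) (hk : n + 2 ≤ k) :
    JEquiv k G H ↔ AdjIso G H := by
  constructor
  · intro h
    obtain ⟨hnm, hbf⟩ := (hE k n m G H (by omega)).1 (Or.inl h)
    exact (hG.2.2 k n m G H).2.1 hnm (by omega) hbf
  · intro h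
    exact (hB k n m G H).1 ((hG.2.2 (k + 1) n m G H).1 h)

theorem jequiv_min (hG : GameBasicStmt) (hB : BGEquivStmt) (hE : EquivBFStmt) {k n m : ℕ}
    (G : Fin n → Fin n → Bool) (H : Fin m → Fin m → Bool) :
    JEquiv k G H ↔ JEquiv (min k (n + 2)) G H := by
  rcases le_total k (n + 2) with h | h
  · rw [min_eq_left h]
  · rw [min_eq_right h, jequiv_big hG hB hE G H h, jequiv_big hG hB hE G H le_rfl]

/-- Every matrix is read off the bits of a number below `2 ^ (n * n)`. -/
theorem exists_bits (n : ℕ) (H : Fin n → Fin n → Bool) :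
    ∃ t < 2 ^ (n * n), mat n (Nat.bits t) = H := by
  classical
  let g : ℕ → Bool := fun i =>
    if h : i / n < n ∧ i % n < n then H ⟨i / n, h.1⟩ ⟨i % n, h.2⟩ else false
  refine ⟨ofB ((List.range (n * n)).map g), by simpa using ofB_lt ((List.range (n * n)).map g), ?_⟩
  funext i j
  have hn : 0 < n := i.pos
  have e : ∀ t l : ℕ, (Nat.bits t).getD l false = t.testBit l := fun t l => by
    rw [Nat.testBit_eq_inth, List.getI]; rfl
  have hlt : i.val * n + j.val < n * n := by
    have h1 := i.2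
    have h2 := j.2
    nlinarith
  have hd : (i.val * n + j.val) / n = i.val := by
    rw [Nat.add_comm, Nat.add_mul_div_right _ _ hn, Nat.div_eq_of_lt j.2, Nat.zero_add]
  have hm : (i.val * n + j.val) % n = j.val := by
    rw [Nat.add_comm, Nat.add_mul_mod_self_right, Nat.mod_eq_of_lt j.2]
  rw [mat, e, testBit_ofB, getD_rangeMap_of_lt _ hlt]
  simp only [g, hd, hm]
  rw [dif_pos ⟨i.2, j.2⟩]

/-- The pair languages, for a class `C` of matrices that is decidable in polynomial time. -/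
theorem pair (hI : InExpStmt) (hJ : JAlgStmt) (hP : ParseStmt) (hG : GameBasicStmt)
    (hB : BGEquivStmt) (hE : EquivBFStmt) (C : ∀ n : ℕ, (Fin n → Fin n → Bool) → Prop)
    (hC : PTime fun a : Un × Word => C a.1.val (mat a.1.val a.2)) :
    Crest.ExpTime.InEXP {w | ∃ (k n : ℕ) (G H : Fin n → Fin n → Bool), 2 ≤ k ∧ C n G ∧ C n H ∧
      JEquiv k G H ∧ w = natCode k ++ adjMatrixCode G ++ adjMatrixCode H} := by
  obtain ⟨f, hf, hfs⟩ := hJ
  obtain ⟨gn, gm, gr, ok, hgn, hgm, hgr, hok, hle, hsound, hcomp⟩ := hP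
  have hy : PTime fun p : Word × Un => natRest p.1 := by fun_prop
  have hz : PTime fun p : Word × Un => gr (natRest p.1) := hgr.comp hy
  have hn : PU fun p : Word × Un => gn (natRest p.1) := hgn.comp hy
  have hn' : PU fun p : Word × Un => gn (gr (natRest p.1)) := hgn.comp hz
  have hk : PU fun p : Word × Un => min (natVal p.1) (gn (natRest p.1) + 2) :=
    PU.min_right (by fun_prop) (hn.add (PU.const 2))
  have hA : PTime fun p : Word × Un => gm (natRest p.1) := hgm.comp hy
  have hA' : PTime fun p : Word × Un => gm (gr (natRest p.1)) := hgm.comp hz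
  refine inexp_of hI _ (fun p => p.1 = natCode (natVal p.1) ++ natRest p.1 ∧ 2 ≤ natVal p.1 ∧
    ok (natRest p.1) ∧ ok (gr (natRest p.1)) ∧ gr (gr (natRest p.1)) = [] ∧
    gn (gr (natRest p.1)) = gn (natRest p.1) ∧
    C (gn (natRest p.1)) (mat (gn (natRest p.1)) (gm (natRest p.1))) ∧
    C (gn (natRest p.1)) (mat (gn (natRest p.1)) (gm (gr (natRest p.1)))) ∧
    f ((⟨min (natVal p.1) (gn (natRest p.1) + 2)⟩, ⟨gn (natRest p.1)⟩, gm (natRest p.1),
      gm (gr (natRest p.1))), p.2) = true) ?_ fun x τ hτ => ?_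
  · refine PTime.and (by fun_prop) (PTime.and (by fun_prop) (PTime.and (hok.comp hy)
      (PTime.and (hok.comp hz) (PTime.and (hgr.comp hz).eq_nil (PTime.and (hn'.ptime.eq hn.ptime)
      (PTime.and (hC.comp ((PTime.unMk hn).pair hA)) (PTime.and (hC.comp ((PTime.unMk hn).pair hA')) ?_)))))))
    exact PTime.of_bool (hf.comp (((PTime.unMk hk).pair ((PTime.unMk hn).pair (hA.pair hA'))).pair PTime.snd'))
      fun _ => Iff.rfl
  · have hlen : gn (natRest x) ≤ x.length := (hle _).trans (length_natRest_le x)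
    have hpow : gn (natRest x) ^ min (natVal x) (gn (natRest x) + 2) ≤ τ :=
      pow_le hlen (min_le_right _ _) hτ
    constructor
    · rintro ⟨k, n, G, H, hk2, hCG, hCH, hGH, rfl⟩
      rw [List.append_assoc] at hpow ⊢
      dsimp only
      rw [natVal_natCode, natRest_natCode] at hpow ⊢
      obtain ⟨a1, a2, a3, a4⟩ := hcomp n G (adjMatrixCode H)
      obtain ⟨b1, b2, b3, b4⟩ := hcomp n H []
      rw [List.append_nil] at b1 b2 b3 b4
      rw [a2] at hpow
      rw [a3, a2, a4, b4, b2, b3, hfs _ _ _ _ _ (by omega) hpow, a4, b4]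
      exact ⟨rfl, hk2, a1, b1, rfl, rfl, hCG, hCH, (jequiv_min hG hB hE G H).1 hGH⟩
    · rintro ⟨h1, h2, h3, h4, h5, h6, h7, h8, h9⟩
      dsimp only at h1 h2 h3 h4 h5 h6 h7 h8 h9
      rw [hfs _ _ _ _ _ (by omega) hpow] at h9
      refine ⟨natVal x, gn (natRest x), _, _, h2, h7, h8, (jequiv_min hG hB hE _ _).2 h9, ?_⟩
      have e1 := hsound _ h3
      have e2 := hsound _ h4
      rw [h5, List.append_nil, h6] at e2
      rw [List.append_assoc, ← e2, ← e1]
      exact h1

theorem identifies_iff (hE : EquivBFStmt) {k n : ℕ} (hk : 1 ≤ k) (G : Fin n → Fin n → Bool) :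
    Identifies k G ↔
      ∀ H : Fin n → Fin n → Bool, IsSimple H → WLEquiv k G H → AdjIso G H := by
  refine ⟨fun h H => h n H, fun h m H hH hw => ?_⟩
  have hnm : n = m := by
    unfold WLEquiv at hw
    split_ifs at hw with h1
    · exact (hE k n m G H hk).2 hw
    · exact ((hE k n m G H hk).1 (Or.inl hw)).1
  subst hnm
  exact h H hH hw

end Mem

open Mem

theorem mem1Stmt_of (hI : InExpStmt) (hJ : JAlgStmt) (_hC : CRAlgStmt) (hM : MatAlgStmt)
    (hP : ParseStmt) (hG : GameBasicStmt) (hB : BGEquivStmt) (hE : EquivBFStmt) : Mem1Stmt := by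
  have h := pair hI hJ hP hG hB hE (fun _ G => IsSimple G) hM.1
  unfold Mem1Stmt
  convert h using 1
  ext w
  constructor
  · rintro ⟨k, n, m, G, H, hk, h1, h2, h3, rfl⟩
    obtain rfl : n = m := ((hE k n m G H (by omega)).1 (Or.inl h3)).1
    exact ⟨k, n, G, H, hk, h1, h2, h3, rfl⟩
  · rintro ⟨k, n, G, H, hk, h1, h2, h3, rfl⟩
    exact ⟨k, n, n, G, H, hk, h1, h2, h3, rfl⟩

theorem mem2Stmt_of (hI : InExpStmt) (hJ : JAlgStmt) (_hC : CRAlgStmt) (hM : MatAlgStmt)
    (hP : ParseStmt) (hG : GameBasicStmt) (hB : BGEquivStmt) (hE : EquivBFStmt) : Mem2Stmt := by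
  have h := pair hI hJ hP hG hB hE (fun _ G => SimpleConnSubcubic G)
    (hM.1.and (hM.2.2.and hM.2.1))
  unfold Mem2Stmt
  convert h using 1
  ext w
  constructor
  · rintro ⟨k, n, G, H, hk, _, h1, h2, h3, rfl⟩
    exact ⟨k, n, G, H, hk, h1, h2, h3, rfl⟩
  · rintro ⟨k, n, G, H, hk, h1, h2, h3, rfl⟩
    obtain ⟨v⟩ := h1.2.1.nonempty
    exact ⟨k, n, G, H, hk, v.pos, h1, h2, h3, rfl⟩

theorem mem3Stmt_of (hI : InExpStmt) (hJ : JAlgStmt) (hC : CRAlgStmt) (hM : MatAlgStmt)
    (hP : ParseStmt) (hG : GameBasicStmt) (hB : BGEquivStmt) (hE : EquivBFStmt) : Mem3Stmt := by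
  obtain ⟨f, hf, hfs⟩ := hJ
  obtain ⟨cr, hcr, hcrs⟩ := hC
  obtain ⟨gn, gm, gr, ok, hgn, hgm, hgr, hok, hle, hsound, hcomp⟩ := hP
  have hy : PTime fun p : Word × Un => natRest p.1 := by fun_prop
  have hn : PU fun p : Word × Un => gn (natRest p.1) := hgn.comp hy
  have hk : PU fun p : Word × Un => min (natVal p.1) (gn (natRest p.1) + 2) :=
    PU.min_right (by fun_prop) (hn.add (PU.const 2))
  have hA : PTime fun p : Word × Un => gm (natRest p.1) := hgm.comp hy
  -- the inner test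
  let T : Word × Un → ℕ → ℕ → Prop := fun p k' t =>
    IsSimple (mat (gn (natRest p.1)) (Nat.bits t)) →
      ((k' = 1 ∧ cr (⟨gn (natRest p.1)⟩, gm (natRest p.1), Nat.bits t) = true) ∨
        (k' ≠ 1 ∧ f ((⟨k'⟩, ⟨gn (natRest p.1)⟩, gm (natRest p.1), Nat.bits t), p.2) = true)) →
      f ((⟨gn (natRest p.1) + 2⟩, ⟨gn (natRest p.1)⟩, gm (natRest p.1), Nat.bits t), p.2) = true
  have hT : PTime fun q : ((Word × Un) × Un) × Un => T q.1.1 q.1.2.val q.2.val := by
    have h0 : PTime fun q : ((Word × Un) × Un) × Un => q.1.1 := by fun_prop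
    have hn0 : PU fun q : ((Word × Un) × Un) × Un => gn (natRest q.1.1.1) := hn.comp h0
    have hA0 : PTime fun q : ((Word × Un) × Un) × Un => gm (natRest q.1.1.1) := hA.comp h0
    have ht : PTime fun q : ((Word × Un) × Un) × Un => Nat.bits q.2.val := by fun_prop
    have hτ : PTime fun q : ((Word × Un) × Un) × Un => q.1.1.2 := by fun_prop
    have hk0 : PU fun q : ((Word × Un) × Un) × Un => q.1.2.val := by fun_prop
    refine PTime.imp (hM.1.comp ((PTime.unMk hn0).pair ht)) (PTime.imp (PTime.or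
      (PTime.and (hk0.ptime.eq (PTime.const 1)) ?_)
      (PTime.and (hk0.ptime.ne (PTime.const 1)) ?_)) ?_)
    · exact PTime.of_bool (hcr.comp ((PTime.unMk hn0).pair (hA0.pair ht))) fun _ => Iff.rfl
    · exact PTime.of_bool (hf.comp (((PTime.unMk hk0).pair ((PTime.unMk hn0).pair (hA0.pair ht))).pair hτ))
        fun _ => Iff.rfl
    · exact PTime.of_bool (hf.comp (((PTime.unMk (hn0.add (PU.const 2))).pair
        ((PTime.unMk hn0).pair (hA0.pair ht))).pair hτ)) fun _ => Iff.rfl
  -- meaning of the inner test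
  have key : ∀ (x : Word) (τ k' : ℕ), 2 ^ (x.length * (x.length + 2)) ≤ τ → 1 ≤ k' →
      k' ≤ gn (natRest x) + 2 →
      ((∀ t < τ, T (x, ⟨τ⟩) k' t) ↔ Identifies k' (mat (gn (natRest x)) (gm (natRest x)))) := by
    intro x τ k' hτ h1 h2
    have hlen : gn (natRest x) ≤ x.length := (hle _).trans (length_natRest_le x)
    have hTt : ∀ t, T (x, ⟨τ⟩) k' t ↔ (IsSimple (mat (gn (natRest x)) (Nat.bits t)) →
        WLEquiv k' (mat (gn (natRest x)) (gm (natRest x))) (mat (gn (natRest x)) (Nat.bits t)) →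
        AdjIso (mat (gn (natRest x)) (gm (natRest x))) (mat (gn (natRest x)) (Nat.bits t))) := by
      intro t
      simp only [T]
      rw [hcrs, hfs _ _ _ _ _ h1 (pow_le hlen h2 hτ),
        hfs _ _ _ _ _ (by omega) (pow_le hlen le_rfl hτ), jequiv_big hG hB hE _ _ le_rfl]
      unfold WLEquiv
      by_cases hk1 : k' = 1
      · simp [hk1]
      · simp [hk1]
    rw [identifies_iff hE h1]
    constructor
    · intro h H
      obtain ⟨t, ht, rfl⟩ := exists_bits _ H
      refine (hTt t).1 (h t (ht.trans_le (le_trans ?_ hτ)))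
      exact Nat.pow_le_pow_right (by omega) (Nat.mul_le_mul hlen (by omega))
    · intro h t _
      exact (hTt t).2 (h _)
  refine inexp_of hI _ (fun p => p.1 = natCode (natVal p.1) ++ natRest p.1 ∧ 1 ≤ natVal p.1 ∧
    ok (natRest p.1) ∧ gr (natRest p.1) = [] ∧ 0 < gn (natRest p.1) ∧
    IsSimple (mat (gn (natRest p.1)) (gm (natRest p.1))) ∧
    ∃ k' < min (natVal p.1) (gn (natRest p.1) + 2) + 1, 1 ≤ k' ∧ ∀ t < p.2.val, T p k' t)
    ?_ fun x τ hτ => ?_
  · refine PTime.and (by fun_prop) (PTime.and (by fun_prop) (PTime.and (hok.comp hy)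
      (PTime.and (hgr.comp hy).eq_nil (PTime.and ((PTime.const 0).lt hn.ptime)
      (PTime.and (hM.1.comp ((PTime.unMk hn).pair hA)) ?_)))))
    refine PTime.exists_lt (c := fun p k' => 1 ≤ k' ∧ ∀ t < p.2.val, T p k' t)
      (hk.add (PU.const 1)) (PTime.and (by fun_prop) ?_)
    exact PTime.forall_lt (c := fun (q : (Word × Un) × Un) t => T q.1 q.2.val t)
      (n := fun q => q.1.2.val) (by fun_prop) hT
  · constructor
    · rintro ⟨k, n, G, hk1, hn0, hG1, ⟨k', h1, h2, h3⟩, rfl⟩
      obtain ⟨a1, a2, a3, a4⟩ := hcomp n G []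
      rw [List.append_nil] at a1 a2 a3 a4
      have hid : ∃ k'', 1 ≤ k'' ∧ k'' ≤ min k (n + 2) ∧ Identifies k'' G := by
        rcases le_total k' (n + 2) with h | h
        · exact ⟨k', h1, le_min h2 h, h3⟩
        · refine ⟨n + 2, by omega, le_min (by omega) le_rfl, fun m H _ hw => ?_⟩
          unfold WLEquiv at hw
          rw [if_neg (by omega)] at hw
          exact (jequiv_big hG hB hE G H le_rfl).1 hw
      obtain ⟨k'', b1, b2, b3⟩ := hid
      have b4 := (key (natCode k ++ adjMatrixCode G) τ k'' hτ b1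
        (by rw [natRest_natCode, a2]; exact b2.trans (min_le_right _ _))).2
        (by rw [natRest_natCode, a2, a4]; exact b3)
      refine ⟨?_, ?_, ?_, ?_, ?_, ?_, k'', ?_, b1, b4⟩
      all_goals simp only [natVal_natCode, natRest_natCode]
      · exact hk1
      · exact a1
      · exact a3
      · rw [a2]; exact hn0
      · rw [natRest_natCode, a2, a4]; exact hG1
      · rw [a2]; omega
    · rintro ⟨h1, h2, h3, h4, h5, h6, k', h7, h8, h9⟩
      dsimp only at h1 h2 h3 h4 h5 h6 h7 h9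
      have hm1 := min_le_left (natVal x) (gn (natRest x) + 2)
      have hm2 := min_le_right (natVal x) (gn (natRest x) + 2)
      refine ⟨natVal x, gn (natRest x), _, h2, h5, h6,
        ⟨k', h8, by omega, (key x τ k' hτ h8 (by omega)).1 h9⟩, ?_⟩
      have e1 := hsound _ h3
      rw [h4, List.append_nil] at e1
      rw [← e1]
      exact h1

end Crest.Agent.R290
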