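import Crest.Agent.R290.Defs

/-! Row 290: a polynomial-time universal simulation of the word RAM. -/

set_option autoImplicit false

namespace Crest.Agent.R290

open Crest.Agent.PT Crest.Enc Crest.WordRAM

namespace Ram

attribute [local fun_prop] PU.min_right

section pt
variable {α : Type} [Rp α]

theorem ptime_bitwise {f : Bool → Bool → Bool} (h : f false false = false) {x y : α → ℕ}
    (hx : PTime x) (hy : PTime y) : PTime fun a => Nat.bitwise f (x a) (y a) := by
  have hf : ∀ b c, f b c = bif b then (bif c then f true true else f true false)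
      else (bif c then f false true else f false false) := by
    intro b c; cases b <;> cases c <;> rfl
  have := PTime.loop (fun a k => Nat.bitwise f (shr (x a) ((x a).size + (y a).size - k))
      (shr (y a) ((x a).size + (y a).size - k)))
    (fun a s k => Nat.bit
      (bif (shr (x a) ((x a).size + (y a).size - (k + 1))).bodd then
        (bif (shr (y a) ((x a).size + (y a).size - (k + 1))).bodd then f true true
          else f true false)
      else (bif (shr (y a) ((x a).size + (y a).size - (k + 1))).bodd then f false true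
          else f false false)) s)
    ((PU.size hx).add (PU.size hy))
    ((PTime.const 0).congr fun a => by simp [shr_size]) (by fun_prop)
    (fun a k hk => by
      rw [← hf, shr_hi (x a) hk, shr_hi (y a) hk, ← Nat.div2_val, ← Nat.div2_val,
        ← Nat.bitwise_bit h, Nat.bit_bodd_div2, Nat.bit_bodd_div2])
    (hx.sz.add hy.sz)
    (fun a k _ => sz_nat_le.2 (Nat.bitwise_lt_two_pow
      ((shr_le _ _).trans_lt ((lt_two_pow_sz _).trans_le
        (Nat.pow_le_pow_right (by omega) (by omega))))
      ((shr_le _ _).trans_lt ((lt_two_pow_sz _).trans_le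
        (Nat.pow_le_pow_right (by omega) (by omega))))))
  simpa using this

@[fun_prop] theorem ptime_and {x y : α → ℕ} (hx : PTime x) (hy : PTime y) :
    PTime fun a => x a &&& y a := ptime_bitwise (f := and) rfl hx hy

@[fun_prop] theorem ptime_or {x y : α → ℕ} (hx : PTime x) (hy : PTime y) :
    PTime fun a => x a ||| y a := ptime_bitwise (f := or) rfl hx hy

@[fun_prop] theorem ptime_xor {x y : α → ℕ} (hx : PTime x) (hy : PTime y) :
    PTime fun a => x a ^^^ y a := ptime_bitwise (f := bne) rfl hx hy

end pt

/-- Skip one entry of the log unless its key is `key`. -/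
def skp (key : ℕ) (s : Word) : Word :=
  if s.length = 0 ∨ natVal s = key then s else natRest (natRest s)

def fnd (key : ℕ) (x : Word) : Word := (skp key)^[x.length] x

/-- The most recent value written under `key`. -/
def look (key dflt : ℕ) (x : Word) : ℕ :=
  if (fnd key x).length = 0 then dflt else natVal (natRest (fnd key x))

/-- The `k`-th number of a list of codes. -/
def nth (d : Word) (k : ℕ) : ℕ := natVal (natRest^[min k d.length] d)

def regv (w : ℕ) (y lg : Word) (i : ℕ) : ℕ :=
  look (2 * i) (if i = 0 then y.length % 2 ^ w else 0) lg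

def memv (w : ℕ) (y lg : Word) (a : ℕ) : ℕ :=
  look (2 * a + 1) ((if (y.drop (min a y.length)).headI = true then 1 else 0) % 2 ^ w) lg

def alu (w op b B C M : ℕ) : ℕ :=
  if op = 0 then b else if op = 1 then B else if op = 2 then B + C else if op = 3 then B - C
  else if op = 4 then B * C else if op = 5 then B / C else if op = 6 then B % C
  else if op = 7 then B &&& C else if op = 8 then B ||| C else if op = 9 then B ^^^ C
  else if op = 10 then (if C < w then B * 2 ^ min C w else 0)
  else if op = 11 then (if C < w then B / 2 ^ min C w else 0)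
  else if op = 12 then M else 0

abbrev St := ℕ × Bool × Word

def exec (w : ℕ) (y : Word) (op a b c : ℕ) (s : St) : St :=
  if s.2.1 = true then s else
  if op ≤ 13 then (s.1 + 1, false, natCode (2 * a) ++ (natCode (alu w op b (regv w y s.2.2 b)
    (regv w y s.2.2 c) (memv w y s.2.2 (regv w y s.2.2 b)) % 2 ^ w) ++ s.2.2))
  else if op = 14 then (s.1 + 1, false, natCode (2 * (regv w y s.2.2 b % 2 ^ w) + 1) ++
    (natCode (regv w y s.2.2 a % 2 ^ w) ++ s.2.2))
  else if op = 15 ∨ (op = 16 ∧ regv w y s.2.2 a = 0) ∨
      (op = 17 ∧ regv w y s.2.2 a = regv w y s.2.2 b) ∨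
      (op = 18 ∧ regv w y s.2.2 a < regv w y s.2.2 b) then (c, false, s.2.2)
  else if op ≤ 18 then (s.1 + 1, false, s.2.2) else (s.1, true, s.2.2)

def stp (d : Word) (w : ℕ) (y : Word) (s : St) : St :=
  exec w y (if s.1 < nth d 1 then nth d (4 * s.1 + 4) else 19) (nth d (4 * s.1 + 5))
    (nth d (4 * s.1 + 6)) (nth d (4 * s.1 + 7)) s

def regk (d : Word) (w : ℕ) (y lg : Word) (k : ℕ) : ℕ := if k < nth d 0 then regv w y lg k else 0

def fin (d : Word) (w : ℕ) (y lg : Word) : Bool :=
  decide (regk d w y lg 0 = 1 ∧ memv w y lg (regk d w y lg 1) = 1)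

/-! ### Polynomial time -/

theorem length_skp_le (key : ℕ) (s : Word) : (skp key s).length ≤ s.length := by
  unfold skp
  split_ifs
  · exact le_rfl
  · exact (length_natRest_le _).trans (length_natRest_le _)

theorem nth_lt (d : Word) (k : ℕ) : nth d k < 2 ^ d.length :=
  (natVal_lt _).trans_le (Nat.pow_le_pow_right (by omega) (length_iterate_le length_natRest_le _ _))

section pt
variable {α : Type} [Rp α]

@[fun_prop] theorem ptime_fnd {key : α → ℕ} {x : α → Word} (hk : PTime key) (hx : PTime x) :
    PTime fun a => fnd (key a) (x a) :=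
  PTime.loop (fun a k => (skp (key a))^[k] (x a)) (fun a s _ => skp (key a) s) (PU.length hx)
    (by simpa using hx) (by unfold skp; fun_prop)
    (fun a j _ => Function.iterate_succ_apply' _ _ _) hx.sz
    (fun a j _ => by simpa using length_iterate_le (length_skp_le _) j (x a))

@[fun_prop] theorem ptime_look {key dflt : α → ℕ} {x : α → Word} (hk : PTime key)
    (hd : PTime dflt) (hx : PTime x) : PTime fun a => look (key a) (dflt a) (x a) := by
  unfold look; fun_prop

@[fun_prop] theorem ptime_nth {d : α → Word} {k : α → ℕ} (hd : PTime d) (hk : PTime k) :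
    PTime fun a => nth (d a) (k a) :=
  PTime.natVal (PTime.iterate_min (PTime.natRest PTime.id) length_natRest_le hd hd hk)

@[fun_prop] theorem ptime_regv {w i : α → ℕ} {y lg : α → Word} (hw : PU w) (hy : PTime y)
    (hl : PTime lg) (hi : PTime i) : PTime fun a => regv (w a) (y a) (lg a) (i a) := by
  unfold regv; fun_prop

@[fun_prop] theorem ptime_memv {w i : α → ℕ} {y lg : α → Word} (hw : PU w) (hy : PTime y)
    (hl : PTime lg) (hi : PTime i) : PTime fun a => memv (w a) (y a) (lg a) (i a) := by
  unfold memv; fun_prop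

@[fun_prop] theorem ptime_alu {w op b B C M : α → ℕ} (hw : PU w) (hop : PTime op) (hb : PTime b)
    (hB : PTime B) (hC : PTime C) (hM : PTime M) :
    PTime fun a => alu (w a) (op a) (b a) (B a) (C a) (M a) := by
  have hw' := hw.ptime
  unfold alu; fun_prop

@[fun_prop] theorem ptime_exec {w op a b c : α → ℕ} {y : α → Word} {s : α → St} (hw : PU w)
    (hy : PTime y) (hop : PTime op) (ha : PTime a) (hb : PTime b) (hc : PTime c) (hs : PTime s) :
    PTime fun x => exec (w x) (y x) (op x) (a x) (b x) (c x) (s x) := by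
  unfold exec; fun_prop

@[fun_prop] theorem ptime_stp {w : α → ℕ} {d y : α → Word} {s : α → St} (hd : PTime d) (hw : PU w)
    (hy : PTime y) (hs : PTime s) : PTime fun x => stp (d x) (w x) (y x) (s x) := by
  unfold stp; fun_prop

@[fun_prop] theorem ptime_fin {w : α → ℕ} {d y lg : α → Word} (hd : PTime d) (hw : PU w)
    (hy : PTime y) (hl : PTime lg) : PTime fun x => fin (d x) (w x) (y x) (lg x) := by
  unfold fin regk; fun_prop

end pt

theorem length_natCode_le {n k : ℕ} (h : n < 2 ^ k) : (natCode n).length ≤ 2 * k + 2 := by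
  have := Nat.size_le.2 h
  rw [length_natCode]
  omega

theorem stp_bound (d : Word) (w : ℕ) (y : Word) (s : St) :
    (stp d w y s).1 ≤ max (s.1 + 1) (2 ^ d.length) ∧
      (stp d w y s).2.2.length ≤ s.2.2.length + (2 * d.length + 4 * w + 10) := by
  have hp : 0 < 2 ^ w := by positivity
  have h1 : ∀ v, (natCode (v % 2 ^ w)).length ≤ 2 * w + 2 := fun v =>
    length_natCode_le (Nat.mod_lt _ hp)
  have h2 : ∀ v, (natCode (2 * (v % 2 ^ w) + 1)).length ≤ 2 * (w + 1) + 2 := fun v =>
    length_natCode_le (by have := Nat.mod_lt v hp; rw [pow_succ]; omega)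
  have h3 : ∀ k, (natCode (2 * nth d k)).length ≤ 2 * (d.length + 1) + 2 := fun k =>
    length_natCode_le (by have := nth_lt d k; rw [pow_succ]; omega)
  unfold stp exec
  generalize (if s.1 < nth d 1 then nth d (4 * s.1 + 4) else 19) = op
  split_ifs
  · omega
  · simp only [List.length_append]
    refine ⟨by omega, ?_⟩
    have := Nat.add_le_add (h3 (4 * s.1 + 5)) (Nat.add_le_add_right (h1 (alu w op (nth d (4 * s.1 + 6))
      (regv w y s.2.2 (nth d (4 * s.1 + 6))) (regv w y s.2.2 (nth d (4 * s.1 + 7)))
      (memv w y s.2.2 (regv w y s.2.2 (nth d (4 * s.1 + 6)))))) s.2.2.length)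
    omega
  · simp only [List.length_append]
    have := h2 (regv w y s.2.2 (nth d (4 * s.1 + 6)))
    have := h1 (regv w y s.2.2 (nth d (4 * s.1 + 5)))
    omega
  · have := nth_lt d (4 * s.1 + 7)
    simp only
    omega
  · simp only
    omega
  · simp only
    omega

theorem run_bound (d : Word) (w : ℕ) (y : Word) (k : ℕ) :
    ((stp d w y)^[k] (0, false, [])).1 ≤ 2 ^ d.length + k ∧
      ((stp d w y)^[k] (0, false, [])).2.2.length ≤ k * (2 * d.length + 4 * w + 10) := by
  induction k with
  | zero => simp
  | succ k ih =>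
    rw [Function.iterate_succ_apply', add_mul k]
    have := stp_bound d w y ((stp d w y)^[k] (0, false, []))
    omega

theorem ptime_run : PTime fun p : Word × Un × Word × Un =>
    (stp p.1 p.2.1.val p.2.2.1)^[p.2.2.2.val] (0, false, []) := by
  have hd : PB fun p : Word × Un × Word × Un => p.1.length := PU.pb (by fun_prop)
  have hw : PB fun p : Word × Un × Word × Un => p.2.1.val := PU.pb (by fun_prop)
  have ht : PB fun p : Word × Un × Word × Un => p.2.2.2.val := PU.pb (by fun_prop)
  have hn : PU fun p : Word × Un × Word × Un => p.2.2.2.val := by fun_prop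
  have hs : PTime fun q : (Word × Un × Word × Un) × St × Un =>
      stp q.1.1 q.1.2.1.val q.1.2.2.1 q.2.1 :=
    ptime_stp (by fun_prop) (by fun_prop) (by fun_prop) (by fun_prop)
  refine PTime.loop (σ := St) (fun (p : Word × Un × Word × Un) k =>
      (stp p.1 p.2.1.val p.2.2.1)^[k] (0, false, []))
    (fun p s _ => stp p.1 p.2.1.val p.2.2.1 s) hn (PTime.const ((0, false, []) : St)) hs
    (fun p k _ => Function.iterate_succ_apply' _ _ _)
    (((hd.add ht).add (PB.const 2)).add
      (ht.mul ((((PB.const 2).mul hd).add ((PB.const 4).mul hw)).add (PB.const 10))))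
    (fun p k hk => ?_)
  obtain ⟨h1, h2⟩ := run_bound p.1 p.2.1.val p.2.2.1 k
  generalize (stp p.1 p.2.1.val p.2.2.1)^[k] (0, false, []) = s at h1 h2 ⊢
  obtain ⟨pc, b, lg⟩ := s
  have h3 : sz pc ≤ p.1.length + p.2.2.2.val + 1 := by
    rw [sz_nat_le, pow_succ, pow_add]
    have h4 : k < 2 ^ p.2.2.2.val := hk.trans_lt Nat.lt_two_pow_self
    have h5 : 0 < 2 ^ p.1.length := by positivity
    simp only at h1
    nlinarith
  have h6 := Nat.mul_le_mul_right (2 * p.1.length + 4 * p.2.1.val + 10) hk
  simp only [sz_prod, sz_bool, sz_word] at h2 ⊢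
  omega

/-! ### Logs -/

def encL (L : List (ℕ × ℕ)) : Word := (L.map fun p => natCode p.1 ++ natCode p.2).flatten

def lk (key dflt : ℕ) : List (ℕ × ℕ) → ℕ
  | [] => dflt
  | p :: L => if p.1 = key then p.2 else lk key dflt L

theorem encL_cons (a v : ℕ) (L : List (ℕ × ℕ)) :
    encL ((a, v) :: L) = natCode a ++ (natCode v ++ encL L) := by
  simp [encL]

theorem le_length_encL (L : List (ℕ × ℕ)) : L.length ≤ (encL L).length := by
  induction L with
  | nil => simp
  | cons p L ih =>
    rw [encL_cons, List.length_append, List.length_append, length_natCode, List.length_cons]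
    omega

theorem look_aux (key dflt : ℕ) (L : List (ℕ × ℕ)) : ∀ k, L.length ≤ k →
    (if ((skp key)^[k] (encL L)).length = 0 then dflt
      else natVal (natRest ((skp key)^[k] (encL L)))) = lk key dflt L := by
  induction L with
  | nil =>
    intro k _
    rw [Function.iterate_fixed (by simp [skp, encL])]
    simp [encL, lk]
  | cons p L ih =>
    intro k hk
    obtain ⟨a, v⟩ := p
    have hne : (encL ((a, v) :: L)).length ≠ 0 := by
      have := le_length_encL ((a, v) :: L)
      rw [List.length_cons] at this
      omega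
    by_cases h : a = key
    · rw [Function.iterate_fixed (by rw [skp, if_pos (Or.inr (by rw [encL_cons, ← h]; simp))]),
        if_neg hne, encL_cons]
      simp [lk, h]
    · obtain ⟨k, rfl⟩ : ∃ k', k = k' + 1 := ⟨k - 1, by rw [List.length_cons] at hk; omega⟩
      have h2 : skp key (encL ((a, v) :: L)) = encL L := by
        rw [skp, if_neg (by rw [not_or]; exact ⟨hne, by rw [encL_cons]; simpa using h⟩), encL_cons]
        simp
      rw [Function.iterate_succ_apply, h2, ih k (by simpa using hk)]
      simp [lk, h]

theorem look_enc (key dflt : ℕ) (L : List (ℕ × ℕ)) : look key dflt (encL L) = lk key dflt L :=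
  look_aux key dflt L _ (le_length_encL L)

theorem look_cons (key dflt a v : ℕ) (L : List (ℕ × ℕ)) :
    look key dflt (natCode a ++ (natCode v ++ encL L)) =
      if a = key then v else look key dflt (encL L) := by
  rw [← encL_cons, look_enc, look_enc, lk]

/-! ### The description of a program -/

def fld {r : ℕ} : Instr r → ℕ × ℕ × ℕ × ℕ
  | .const d v => (0, d, v, 0)
  | .copy d s => (1, d, s, 0)
  | .add d a b => (2, d, a, b)
  | .sub d a b => (3, d, a, b)
  | .mul d a b => (4, d, a, b)
  | .quot d a b => (5, d, a, b)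
  | .rem d a b => (6, d, a, b)
  | .and d a b => (7, d, a, b)
  | .or d a b => (8, d, a, b)
  | .xor d a b => (9, d, a, b)
  | .shl d a b => (10, d, a, b)
  | .shr d a b => (11, d, a, b)
  | .load d a => (12, d, a, 0)
  | .rand d => (13, d, 0, 0)
  | .store s a => (14, s, a, 0)
  | .jump l => (15, 0, 0, l)
  | .jumpIfZero a l => (16, a, 0, l)
  | .jumpIfEq a b l => (17, a, b, l)
  | .jumpIfLt a b l => (18, a, b, l)
  | .halt => (19, 0, 0, 0)

def num (P : Program) (k : ℕ) : ℕ :=
  if k = 0 then P.numRegs else if k < 4 then P.code.length else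
    let q := fld (P.code.getD (k / 4 - 1) .halt)
    if k % 4 = 0 then q.1 else if k % 4 = 1 then q.2.1 else if k % 4 = 2 then q.2.2.1 else q.2.2.2

def desc (P : Program) : Word :=
  ((List.range (4 * P.code.length + 4)).map fun k => natCode (num P k)).flatten

theorem nth_flatten (g : ℕ → ℕ) (n k : ℕ) (hk : k < n) :
    nth ((List.range n).map fun k => natCode (g k)).flatten k = g k := by
  have hl : ∀ L : List ℕ, L.length ≤ (L.map fun k => natCode (g k)).flatten.length := by
    intro L
    induction L with
    | nil => simp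
    | cons a L ih =>
      rw [List.map_cons, List.flatten_cons, List.length_append, length_natCode, List.length_cons]
      omega
  have h1 := hl (List.range n)
  rw [List.length_range] at h1
  have h2 := iterate_skip natRest (fun k => natCode (g k)) (fun i r => natRest_natCode _ r)
    (List.range n) [] k (by simpa using hk.le)
  rw [List.append_nil] at h2
  rw [nth, min_eq_left (by omega), h2, List.drop_eq_getElem_cons (by simpa using hk)]
  simp

theorem nth_desc (P : Program) {k : ℕ} (hk : k < 4 * P.code.length + 4) :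
    nth (desc P) k = num P k := nth_flatten _ _ _ hk

theorem stp_some (P : Program) (w : ℕ) (y : Word) (s : St) {ins : Instr P.numRegs}
    (h : P.code[s.1]? = some ins) : stp (desc P) w y s =
      exec w y (fld ins).1 (fld ins).2.1 (fld ins).2.2.1 (fld ins).2.2.2 s := by
  have hlt : s.1 < P.code.length := by
    by_contra hc
    rw [List.getElem?_eq_none (by omega)] at h
    cases h
  have hg : P.code.getD s.1 .halt = ins := by rw [List.getD_eq_getElem?_getD, h]; rfl
  have e : ∀ j, j < 4 → (4 * s.1 + (4 + j)) / 4 - 1 = s.1 ∧ (4 * s.1 + (4 + j)) % 4 = j :=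
    fun j hj => by omega
  have e1 : nth (desc P) 1 = P.code.length := by rw [nth_desc P (by omega)]; simp [num]
  rw [stp, e1, if_pos hlt, nth_desc P (by omega), nth_desc P (by omega), nth_desc P (by omega),
    nth_desc P (by omega)]
  congr 1
  · rw [num, if_neg (by omega), if_neg (by omega), (e 0 (by omega)).1, (e 0 (by omega)).2, hg]; rfl
  · rw [num, if_neg (by omega), if_neg (by omega), (e 1 (by omega)).1, (e 1 (by omega)).2, hg]; rfl
  · rw [num, if_neg (by omega), if_neg (by omega), (e 2 (by omega)).1, (e 2 (by omega)).2, hg]; rfl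
  · rw [num, if_neg (by omega), if_neg (by omega), (e 3 (by omega)).1, (e 3 (by omega)).2, hg]; rfl

theorem stp_none (P : Program) (w : ℕ) (y : Word) (s : St) (hs : s.2.1 = false)
    (h : P.code[s.1]? = none) : stp (desc P) w y s = (s.1, true, s.2.2) := by
  have e1 : nth (desc P) 1 = P.code.length := by rw [nth_desc P (by omega)]; simp [num]
  rw [stp, e1, if_neg (by simpa using h)]
  simp [exec, hs]

/-! ### The simulation -/

structure Sim {r : ℕ} (w : ℕ) (y : Word) (s : St) (c : Cfg r) : Prop where
  pc : s.1 = c.pc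
  hl : s.2.1 = c.halted
  enc : ∃ L, s.2.2 = encL L
  reg : ∀ i : Fin r, regv w y s.2.2 i = c.regs i
  mem : ∀ a, memv w y s.2.2 a = c.mem a
  rlt : ∀ i, c.regs i < 2 ^ w
  mlt : ∀ a, c.mem a < 2 ^ w

section sim
variable {r w : ℕ} {y : Word} {s : St} {c : Cfg r}

theorem Sim.alu (h : Sim w y s c) (hh : c.halted = false) {op : ℕ} (hop : op ≤ 13) (d : Fin r)
    (b b' v k : ℕ) (hv : alu w op b (regv w y s.2.2 b) (regv w y s.2.2 b')
      (memv w y s.2.2 (regv w y s.2.2 b)) % 2 ^ w = v) :
    Sim w y (exec w y op d b b' s) ⟨c.pc + 1, c.halted, writeReg c.regs d v, c.mem, k⟩ := by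
  obtain ⟨L, hL⟩ := h.enc
  have hlt : v < 2 ^ w := hv ▸ Nat.mod_lt _ (by positivity)
  rw [exec, if_neg (by rw [h.hl, hh]; simp), if_pos hop, hv]
  refine ⟨by simp [h.pc], hh.symm, ⟨(2 * d, v) :: L, by rw [encL_cons, hL]⟩, fun i => ?_,
    fun a => ?_, fun i => ?_, h.mlt⟩
  · have h1 := h.reg i
    simp only [regv, hL] at h1
    simp only [regv, hL, look_cons, writeReg, h1]
    by_cases e : i = d
    · simp [e]
    · rw [if_neg e, if_neg (fun e' => e (Fin.ext (by omega)))]
  · have h1 := h.mem a
    simp only [memv, hL] at h1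
    simp only [memv, hL, look_cons, h1]
    rw [if_neg (by omega)]
  · simp only [writeReg]
    split_ifs
    · exact hlt
    · exact h.rlt i

theorem Sim.store (h : Sim w y s c) (hh : c.halted = false) (a b : Fin r) (b' : ℕ) :
    Sim w y (exec w y 14 a b b' s)
      ⟨c.pc + 1, c.halted, c.regs, writeMem c.mem (c.regs b) (c.regs a), c.drawn⟩ := by
  obtain ⟨L, hL⟩ := h.enc
  rw [exec, if_neg (by rw [h.hl, hh]; simp), if_neg (by omega), if_pos rfl, h.reg, h.reg,
    Nat.mod_eq_of_lt (h.rlt a), Nat.mod_eq_of_lt (h.rlt b)]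
  refine ⟨by simp [h.pc], hh.symm, ⟨(2 * c.regs b + 1, c.regs a) :: L, by rw [encL_cons, hL]⟩,
    fun i => ?_, fun x => ?_, h.rlt, fun x => ?_⟩
  · have h1 := h.reg i
    simp only [regv, hL] at h1
    simp only [regv, hL, look_cons, h1]
    rw [if_neg (by omega)]
  · have h1 := h.mem x
    simp only [memv, hL] at h1
    simp only [memv, hL, look_cons, writeMem, h1]
    by_cases e : x = c.regs b
    · simp [e]
    · rw [if_neg e, if_neg (by omega)]
  · simp only [writeMem]
    split_ifs
    · exact h.rlt a
    · exact h.mlt x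

theorem Sim.ctl (h : Sim w y s c) (p : ℕ) (b : Bool) :
    Sim w y (p, b, s.2.2) ⟨p, b, c.regs, c.mem, c.drawn⟩ :=
  ⟨rfl, rfl, h.enc, h.reg, h.mem, h.rlt, h.mlt⟩

theorem Sim.jmp (h : Sim w y s c) (hh : c.halted = false) {op : ℕ} (h1 : 15 ≤ op) (h2 : op ≤ 18)
    (a b l : ℕ) (Q : Prop) [Decidable Q] (hQ : (op = 15 ∨ (op = 16 ∧ regv w y s.2.2 a = 0) ∨
      (op = 17 ∧ regv w y s.2.2 a = regv w y s.2.2 b) ∨
      (op = 18 ∧ regv w y s.2.2 a < regv w y s.2.2 b)) ↔ Q) :
    Sim w y (exec w y op a b l s)
      ⟨if Q then l else c.pc + 1, c.halted, c.regs, c.mem, c.drawn⟩ := by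
  rw [exec, if_neg (by rw [h.hl, hh]; simp), if_neg (by omega), if_neg (by omega), hh]
  by_cases q : Q
  · rw [if_pos (hQ.2 q), if_pos q]
    exact h.ctl _ _
  · rw [if_neg (fun e => q (hQ.1 e)), if_pos h2, if_neg q, h.pc]
    exact h.ctl _ _

end sim

theorem sim_step (P : Program) (w : ℕ) (y : Word) {s : St} {c : Cfg P.numRegs}
    (h : Sim w y s c) : Sim w y (stp (desc P) w y s) (step P w (fun _ => 0) c) := by
  cases hh : c.halted with
  | true =>
    have h1 : stp (desc P) w y s = s := by rw [stp, exec, if_pos (h.hl.trans hh)]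
    rw [h1, step, if_pos hh]
    exact h
  | false =>
    have lt : ∀ {v : ℕ} (i : Fin P.numRegs), v ≤ c.regs i → v % 2 ^ w = v := fun i hv =>
      Nat.mod_eq_of_lt (hv.trans_lt (h.rlt i))
    rw [step, if_neg (by simp [hh])]
    cases hc : P.code[c.pc]? with
    | none =>
      rw [stp_none P w y s (h.hl.trans hh) (h.pc ▸ hc), h.pc]
      exact h.ctl _ _
    | some ins =>
      rw [stp_some P w y s (h.pc ▸ hc)]
      cases ins with
      | const d v => exact h.alu hh (by simp [fld]) d _ _ _ _ (by simp [fld, alu])
      | copy d a => exact h.alu hh (by simp [fld]) d _ _ _ _ (by simpa [fld, alu, h.reg] using lt a le_rfl)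
      | add d a b => exact h.alu hh (by simp [fld]) d _ _ _ _ (by simp [fld, alu, h.reg])
      | sub d a b =>
        exact h.alu hh (by simp [fld]) d _ _ _ _ (by simpa [fld, alu, h.reg] using lt a (Nat.sub_le _ _))
      | mul d a b => exact h.alu hh (by simp [fld]) d _ _ _ _ (by simp [fld, alu, h.reg])
      | quot d a b =>
        exact h.alu hh (by simp [fld]) d _ _ _ _ (by simpa [fld, alu, h.reg] using lt a (Nat.div_le_self _ _))
      | rem d a b =>
        exact h.alu hh (by simp [fld]) d _ _ _ _ (by simpa [fld, alu, h.reg] using lt a (Nat.mod_le _ _))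
      | and d a b =>
        exact h.alu hh (by simp [fld]) d _ _ _ _ (by simpa [fld, alu, h.reg] using lt a Nat.and_le_left)
      | or d a b =>
        exact h.alu hh (by simp [fld]) d _ _ _ _ (by
          simpa [fld, alu, h.reg] using Nat.mod_eq_of_lt (Nat.or_lt_two_pow (h.rlt a) (h.rlt b)))
      | xor d a b =>
        exact h.alu hh (by simp [fld]) d _ _ _ _ (by
          simpa [fld, alu, h.reg] using Nat.mod_eq_of_lt (Nat.xor_lt_two_pow (h.rlt a) (h.rlt b)))
      | shl d a b =>
        refine h.alu hh (by simp [fld]) d _ _ _ _ ?_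
        by_cases e : c.regs b < w
        · simp [fld, alu, h.reg, e, e.le, Nat.shiftLeft_eq]
        · simp [fld, alu, h.reg, e]
      | shr d a b =>
        refine h.alu hh (by simp [fld]) d _ _ _ _ ?_
        by_cases e : c.regs b < w
        · simpa [fld, alu, h.reg, e, e.le, Nat.shiftRight_eq_div_pow] using lt a (Nat.div_le_self _ _)
        · simp [fld, alu, h.reg, e]
      | load d a =>
        exact h.alu hh (by simp [fld]) d _ _ _ _ (by
          simpa [fld, alu, h.reg, h.mem] using Nat.mod_eq_of_lt (h.mlt _))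
      | rand d => exact h.alu hh (by simp [fld]) d _ _ _ _ (by simp [fld, alu])
      | store a b => exact h.store hh a b _
      | jump l =>
        have := h.jmp hh (op := 15) (by omega) (by omega) 0 0 l True (by simp)
        rwa [if_pos trivial] at this
      | jumpIfZero a l => exact h.jmp hh (by simp [fld]) (by simp [fld]) _ _ l _ (by simp [fld, h.reg])
      | jumpIfEq a b l => exact h.jmp hh (by simp [fld]) (by simp [fld]) _ _ l _ (by simp [fld, h.reg])
      | jumpIfLt a b l => exact h.jmp hh (by simp [fld]) (by simp [fld]) _ _ l _ (by simp [fld, h.reg])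
      | halt =>
        have h1 : exec w y 19 0 0 0 s = (c.pc, true, s.2.2) := by
          simp [exec, h.hl, hh, h.pc]
        exact h1 ▸ h.ctl _ _

theorem sim_run (P : Program) (w : ℕ) (y : Word) (k : ℕ) :
    Sim w y ((stp (desc P) w y)^[k] (0, false, []))
      (run P w (fun _ => 0) (y.map fun b => if b then 1 else 0) k) := by
  have hp : 0 < 2 ^ w := by positivity
  induction k with
  | zero =>
    have h0 : ∀ key dflt, look key dflt [] = dflt := fun key dflt => look_enc key dflt []
    refine ⟨rfl, rfl, ⟨[], rfl⟩, fun i => ?_, fun a => ?_, fun i => ?_, fun a => Nat.mod_lt _ hp⟩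
    · simp [regv, h0, run, init]
    · simp only [memv, h0, run, init, Function.iterate_zero, id]
      congr 1
      by_cases e : a < y.length
      · rw [min_eq_left e.le, List.drop_eq_getElem_cons e, List.headI_cons]
        simp [e]
      · rw [min_eq_right (by omega)]
        simp [List.getElem?_eq_none (show y.length ≤ a by omega)]
    · simp only [run, init, Function.iterate_zero, id]
      split_ifs
      · exact Nat.mod_lt _ hp
      · exact hp
  | succ k ih =>
    rw [run, Function.iterate_succ_apply', Function.iterate_succ_apply']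
    exact sim_step P w y ih

theorem fin_iff (P : Program) {w : ℕ} {y : Word} {s : St} {c : Cfg P.numRegs}
    (h : Sim w y s c) : fin (desc P) w y s.2.2 = true ↔ c.output = [1] := by
  have e0 : nth (desc P) 0 = P.numRegs := by rw [nth_desc P (by omega)]; simp [num]
  have e : ∀ k, regk (desc P) w y s.2.2 k = c.reg k := fun k => by
    rw [regk, e0, Cfg.reg]
    split_ifs with hk
    · exact h.reg ⟨k, hk⟩
    · rfl
  rw [fin, decide_eq_true_iff, e, e, h.mem, Cfg.output]
  constructor
  · rintro ⟨h1, h2⟩
    simp [h1, h2]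
  · intro h1
    have h2 : c.reg 0 = 1 := by simpa using congrArg List.length h1
    rw [h2] at h1
    exact ⟨h2, by simpa using h1⟩

end Ram

open Ram in
theorem ramStmt : RamStmt := by
  refine ⟨fun p => fin p.1 p.2.1.val p.2.2.1
    ((stp p.1 p.2.1.val p.2.2.1)^[p.2.2.2.val] (0, false, [])).2.2,
    ptime_fin (by fun_prop) (by fun_prop) (by fun_prop) ptime_run.snd.snd,
    fun P => ⟨desc P, fun w y T τ hT hh => ?_⟩⟩
  have h1 : run P w (fun _ => 0) (y.map fun b => if b then 1 else 0) τ =
      run P w (fun _ => 0) (y.map fun b => if b then 1 else 0) T := by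
    obtain ⟨k, rfl⟩ := Nat.exists_eq_add_of_le' hT
    rw [run, Function.iterate_add_apply]
    exact Function.iterate_fixed (by rw [step]; exact if_pos hh) k
  rw [← h1]
  exact fin_iff P (sim_run P w y τ)

end Crest.Agent.R290
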