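import Crest.Agent.R290.Lin

/-!
Row 290: the row gadgets satisfy `Lines`, virtual equations project to row equations, and a good
row exists.
-/

set_option autoImplicit false

namespace Crest.Agent.R290

open Finset

namespace RowB

variable {R : RS} {Bd ρ : ℕ}

theorem red_red (h : R.Good Bd ρ) (i : ℕ) (A : ℤ × ℤ) : R.red i (R.red i A) = R.red i A := by
  simpa using h.red i A 0

/-- The reduction is compatible with translations. -/
theorem red_add (h : R.Good Bd ρ) {i : ℕ} {A A' : ℤ × ℤ} (e : R.red i A = R.red i A')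
    (d : ℤ × ℤ) : R.red i (A + d) = R.red i (A' + d) := by
  rw [← h.red i A, e, h.red]

theorem red_cancel (h : R.Good Bd ρ) {i : ℕ} {A A' d : ℤ × ℤ}
    (e : R.red i (A + d) = R.red i (A' + d)) : R.red i A = R.red i A' := by
  simpa using red_add h e (-d)

theorem lines (h : R.Good Bd ρ) : Lines R.b R.rd R.Gd := by
  constructor
  · rintro ⟨r, l, i, t⟩ hγ s u u' hu hu' e
    simp only [RS.rd, Sum.inl.injEq, Prod.mk.injEq] at e
    exact h.lines.inj (r, l) ⟨hγ.1, hγ.2.1⟩ s u u' hu hu' e.2.1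
  · rintro ⟨r, l, i, t⟩ hγ ⟨r', l', i', t'⟩ hγ' s s' hne u₁ u₂ v₁ v₂ h1 h2 h3 h4 e1 e2
    simp only [RS.rd, Sum.inl.injEq, Prod.mk.injEq] at e1 e2
    by_cases hc : ((r, l), s) = ((r', l'), s')
    · exfalso
      simp only [Prod.mk.injEq] at hc
      obtain ⟨⟨rfl, rfl⟩, rfl⟩ := hc
      obtain ⟨-, -, rfl, e⟩ := e1
      have e3 := red_cancel h e
      have a1 : R.red i t = t := hγ.2.2.2
      have a2 : R.red i t' = t' := hγ'.2.2.2
      rw [a1, a2] at e3
      exact hne (by rw [e3])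
    · exact h.lines.one (r, l) ⟨hγ.1, hγ.2.1⟩ (r', l') ⟨hγ'.1, hγ'.2.1⟩ s s' hc u₁ u₂ v₁ v₂
        h1 h2 h3 h4 e1.2.1 e2.2.1

theorem prj_pend (h : R.Good Bd ρ) (i : ℕ) (γ : VG) (u : ℕ) :
    R.prj i (Sum.inl (pend R.b R.vrd R.vout γ u)) =
      Sum.inl (pend R.b R.rd R.out (R.prG i γ) u) := by
  unfold pend
  split_ifs with hu
  · rfl
  · simp only [RS.prj, RS.vrd, RS.rd, RS.prG, h.red]

theorem prj_geq (h : R.Good Bd ρ) (i : ℕ) (p : VG × ℕ) :
    Finsupp.mapDomain (R.prj i) (geq R.b R.vrd R.vout p) =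
      geq R.b R.rd R.out (R.prG i p.1, p.2) := by
  unfold geq
  rw [Finsupp.mapDomain_add, Finsupp.mapDomain_add, mapDomain_sg, prj_pend h]
  dsimp only
  congr 1
  · congr 1
    split_ifs
    · exact Finsupp.mapDomain_zero
    · rw [mapDomain_sg]; rfl
  · split_ifs
    · exact Finsupp.mapDomain_zero
    · rw [mapDomain_sg]; rfl

/-- Few rows contain many variables of `S`. -/
theorem heavy (k C : ℕ) (S : Finset V0) (hS : S.card ≤ C * k) (hC : 1 ≤ C) :
    2 * ((range k).filter fun i => 2 * C < (S.filter fun v => rowOf v = some i).card).card ≤ k := by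
  classical
  set H := (range k).filter fun i => 2 * C < (S.filter fun v => rowOf v = some i).card with hH
  have h1 : ∑ i ∈ H, (S.filter fun v => rowOf v = some i).card ≤ S.card := by
    rw [← card_biUnion]
    · exact card_le_card (biUnion_subset.2 fun i _ => filter_subset _ _)
    · intro i _ j _ hij
      refine disjoint_left.2 fun v a b => hij ?_
      have := (mem_filter.1 a).2.symm.trans (mem_filter.1 b).2
      exact Option.some.inj this
  have h2 : H.card * (2 * C) ≤ ∑ i ∈ H, (S.filter fun v => rowOf v = some i).card := by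
    rw [← smul_eq_mul]
    exact card_nsmul_le_sum _ _ _ fun i hi => (mem_filter.1 hi).2.le
  have h3 : C * (2 * H.card) ≤ C * k := by nlinarith
  exact Nat.le_of_mul_le_mul_left h3 hC

end RowB

open RowB

theorem rowBasicStmt : RowBasicStmt := fun _ _ _ h => ⟨lines h, prj_geq h⟩

theorem goodRowStmt : GoodRowStmt := by
  classical
  intro R Bd ρ C m B ϱ N S h hC hm hN hB hS hk
  let box : Finset (ℤ × ℤ) := Icc (-(2 * ϱ : ℤ)) (2 * ϱ) ×ˢ Icc (-(2 * ϱ : ℤ)) (2 * ϱ)
  have hbox : box.card = (4 * ϱ + 1) ^ 2 := by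
    have : (Icc (-(2 * ϱ : ℤ)) (2 * ϱ)).card = 4 * ϱ + 1 := by
      rw [Int.card_Icc]; omega
    rw [card_product, this, sq]
  let X : Finset (ℤ × ℤ) :=
    (((N.support ×ˢ N.support) ×ˢ box).image fun q => adr q.1.1 - adr q.1.2 + q.2).filter
      fun x => x ≠ 0
  have hX : X.card ≤ m ^ 2 * (4 * ϱ + 1) ^ 2 := by
    refine (card_filter_le _ _).trans (card_image_le.trans ?_)
    rw [card_product, card_product, hbox, sq m]
    exact Nat.mul_le_mul_right _ (Nat.mul_le_mul hm hm)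
  let Bad : Finset ℕ := X.biUnion fun x => (range R.k).filter fun i => R.red i x = R.red i 0
  have hBad : Bad.card ≤ m ^ 2 * (4 * ϱ + 1) ^ 2 * ρ := by
    refine (card_biUnion_le_card_mul _ _ ρ fun x hx => ?_).trans (Nat.mul_le_mul_right _ hX)
    obtain ⟨hx1, hx0⟩ := mem_filter.1 hx
    obtain ⟨⟨⟨v, w⟩, d⟩, hq, rfl⟩ := mem_image.1 hx1
    simp only [mem_product, box, mem_Icc, Finsupp.mem_support_iff] at hq
    obtain ⟨⟨hv, hw⟩, hd1, hd2⟩ := hq
    have a1 := hN v hv
    have a2 := hN w hw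
    have a3 : (B : ℤ) + 2 + 2 * ϱ ≤ Bd := by exact_mod_cast hB
    refine h.crt _ hx0 ?_ ?_
    · simp only [Prod.fst_add, Prod.fst_sub]
      rw [abs_le]; constructor <;> omega
    · simp only [Prod.snd_add, Prod.snd_sub]
      rw [abs_le]; constructor <;> omega
  have hH := heavy R.k C S hS hC
  set H := (range R.k).filter fun i => 2 * C < (S.filter fun v => rowOf v = some i).card with hHd
  have hlt : (H ∪ Bad).card < (range R.k).card := by
    have := card_union_le H Bad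
    rw [card_range]
    have e : 2 * (m ^ 2 * (4 * ϱ + 1) ^ 2) * ρ = 2 * (m ^ 2 * (4 * ϱ + 1) ^ 2 * ρ) := by ring
    omega
  obtain ⟨i, hi, hni⟩ := exists_mem_notMem_of_card_lt_card hlt
  rw [mem_union, not_or] at hni
  refine ⟨i, mem_range.1 hi, ?_, fun A A' hA hA' e => ?_⟩
  · by_contra hc
    exact hni.1 (mem_filter.2 ⟨hi, not_le.1 hc⟩)
  · by_contra hne
    obtain ⟨v, hv, hv1, hv2⟩ := hA
    obtain ⟨w, hw, hw1, hw2⟩ := hA'
    refine hni.2 (mem_biUnion.2 ⟨A - A', mem_filter.2 ⟨mem_image.2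
      ⟨((v, w), (A - adr v) - (A' - adr w)), ?_, by dsimp only; abel⟩, sub_ne_zero.2 hne⟩,
      mem_filter.2 ⟨hi, ?_⟩⟩)
    · simp only [mem_product, box, mem_Icc, Finsupp.mem_support_iff, Prod.fst_sub, Prod.snd_sub]
      rw [abs_le] at hv1 hv2 hw1 hw2
      refine ⟨⟨hv, hw⟩, ⟨?_, ?_⟩, ?_, ?_⟩ <;> omega
    · simpa [sub_eq_add_neg] using red_add h e (-A')

end Crest.Agent.R290
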