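import Crest.Agent.R290.DefsL

/-!
Row 290: Spoiler's side for the row system and for grids (`rowSpStmt_of`, `gridSStmt_of`).
-/

set_option autoImplicit false

namespace Crest.Agent.R290

open Finset

namespace RowSp

section general

variable {V : Type} {E : Set (Fm V)} {K : ℕ}

lemma add_self (f : Fm V) : f + f = 0 := by
  ext v; simp only [Finsupp.add_apply, Finsupp.zero_apply]; exact CharTwo.add_self_eq_zero _

lemma cov_of {S : Finset V} {f : Fm V} (h : f.support ⊆ S) : Cov ∅ S f :=
  fun _ hv => Or.inr (h (Finsupp.mem_support_iff.2 hv))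

lemma dv_add {f g : Fm V} (S : Finset V) (hf : Dv E ∅ K f) (hg : Dv E ∅ K g) (h1 : f.support ⊆ S)
    (h2 : g.support ⊆ S) (hS : S.card ≤ K) : Dv E ∅ K (f + g) :=
  Dv.add S hf hg (cov_of h1) (cov_of h2) hS

lemma card_sg (v : V) : (sg v).support.card ≤ 1 :=
  (card_le_card Finsupp.support_single_subset).trans (card_singleton v).le

lemma card_ite (p : Prop) [Decidable p] {f g : Fm V} (hf : f.support.card ≤ 1)
    (hg : g.support.card ≤ 1) : (if p then f else g).support.card ≤ 1 := by
  split_ifs <;> assumption

lemma card_zero : (0 : Fm V).support.card ≤ 1 := by simp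

lemma three {x y z : Fm V} (hK : 3 ≤ K) (hx : x.support.card ≤ 1) (hy : y.support.card ≤ 1)
    (hz : z.support.card ≤ 1) (h : Dv E ∅ K (x + y + z)) (h1 : Dv E ∅ K x) (h2 : Dv E ∅ K y) :
    Dv E ∅ K z := by
  classical
  have hS : (x.support ∪ y.support ∪ z.support).card ≤ K :=
    (card_union_le _ _).trans ((Nat.add_le_add_right (card_union_le _ _) _).trans (by omega))
  have hxy : (x + y).support ⊆ x.support ∪ y.support ∪ z.support :=
    Finsupp.support_add.trans subset_union_left
  have h3 := dv_add _ h1 h2 (subset_union_left.trans subset_union_left)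
    (subset_union_right.trans subset_union_left) hS
  have h4 := dv_add _ h3 h hxy
    (Finsupp.support_add.trans (union_subset hxy subset_union_right)) hS
  rwa [← add_assoc, add_self, zero_add] at h4

lemma sub_sg {V' : Type} (φ : V' → Fm V) (v : V') : sub φ (sg v) = φ v := by
  simp [sub, sg]

end general

lemma trp_lt {b u : ℕ} (h : u < b * b) : trp b u < b * b := by
  have hb : 0 < b := Nat.pos_of_ne_zero (by rintro rfl; simp at h)
  have h1 := Nat.mod_lt u hb
  have h2 : u / b < b := Nat.div_lt_of_lt_mul h
  unfold trp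
  nlinarith

lemma pidx_lt {b u : ℕ} (h : u ≤ 4 * (b * b)) (h' : u ≠ 2 * (b * b)) : pidx b u < b * b := by
  unfold pidx
  split_ifs
  · assumption
  · exact trp_lt (by omega)
  · omega
  · exact trp_lt (by omega)

/-- The output of a gadget is derivable from its inputs. -/
lemma gadget {Γ X : Type} {b K : ℕ} {rd : Γ → Bool → ℕ → X} {out : Γ → X} {γ : Γ}
    {E : Set (Fm (X ⊕ Γ × ℕ))} (hK : 3 ≤ K)
    (hE : ∀ u ≤ 4 * (b * b), Dv E ∅ K (geq b rd out (γ, u)))
    (hr : ∀ s u, u < b * b → Dv E ∅ K (sg (Sum.inl (rd γ s u)))) :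
    Dv E ∅ K (sg (Sum.inl (out γ))) := by
  have hp : ∀ u ≤ 4 * (b * b), u ≠ 2 * (b * b) → Dv E ∅ K (sg (Sum.inl (pend b rd out γ u))) := by
    intro u hu hu'
    rw [pend, if_neg hu']
    exact hr _ _ (pidx_lt hu hu')
  have hl : ∀ u ≤ 2 * (b * b), Dv E ∅ K (if u = 0 then 0 else sg (Sum.inr (γ, u))) := by
    intro u hu
    induction u with
    | zero => exact Dv.zero
    | succ u ih =>
      have := three hK (card_ite _ card_zero (card_sg _)) (card_sg _)
        (card_ite _ card_zero (card_sg _)) (hE u (by omega)) (ih (by omega))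
        (hp u (by omega) (by omega))
      rw [if_neg (by omega)] at this ⊢
      exact this
  have hr' : ∀ d u, u + d = 4 * (b * b) → 2 * (b * b) ≤ u →
      Dv E ∅ K (if u = 4 * (b * b) then 0 else sg (Sum.inr (γ, u + 1))) := by
    intro d
    induction d with
    | zero => intro u hu _; rw [if_pos (by omega)]; exact Dv.zero
    | succ d ih =>
      intro u hu hu'
      have h1 := hE (u + 1) (by omega)
      rw [geq, add_assoc, add_comm] at h1
      have := three hK (card_sg _) (card_ite _ card_zero (card_sg _))
        (card_ite _ card_zero (card_sg _)) h1 (hp (u + 1) (by omega) (by omega))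
        (ih (u + 1) (by omega) (by omega))
      rw [if_neg (by omega)] at this ⊢
      exact this
  have h1 := hE (2 * (b * b)) (by omega)
  rw [geq, add_right_comm] at h1
  have := three hK (card_ite _ card_zero (card_sg _)) (card_ite _ card_zero (card_sg _))
    (card_sg _) h1 (hl _ le_rfl) (hr' (2 * (b * b)) _ (by omega) le_rfl)
  rwa [pend, if_pos rfl] at this

/-- The virtual system. -/
def VE (R : RS) : Set (Fm VV) :=
  {f | ∃ γ ∈ R.VGd, ∃ u ≤ 4 * (R.b * R.b), f = geq R.b R.vrd R.vout (γ, u)} ∪
    {f | ∃ σ l A, R.ini σ A ∧ l < R.Lm ∧ f = sg (Sum.inl (σ, l, A))}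

lemma virt {R : RS} {Bd ρ : ℕ} (hG : R.Good Bd ρ) {σ : ℕ} {A : ℤ × ℤ} (h : R.Tr σ A) :
    ∀ l < R.Lm, Dv (VE R) ∅ 3 (sg (Sum.inl (σ, l, A))) := by
  induction h with
  | ini h => exact fun l hl => Dv.base (Or.inr ⟨_, l, _, h, hl, rfl⟩)
  | @rule r A hr _ _ ih1 ih2 =>
    intro l hl
    refine gadget (b := R.b) (rd := R.vrd) (out := R.vout) (γ := (r, l, A)) le_rfl
      (fun u hu => Dv.base (Or.inl ⟨_, ⟨hr, hl⟩, u, hu, rfl⟩)) fun s u hu => ?_
    cases s
    · exact ih1 _ (hG.lt r l false u hr hl hu)
    · exact ih2 _ (hG.lt r l true u hr hl hu)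

/-- The sum of the projections of a virtual variable. -/
noncomputable def PP (R : RS) (v : VV) : Fm V0 := ∑ i ∈ range R.k, sg (R.prj i v)

lemma sub_PP (R : RS) (f : Fm VV) :
    sub (PP R) f = ∑ i ∈ range R.k, Finsupp.mapDomain (R.prj i) f := by
  induction f using Finsupp.induction_linear with
  | zero => simp
  | add f g hf hg => simp only [map_add, hf, hg, Finsupp.mapDomain_add, sum_add_distrib]
  | single v c => simp [sub, PP, sg, smul_sum]

open Classical in
lemma supp_PP (R : RS) (v : VV) : (PP R v).support ⊆ (range R.k).image fun i => R.prj i v := by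
  refine Finsupp.support_finsetSum.trans (biUnion_subset.2 fun i hi => ?_)
  exact Finsupp.support_single_subset.trans (singleton_subset_iff.2 (mem_image_of_mem _ hi))

lemma card_geq {Γ X : Type} (b : ℕ) (rd : Γ → Bool → ℕ → X) (out : Γ → X) (p : Γ × ℕ) :
    (geq b rd out p).support.card ≤ 3 := by
  classical
  refine (card_le_card Finsupp.support_add).trans ((card_union_le _ _).trans ?_)
  exact Nat.add_le_add ((card_le_card Finsupp.support_add).trans ((card_union_le _ _).trans
    (Nat.add_le_add (card_ite _ card_zero (card_sg _)) (card_sg _))))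
    (card_ite _ card_zero (card_sg _))

lemma wide_some (R : RS) (σ l : ℕ) (A : ℤ × ℤ) :
    ∑ i ∈ range (R.k + 1), R.pd (some (σ, A), l) i = PP R (Sum.inl (σ, l, A)) := by
  rw [sum_range_succ, RS.pd, if_neg (lt_irrefl _), add_zero]
  exact sum_congr rfl fun i hi => by rw [RS.pd, if_pos (mem_range.1 hi)]; rfl

lemma wide_none (R : RS) (l : ℕ) :
    ∑ i ∈ range (R.k + 1), R.pd (none, l) i =
      PP R (Sum.inl (0, l, (0, 0))) + sg (Sum.inl (Sum.inr l)) := by
  rw [sum_range_succ, RS.pd, if_neg (lt_irrefl _)]
  congr 1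
  exact sum_congr rfl fun i hi => by rw [RS.pd, if_pos (mem_range.1 hi)]; rfl

/-! ### Grids -/

section grid

variable {V Wd : Type} (pd : Wd → ℕ → Fm V) (q : ℕ) (w : Wd)

noncomputable def hz (i c : ℕ) : Fm (V ⊕ Wd × Bool × ℕ × ℕ) :=
  if c = 0 then Finsupp.mapDomain Sum.inl (pd w i)
  else if c < q then sg (Sum.inr (w, false, i, c)) else 0

noncomputable def vt (i c : ℕ) : Fm (V ⊕ Wd × Bool × ℕ × ℕ) :=
  if i = 0 then 0 else if i < q then sg (Sum.inr (w, true, i, c)) else 0

lemma gcell_eq {i c : ℕ} (hi : i < q) (hc : c < q) :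
    gcell pd q w i c = hz pd q w i c + hz pd q w i (c + 1) + vt q w i c + vt q w (i + 1) c := by
  simp only [gcell, hz, vt, hi, hc, if_true, Nat.succ_ne_zero, if_false]

variable {pd} in
lemma card_hz (h : ∀ w i, (pd w i).support.card ≤ 1) (i c : ℕ) :
    (hz pd q w i c).support.card ≤ 1 := by
  classical
  refine card_ite _ ?_ (card_ite _ (card_sg _) card_zero)
  exact (card_le_card Finsupp.mapDomain_support).trans (card_image_le.trans (h w i))

lemma card_vt (i c : ℕ) : (vt (V := V) q w i c).support.card ≤ 1 :=
  card_ite _ card_zero (card_ite _ (card_sg _) card_zero)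

variable {pd q w} {E : Set (Fm (V ⊕ Wd × Bool × ℕ × ℕ))} {K : ℕ}

lemma column (h : ∀ w i, (pd w i).support.card ≤ 1) (hK : q + 4 ≤ K) {c : ℕ} (hc : c < q)
    (hE : ∀ i < q, Dv E ∅ K (gcell pd q w i c))
    (h0 : Dv E ∅ K (∑ i ∈ range q, hz pd q w i (c + 1))) :
    Dv E ∅ K (∑ i ∈ range q, hz pd q w i c) := by
  classical
  have key : ∀ r ≤ q, Dv E ∅ K
      (∑ i ∈ range q, (if i < r then hz pd q w i c else hz pd q w i (c + 1)) + vt q w r c) := by
    intro r hr
    induction r with
    | zero => simpa [vt] using h0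
    | succ r ih =>
      set t : ℕ → Fm (V ⊕ Wd × Bool × ℕ × ℕ) :=
        fun i => if i < r then hz pd q w i c else hz pd q w i (c + 1) with ht
      let S := ((range q).biUnion fun i => (t i).support) ∪ (vt q w r c).support ∪
        (hz pd q w r c).support ∪ (vt q w (r + 1) c).support
      have hS : S.card ≤ K := by
        have h1 : ((range q).biUnion fun i => (t i).support).card ≤ q := by
          have := card_biUnion_le_card_mul (range q) (fun i => (t i).support) 1
            fun i _ => card_ite _ (card_hz q w h _ _) (card_hz q w h _ _)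
          simpa using this
        have h2 := card_vt (V := V) q w r c
        have h3 := card_vt (V := V) q w (r + 1) c
        have h4 := card_hz q w h r c
        refine (card_union_le _ _).trans ((Nat.add_le_add_right (card_union_le _ _) _).trans
          ((Nat.add_le_add_right (Nat.add_le_add_right (card_union_le _ _) _) _).trans ?_))
        omega
      have a1 : ((range q).biUnion fun i => (t i).support) ⊆ S :=
        (subset_union_left.trans subset_union_left).trans subset_union_left
      have a2 : (vt q w r c).support ⊆ S :=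
        (subset_union_right.trans subset_union_left).trans subset_union_left
      have a3 : (hz pd q w r c).support ⊆ S := subset_union_right.trans subset_union_left
      have a4 : (vt q w (r + 1) c).support ⊆ S := subset_union_right
      have a5 : (hz pd q w r (c + 1)).support ⊆ S := by
        refine Subset.trans ?_ a1
        have := subset_biUnion_of_mem (fun i => (t i).support) (mem_range.2 (show r < q from hr))
        simpa only [ht, lt_irrefl, if_false] using this
      have := dv_add S (ih (by omega)) (hE r hr)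
        (Finsupp.support_add.trans (union_subset (Finsupp.support_finsetSum.trans a1) a2))
        (by
          rw [gcell_eq pd q w hr hc]
          exact Finsupp.support_add.trans (union_subset (Finsupp.support_add.trans
            (union_subset (Finsupp.support_add.trans (union_subset a3 a5)) a2)) a4)) hS
      convert this using 1
      have e : ∑ i ∈ range q, (if i < r + 1 then hz pd q w i c else hz pd q w i (c + 1)) =
          ∑ i ∈ range q, t i + (hz pd q w r c + hz pd q w r (c + 1)) := by
        have e1 : hz pd q w r c + hz pd q w r (c + 1) =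
            ∑ i ∈ range q, if i = r then hz pd q w r c + hz pd q w r (c + 1) else 0 := by
          rw [sum_ite_eq', if_pos (mem_range.2 (show r < q from hr))]
        rw [e1, ← sum_add_distrib]
        refine sum_congr rfl fun i _ => ?_
        rcases lt_trichotomy i r with h1 | rfl | h1
        · simp only [ht, if_pos h1, if_pos (Nat.lt_succ_of_lt h1), if_neg h1.ne, add_zero]
        · simp only [ht, lt_irrefl, if_false, Nat.lt_succ_self, if_true]
          rw [add_comm (hz pd q w i c), ← add_assoc, add_self, zero_add]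
        · simp only [ht, if_neg (show ¬ i < r by omega), if_neg (show ¬ i < r + 1 by omega),
            if_neg h1.ne', add_zero]
      rw [e, gcell_eq pd q w hr hc]
      rw [← add_zero (_ + vt q w (r + 1) c), ← add_self (vt (V := V) q w r c)]
      abel
  have := key q le_rfl
  rw [vt, if_neg (by omega), if_neg (lt_irrefl _), add_zero] at this
  convert this using 1
  exact sum_congr rfl fun i hi => by rw [if_pos (mem_range.1 hi)]

lemma grid (h : ∀ w i, (pd w i).support.card ≤ 1) (hK : q + 4 ≤ K)
    (hE : ∀ i < q, ∀ c < q, Dv E ∅ K (gcell pd q w i c)) :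
    Dv E ∅ K (∑ i ∈ range q, Finsupp.mapDomain Sum.inl (pd w i)) := by
  have key : ∀ d c, c + d = q → Dv E ∅ K (∑ i ∈ range q, hz pd q w i c) := by
    intro d
    induction d with
    | zero =>
      intro c hc
      rw [sum_eq_zero fun i hi => ?_]
      · exact Dv.zero
      · have := mem_range.1 hi
        rw [hz, if_neg (by omega), if_neg (by omega)]
    | succ d ih =>
      intro c hc
      exact column h hK (by omega) (fun i hi => hE i hi c (by omega)) (ih (c + 1) (by omega))
  simpa [hz] using key q 0 (by omega)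

end grid

end RowSp

open RowSp in
theorem rowSpStmt_of (hL : LinBasicStmt) (hB : RowBasicStmt) : RowSpStmt := by
  classical
  intro R Bd ρ hG hk hgoal l hl
  have h1 := hL.2.2.1 V0 VV R.E0 (VE R) ∅ ∅ 3 R.k (PP R)
    (fun v _ => ⟨_, card_image_le.trans (card_range _).le, cov_of (supp_PP R v)⟩)
    (fun v hv => hv.elim) ?_ _ (virt hG hgoal l hl)
  · rw [sub_sg, mul_comm] at h1
    have h2 : Dv R.E0 ∅ (3 * R.k) (PP R (Sum.inl (0, l, (0, 0))) + sg (Sum.inl (Sum.inr l))) :=
      Dv.base (Or.inr ⟨(none, l), hl, (wide_none R l).symm⟩)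
    have := dv_add ((PP R (Sum.inl (0, l, (0, 0)))).support ∪ (sg (Sum.inl (Sum.inr l))).support)
      h1 h2 subset_union_left Finsupp.support_add (by
        have a1 := (card_le_card (supp_PP R (Sum.inl (0, l, (0, 0))))).trans
          (card_image_le.trans (card_range _).le)
        have a2 := card_sg (V := V0) (Sum.inl (Sum.inr l))
        exact (card_union_le _ _).trans (by omega))
    rwa [← add_assoc, add_self, zero_add] at this
  · rintro e (⟨γ, hγ, u, hu, rfl⟩ | ⟨σ, l, A, h, hl, rfl⟩)
    · rw [sub_PP]
      refine hL.2.1 _ _ _ _ _ _ _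
        ((range R.k).biUnion fun i => (geq R.b R.vrd R.vout (γ, u)).support.image (R.prj i)) ?_
        fun i hi => ⟨?_, cov_of (Finsupp.mapDomain_support.trans
          (subset_biUnion_of_mem
            (fun i => (geq R.b R.vrd R.vout (γ, u)).support.image (R.prj i)) hi))⟩
      · have := card_biUnion_le_card_mul (range R.k)
          (fun i => (geq R.b R.vrd R.vout (γ, u)).support.image (R.prj i)) 3
          fun i _ => card_image_le.trans (card_geq _ _ _ _)
        simpa using this
      · rw [(hB R Bd ρ hG).2]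
        refine Dv.base (Or.inl ⟨R.prG i γ, ⟨hγ.1, hγ.2, mem_range.1 hi, ?_⟩, u, hu, rfl⟩)
        simpa [RS.prG] using hG.red i γ.2.2 0
    · rw [sub_sg]
      exact Dv.base (Or.inr ⟨(some (σ, A), l), ⟨h, hl⟩, (wide_some R σ l A).symm⟩)

open RowSp in
theorem gridSStmt_of (hL : LinBasicStmt) : GridSStmt := by
  intro V Wd En ok pd q w f hpd hw hf
  have e : ∀ g : Fm V, sub (fun v => (sg (Sum.inl v) : Fm (V ⊕ Wd × Bool × ℕ × ℕ))) g =
      Finsupp.mapDomain Sum.inl g := fun g => by
    induction g using Finsupp.induction_linear with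
    | zero => simp
    | add f g hf hg => simp only [map_add, hf, hg, Finsupp.mapDomain_add]
    | single v c => simp [sub, sg]
  have h1 := hL.2.2.1 _ V (gridE En ok pd q) (wideE En ok pd q) ∅ ∅ w 1 (fun v => sg (Sum.inl v))
    (fun v _ => ⟨_, card_sg _, cov_of Subset.rfl⟩) (fun v hv => hv.elim) ?_ f hf
  · rwa [e, one_mul] at h1
  · rw [one_mul]
    rintro g (hg | ⟨w0, hw0, rfl⟩)
    · rw [e]; exact Dv.base (Or.inl ⟨g, hg, rfl⟩)
    · rw [e, Finsupp.mapDomain_finsetSum]
      exact grid hpd hw fun i hi c hc => Dv.base (Or.inr ⟨w0, i, c, hw0, hi, hc, rfl⟩)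

end Crest.Agent.R290
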