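import Crest.Agent.R290.Defs

/-!
Row 290: stack machines as Horn systems (`smHornStmt`).
-/

set_option autoImplicit false

namespace Crest.Agent.R290

open Crest.WLRefine Crest.Agent.PT

namespace SMH

/-- The sorts. -/
inductive St
  | goal | acc | inn | bd
  | H (q : ℕ) | C (q : ℕ) | S (r a : ℕ)

/-- The number of a sort. -/
def enc : St → ℕ
  | .goal => 0
  | .acc => 1
  | .inn => 2
  | .bd => 3
  | .H q => 4 + 3 * q
  | .C q => 5 + 3 * q
  | .S r a => 6 + 3 * Nat.pair r a

lemma enc_inj {a b : St} (h : enc a = enc b) : a = b := by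
  cases a <;> cases b <;> simp only [enc] at h <;> first | rfl | omega | skip
  · congr 1; omega
  · congr 1; omega
  · rename_i r a r' a'
    have : Nat.pair r a = Nat.pair r' a' := by omega
    obtain ⟨rfl, rfl⟩ := Nat.pair_eq_pair.1 this
    rfl

/-- The rules. -/
inductive Rl (N : SM) : St → ℕ → St → ℕ → St → Prop
  | hc (q : ℕ) : Rl N (.H q) 4 (.H q) 4 (.C q)
  | cc (q : ℕ) : Rl N (.C q) 3 .inn 3 (.C q)
  | h0 : Rl N (.H 0) 4 (.H 0) 4 .acc
  | aa (q : ℕ) : Rl N .acc 7 (.H q) 4 .acc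
  | ag : Rl N .acc 4 .acc 4 .goal
  | nx (q a : ℕ) : 2 ≤ q → Rl N (.H q) 1 (.S (N.stk q) a) 1 (.H (N.nx q a))
  | ci (q : ℕ) : 2 ≤ q → Rl N (.C q) 1 (.C q) 1 .inn
  | cb (q : ℕ) : 2 ≤ q → Rl N (.C q) 0 .bd 0 .bd
  | cz (q r : ℕ) : 2 ≤ q → Rl N (.C q) 0 .bd 0 (.S r 0)
  | keep (q r a : ℕ) : 2 ≤ q → (r ≠ N.stk q ∨ N.op q = 0) → Rl N (.C q) 1 (.S r a) 1 (.S r a)
  | pop (q a : ℕ) : 2 ≤ q → N.op q = 1 → Rl N (.C q) 1 (.S (N.stk q) a) 2 (.S (N.stk q) a)
  | popz (q : ℕ) : 2 ≤ q → N.op q = 1 → Rl N (.C q) 1 .bd 1 (.S (N.stk q) 0)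
  | push0 (q : ℕ) : 2 ≤ q → 2 ≤ N.op q → Rl N (.H q) 1 (.H q) 1 (.S (N.stk q) (N.op q - 1))
  | push (q a : ℕ) : 2 ≤ q → 2 ≤ N.op q → Rl N (.C q) 0 (.S (N.stk q) a) 0 (.S (N.stk q) a)

/-- The initial facts. -/
inductive Ini (N : SM) : St → ℕ → Prop
  | h (κ : ℕ) : 3 ≤ κ → Ini N (.H N.start) κ
  | inn (κ : ℕ) : κ % 3 < 2 → Ini N .inn κ
  | bd (κ : ℕ) : κ % 3 = 2 → Ini N .bd κ
  | s0 (κ : ℕ) : κ % 3 = 0 → Ini N (.S N.k0 (N.sym false)) κ
  | s1 (κ : ℕ) : κ % 3 = 1 → Ini N (.S N.k0 (N.sym true)) κ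
  | s2 (κ : ℕ) : κ % 3 = 2 → Ini N (.S N.k0 0) κ
  | so (r κ : ℕ) : r ≠ N.k0 → Ini N (.S r 0) κ

def sz (N : SM) : ℕ := 7 + 3 * (N.nS + Nat.pair N.nK N.nA)

def rule (N : SM) (a da b db c : ℕ) : Prop :=
  ∃ a' b' c', a = enc a' ∧ b = enc b' ∧ c = enc c' ∧ Rl N a' da b' db c'

def init (N : SM) (σ κ : ℕ) : Prop := ∃ σ', σ = enc σ' ∧ Ini N σ' κ

/-- The sorts that are used. -/
def Ok (N : SM) : St → Prop
  | .H q => q < N.nS
  | .C q => q < N.nS
  | .S r a => r < N.nK ∧ a < N.nA
  | _ => True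

lemma enc_lt {N : SM} {a : St} (h : Ok N a) : enc a < sz N := by
  cases a <;> simp only [enc, sz, Ok] at h ⊢ <;> try omega
  rename_i r a
  have h1 := Nat.pair_lt_pair_left a h.1
  have h2 := Nat.pair_lt_pair_right N.nK h.2
  omega

/-! ### Runs -/

variable {N : SM} {y : Word}

lemma run_succ (t : ℕ) : N.run y (t + 1) = N.step (N.run y t) :=
  Function.iterate_succ_apply' _ _ _

lemma run_halt {t : ℕ} (h : (N.run y t).1 ≤ 1) (u : ℕ) : N.run y (t + u) = N.run y t := by
  induction u with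
  | zero => rfl
  | succ u ih => rw [← add_assoc, run_succ, ih, SM.step, if_pos h]

lemma run_fst {t : ℕ} (h : 2 ≤ (N.run y t).1) :
    (N.run y (t + 1)).1 =
      N.nx (N.run y t).1 (((N.run y t).2 (N.stk (N.run y t).1)).getD 0 0) := by
  rw [run_succ, SM.step, if_neg (by omega)]
  cases (N.run y t).2 (N.stk (N.run y t).1) <;> rfl

lemma run_keep {t r : ℕ} (h : 2 ≤ (N.run y t).1)
    (hr : r ≠ N.stk (N.run y t).1 ∨ N.op (N.run y t).1 = 0) :
    (N.run y (t + 1)).2 r = (N.run y t).2 r := by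
  rw [run_succ, SM.step, if_neg (by omega)]
  by_cases e : r = N.stk (N.run y t).1
  · have h0 := hr.resolve_left (not_not.2 e)
    subst e
    simp only [Function.update_self, if_pos h0]
  · simp only [Function.update_of_ne e]

lemma run_pop {t : ℕ} (h : 2 ≤ (N.run y t).1) (ho : N.op (N.run y t).1 = 1) :
    (N.run y (t + 1)).2 (N.stk (N.run y t).1) = ((N.run y t).2 (N.stk (N.run y t).1)).tail := by
  rw [run_succ, SM.step, if_neg (by omega)]
  simp only [Function.update_self]
  rw [if_neg (by omega), if_pos ho]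

lemma run_push {t : ℕ} (h : 2 ≤ (N.run y t).1) (ho : 2 ≤ N.op (N.run y t).1) :
    (N.run y (t + 1)).2 (N.stk (N.run y t).1) =
      (N.op (N.run y t).1 - 1) :: (N.run y t).2 (N.stk (N.run y t).1) := by
  rw [run_succ, SM.step, if_neg (by omega)]
  simp only [Function.update_self]
  rw [if_neg (by omega), if_neg (by omega)]

lemma run_zero_k0 : (N.run y 0).2 N.k0 = y.map N.sym := by
  simp [SM.run]

lemma run_zero_ne {r : ℕ} (h : r ≠ N.k0) : (N.run y 0).2 r = [] := by
  simp [SM.run, Function.update_of_ne h]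

lemma run_len (t r : ℕ) : ((N.run y t).2 r).length ≤ y.length + t := by
  induction t with
  | zero =>
    by_cases e : r = N.k0
    · subst e; simp [run_zero_k0]
    · simp [run_zero_ne e]
  | succ t ih =>
    by_cases h : (N.run y t).1 ≤ 1
    · rw [run_halt h]; omega
    · by_cases hr : r ≠ N.stk (N.run y t).1 ∨ N.op (N.run y t).1 = 0
      · rw [run_keep (by omega) hr]; omega
      · rw [not_or, not_not] at hr
        obtain ⟨rfl, h0⟩ := hr
        by_cases h1 : N.op (N.run y t).1 = 1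
        · rw [run_pop (by omega) h1, List.length_tail]; omega
        · rw [run_push (by omega) (by omega), List.length_cons]; omega

lemma getD_lt {l : List ℕ} {n : ℕ} (hn : 0 < n) (h : ∀ a ∈ l, a < n) (j : ℕ) : l.getD j 0 < n := by
  by_cases hj : j < l.length
  · rw [List.getD_eq_getElem _ _ hj]; exact h _ (List.getElem_mem hj)
  · rw [List.getD_eq_default _ _ (by omega)]; exact hn

lemma run_ok (hN : N.WF) (t : ℕ) :
    (N.run y t).1 < N.nS ∧ ∀ r, ∀ a ∈ (N.run y t).2 r, a < N.nA := by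
  have hA : 0 < N.nA := by have := hN.sym true; omega
  induction t with
  | zero =>
    refine ⟨hN.start, fun r a ha => ?_⟩
    by_cases e : r = N.k0
    · subst e
      rw [run_zero_k0] at ha
      obtain ⟨b, -, rfl⟩ := List.mem_map.1 ha
      exact (hN.sym b).2
    · simp [run_zero_ne e] at ha
  | succ t ih =>
    by_cases h : (N.run y t).1 ≤ 1
    · rw [run_halt h]; exact ih
    · refine ⟨?_, fun r a ha => ?_⟩
      · rw [run_fst (by omega)]
        exact hN.nx _ ih.1 _ (getD_lt hA (ih.2 _) _)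
      · by_cases hr : r ≠ N.stk (N.run y t).1 ∨ N.op (N.run y t).1 = 0
        · rw [run_keep (by omega) hr] at ha; exact ih.2 _ _ ha
        · rw [not_or, not_not] at hr
          obtain ⟨rfl, h0⟩ := hr
          by_cases h1 : N.op (N.run y t).1 = 1
          · rw [run_pop (by omega) h1] at ha; exact ih.2 _ _ (List.mem_of_mem_tail ha)
          · rw [run_push (by omega) (by omega)] at ha
            rcases List.mem_cons.1 ha with rfl | ha
            · have := hN.op _ ih.1; omega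
            · exact ih.2 _ _ ha

lemma getD_tail (l : List ℕ) (j : ℕ) : l.tail.getD j 0 = l.getD (j + 1) 0 := by
  cases l <;> simp

/-! ### Soundness -/

/-- The machine has not halted before time `t`. -/
def Live (N : SM) (y : Word) (t : ℕ) : Prop := ∀ u < t, 2 ≤ (N.run y u).1

lemma Live.succ {t : ℕ} (h : Live N y t) (h2 : 2 ≤ (N.run y t).1) : Live N y (t + 1) := by
  intro u hu
  rcases Nat.lt_succ_iff_lt_or_eq.1 hu with hu | rfl
  · exact h u hu
  · exact h2

/-- The intended facts. -/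
def Itd (N : SM) (y : Word) : St → ℕ → ℕ → Prop
  | .goal, _, j => j = 0 ∧ ∃ T, (N.run y T).1 = 0
  | .acc, _, j => j = 0 ∧ ∃ T, (N.run y T).1 = 0
  | .inn, t, j => j < y.length + t
  | .bd, t, j => j = y.length + t
  | .H q, t, j => j = 0 ∧ q = (N.run y t).1
  | .C q, t, _ => q = (N.run y t).1
  | .S r a, t, j => a = ((N.run y t).2 r).getD j 0

def Snd (N : SM) (y : Word) (σ : St) (A : ℤ × ℤ) : Prop :=
  ∃ t j : ℕ, A.1 = t ∧ A.2 = j ∧ Live N y t ∧ j ≤ y.length + t ∧ Itd N y σ t j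

lemma kind_cases (y : Word) (j : ℕ) (hj : j ≤ y.length) :
    (3 ≤ kind y j ↔ j = 0) ∧ (kind y j % 3 = 2 ↔ j = y.length) ∧
    (kind y j % 3 = 0 ↔ j < y.length ∧ y.getD j false = false) ∧
    (kind y j % 3 = 1 ↔ j < y.length ∧ y.getD j false = true) := by
  unfold kind
  generalize y.getD j false = b
  cases b <;> split_ifs <;> simp_all <;> omega

lemma getD_map_sym {j : ℕ} (hj : j < y.length) :
    (y.map N.sym).getD j 0 = N.sym (y.getD j false) := by
  rw [List.getD_eq_getElem _ _ (by simpa using hj), List.getD_eq_getElem _ _ hj, List.getElem_map]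

lemma snd_ini {σ : St} {j : ℕ} (hj : j ≤ y.length) (h : Ini N σ (kind y j)) :
    Snd N y σ (0, (j : ℤ)) := by
  refine ⟨0, j, rfl, rfl, fun u hu => absurd hu (Nat.not_lt_zero _), by omega, ?_⟩
  obtain ⟨k1, k2, k3, k4⟩ := kind_cases y j hj
  generalize kind y j = κ at *
  cases h with
  | h _ h => exact ⟨k1.1 h, rfl⟩
  | inn _ h => change j < _; have := k2.2; omega
  | bd _ h => exact k2.1 h
  | s0 _ h =>
    change _ = _
    rw [run_zero_k0, getD_map_sym (k3.1 h).1, (k3.1 h).2]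
  | s1 _ h =>
    change _ = _
    rw [run_zero_k0, getD_map_sym (k4.1 h).1, (k4.1 h).2]
  | s2 _ h =>
    change _ = _
    rw [run_zero_k0, List.getD_eq_default _ _ (by simp [k2.1 h])]
  | so r _ h =>
    change _ = _
    rw [run_zero_ne h]; rfl

lemma snd_rule {a b c : St} {da db : ℕ} {A : ℤ × ℤ} (h : Rl N a da b db c)
    (ha : Snd N y a (A + shf da)) (hb : Snd N y b (A + shf db)) : Snd N y c A := by
  obtain ⟨x, z⟩ := A
  obtain ⟨t, j, e1, e2, hl, hj, ha⟩ := ha
  obtain ⟨t', j', e1', e2', hl', hj', hb⟩ := hb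
  cases h <;> simp only [shf, Prod.fst_add, Prod.snd_add, Itd] at e1 e2 e1' e2' ha hb <;>
    norm_num at e1 e2 e1' e2'
  case hc q => exact ⟨t, j, e1, e2, hl, hj, ha.2⟩
  case cc q =>
    obtain rfl : t' = t := by omega
    exact ⟨t', j + 1, e1, by simp only; omega, hl, by omega, ha⟩
  case h0 => exact ⟨t, j, e1, e2, hl, hj, ha.1, t, ha.2.symm⟩
  case aa q => exact ⟨t', j', e1', e2', hl', hj', hb.1, ha.2⟩
  case ag => exact ⟨t, j, e1, e2, hl, hj, ha⟩
  case nx q a hq =>
    obtain rfl : t' = t := by omega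
    obtain rfl : j' = j := by omega
    obtain ⟨rfl, rfl⟩ := ha
    exact ⟨t' + 1, 0, by simp only; omega, e2, hl.succ hq, by omega, rfl,
      by rw [run_fst hq, hb]⟩
  case ci q hq =>
    subst ha
    exact ⟨t + 1, j, by simp only; omega, e2, hl.succ hq, by omega, by simp only [Itd]; omega⟩
  case cb q hq =>
    subst ha
    exact ⟨t + 1, j + 1, by simp only; omega, by simp only; omega, hl.succ hq, by omega,
      by simp only [Itd]; omega⟩
  case cz q r hq =>
    subst ha
    refine ⟨t + 1, j + 1, by simp only; omega, by simp only; omega, hl.succ hq, by omega, ?_⟩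
    change _ = _
    rw [List.getD_eq_default]
    have := run_len (N := N) (y := y) (t + 1) r
    omega
  case keep q r a hq hr =>
    obtain rfl : t' = t := by omega
    obtain rfl : j' = j := by omega
    subst ha
    refine ⟨t' + 1, j', by simp only; omega, e2, hl.succ hq, by omega, ?_⟩
    change _ = _
    rw [run_keep hq hr, hb]
  case pop q a hq ho =>
    obtain rfl : t' = t := by omega
    obtain rfl : j' = j + 1 := by omega
    subst ha
    refine ⟨t' + 1, j, by simp only; omega, e2, hl.succ hq, by omega, ?_⟩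
    change _ = _
    rw [run_pop hq ho, getD_tail, hb]
  case popz q hq ho =>
    obtain rfl : t' = t := by omega
    obtain rfl : j' = j := by omega
    subst ha
    refine ⟨t' + 1, j', by simp only; omega, e2, hl.succ hq, by omega, ?_⟩
    change _ = _
    rw [run_pop hq ho, getD_tail, List.getD_eq_default]
    have := run_len (N := N) (y := y) t' (N.stk (N.run y t').1)
    omega
  case push0 q hq ho =>
    obtain ⟨rfl, rfl⟩ := ha
    refine ⟨t + 1, 0, by simp only; omega, e2, hl.succ hq, by omega, ?_⟩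
    change _ = _
    rw [run_push hq ho]; rfl
  case push q a hq ho =>
    obtain rfl : t' = t := by omega
    obtain rfl : j' = j := by omega
    subst ha
    refine ⟨t' + 1, j' + 1, by simp only; omega, by simp only; omega, hl.succ hq, by omega, ?_⟩
    change _ = _
    rw [run_push hq ho, List.getD_cons_succ, hb]

lemma sound {σ : ℕ} {A : ℤ × ℤ} (h : TrT (sz N) (rule N) (init N) y σ A) :
    ∃ σ', σ = enc σ' ∧ Snd N y σ' A := by
  induction h with
  | ini _ hj h =>
    obtain ⟨σ', rfl, h⟩ := h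
    exact ⟨σ', rfl, snd_ini hj h⟩
  | rule _ _ _ _ _ _ _ h _ _ iha ihb =>
    obtain ⟨a', b', c', rfl, rfl, rfl, h⟩ := h
    obtain ⟨a'', ea, ha⟩ := iha
    obtain ⟨b'', eb, hb⟩ := ihb
    rw [← enc_inj ea] at ha
    rw [← enc_inj eb] at hb
    exact ⟨c', rfl, snd_rule h ha hb⟩

/-! ### Completeness -/

/-- Derivability of a typed fact. -/
def Dv (N : SM) (y : Word) (σ : St) (t j : ℕ) : Prop :=
  Ok N σ ∧ TrT (sz N) (rule N) (init N) y (enc σ) ((t : ℤ), (j : ℤ))

lemma Dv.ini {σ : St} {j : ℕ} (ho : Ok N σ) (hj : j ≤ y.length) (h : Ini N σ (kind y j)) :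
    Dv N y σ 0 j :=
  ⟨ho, TrT.ini (enc_lt ho) hj ⟨σ, rfl, h⟩⟩

lemma Dv.rule {a b c : St} {da db t j ta ja tb jb : ℕ} (h : Rl N a da b db c) (ho : Ok N c)
    (ha : Dv N y a ta ja) (hb : Dv N y b tb jb)
    (e1 : t + da / 3 = ta + 1) (e2 : j + da % 3 = ja + 1)
    (e3 : t + db / 3 = tb + 1) (e4 : j + db % 3 = jb + 1) : Dv N y c t j := by
  have ea : ((t : ℤ), (j : ℤ)) + shf da = ((ta : ℤ), (ja : ℤ)) := by
    simp only [shf, Prod.mk_add_mk, Prod.mk.injEq]; omega
  have eb : ((t : ℤ), (j : ℤ)) + shf db = ((tb : ℤ), (jb : ℤ)) := by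
    simp only [shf, Prod.mk_add_mk, Prod.mk.injEq]; omega
  refine ⟨ho, TrT.rule (da := da) (db := db) (enc_lt ha.1) (enc_lt hb.1) (enc_lt ho) ?_ ?_ ?_ ?_
    ⟨a, b, c, rfl, rfl, rfl, h⟩ (ea ▸ ha.2) (eb ▸ hb.2)⟩
  · cases h <;> omega
  · cases h <;> omega
  · cases h <;> simp [enc]
  · cases h <;> simp [enc]

/-- All intended facts of time `t` are derivable. -/
structure Row (N : SM) (y : Word) (t : ℕ) : Prop where
  h : Dv N y (.H (N.run y t).1) t 0
  inn : ∀ j < y.length + t, Dv N y .inn t j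
  bd : Dv N y .bd t (y.length + t)
  s : ∀ r < N.nK, ∀ j ≤ y.length + t, Dv N y (.S r (((N.run y t).2 r).getD j 0)) t j

lemma Row.c {t : ℕ} (h : Row N y t) (j : ℕ) (hj : j ≤ y.length + t) :
    Dv N y (.C (N.run y t).1) t j := by
  induction j with
  | zero => exact Dv.rule (.hc _) h.h.1 h.h h.h rfl rfl rfl rfl
  | succ j ih =>
    exact Dv.rule (.cc _) h.h.1 (ih (by omega)) (h.inn j (by omega)) rfl rfl rfl rfl

lemma row_zero (hN : N.WF) : Row N y 0 := by
  have hA : 0 < N.nA := by have := hN.sym true; omega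
  refine ⟨?_, fun j hj => ?_, ?_, fun r hr j hj => ?_⟩
  · exact Dv.ini hN.start (Nat.zero_le _) (.h _ ((kind_cases y 0 (Nat.zero_le _)).1.2 rfl))
  · refine Dv.ini trivial hj.le (.inn _ ?_)
    have := (kind_cases y j hj.le).2.1.1
    omega
  · exact Dv.ini trivial le_rfl (.bd _ ((kind_cases y _ le_rfl).2.1.2 rfl))
  · refine Dv.ini ⟨hr, getD_lt hA ((run_ok hN 0).2 r) j⟩ hj ?_
    obtain ⟨k1, k2, k3, k4⟩ := kind_cases y j hj
    by_cases e : r = N.k0
    · subst e
      rw [run_zero_k0]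
      rcases (show j ≤ y.length from hj).lt_or_eq with h | h
      · rw [getD_map_sym h]
        cases hb : y.getD j false
        · exact .s0 _ (k3.2 ⟨h, hb⟩)
        · exact .s1 _ (k4.2 ⟨h, hb⟩)
      · rw [List.getD_eq_default _ _ (by simp [h])]
        exact .s2 _ (k2.2 h)
    · rw [run_zero_ne e]
      exact .so _ _ e

lemma row_succ (hN : N.WF) {t : ℕ} (h : Row N y t) (hq : 2 ≤ (N.run y t).1) :
    Row N y (t + 1) := by
  have hA : 0 < N.nA := by have := hN.sym true; omega
  have hk := hN.stk _ (run_ok (y := y) hN t).1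
  refine ⟨?_, fun j hj => ?_, ?_, fun r hr j hj => ?_⟩
  · have := (run_ok (y := y) hN (t + 1)).1
    rw [run_fst hq] at this ⊢
    exact Dv.rule (.nx _ _ hq) this h.h (h.s _ hk 0 (Nat.zero_le _)) rfl rfl rfl rfl
  · exact Dv.rule (.ci _ hq) trivial (h.c j (by omega)) (h.c j (by omega)) rfl rfl rfl rfl
  · exact Dv.rule (.cb _ hq) trivial (h.c _ le_rfl) h.bd rfl rfl rfl rfl
  · have ho : Ok N (.S r (((N.run y (t + 1)).2 r).getD j 0)) :=
      ⟨hr, getD_lt hA ((run_ok hN (t + 1)).2 r) j⟩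
    rcases hj.lt_or_eq with hj | rfl
    · by_cases hr' : r ≠ N.stk (N.run y t).1 ∨ N.op (N.run y t).1 = 0
      · rw [run_keep hq hr'] at ho ⊢
        exact Dv.rule (.keep _ _ _ hq hr') ho (h.c j (by omega)) (h.s r hr j (by omega))
          rfl rfl rfl rfl
      · rw [not_or, not_not] at hr'
        obtain ⟨rfl, h0⟩ := hr'
        by_cases h1 : N.op (N.run y t).1 = 1
        · rw [run_pop hq h1, getD_tail] at ho ⊢
          by_cases hj' : j < y.length + t
          · exact Dv.rule (.pop _ _ hq h1) ho (h.c j (by omega)) (h.s _ hr (j + 1) hj')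
              rfl rfl rfl rfl
          · obtain rfl : j = y.length + t := by omega
            rw [List.getD_eq_default _ _ ((run_len _ _).trans (by omega))] at ho ⊢
            exact Dv.rule (.popz _ hq h1) ho (h.c _ le_rfl) h.bd rfl rfl rfl rfl
        · have h2 : 2 ≤ N.op (N.run y t).1 := by omega
          rw [run_push hq h2] at ho ⊢
          cases j with
          | zero => exact Dv.rule (.push0 _ hq h2) ho h.h h.h rfl rfl rfl rfl
          | succ j =>
            rw [List.getD_cons_succ] at ho ⊢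
            exact Dv.rule (.push _ _ hq h2) ho (h.c j (by omega)) (h.s _ hr j (by omega))
              rfl rfl rfl rfl
    · rw [List.getD_eq_default _ _ (run_len _ _)] at ho ⊢
      exact Dv.rule (.cz _ _ hq) ho (h.c _ le_rfl) h.bd rfl rfl rfl rfl

lemma row (hN : N.WF) {t : ℕ} (h : Live N y t) : Row N y t := by
  induction t with
  | zero => exact row_zero hN
  | succ t ih => exact row_succ hN (ih fun u hu => h u (by omega)) (h t (by omega))

lemma acc_down (hN : N.WF) {t : ℕ} (h : Live N y t) (ha : Dv N y .acc t 0) : Dv N y .acc 0 0 := by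
  induction t with
  | zero => exact ha
  | succ t ih =>
    have h' : Live N y t := fun u hu => h u (by omega)
    exact ih h' (Dv.rule (.aa _) trivial ha (row hN h').h rfl rfl rfl rfl)

lemma complete (hN : N.WF) {t : ℕ} (h : (N.run y t).1 = 0) : Dv N y .goal 0 0 := by
  classical
  have hex : ∃ T, (N.run y T).1 ≤ 1 := ⟨t, by omega⟩
  have hT := Nat.find_spec hex
  have hle : Nat.find hex ≤ t := Nat.find_min' hex (by omega)
  have hl : Live N y (Nat.find hex) := fun u hu => by have := Nat.find_min hex hu; omega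
  obtain ⟨u, hu⟩ := Nat.exists_eq_add_of_le hle
  have h0 : (N.run y (Nat.find hex)).1 = 0 := by rw [← run_halt hT u, ← hu, h]
  have hH := (row hN hl).h
  rw [h0] at hH
  have hacc := acc_down hN hl (Dv.rule .h0 trivial hH hH rfl rfl rfl rfl)
  exact Dv.rule .ag trivial hacc hacc rfl rfl rfl rfl

end SMH

open SMH in
theorem smHornStmt : SMHornStmt := by
  intro N hN
  refine ⟨sz N, rule N, init N, fun y t ht => ⟨fun σ A h => ?_, fun h => ?_, fun h => ?_⟩⟩
  · obtain ⟨σ', -, u, j, e1, e2, hl, hj, -⟩ := sound h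
    have : u ≤ t := by
      by_contra hu
      have := hl t (by omega)
      omega
    omega
  · obtain ⟨σ', e, u, j, -, -, -, -, h⟩ := sound h
    obtain rfl : St.goal = σ' := enc_inj e
    obtain ⟨-, T, hT⟩ := h
    rcases le_total T t with hle | hle
    · obtain ⟨v, rfl⟩ := Nat.exists_eq_add_of_le hle
      rw [run_halt (by omega), hT]
    · obtain ⟨v, rfl⟩ := Nat.exists_eq_add_of_le hle
      rwa [run_halt ht] at hT
  · exact (complete hN h).2

end Crest.Agent.R290
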