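import Crest.Agent.R290.DefsL

/-! Row 290: Duplicator's side for the explicit three-slot system. -/

set_option autoImplicit false

namespace Crest.Agent.R290

open Finset

namespace Sys1D

abbrev V1 := V0 ⊕ WI × Bool × ℕ × ℕ

variable (a : Par)

/-- the wide equation of a grid -/
def wd (f1 f2 l : ℕ) : WI := if f1 = a.s then (none, l) else (some (f1, (0, (f2 : ℤ))), l)

/-- the two vertical edges of a cell -/
noncomputable def ud (w : WI) (i c : ℕ) : Fm V1 :=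
  (if i = 0 then 0 else sg (Sum.inr (w, true, i, c))) +
    (if i < a.k then sg (Sum.inr (w, true, i + 1, c)) else 0)

noncomputable def φF (tag f1 f2 f3 f4 f5 l : ℕ) : Fm V1 :=
  if tag = 0 then sg (Sum.inl (Sum.inl (Sum.inl (f1, l, f2, ((f3 : ℤ), (f4 : ℤ))))))
  else if tag = 1 then sg (Sum.inl (Sum.inr ((f1, l, f3, ((f4 : ℤ), (f5 : ℤ))), f2)))
  else if tag = 2 then
    (if f1 = 0 ∧ f2 = 0 ∧ f3 = 0 ∧ f4 = 0 ∧ f5 = 0 then sg (Sum.inl (Sum.inl (Sum.inr l))) else 0)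
  else if tag = 3 then sg (Sum.inr (wd a f1 f2 l, false, f3, f4))
  else if tag = 4 then sg (Sum.inr (wd a f1 f2 l, true, f3, f4))
  else ud a (wd a f1 f2 l) f3 f4

noncomputable def φ (e : ℕ) : Fm V1 :=
  if e = 0 then 0 else
    φF a ((e - 1) / a.Lm % 6) ((e - 1) / a.Lm / 6 % a.Z) ((e - 1) / a.Lm / 6 / a.Z % a.Z)
      ((e - 1) / a.Lm / 6 / a.Z / a.Z % a.Z) ((e - 1) / a.Lm / 6 / a.Z / a.Z / a.Z % a.Z)
      ((e - 1) / a.Lm / 6 / a.Z / a.Z / a.Z / a.Z) ((e - 1) % a.Lm)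

theorem φ_zero : φ a 0 = 0 := if_pos rfl

theorem dm {x y m : ℕ} (h : x < m) : (x + m * y) / m = y ∧ (x + m * y) % m = x := by
  have hm : 0 < m := by omega
  rw [Nat.add_mul_div_left _ _ hm, Nat.div_eq_of_lt h, Nat.add_mul_mod_self_left,
    Nat.mod_eq_of_lt h, zero_add]
  exact ⟨rfl, rfl⟩

variable {a}

theorem φ_cd {tag f1 f2 f3 f4 l : ℕ} (f5 : ℕ) (ht : tag < 6) (h1 : f1 < a.Z) (h2 : f2 < a.Z)
    (h3 : f3 < a.Z) (h4 : f4 < a.Z) (hl : l < a.Lm) :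
    φ a (a.cd tag f1 f2 f3 f4 f5 l) = φF a tag f1 f2 f3 f4 f5 l := by
  rw [φ, if_neg (by rw [Par.cd]; omega), Par.cd, Nat.add_sub_cancel_left, (dm hl).1, (dm hl).2,
    (dm ht).1, (dm ht).2, (dm h1).1, (dm h1).2, (dm h2).1, (dm h2).2, (dm h3).1, (dm h3).2,
    (dm h4).1, (dm h4).2]

theorem cd_dec {e : ℕ} (he : e ≠ 0) :
    a.cd ((e - 1) / a.Lm % 6) ((e - 1) / a.Lm / 6 % a.Z) ((e - 1) / a.Lm / 6 / a.Z % a.Z)
      ((e - 1) / a.Lm / 6 / a.Z / a.Z % a.Z) ((e - 1) / a.Lm / 6 / a.Z / a.Z / a.Z % a.Z)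
      ((e - 1) / a.Lm / 6 / a.Z / a.Z / a.Z / a.Z) ((e - 1) % a.Lm) = e := by
  simp only [Par.cd, Nat.mod_add_div]
  omega

theorem b_pos : 0 < a.b := by rw [Par.b, bOf]; omega

theorem Z_pos : 0 < a.Z := by rw [Par.Z]; omega

theorem B'_pos : 0 < a.B' := by
  have h1 := Nat.mul_pos (b_pos (a := a)) (b_pos (a := a))
  have h2 := Nat.pow_pos (n := 5) (Z_pos (a := a))
  exact Nat.mul_pos (Nat.mul_pos (Nat.mul_pos (by omega) h2) h1) h1

theorem Lm_pos : 0 < a.Lm := by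
  exact Nat.mul_pos (Nat.mul_pos b_pos b_pos) (Nat.mul_pos (by omega) B'_pos)

theorem p_pos (i : ℕ) : 0 < a.p i := (Nat.prime_nth_prime _).pos

theorem p_lt_Z {i : ℕ} (hi : i ≤ a.k) : a.p i < a.Z := by
  have : a.p i ≤ a.p a.k :=
    (Nat.nth_strictMono Nat.infinite_setOfPred_prime).monotone (Nat.add_le_add_left hi _)
  rw [Par.Z]
  omega

theorem ln_lt {num u : ℕ} (hn : num < a.A * a.B') (hu : u < a.b * a.b) : a.ln num u < a.Lm := by
  have hB := B'_pos (a := a)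
  have h1 : num / a.B' ≤ a.A := Nat.div_le_of_le_mul (by rw [mul_comm]; exact hn.le)
  have h2 : num / a.B' * u ≤ a.B' := Nat.mul_le_mul h1 hu.le
  have h3 := Nat.mod_lt num hB
  have h4 : (u + 1) * (2 * a.B') ≤ a.b * a.b * (2 * a.B') := Nat.mul_le_mul_right _ hu
  rw [Par.ln, Par.Lm]
  rw [add_mul] at h4
  omega

theorem line_lt {r l u : ℕ} (s : Bool) (hr : r < a.Z) (hl : l < a.Lm) (hu : u < a.b * a.b) :
    a.line r l s u < a.Lm := by
  refine ln_lt ?_ hu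
  have h1 : (r + 1) * a.Lm ≤ a.Z * a.Lm := Nat.mul_le_mul_right _ hr
  have h2 : a.Z ≤ a.Z ^ 5 := Nat.le_self_pow (by omega) _
  have h3 : a.Z * a.Lm ≤ a.Z ^ 5 * a.Lm := Nat.mul_le_mul_right _ h2
  have h4 : a.A * a.B' = 14 * (a.Z ^ 5 * a.Lm) := by rw [Par.A, Par.Lm]; ring
  have h5 : s.toNat ≤ 1 := Bool.toNat_le s
  rw [add_mul] at h1
  omega

theorem trp_lt {b u : ℕ} (hu : u < b * b) : trp b u < b * b := by
  have hb : 0 < b := Nat.pos_of_ne_zero fun h => by simp [h] at hu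
  have h1 : u / b < b := Nat.div_lt_of_lt_mul hu
  have h2 : (u % b + 1) * b ≤ b * b := Nat.mul_le_mul_right _ (Nat.mod_lt u hb)
  rw [add_mul] at h2
  rw [trp]
  omega

theorem pidx_lt {b u : ℕ} (hu : u ≤ 4 * (b * b)) (hu' : u ≠ 2 * (b * b)) : pidx b u < b * b := by
  unfold pidx
  split_ifs
  · assumption
  · exact trp_lt (by omega)
  · omega
  · exact trp_lt (by omega)

theorem cast_mod {x d p : ℕ} (hp : 0 < p) :
    (((x + p + d - 1) % p : ℕ) : ℤ) = ((x : ℤ) + ((d : ℤ) - 1)) % (p : ℤ) := by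
  rw [Int.natCast_mod, Nat.cast_sub (by omega)]
  push_cast
  rw [show (x : ℤ) + p + d - 1 = x + (d - 1) + p by ring, Int.add_emod_right]

theorem sub_sg {V V' : Type} (ψ : V' → Fm V) (v : V') : sub ψ (sg v) = ψ v := by
  simp [sub, sg]

theorem map_sg {V V' : Type} (g : V → V') (v : V) : Finsupp.mapDomain g (sg v) = sg (g v) :=
  Finsupp.mapDomain_single

theorem add_self {V : Type} (f : Fm V) : f + f = 0 := by
  ext v
  rw [Finsupp.add_apply]
  exact CharTwo.add_self_eq_zero _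

theorem φ_om {l : ℕ} (hl : l < a.Lm) : φ a (a.om l) = sg (Sum.inl (Sum.inl (Sum.inr l))) := by
  rw [Par.om, φ_cd 0 (by omega) Z_pos Z_pos Z_pos Z_pos hl]
  simp [φF]

theorem gadget {f1 f2 f3 f4 f5 l : ℕ} (h1 : f1 < a.Z) (hl : l < a.Lm) (ha : hact a.h f1)
    (h2 : f2 ≤ 4 * (a.b * a.b)) (h3 : f3 < a.k) (h4 : f4 < a.p f3) (h5 : f5 < a.p f3) :
    φ a (a.slotF 0 f1 f2 f3 f4 f5 l 0) + φ a (a.slotF 0 f1 f2 f3 f4 f5 l 1) +
      φ a (a.slotF 0 f1 f2 f3 f4 f5 l 2) = Finsupp.mapDomain Sum.inl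
        (geq a.b a.rs.rd a.rs.out ((f1, l, f3, ((f4 : ℤ), (f5 : ℤ))), f2)) := by
  have hp := p_lt_Z (a := a) h3.le
  have hp0 := p_pos (a := a) f3
  have hs : 0 < a.s := Nat.pos_of_ne_zero fun h => by
    have := ha.1
    rw [show hs a.h = 0 from h] at this
    simp at this
  have hsZ : a.s < a.Z := by rw [Par.Z]; omega
  have hbZ : 4 * (a.b * a.b) < a.Z := by rw [Par.Z]; omega
  have hkZ : a.k < a.Z := by rw [Par.Z]; omega
  have hc : (0 : ℕ) = 0 ∧ hact a.h f1 ∧ f2 ≤ 4 * (a.b * a.b) ∧ f3 < a.k ∧ f4 < a.p f3 ∧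
      f5 < a.p f3 := ⟨rfl, ha, h2, h3, h4, h5⟩
  rw [geq, Finsupp.mapDomain_add, Finsupp.mapDomain_add, Par.slotF, Par.slotF, Par.slotF,
    if_pos hc, if_pos hc, if_pos hc, if_pos rfl, if_neg (by omega : ¬ (1 : ℕ) = 0), if_pos rfl,
    if_neg (by omega : ¬ (2 : ℕ) = 0), if_neg (by omega : ¬ (2 : ℕ) = 1)]
  congr 1
  · congr 1
    · split_ifs
      · rw [φ_zero, Finsupp.mapDomain_zero]
      · rw [φ_cd f5 (by omega) h1 (by omega) (by omega) (by omega) hl, map_sg]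
        rfl
    · rw [map_sg, pend]
      split_ifs with e
      · have hr : rCn a.s f1 < a.Z := (Nat.mod_lt _ hs).trans hsZ
        rw [φ_cd 0 (by omega) hr (by omega) (by omega) (by omega) hl]
        rfl
      · have hr : rPr a.s f1 (pside a.b f2) < a.Z := by
          unfold rPr
          split_ifs
          · exact (Nat.mod_lt _ hs).trans hsZ
          · exact (Nat.mod_lt _ hs).trans hsZ
        rw [φ_cd 0 (by omega) hr (by omega) ((Nat.mod_lt _ hp0).trans hp)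
          ((Nat.mod_lt _ hp0).trans hp) (line_lt _ h1 hl (pidx_lt h2 e)), φF, if_pos rfl,
          cast_mod hp0, cast_mod hp0]
        rfl
  · split_ifs
    · rw [φ_zero, Finsupp.mapDomain_zero]
    · rw [φ_cd f5 (by omega) h1 (by omega) (by omega) (by omega) hl, map_sg]
      rfl

theorem φ_up {f1 f2 f3 f4 l : ℕ} (h1 : f1 < a.Z) (h2 : f2 < a.Z) (h3 : f3 < a.Z) (h4 : f4 < a.Z)
    (hl : l < a.Lm) (t : Bool) :
    φ a (a.cd (3 + t.toNat) f1 f2 f3 f4 0 l) = sg (Sum.inr (wd a f1 f2 l, t, f3, f4)) := by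
  cases t
  · rw [φ_cd 0 (by simp) h1 h2 h3 h4 hl]; rfl
  · rw [φ_cd 0 (by simp) h1 h2 h3 h4 hl]; rfl

theorem φ_mid {f1 f2 f3 f4 l : ℕ} (h1 : f1 < a.Z) (h2 : f2 < a.Z) (h3 : f3 < a.Z) (h4 : f4 < a.Z)
    (hl : l < a.Lm) : φ a (a.cd 5 f1 f2 f3 f4 0 l) = ud a (wd a f1 f2 l) f3 f4 := by
  rw [φ_cd 0 (by omega) h1 h2 h3 h4 hl]; rfl

theorem eqn_dv {tag f1 f2 f3 f4 f5 l : ℕ} (h1 : f1 < a.Z) (h2 : f2 < a.Z) (h3 : f3 < a.Z)
    (h4 : f4 < a.Z) (hl : l < a.Lm) (W : Set V1) (K : ℕ) :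
    Dv a.E1 W K (φ a (a.slotF tag f1 f2 f3 f4 f5 l 0) + φ a (a.slotF tag f1 f2 f3 f4 f5 l 1) +
      φ a (a.slotF tag f1 f2 f3 f4 f5 l 2)) := by
  classical
  have hkZ : a.k < a.Z := by rw [Par.Z]; omega
  by_cases hc : tag = 0 ∧ hact a.h f1 ∧ f2 ≤ 4 * (a.b * a.b) ∧ f3 < a.k ∧ f4 < a.p f3 ∧
      f5 < a.p f3
  · obtain ⟨rfl, ha, g2, g3, g4, g5⟩ := hc
    rw [gadget h1 hl ha g2 g3 g4 g5]
    refine Dv.base (Or.inl ⟨_, ⟨(f1, l, f3, ((f4 : ℤ), (f5 : ℤ))), ⟨ha, hl, g3, ?_⟩, f2, g2, rfl⟩,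
      rfl⟩)
    show (((f4 : ℤ) % (a.p f3 : ℤ), (f5 : ℤ) % (a.p f3 : ℤ)) : ℤ × ℤ) = _
    rw [← Int.natCast_mod, ← Int.natCast_mod, Nat.mod_eq_of_lt g4, Nat.mod_eq_of_lt g5]
  rw [Par.slotF, Par.slotF, Par.slotF, if_neg hc, if_neg hc, if_neg hc]
  by_cases hg : f5 = 0 ∧ f3 ≤ a.k ∧ f4 ≤ a.k ∧ (hini a.h a.y f1 f2 ∨ (f1 = a.s ∧ f2 = 0))
  swap
  · rw [if_neg hg, if_neg hg, if_neg hg, φ_zero, add_zero, add_zero]
    exact Dv.zero
  rw [if_pos hg, if_pos hg, if_pos hg]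
  obtain ⟨-, g3, g4, g5⟩ := hg
  by_cases t1 : tag = 1
  · rw [if_pos t1, if_pos t1, if_pos t1, if_pos rfl, if_neg (by omega : ¬ (1 : ℕ) = 0), if_pos rfl,
      if_neg (by omega : ¬ (2 : ℕ) = 0), if_neg (by omega : ¬ (2 : ℕ) = 1), φ_mid h1 h2 h3 h4 hl]
    have e : φ a (if f3 = 0 then 0 else a.cd 4 f1 f2 f3 f4 0 l) +
        φ a (if f3 < a.k then a.cd 4 f1 f2 (f3 + 1) f4 0 l else 0) = ud a (wd a f1 f2 l) f3 f4 := by
      rw [ud]
      congr 1
      · split_ifs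
        · exact φ_zero a
        · exact φ_up h1 h2 h3 h4 hl true
      · split_ifs
        · exact φ_up h1 h2 (by omega) h4 hl true
        · exact φ_zero a
    rw [e, add_self]
    exact Dv.zero
  rw [if_neg t1, if_neg t1, if_neg t1]
  by_cases t2 : tag = 2
  swap
  · rw [if_neg t2, if_neg t2, if_neg t2, φ_zero, add_zero, add_zero]
    exact Dv.zero
  rw [if_pos t2, if_pos t2, if_pos t2, if_pos rfl, if_neg (by omega : ¬ (1 : ℕ) = 0), if_pos rfl,
    if_neg (by omega : ¬ (2 : ℕ) = 0), if_neg (by omega : ¬ (2 : ℕ) = 1), φ_mid h1 h2 h3 h4 hl]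
  refine Dv.base (Or.inr ⟨wd a f1 f2 l, f3, f4, ?_, by omega, by omega, ?_⟩)
  · unfold wd
    split_ifs with e
    · exact hl
    · exact ⟨⟨f2, rfl, g5.resolve_right fun h => e h.1⟩, hl⟩
  have e1 : φ a (if f4 = 0 then
        (if f1 = a.s then (if f3 < a.k then a.cd 0 0 f3 0 0 0 l else a.om l)
          else (if f3 < a.k then a.cd 0 f1 f3 0 (f2 % a.p f3) 0 l else 0))
        else a.cd 3 f1 f2 f3 f4 0 l) =
      if f4 = 0 then Finsupp.mapDomain Sum.inl (a.rs.pd (wd a f1 f2 l) f3)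
      else sg (Sum.inr (wd a f1 f2 l, false, f3, f4)) := by
    by_cases e : f4 = 0
    · rw [if_pos e, if_pos e, wd]
      by_cases e' : f1 = a.s
      · rw [if_pos e', if_pos e', RS.pd]
        show _ = Finsupp.mapDomain Sum.inl (if f3 < a.k then _ else _)
        split_ifs
        · rw [φ_cd 0 (by omega) Z_pos h3 Z_pos Z_pos hl, map_sg]
          simp [φF, Par.rs]
        · rw [φ_om hl, map_sg]
      · rw [if_neg e', if_neg e', RS.pd]
        show _ = Finsupp.mapDomain Sum.inl (if f3 < a.k then _ else _)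
        split_ifs
        · rw [φ_cd 0 (by omega) h1 h3 Z_pos ((Nat.mod_le _ _).trans_lt h2) hl, map_sg]
          simp [φF, Par.rs]
        · rw [φ_zero, Finsupp.mapDomain_zero]
    · rw [if_neg e, if_neg e]
      exact φ_up h1 h2 h3 h4 hl false
  have e2 : φ a (if f4 < a.k then a.cd 3 f1 f2 f3 (f4 + 1) 0 l else 0) =
      if f4 + 1 < a.k + 1 then sg (Sum.inr (wd a f1 f2 l, false, f3, f4 + 1)) else 0 := by
    by_cases e : f4 < a.k
    · rw [if_pos e, if_pos (by omega)]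
      exact φ_up h1 h2 h3 (by omega) hl false
    · rw [if_neg e, if_neg (by omega), φ_zero]
  rw [e1, e2, gcell, ud]
  simp only [Nat.add_lt_add_iff_right]
  abel

theorem card_sg {V : Type} (v : V) : (sg v).support.card ≤ 1 :=
  (card_le_card Finsupp.support_single_subset).trans (card_singleton v).le

theorem card_φ (e : ℕ) : (φ a e).support.card ≤ 2 := by
  classical
  have h0 : ∀ v : V1, (sg v).support.card ≤ 2 := fun v => (card_sg v).trans (by omega)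
  unfold φ φF
  split_ifs
  any_goals exact h0 _
  any_goals simp
  refine (card_le_card Finsupp.support_add).trans ((card_union_le _ _).trans ?_)
  refine Nat.add_le_add (b := 1) (d := 1) ?_ ?_ <;> split_ifs <;> first | exact card_sg _ | simp

theorem sg_ne {V : Type} {v w : V} (h : sg w v ≠ 0) : v = w := by
  by_contra e
  exact h (Finsupp.single_eq_of_ne e)

theorem φF_om {tag f1 f2 f3 f4 f5 l' l : ℕ}
    (h : φF a tag f1 f2 f3 f4 f5 l' (Sum.inl (Sum.inl (Sum.inr l))) ≠ 0) :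
    a.cd tag f1 f2 f3 f4 f5 l' = a.om l := by
  unfold φF at h
  split_ifs at h with t0 t1 t2 hz t3 t4
  · cases sg_ne h
  · cases sg_ne h
  · obtain ⟨z1, z2, z3, z4, z5⟩ := hz
    have := sg_ne h
    simp only [Sum.inl.injEq, Sum.inr.injEq] at this
    rw [t2, z1, z2, z3, z4, z5, ← this, Par.om]
  · exact absurd rfl h
  · cases sg_ne h
  · cases sg_ne h
  · exfalso
    apply h
    rw [ud, Finsupp.add_apply]
    split_ifs <;> simp [sg]

theorem eq_om {e l : ℕ} (h : φ a e (Sum.inl (Sum.inl (Sum.inr l))) ≠ 0) : e = a.om l := by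
  by_cases he : e = 0
  · rw [he, φ_zero] at h
    exact absurd rfl h
  rw [φ, if_neg he] at h
  exact (cd_dec he).symm.trans (φF_om h)

theorem slot_zero (j : ℕ) : a.sys1.slot 0 j = 0 := by simp only [Par.sys1, if_true]

theorem eq0_dv (e : ℕ) (W : Set V1) (K : ℕ) : Dv a.E1 W K (sub (φ a) (a.sys1.eq0 e)) := by
  rw [Sys3.eq0, map_add, map_add, sub_sg, sub_sg, sub_sg]
  by_cases he : e = 0
  · rw [he, slot_zero, slot_zero, slot_zero, φ_zero, add_zero, add_zero]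
    exact Dv.zero
  · have h : ∀ j, a.sys1.slot e j = a.slotF ((e - 1) / a.Lm % 6) ((e - 1) / a.Lm / 6 % a.Z)
        ((e - 1) / a.Lm / 6 / a.Z % a.Z) ((e - 1) / a.Lm / 6 / a.Z / a.Z % a.Z)
        ((e - 1) / a.Lm / 6 / a.Z / a.Z / a.Z % a.Z) ((e - 1) / a.Lm / 6 / a.Z / a.Z / a.Z / a.Z)
        ((e - 1) % a.Lm) j := fun j => if_neg he
    rw [h, h, h]
    exact eqn_dv (Nat.mod_lt _ Z_pos) (Nat.mod_lt _ Z_pos) (Nat.mod_lt _ Z_pos)
      (Nat.mod_lt _ Z_pos) (Nat.mod_lt _ Lm_pos) _ _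

theorem sub_apply {V V' : Type} (ψ : V' → Fm V) (f : Fm V') (w : V) :
    sub ψ f w = ∑ v ∈ f.support, f v * ψ v w := by
  rw [sub, Finsupp.linearCombination_apply, Finsupp.sum, Finsupp.finsetSum_apply]
  rfl

theorem few_pull {V V' : Type} {E : Set (Fm V)} {E' : Set (Fm V')} {W : Set V} {W' : Set V'}
    {K c : ℕ} (hL : LinBasicStmt) (ψ : V' → Fm V) (back : V → V')
    (hc : ∀ v, (ψ v).support.card ≤ 2) (hW : ∀ v ∈ W', ∃ w ∈ W, ψ v = sg w)
    (hb : ∀ v, ∀ w ∈ W, ψ v w ≠ 0 → v = back w) (hE : ∀ e ∈ E', Dv E W (2 * K) (sub ψ e))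
    (hF : Few E W (2 * K) c) : Few E' W' K c := by
  classical
  intro f S hf hS hK
  have hom : ∀ v ∈ W', Cov W ∅ (ψ v) := by
    intro v hv w hw
    obtain ⟨w', h1, h2⟩ := hW v hv
    rw [h2] at hw
    exact Or.inl (sg_ne hw ▸ h1)
  have h1 : Dv E W (2 * K) (sub ψ f) :=
    hL.2.2.1 V V' E E' W W' K 2 ψ (fun v _ => ⟨(ψ v).support, hc v,
      fun w hw => Or.inr (Finsupp.mem_support_iff.2 hw)⟩) hom hE f hf
  have happ := sub_apply ψ f
  obtain ⟨T, hT, h2⟩ := hF _ (S.biUnion fun v => (ψ v).support) h1 (fun w hw => by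
    rw [happ] at hw
    obtain ⟨v, hv, h⟩ := exists_ne_zero_of_sum_ne_zero hw
    have h3 := right_ne_zero_of_mul h
    rcases hS v (Finsupp.mem_support_iff.1 hv) with h4 | h4
    · exact Or.inl ((hom v h4 w h3).resolve_right (by simp))
    · exact Or.inr (mem_biUnion.2 ⟨v, h4, Finsupp.mem_support_iff.2 h3⟩))
    ((card_biUnion_le_card_mul _ _ 2 fun v _ => hc v).trans (by omega))
  refine ⟨T.image back, card_image_le.trans hT, fun v hv hfv => ?_⟩
  obtain ⟨w, hw, e⟩ := hW v hv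
  have e1 : ψ v w = 1 := by rw [e]; exact Finsupp.single_eq_same
  have e2 := hb v w hw (by rw [e1]; exact one_ne_zero)
  refine mem_image.2 ⟨w, h2 w hw ?_, e2.symm⟩
  rw [happ, sum_eq_single v, e1, mul_one]
  · exact hfv
  · intro v' _ hne
    by_contra h
    exact hne ((hb v' w hw (right_ne_zero_of_mul h)).trans e2.symm)
  · intro h
    exact absurd (Finsupp.mem_support_iff.2 hfv) h

/-- the variable of an `ω` -/
noncomputable def back (a : Par) : V1 → ℕ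
  | Sum.inl (Sum.inl (Sum.inr l)) => a.om l
  | _ => 0

theorem back_om (l : ℕ) : back a (Sum.inl (Sum.inl (Sum.inr l))) = a.om l := by simp only [back]

end Sys1D

open Sys1D in
theorem sys1DStmt_of (hL : LinBasicStmt) : Sys1DStmt := by
  intro a K c
  refine few_pull hL (φ a) (back a) card_φ ?_ ?_ ?_
  · intro v hv
    obtain ⟨l, hl, e⟩ := hv
    exact ⟨_, ⟨_, ⟨l, rfl⟩, rfl⟩, by rw [e, φ_om hl]⟩
  · intro v w hw h
    obtain ⟨_, ⟨l, rfl⟩, rfl⟩ := hw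
    rw [back_om]
    exact eq_om h
  · intro f hf
    obtain ⟨e, -, h⟩ := hf
    rw [h]
    exact eq0_dv e _ _

end Crest.Agent.R290
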