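import Crest.Agent.R290.DefsL

/-!
Row 290: Spoiler's derivations in the grid system transfer to the explicit three-slot system.
-/

set_option autoImplicit false

namespace Crest.Agent.R290

open Crest.Agent.PT Finset

namespace Sys1S

theorem sub_sg {V V' : Type} (φ : V' → Fm V) (v : V') : sub φ (sg v) = φ v := by
  simp [sub, sg]

theorem add_self {V : Type} (f : Fm V) : f + f = 0 := by
  ext v
  simp only [Finsupp.add_apply, Finsupp.coe_zero, Pi.zero_apply]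
  exact CharTwo.add_self_eq_zero _

theorem cov_sg {V : Type} {S : Finset V} {v : V} (h : v ∈ S) : Cov ∅ S (sg v) := by
  intro x hx
  right
  by_contra hxS
  exact hx (Finsupp.single_eq_of_ne (by rintro rfl; exact hxS h))

theorem cov_add {V : Type} {S : Finset V} {f g : Fm V} (hf : Cov ∅ S f) (hg : Cov ∅ S g) :
    Cov ∅ S (f + g) := by
  intro x hx
  by_cases h : f x = 0
  · refine hg x fun h' => hx ?_
    rw [Finsupp.add_apply, h, h', add_zero]
  · exact hf x h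

theorem cov_zero {V : Type} {S : Finset V} : Cov ∅ S (0 : Fm V) := fun _ h => (h rfl).elim

/-- Derivable with variables in `S`. -/
def Gd (E : Set (Fm ℕ)) (w : ℕ) (S : Finset ℕ) (f : Fm ℕ) : Prop := Dv E ∅ w f ∧ Cov ∅ S f

theorem Gd.add {E : Set (Fm ℕ)} {w : ℕ} {S : Finset ℕ} (hS : S.card ≤ w) {f g : Fm ℕ}
    (hf : Gd E w S f) (hg : Gd E w S g) : Gd E w S (f + g) :=
  ⟨Dv.add S hf.1 hg.1 hf.2 hg.2 hS, cov_add hf.2 hg.2⟩

/-- `f` is the variable `x`, or it is absent and `x` is the zero variable. -/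
def Rl (x : ℕ) (f : Fm ℕ) : Prop := f = sg x ∨ (x = 0 ∧ f = 0)

theorem Rl.ex {E : Set (Fm ℕ)} {w : ℕ} {S : Finset ℕ} (h0 : Dv E ∅ w (sg 0)) (hS : 0 ∈ S)
    {x : ℕ} {f : Fm ℕ} (h : Rl x f) : ∃ g, Gd E w S g ∧ f = sg x + g := by
  rcases h with rfl | ⟨rfl, rfl⟩
  · exact ⟨0, ⟨Dv.zero, cov_zero⟩, (add_zero _).symm⟩
  · exact ⟨sg 0, ⟨h0, cov_sg hS⟩, (add_self _).symm⟩

theorem rl_ite (c : Prop) [Decidable c] (x : ℕ) :
    Rl (if c then 0 else x) (if c then 0 else sg x) := by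
  split_ifs
  · exact Or.inr ⟨rfl, rfl⟩
  · exact Or.inl rfl

theorem rl_ite' (c : Prop) [Decidable c] (x : ℕ) :
    Rl (if c then x else 0) (if c then sg x else 0) := by
  split_ifs
  · exact Or.inl rfl
  · exact Or.inr ⟨rfl, rfl⟩

theorem key3 {E : Set (Fm ℕ)} {w : ℕ} (hw : 6 ≤ w) (h0 : Dv E ∅ w (sg 0)) {x y z : ℕ}
    {f g h : Fm ℕ} (hx : Rl x f) (hy : Rl y g) (hz : Rl z h)
    (hd : Dv E ∅ w (sg x + sg y + sg z)) : Dv E ∅ w (f + g + h) := by
  have hS : ({0, x, y, z} : Finset ℕ).card ≤ w := card_le_four.trans (by omega)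
  obtain ⟨f', hf, rfl⟩ := hx.ex (S := {0, x, y, z}) h0 (by simp)
  obtain ⟨g', hg, rfl⟩ := hy.ex (S := {0, x, y, z}) h0 (by simp)
  obtain ⟨h', hh, rfl⟩ := hz.ex (S := {0, x, y, z}) h0 (by simp)
  have h1 : Gd E w {0, x, y, z} (sg x + sg y + sg z) :=
    ⟨hd, cov_add (cov_add (cov_sg (by simp)) (cov_sg (by simp))) (cov_sg (by simp))⟩
  have h2 := (((h1.add hS hf).add hS hg).add hS hh).1
  convert h2 using 1
  abel

theorem key5 {E : Set (Fm ℕ)} {w : ℕ} (hw : 6 ≤ w) (h0 : Dv E ∅ w (sg 0)) {x y m z t : ℕ}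
    {f g h k : Fm ℕ} (hx : Rl x f) (hy : Rl y g) (hz : Rl z h) (ht : Rl t k)
    (hd : Dv E ∅ w (sg x + sg y + sg m)) (hd' : Dv E ∅ w (sg m + sg z + sg t)) :
    Dv E ∅ w (h + k + f + g) := by
  have hS : ({0, x, y, m, z, t} : Finset ℕ).card ≤ w := card_le_six.trans hw
  obtain ⟨f', hf, rfl⟩ := hx.ex (S := {0, x, y, m, z, t}) h0 (by simp)
  obtain ⟨g', hg, rfl⟩ := hy.ex (S := {0, x, y, m, z, t}) h0 (by simp)
  obtain ⟨h', hh, rfl⟩ := hz.ex (S := {0, x, y, m, z, t}) h0 (by simp)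
  obtain ⟨k', hk, rfl⟩ := ht.ex (S := {0, x, y, m, z, t}) h0 (by simp)
  have h1 : Gd E w {0, x, y, m, z, t} (sg x + sg y + sg m) :=
    ⟨hd, cov_add (cov_add (cov_sg (by simp)) (cov_sg (by simp))) (cov_sg (by simp))⟩
  have h1' : Gd E w {0, x, y, m, z, t} (sg m + sg z + sg t) :=
    ⟨hd', cov_add (cov_add (cov_sg (by simp)) (cov_sg (by simp))) (cov_sg (by simp))⟩
  have h2 := (((((h1.add hS h1').add hS hf).add hS hg).add hS hh).add hS hk).1
  have e : sg x + sg y + sg m + (sg m + sg z + sg t) + f' + g' + h' + k' =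
      sg z + h' + (sg t + k') + (sg x + f') + (sg y + g') + (sg m + sg m) := by abel
  rw [e, add_self, add_zero] at h2
  exact h2

theorem dec (L x l : ℕ) (h : l < L) : (l + L * x) / L = x ∧ (l + L * x) % L = l := by
  have hL : 0 < L := by omega
  constructor
  · rw [Nat.add_mul_div_left _ _ hL, Nat.div_eq_of_lt h, zero_add]
  · rw [Nat.add_mul_mod_self_left, Nat.mod_eq_of_lt h]

theorem lt_mul {L x l B : ℕ} (h : l < L) (hx : x < B) : l + L * x < L * B := by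
  have : L * (x + 1) ≤ L * B := Nat.mul_le_mul_left _ hx
  rw [Nat.mul_succ] at this
  omega

variable (a : Par)

theorem slot_cd {tag f1 f2 f3 f4 f5 l : ℕ} (j : ℕ) (ht : tag < 6) (h1 : f1 < a.Z) (h2 : f2 < a.Z)
    (h3 : f3 < a.Z) (h4 : f4 < a.Z) (hl : l < a.Lm) :
    a.sys1.slot (a.cd tag f1 f2 f3 f4 f5 l) j = a.slotF tag f1 f2 f3 f4 f5 l j := by
  have e0 : a.cd tag f1 f2 f3 f4 f5 l ≠ 0 := by unfold Par.cd; omega
  have e1 : a.cd tag f1 f2 f3 f4 f5 l - 1 =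
      l + a.Lm * (tag + 6 * (f1 + a.Z * (f2 + a.Z * (f3 + a.Z * (f4 + a.Z * f5))))) := by
    unfold Par.cd; omega
  simp only [Par.sys1]
  rw [if_neg e0, e1, (dec _ _ _ hl).1, (dec _ _ _ hl).2, (dec _ _ _ ht).1, (dec _ _ _ ht).2,
    (dec _ _ _ h1).1, (dec _ _ _ h1).2, (dec _ _ _ h2).1, (dec _ _ _ h2).2,
    (dec _ _ _ h3).1, (dec _ _ _ h3).2, (dec _ _ _ h4).1, (dec _ _ _ h4).2]

theorem cd_lt {tag f1 f2 f3 f4 f5 l : ℕ} (ht : tag < 6) (h1 : f1 < a.Z) (h2 : f2 < a.Z)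
    (h3 : f3 < a.Z) (h4 : f4 < a.Z) (h5 : f5 < a.Z) (hl : l < a.Lm) :
    a.cd tag f1 f2 f3 f4 f5 l < a.sys1.ne := by
  have := lt_mul hl (lt_mul ht (lt_mul h1 (lt_mul h2 (lt_mul h3 (lt_mul h4 h5)))))
  have e : a.Z * (a.Z * (a.Z * (a.Z * a.Z))) = a.Z ^ 5 := by ring
  rw [e] at this
  simp only [Par.sys1, Par.cd]
  omega

theorem dv_cd (w : ℕ) {tag f1 f2 f3 f4 f5 l : ℕ} (ht : tag < 6) (h1 : f1 < a.Z) (h2 : f2 < a.Z)
    (h3 : f3 < a.Z) (h4 : f4 < a.Z) (h5 : f5 < a.Z) (hl : l < a.Lm) :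
    Dv a.sys1.E0 ∅ w (sg (a.slotF tag f1 f2 f3 f4 f5 l 0) + sg (a.slotF tag f1 f2 f3 f4 f5 l 1) +
      sg (a.slotF tag f1 f2 f3 f4 f5 l 2)) := by
  refine Dv.base ⟨_, cd_lt a ht h1 h2 h3 h4 h5 hl, ?_⟩
  rw [Sys3.eq0, slot_cd a 0 ht h1 h2 h3 h4 hl, slot_cd a 1 ht h1 h2 h3 h4 hl,
    slot_cd a 2 ht h1 h2 h3 h4 hl]

theorem dv_zero (w : ℕ) : Dv a.sys1.E0 ∅ w (sg 0) := by
  refine Dv.base ⟨0, by simp only [Par.sys1]; omega, ?_⟩
  simp only [Sys3.eq0, Par.sys1, if_true]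
  rw [add_self, zero_add]

theorem p_pos (i : ℕ) : 0 < a.p i := (Nat.prime_nth_prime _).pos

theorem p_le {i : ℕ} (h : i ≤ a.k) : a.p i ≤ a.p a.k :=
  Nat.nth_monotone Nat.infinite_setOf_prime (by omega)

/-- First two fields of the grid of a wide equation. -/
def g1 : Option (ℕ × (ℤ × ℤ)) → ℕ
  | some x => x.1
  | none => a.s
def g2 : Option (ℕ × (ℤ × ℤ)) → ℕ
  | some x => x.2.2.toNat
  | none => 0

/-- Codes of the variables of the grid system. -/
noncomputable def enc : V0 ⊕ WI × Bool × ℕ × ℕ → ℕ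
  | .inl (.inl (.inl x)) => a.cd 0 x.1 x.2.2.1 x.2.2.2.1.toNat x.2.2.2.2.toNat 0 x.2.1
  | .inl (.inl (.inr l)) => a.om l
  | .inl (.inr x) => a.cd 1 x.1.1 x.2 x.1.2.2.1 x.1.2.2.2.1.toNat x.1.2.2.2.2.toNat x.1.2.1
  | .inr x => a.cd (if x.2.1 then 4 else 3) (g1 a x.1.1) (g2 x.1.1) x.2.2.1 x.2.2.2 0 x.1.2

theorem shift (t : ℤ) (p d : ℕ) (ht : 0 ≤ t) (hp : 0 < p) :
    ((t + ((d : ℤ) - 1)) % (p : ℤ)).toNat = (t.toNat + p + d - 1) % p := by
  obtain ⟨n, rfl⟩ := Int.eq_ofNat_of_zero_le ht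
  have e : ((n : ℤ) + ((d : ℤ) - 1)) % (p : ℤ) = (((n + p + d - 1) % p : ℕ) : ℤ) := by
    rw [Int.natCast_mod, Nat.cast_sub (by omega), ← Int.add_emod_right]
    congr 1
    push_cast
    ring
  rw [e, Int.toNat_natCast, Int.toNat_natCast]

theorem mapDomain_sg {V V' : Type} (f : V → V') (v : V) :
    Finsupp.mapDomain f (sg v) = sg (f v) := Finsupp.mapDomain_single

theorem img_gadget (w : ℕ) (hw : 6 ≤ w) (γ : GI) (hγ : γ ∈ a.rs.Gd) (u : ℕ)
    (hu : u ≤ 4 * (a.b * a.b)) :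
    Dv a.sys1.E0 ∅ w (sub (fun v => sg (enc a v))
      (Finsupp.mapDomain Sum.inl (geq a.b a.rs.rd a.rs.out (γ, u)))) := by
  obtain ⟨r, l, i, t1, t2⟩ := γ
  obtain ⟨hr, hl, hi, hred⟩ := hγ
  change hact a.h r at hr
  change l < a.Lm at hl
  change i < a.k at hi
  have hp := p_pos a i
  have hp' : (0 : ℤ) < (a.p i : ℤ) := by exact_mod_cast hp
  have ht1 : t1 % (a.p i : ℤ) = t1 := congrArg Prod.fst hred
  have ht2 : t2 % (a.p i : ℤ) = t2 := congrArg Prod.snd hred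
  have a1 : 0 ≤ t1 := ht1 ▸ Int.emod_nonneg _ hp'.ne'
  have a2 : 0 ≤ t2 := ht2 ▸ Int.emod_nonneg _ hp'.ne'
  have b1 : t1.toNat < a.p i := by have := Int.emod_lt_of_pos t1 hp'; omega
  have b2 : t2.toNat < a.p i := by have := Int.emod_lt_of_pos t2 hp'; omega
  have hpk := p_le a hi.le
  have hr' : r < 81 * (a.s * a.s * a.s) := hr.1
  have hd := dv_cd a w (tag := 0) (f1 := r) (f2 := u) (f3 := i) (f4 := t1.toNat) (f5 := t2.toNat)
    (l := l) (by omega) (by unfold Par.Z; omega) (by unfold Par.Z; omega) (by unfold Par.Z; omega)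
    (by unfold Par.Z; omega) (by unfold Par.Z; omega) hl
  have hc : (0 : ℕ) = 0 ∧ hact a.h r ∧ u ≤ 4 * (a.b * a.b) ∧ i < a.k ∧ t1.toNat < a.p i ∧
      t2.toNat < a.p i := ⟨rfl, hr, hu, hi, b1, b2⟩
  simp only [Par.slotF, if_pos hc, if_true, one_ne_zero, if_false, OfNat.ofNat_ne_zero,
    OfNat.ofNat_ne_one] at hd
  rw [geq, Finsupp.mapDomain_add, Finsupp.mapDomain_add, map_add, map_add]
  refine key3 hw (dv_zero a w) ?_ ?_ ?_ hd
  · convert rl_ite (u = 0) _ using 1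
    dsimp only
    split_ifs
    · rw [Finsupp.mapDomain_zero, map_zero]
    · rw [mapDomain_sg, sub_sg]; rfl
  · left
    rw [mapDomain_sg, sub_sg]
    congr 1
    dsimp only [pend]
    split_ifs
    · rfl
    · simp only [RS.rd, enc, Par.rs, horn, shf, Prod.fst_add, Prod.snd_add]
      rw [shift _ _ _ a1 hp, shift _ _ _ a2 hp]
      rfl
  · convert rl_ite (u = 4 * (a.b * a.b)) _ using 1
    dsimp only
    split_ifs
    · rw [Finsupp.mapDomain_zero, map_zero]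
    · rw [mapDomain_sg, sub_sg]; rfl

theorem img_cell (w : ℕ) (hw : 6 ≤ w) (x : WI) (hx : a.rs.ok x) (i c : ℕ) (hi : i < a.k + 1)
    (hc : c < a.k + 1) :
    Dv a.sys1.E0 ∅ w (sub (fun v => sg (enc a v)) (gcell a.rs.pd (a.k + 1) x i c)) := by
  obtain ⟨o, l⟩ := x
  have hl : l < a.Lm := by
    rcases o with _ | ⟨σ, A⟩
    · exact hx
    · exact hx.2
  have ho : hini a.h a.y (g1 a o) (g2 o) ∨ (g1 a o = a.s ∧ g2 o = 0) := by
    rcases o with _ | ⟨σ, A⟩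
    · exact Or.inr ⟨rfl, rfl⟩
    · obtain ⟨j, rfl, hj⟩ := hx.1
      exact Or.inl hj
  have h1 : g1 a o < a.Z := by
    rcases ho with h | h
    · have : g1 a o < a.s := h.1
      unfold Par.Z; omega
    · unfold Par.Z; omega
  have h2 : g2 o < a.Z := by
    rcases ho with h | h
    · have : g2 o ≤ a.y.length := h.2.1
      unfold Par.Z; omega
    · unfold Par.Z; omega
  have hcond : (0 : ℕ) = 0 ∧ i ≤ a.k ∧ c ≤ a.k ∧
      (hini a.h a.y (g1 a o) (g2 o) ∨ (g1 a o = a.s ∧ g2 o = 0)) := ⟨rfl, by omega, by omega, ho⟩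
  have hd1 := dv_cd a w (tag := 1) (f5 := 0) (f3 := i) (f4 := c) (by omega) h1 h2
    (by unfold Par.Z; omega) (by unfold Par.Z; omega) (by unfold Par.Z; omega) hl
  have hd2 := dv_cd a w (tag := 2) (f5 := 0) (f3 := i) (f4 := c) (by omega) h1 h2
    (by unfold Par.Z; omega) (by unfold Par.Z; omega) (by unfold Par.Z; omega) hl
  simp only [Par.slotF, if_pos hcond, if_true, one_ne_zero, if_false, OfNat.ofNat_ne_zero,
    OfNat.ofNat_ne_one, false_and] at hd1 hd2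
  rw [gcell, map_add, map_add, map_add]
  refine key5 hw (dv_zero a w) ?_ ?_ ?_ ?_ hd1 hd2
  · convert rl_ite (i = 0) _ using 1
    split_ifs
    · rw [map_zero]
    · rw [sub_sg]; rfl
  · convert rl_ite' (i < a.k) _ using 1
    by_cases h : i < a.k
    · rw [if_pos (by omega), if_pos h, sub_sg]; rfl
    · rw [if_neg (by omega), if_neg h, map_zero]
  · by_cases h : c = 0
    · rw [if_pos h, if_pos h]
      rcases o with _ | ⟨σ, A⟩
      · rw [if_pos (show g1 a none = a.s from rfl)]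
        left
        simp only [RS.pd]
        by_cases h' : i < a.k
        · rw [if_pos h', if_pos (show i < a.rs.k from h'), mapDomain_sg, sub_sg]
          simp [enc, Par.rs]
        · rw [if_neg h', if_neg (show ¬ i < a.rs.k from h'), mapDomain_sg, sub_sg]
          rfl
      · obtain ⟨j, rfl, hj⟩ := hx.1
        have hσ : σ < a.s := hj.1
        rw [if_neg (show ¬ g1 a (some (σ, 0, (j : ℤ))) = a.s from hσ.ne)]
        convert rl_ite' (i < a.k) _ using 1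
        simp only [RS.pd]
        by_cases h' : i < a.k
        · rw [if_pos h', if_pos (show i < a.rs.k from h'), mapDomain_sg, sub_sg]
          simp only [enc, Par.rs, g1, g2, Int.zero_emod, Int.toNat_zero, Int.toNat_natCast,
            ← Int.natCast_mod]
        · rw [if_neg h', if_neg (show ¬ i < a.rs.k from h'), Finsupp.mapDomain_zero, map_zero]
    · rw [if_neg h, if_neg h]
      left
      rw [sub_sg]; rfl
  · convert rl_ite' (c < a.k) _ using 1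
    by_cases h : c < a.k
    · rw [if_pos (by omega), if_pos h, sub_sg]; rfl
    · rw [if_neg (by omega), if_neg h, map_zero]

end Sys1S

open Sys1S

theorem sys1SStmt_of (hL : LinBasicStmt) (_hP : ParStmt) : Sys1SStmt := by
  intro a w l hw _ hd
  have h := hL.2.2.1 ℕ _ a.sys1.E0 a.E1 ∅ ∅ w 1 (fun v => sg (enc a v))
    (fun v _ => ⟨{enc a v}, by simp, cov_sg (by simp)⟩) (fun v hv => hv.elim) ?_ _ hd
  · rw [one_mul, sub_sg] at h
    exact h
  · rw [one_mul]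
    rintro e (⟨f, ⟨γ, hγ, u, hu, rfl⟩, rfl⟩ | ⟨x, i, c, hx, hi, hc, rfl⟩)
    · exact img_gadget a w hw γ hγ u hu
    · exact img_cell a w hw x hx i c hi hc

end Crest.Agent.R290
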