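import Crest.Agent.R290.DefsL
import Crest.Agent.R290.Eval

/-!
Row 290: the explicit three-slot system is computable in polynomial time (`sysPTStmt_of`).
-/

set_option autoImplicit false

namespace Crest.Agent.R290

open Crest.Agent.PT

namespace SysPT

variable {α : Type} [Rp α]

/-- A polynomial-time family of parameters. -/
structure PP (a : α → Par) : Prop where
  h : PTime fun x => (a x).h
  y : PTime fun x => (a x).y
  k : PU fun x => (a x).k
  P : PU fun x => (a x).P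

theorem PP.comp {β : Type} [Rp β] {a : α → Par} (ha : PP a) {f : β → α} (hf : PTime f) :
    PP fun x => a (f x) :=
  ⟨ha.h.comp hf, ha.y.comp hf, ha.k.comp hf, ha.P.comp hf⟩

theorem pt_pside {b u : α → ℕ} (hb : PTime b) (hu : PTime u) :
    PTime fun x => pside (b x) (u x) := by
  unfold pside; fun_prop

theorem pt_trp {b u : α → ℕ} (hb : PTime b) (hu : PTime u) : PTime fun x => trp (b x) (u x) := by
  unfold trp; fun_prop

theorem pt_pidx {b u : α → ℕ} (hb : PTime b) (hu : PTime u) :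
    PTime fun x => pidx (b x) (u x) := by
  have h1 : PTime fun x => trp (b x) (u x - b x * b x) := pt_trp hb (by fun_prop)
  have h2 : PTime fun x => trp (b x) (u x - 3 * (b x * b x) - 1) := pt_trp hb (by fun_prop)
  unfold pidx; fun_prop

theorem pt_rPr {s r : α → ℕ} {c : α → Bool} (hs : PTime s) (hr : PTime r) (hc : PTime c) :
    PTime fun x => rPr (s x) (r x) (c x) := by
  unfold rPr; fun_prop

theorem pt_rSh {s r : α → ℕ} {c : α → Bool} (hs : PTime s) (hr : PTime r) (hc : PTime c) :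
    PTime fun x => rSh (s x) (r x) (c x) := by
  unfold rSh; fun_prop

theorem pu_rr {m : α → ℕ} (hm : PU m) : PU fun x => rr (m x) := by
  unfold rr; fun_prop

section
variable {a : α → Par}

theorem pu_p (hp : PrimeStmt) (ha : PP a) {i : α → ℕ} (hi : PU i) : PU fun x => (a x).p (i x) :=
  PU.comp (n := fun u : Un => Nat.nth Nat.Prime u.val) (f := fun x => ⟨(a x).P + i x⟩) hp
    (ha.P.add hi)

theorem pu_s (ha : PP a) : PU fun x => (a x).s := Eval.pu_hs ha.h

theorem pu_b (ha : PP a) : PU fun x => (a x).b := by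
  have h1 : PU fun x => rr (1200 * (a x).k + 24 * 1200) :=
    pu_rr (((PU.const _).mul ha.k).add (PU.const _))
  exact ((PU.const 2).mul (h1.add (PU.const _))).add (PU.const 1)

theorem pu_Z (hp : PrimeStmt) (ha : PP a) : PU fun x => (a x).Z := by
  have h1 := pu_s ha
  have h2 := pu_b ha
  have h3 := pu_p hp ha ha.k
  have h4 := ha.k
  have h5 := PU.length ha.y
  unfold Par.Z; fun_prop

theorem pu_A (hp : PrimeStmt) (ha : PP a) : PU fun x => (a x).A := by
  have h1 := pu_Z hp ha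
  have h2 := pu_b ha
  unfold Par.A; fun_prop

theorem pu_B' (hp : PrimeStmt) (ha : PP a) : PU fun x => (a x).B' := by
  have h1 := pu_A hp ha
  have h2 := pu_b ha
  unfold Par.B'; fun_prop

theorem pu_Lm (hp : PrimeStmt) (ha : PP a) : PU fun x => (a x).Lm := by
  have h1 := pu_B' hp ha
  have h2 := pu_b ha
  unfold Par.Lm; fun_prop

theorem pt_ln (hp : PrimeStmt) (ha : PP a) {num u : α → ℕ} (hn : PTime num) (hu : PTime u) :
    PTime fun x => (a x).ln (num x) (u x) := by
  have h1 := (pu_B' hp ha).ptime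
  unfold Par.ln; fun_prop

theorem pt_line (hp : PrimeStmt) (ha : PP a) {r l u : α → ℕ} {c : α → Bool} (hr : PTime r)
    (hl : PTime l) (hc : PTime c) (hu : PTime u) :
    PTime fun x => (a x).line (r x) (l x) (c x) (u x) := by
  have h1 := (pu_Lm hp ha).ptime
  exact pt_ln hp ha (num := fun x => (r x * (a x).Lm + l x) * 2 + (c x).toNat) (by fun_prop) hu

theorem pt_cd (hp : PrimeStmt) (ha : PP a) {t f1 f2 f3 f4 f5 l : α → ℕ} (ht : PTime t)
    (h1 : PTime f1) (h2 : PTime f2) (h3 : PTime f3) (h4 : PTime f4) (h5 : PTime f5)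
    (hl : PTime l) : PTime fun x => (a x).cd (t x) (f1 x) (f2 x) (f3 x) (f4 x) (f5 x) (l x) := by
  have e1 := (pu_Lm hp ha).ptime
  have e2 := (pu_Z hp ha).ptime
  unfold Par.cd; fun_prop

theorem pt_om (hp : PrimeStmt) (ha : PP a) {l : α → ℕ} (hl : PTime l) :
    PTime fun x => (a x).om (l x) :=
  pt_cd hp ha (PTime.const _) (PTime.const _) (PTime.const _) (PTime.const _) (PTime.const _)
    (PTime.const _) hl

theorem pt_rdN (hp : PrimeStmt) (ha : PP a) {g u : α → ℕ} {c : α → Bool} (hg : PTime g)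
    (hc : PTime c) (hu : PTime u) : PTime fun x => (a x).rdN (g x) (c x) (u x) :=
  pt_om hp ha (pt_ln hp ha (num := fun x => 2 * g x + (c x).toNat) (by fun_prop) hu)

end

open Classical in
/-- `slotF` with the modulus of row `f3` as a parameter. -/
noncomputable def slotG (a : Par) (pp tag f1 f2 f3 f4 f5 l j : ℕ) : ℕ :=
  if tag = 0 ∧ hact a.h f1 ∧ f2 ≤ 4 * (a.b * a.b) ∧ f3 < a.k ∧ f4 < pp ∧ f5 < pp then
    (if j = 0 then (if f2 = 0 then 0 else a.cd 1 f1 f2 f3 f4 f5 l)
     else if j = 1 then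
       (if f2 = 2 * (a.b * a.b) then a.cd 0 (rCn a.s f1) f3 f4 f5 0 l
        else a.cd 0 (rPr a.s f1 (pside a.b f2)) f3
          ((f4 + pp + rSh a.s f1 (pside a.b f2) / 3 - 1) % pp)
          ((f5 + pp + rSh a.s f1 (pside a.b f2) % 3 - 1) % pp) 0
          (a.line f1 l (pside a.b f2) (pidx a.b f2)))
     else (if f2 = 4 * (a.b * a.b) then 0 else a.cd 1 f1 (f2 + 1) f3 f4 f5 l))
  else if f5 = 0 ∧ f3 ≤ a.k ∧ f4 ≤ a.k ∧ (hini a.h a.y f1 f2 ∨ (f1 = a.s ∧ f2 = 0)) then
    (if tag = 1 then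
      (if j = 0 then (if f3 = 0 then 0 else a.cd 4 f1 f2 f3 f4 0 l)
       else if j = 1 then (if f3 < a.k then a.cd 4 f1 f2 (f3 + 1) f4 0 l else 0)
       else a.cd 5 f1 f2 f3 f4 0 l)
     else if tag = 2 then
      (if j = 0 then a.cd 5 f1 f2 f3 f4 0 l
       else if j = 1 then
        (if f4 = 0 then
          (if f1 = a.s then (if f3 < a.k then a.cd 0 0 f3 0 0 0 l else a.om l)
           else (if f3 < a.k then a.cd 0 f1 f3 0 (f2 % pp) 0 l else 0))
         else a.cd 3 f1 f2 f3 f4 0 l)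
       else (if f4 < a.k then a.cd 3 f1 f2 f3 (f4 + 1) 0 l else 0))
     else 0)
  else 0

theorem slotF_eq (a : Par) (tag f1 f2 f3 f4 f5 l j : ℕ) :
    a.slotF tag f1 f2 f3 f4 f5 l j = slotG a (a.p (min f3 a.k)) tag f1 f2 f3 f4 f5 l j := by
  by_cases h : f3 < a.k
  · rw [min_eq_left h.le]; rfl
  · simp only [Par.slotF, slotG, h, false_and, and_false, if_false]

section
variable {a : α → Par}

theorem pt_slotG (hp : PrimeStmt) (ha : PP a) {pp t f1 f2 f3 f4 f5 l j : α → ℕ} (hpp : PTime pp)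
    (ht : PTime t) (h1 : PTime f1) (h2 : PTime f2) (h3 : PTime f3) (h4 : PTime f4)
    (h5 : PTime f5) (hl : PTime l) (hj : PTime j) :
    PTime fun x => slotG (a x) (pp x) (t x) (f1 x) (f2 x) (f3 x) (f4 x) (f5 x) (l x) (j x) := by
  classical
  have hs := (pu_s ha).ptime
  have hb := (pu_b ha).ptime
  have hk := ha.k.ptime
  have c0 : PTime fun _ : α => (0 : ℕ) := PTime.const _
  have e1 := Eval.pt_hact ha.h h1
  have e2 := Eval.pt_hini ha.h ha.y h1 h2
  have e3 := pt_pside hb h2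
  have e4 := pt_rSh hs h1 e3
  have k1 := pt_cd hp ha (PTime.const 1) h1 h2 h3 h4 h5 hl
  have k2 := pt_cd hp ha c0 (Eval.pt_rCn hs h1) h3 h4 h5 c0 hl
  have k3 := pt_cd hp ha c0 (pt_rPr hs h1 e3) h3
    (f3 := fun x => (f4 x + pp x + rSh (a x).s (f1 x) (pside (a x).b (f2 x)) / 3 - 1) % pp x)
    (f4 := fun x => (f5 x + pp x + rSh (a x).s (f1 x) (pside (a x).b (f2 x)) % 3 - 1) % pp x)
    (by fun_prop) (by fun_prop) c0 (pt_line hp ha h1 hl e3 (pt_pidx hb h2))
  have k4 := pt_cd hp ha (PTime.const 1) h1 (h2.add (PTime.const 1)) h3 h4 h5 hl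
  have k5 := pt_cd hp ha (PTime.const 4) h1 h2 h3 h4 c0 hl
  have k6 := pt_cd hp ha (PTime.const 4) h1 h2 (h3.add (PTime.const 1)) h4 c0 hl
  have k7 := pt_cd hp ha (PTime.const 5) h1 h2 h3 h4 c0 hl
  have k8 := pt_cd hp ha c0 c0 h3 c0 c0 c0 hl
  have k9 := pt_om hp ha hl
  have k10 := pt_cd hp ha c0 h1 h3 c0 (h2.mod hpp) c0 hl
  have k11 := pt_cd hp ha (PTime.const 3) h1 h2 h3 h4 c0 hl
  have k12 := pt_cd hp ha (PTime.const 3) h1 h2 h3 (h4.add (PTime.const 1)) c0 hl
  unfold slotG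
  refine PTime.ite ((ht.eq c0).and (e1.and (by fun_prop)))
    (PTime.ite (by fun_prop) (PTime.ite (by fun_prop) c0 k1)
      (PTime.ite (by fun_prop) (PTime.ite (by fun_prop) k2 k3) (PTime.ite (by fun_prop) c0 k4)))
    (PTime.ite ((h5.eq c0).and ((h3.le hk).and ((h4.le hk).and (e2.or (by fun_prop)))))
      (PTime.ite (by fun_prop)
        (PTime.ite (by fun_prop) (PTime.ite (by fun_prop) c0 k5)
          (PTime.ite (by fun_prop) (PTime.ite (by fun_prop) k6 c0) k7))
        (PTime.ite (by fun_prop)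
          (PTime.ite (by fun_prop) k7
            (PTime.ite (by fun_prop)
              (PTime.ite (by fun_prop)
                (PTime.ite (by fun_prop) (PTime.ite (by fun_prop) k8 k9)
                  (PTime.ite (by fun_prop) k10 c0)) k11)
              (PTime.ite (by fun_prop) k12 c0))) c0)) c0)

theorem pt_slotF (hp : PrimeStmt) (ha : PP a) {t f1 f2 f3 f4 f5 l j : α → ℕ}
    (ht : PTime t) (h1 : PTime f1) (h2 : PTime f2) (h3 : PTime f3) (h4 : PTime f4)
    (h5 : PTime f5) (hl : PTime l) (hj : PTime j) :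
    PTime fun x => (a x).slotF (t x) (f1 x) (f2 x) (f3 x) (f4 x) (f5 x) (l x) (j x) :=
  (pt_slotG hp ha (pu_p hp ha (PU.min_right h3 ha.k)).ptime ht h1 h2 h3 h4 h5 hl hj).congr
    fun _ => slotF_eq _ _ _ _ _ _ _ _ _

theorem psys1 (hp : PrimeStmt) (ha : PP a) : PSys fun x => (a x).sys1 := by
  have h1 : PU fun x => 1 + (a x).Lm * (6 * (a x).Z ^ 5) :=
    (PU.const 1).add ((pu_Lm hp ha).mul ((PU.const 6).mul ((pu_Z hp ha).pow_const 5)))
  refine ⟨h1, h1, PTime.const 0, ?_⟩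
  have ha' : PP fun p : α × ℕ × ℕ => a p.1 := ha.comp PTime.fst'
  have e1 := (pu_Lm hp ha').ptime
  have e2 := (pu_Z hp ha').ptime
  exact PTime.ite (c := fun p : α × ℕ × ℕ => p.2.1 = 0) (by fun_prop) (PTime.const 0)
    (pt_slotF hp ha' (by fun_prop) (by fun_prop) (by fun_prop) (by fun_prop) (by fun_prop)
      (by fun_prop) (by fun_prop) (by fun_prop))

end

theorem psys_cover {S : α → Sys3} (hS : PSys S) {b : α → ℕ} (hb : PU b)
    {rd : α → ℕ → Bool → ℕ → ℕ}
    (hrd : PTime fun p : α × ℕ × Bool × ℕ => rd p.1 p.2.1 p.2.2.1 p.2.2.2) :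
    PSys fun x => cover (S x) (b x) (rd x) := by
  obtain ⟨h1, h2, -, h4⟩ := hS
  refine ⟨?_, ?_, ?_, ?_⟩
  · show PU fun x => (S x).nv + ((S x).nv + 1) * (4 * (b x * b x))
    fun_prop
  · show PU fun x => (S x).ne + ((S x).nv + 1) * (4 * (b x * b x) + 1)
    fun_prop
  · have := h1.ptime
    have := h2.ptime
    have := hb.ptime
    show PTime fun x => (S x).ne + (S x).nv * (4 * (b x * b x) + 1) + 2 * (b x * b x)
    fun_prop
  · have e1 : PTime fun p : α × ℕ × ℕ => (S p.1).nv := h1.ptime.comp PTime.fst'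
    have e2 : PTime fun p : α × ℕ × ℕ => (S p.1).ne := h2.ptime.comp PTime.fst'
    have e3 : PTime fun p : α × ℕ × ℕ => b p.1 := hb.ptime.comp PTime.fst'
    have e4 : PTime fun p : α × ℕ × ℕ => (p.2.1 - (S p.1).ne) % (4 * (b p.1 * b p.1) + 1) := by
      fun_prop
    have e5 : PTime fun p : α × ℕ × ℕ => (p.2.1 - (S p.1).ne) / (4 * (b p.1 * b p.1) + 1) := by
      fun_prop
    have e6 := hrd.comp (PTime.fst'.pair (e5.pair ((pt_pside e3 e4).pair (pt_pidx e3 e4))))
    have e7 : PTime fun p : α × ℕ × ℕ => pend (b p.1) (rd p.1)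
        (fun g => if g < (S p.1).nv then g else 0)
        ((p.2.1 - (S p.1).ne) / (4 * (b p.1 * b p.1) + 1))
        ((p.2.1 - (S p.1).ne) % (4 * (b p.1 * b p.1) + 1)) :=
      PTime.ite (by fun_prop) (PTime.ite (by fun_prop) e5 (PTime.const 0)) e6
    exact PTime.ite (c := fun p : α × ℕ × ℕ => p.2.1 < (S p.1).ne) (by fun_prop) h4
      (PTime.ite (by fun_prop) (by fun_prop) (PTime.ite (by fun_prop) e7 (by fun_prop)))

theorem psys3 (hp : PrimeStmt) {a : α → Par} (ha : PP a) : PSys fun x => (a x).sys3 :=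
  psys_cover (psys1 hp ha) (pu_b ha)
    (pt_rdN hp (ha.comp (β := α × ℕ × Bool × ℕ) PTime.fst') (by fun_prop) (by fun_prop)
      (by fun_prop))

end SysPT

theorem sysPTStmt_of (h : PrimeStmt) : SysPTStmt :=
  SysPT.psys3 h ⟨by fun_prop, by fun_prop, by fun_prop, by fun_prop⟩

end Crest.Agent.R290
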