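import Crest.Agent.R290.Defs

/-! Row 290: flattening a `FinTM2` into a simple stack machine. -/

set_option autoImplicit false

namespace Crest.Agent.R290

open Turing Turing.TM2

namespace TMSM

lemma exists_code {α : Type} {s : Set α} (hs : s.Finite) :
    ∃ (n : ℕ) (c : α → ℕ), (∀ a, c a < n) ∧ Set.InjOn c s := by
  classical
  refine ⟨hs.toFinset.toList.length + 1, fun a => hs.toFinset.toList.idxOf a,
    fun a => Nat.lt_succ_of_le List.idxOf_le_length, fun a ha b _ h => ?_⟩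
  exact (List.idxOf_inj (by simpa using ha)).1 h

/-- The data of the flattening. -/
structure Data (K : Type) (Γ : K → Type) (Λ σ : Type) where
  m : Λ → Stmt Γ Λ σ
  k₀ : K
  k₁ : K
  main : Λ
  init : σ
  inp : Bool → Γ k₀
  acc : Γ k₁
  Sub : Set (Stmt Γ Λ σ)
  Sym : Set (Σ k, Γ k)
  nS : ℕ
  nK : ℕ
  nA : ℕ
  cS : Option (Stmt Γ Λ σ × σ) → ℕ
  cK : K → ℕ
  cA : (Σ k, Γ k) → ℕ
  ltS : ∀ x, cS x < nS
  ltK : ∀ x, cK x < nK
  ltA : ∀ x, cA x < nA
  injS : Set.InjOn cS {x | ∀ p ∈ x, p.1 ∈ Sub}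
  injK : Function.Injective cK
  injA : Set.InjOn cA Sym
  subM : ∀ l, m l ∈ Sub
  sub : ∀ q ∈ Sub, ∀ q' ∈ stmts₁ q, q' ∈ Sub
  symP : ∀ k f q v, Stmt.push k f q ∈ Sub → (⟨k, f v⟩ : Σ k, Γ k) ∈ Sym
  symI : ∀ b, (⟨k₀, inp b⟩ : Σ k, Γ k) ∈ Sym

variable {K : Type} {Γ : K → Type} {Λ σ : Type}

/-- Number of micro steps of a statement. -/
def size : Stmt Γ Λ σ → ℕ
  | Stmt.push _ _ q => size q + 1
  | Stmt.peek _ _ q => size q + 1
  | Stmt.pop _ _ q => size q + 1
  | Stmt.load _ q => size q + 1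
  | Stmt.branch _ q₁ q₂ => max (size q₁) (size q₂) + 1
  | Stmt.goto _ => 1
  | Stmt.halt => 1

namespace Data

variable (D : Data K Γ Λ σ)

/-- Code of a symbol. -/
def code (k : K) (a : Γ k) : ℕ := D.cA ⟨k, a⟩ + 1

open Classical in
/-- Decoding of a symbol. -/
noncomputable def dec (k : K) (n : ℕ) : Option (Γ k) :=
  if h : ∃ a, (⟨k, a⟩ : Σ k, Γ k) ∈ D.Sym ∧ D.code k a = n then some h.choose else none

lemma dec_zero (k : K) : D.dec k 0 = none := dif_neg fun ⟨_, _, h⟩ => by simp [code] at h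

lemma dec_code {k : K} {a : Γ k} (ha : (⟨k, a⟩ : Σ k, Γ k) ∈ D.Sym) :
    D.dec k (D.code k a) = some a := by
  have h : ∃ a', (⟨k, a'⟩ : Σ k, Γ k) ∈ D.Sym ∧ D.code k a' = D.code k a := ⟨a, ha, rfl⟩
  rw [dec, dif_pos h]
  have h1 := D.injA h.choose_spec.1 ha (Nat.succ_injective h.choose_spec.2)
  exact congrArg some (eq_of_heq (Sigma.mk.inj h1).2)

/-- Code of a state. -/
def sc (x : Option (Stmt Γ Λ σ × σ)) : ℕ := D.cS x + 2

open Classical in
/-- Decoding of a state. -/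
noncomputable def sd (n : ℕ) : Option (Stmt Γ Λ σ × σ) :=
  if h : ∃ x, (∀ p ∈ x, p.1 ∈ D.Sub) ∧ D.sc x = n then h.choose else none

lemma sd_sc {x : Option (Stmt Γ Λ σ × σ)} (hx : ∀ p ∈ x, p.1 ∈ D.Sub) : D.sd (D.sc x) = x := by
  have h : ∃ x', (∀ p ∈ x', p.1 ∈ D.Sub) ∧ D.sc x' = D.sc x := ⟨x, hx, rfl⟩
  rw [sd, dif_pos h]
  exact D.injS h.choose_spec.1 hx (by simpa [sc] using h.choose_spec.2)

/-- The stack read in a state. -/
def stkA : Option (Stmt Γ Λ σ × σ) → K
  | some (Stmt.push k _ _, _) => k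
  | some (Stmt.peek k _ _, _) => k
  | some (Stmt.pop k _ _, _) => k
  | _ => D.k₁

/-- The stack operation of a state. -/
def opA : Option (Stmt Γ Λ σ × σ) → ℕ
  | some (Stmt.push k f _, v) => D.code k (f v) + 1
  | some (Stmt.pop _ _ _, _) => 1
  | _ => 0

open Classical in
/-- The next state. -/
noncomputable def nxA : Option (Stmt Γ Λ σ × σ) → ℕ → ℕ
  | some (Stmt.push _ _ q, v), _ => D.sc (some (q, v))
  | some (Stmt.peek k f q, v), a => D.sc (some (q, f v (D.dec k a)))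
  | some (Stmt.pop k f q, v), a => D.sc (some (q, f v (D.dec k a)))
  | some (Stmt.load f q, v), _ => D.sc (some (q, f v))
  | some (Stmt.branch f q₁ q₂, v), _ => D.sc (some (cond (f v) q₁ q₂, v))
  | some (Stmt.goto f, v), _ => D.sc (some (D.m (f v), v))
  | some (Stmt.halt, _), _ => D.sc none
  | none, a => if D.dec D.k₁ a = some D.acc then 0 else 1

/-- The stack machine. -/
noncomputable def sm : SM where
  nS := D.nS + 2
  nK := D.nK
  nA := D.nA + 1
  stk q := D.cK (D.stkA (D.sd q))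
  op q := D.opA (D.sd q)
  nx q a := D.nxA (D.sd q) a
  start := D.sc (some (D.m D.main, D.init))
  k0 := D.cK D.k₀
  sym b := D.code D.k₀ (D.inp b)

lemma sc_lt (x : Option (Stmt Γ Λ σ × σ)) : D.sc x < D.nS + 2 := by
  have := D.ltS x
  simp only [sc]; omega

lemma code_lt (k : K) (a : Γ k) : D.code k a < D.nA + 1 := by
  have := D.ltA ⟨k, a⟩
  simp only [code]; omega

lemma wf : D.sm.WF where
  two := Nat.le_add_left _ _
  start := D.sc_lt _
  k0 := D.ltK _
  stk _ _ := D.ltK _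
  op q _ := by
    show D.opA (D.sd q) ≤ D.nA + 1
    rcases D.sd q with _ | ⟨_ | _ | _ | _ | _ | _ | _, v⟩ <;> simp only [opA] <;>
      first | omega | exact D.code_lt _ _
  nx q _ a _ := by
    show D.nxA (D.sd q) a < D.nS + 2
    rcases D.sd q with _ | ⟨_ | _ | _ | _ | _ | _ | _, v⟩ <;> simp only [nxA] <;>
      first | exact D.sc_lt _ | (split_ifs <;> omega)
  sym b := ⟨Nat.le_add_left _ _, D.code_lt _ _⟩

/-- The numeric stacks code the stacks of the machine. -/
def Rel (S : ∀ k, List (Γ k)) (T : ℕ → List ℕ) : Prop :=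
  ∀ k, T (D.cK k) = (S k).map (D.code k) ∧ ∀ a ∈ S k, (⟨k, a⟩ : Σ k, Γ k) ∈ D.Sym

variable {D}

lemma Rel.dec_head {S : ∀ k, List (Γ k)} {T : ℕ → List ℕ} (h : D.Rel S T) (k : K) :
    D.dec k ((T (D.cK k)).headD 0) = (S k).head? := by
  obtain ⟨h1, h2⟩ := h k
  rw [h1]
  cases hS : S k with
  | nil => exact D.dec_zero k
  | cons a l => exact D.dec_code (h2 a (by simp [hS]))

lemma Rel.update [DecidableEq K] {S : ∀ k, List (Γ k)} {T : ℕ → List ℕ} (h : D.Rel S T) (k : K)
    {l : List (Γ k)} (hl : ∀ a ∈ l, (⟨k, a⟩ : Σ k, Γ k) ∈ D.Sym) :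
    D.Rel (Function.update S k l) (Function.update T (D.cK k) (l.map (D.code k))) := by
  intro k'
  by_cases hk : k' = k
  · subst hk
    simpa using hl
  · rw [Function.update_of_ne hk, Function.update_of_ne (D.injK.ne hk)]
    exact h k'

lemma step_sc {x : Option (Stmt Γ Λ σ × σ)} (hx : ∀ p ∈ x, p.1 ∈ D.Sub) (T : ℕ → List ℕ) :
    D.sm.step (D.sc x, T) = (D.nxA x ((T (D.cK (D.stkA x))).headD 0),
      Function.update T (D.cK (D.stkA x))
        (if D.opA x = 0 then T (D.cK (D.stkA x))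
         else if D.opA x = 1 then (T (D.cK (D.stkA x))).tail
         else (D.opA x - 1) :: T (D.cK (D.stkA x)))) := by
  rw [SM.step, if_neg (by simp [sc])]
  simp only [sm, D.sd_sc hx]

variable (D) in
/-- The micro state of a configuration. -/
def lab (c : Cfg Γ Λ σ) : Option (Stmt Γ Λ σ × σ) := c.l.map fun l => (D.m l, c.var)

lemma sim_aux [DecidableEq K] (q : Stmt Γ Λ σ) : q ∈ D.Sub → ∀ (v : σ) (S : ∀ k, List (Γ k))
    (T : ℕ → List ℕ), D.Rel S T → ∃ t ≤ size q, ∃ T',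
      D.sm.step^[t] (D.sc (some (q, v)), T) = (D.sc (D.lab (stepAux q v S)), T') ∧
        D.Rel (stepAux q v S).stk T' := by
  classical
  induction q with
  | push k f q ih =>
    intro hq v S T h
    have hq' : q ∈ D.Sub := D.sub _ hq _ (by simp [stmts₁, stmts₁_self])
    have h' := h.update k (l := f v :: S k) (by
      intro a ha
      rcases List.mem_cons.1 ha with rfl | ha
      exacts [D.symP k f q v hq, (h k).2 a ha])
    obtain ⟨t, ht, T', h1, h2⟩ := ih hq' v _ _ h'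
    refine ⟨t + 1, by simp [size, ht], T', ?_, h2⟩
    rw [Function.iterate_succ_apply, step_sc (by simpa using hq), stepAux, ← h1]
    simp [nxA, opA, stkA, code, (h k).1]
  | peek k f q ih =>
    intro hq v S T h
    have hq' : q ∈ D.Sub := D.sub _ hq _ (by simp [stmts₁, stmts₁_self])
    obtain ⟨t, ht, T', h1, h2⟩ := ih hq' (f v (S k).head?) _ _ h
    refine ⟨t + 1, by simp [size, ht], T', ?_, h2⟩
    rw [Function.iterate_succ_apply, step_sc (by simpa using hq), stepAux, ← h1]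
    simp only [nxA, opA, stkA, h.dec_head, if_true, Function.update_eq_self]
  | pop k f q ih =>
    intro hq v S T h
    have hq' : q ∈ D.Sub := D.sub _ hq _ (by simp [stmts₁, stmts₁_self])
    have h' := h.update k (l := (S k).tail) fun a ha => (h k).2 a (List.mem_of_mem_tail ha)
    obtain ⟨t, ht, T', h1, h2⟩ := ih hq' (f v (S k).head?) _ _ h'
    refine ⟨t + 1, by simp [size, ht], T', ?_, h2⟩
    rw [Function.iterate_succ_apply, step_sc (by simpa using hq), stepAux, ← h1]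
    simp only [nxA, opA, stkA, h.dec_head]
    simp [(h k).1]
  | load f q ih =>
    intro hq v S T h
    have hq' : q ∈ D.Sub := D.sub _ hq _ (by simp [stmts₁, stmts₁_self])
    obtain ⟨t, ht, T', h1, h2⟩ := ih hq' (f v) _ _ h
    refine ⟨t + 1, by simp [size, ht], T', ?_, h2⟩
    rw [Function.iterate_succ_apply, step_sc (by simpa using hq), stepAux, ← h1]
    simp only [nxA, opA, stkA, if_true, Function.update_eq_self]
  | branch f q₁ q₂ ih₁ ih₂ =>
    intro hq v S T h
    have hq₁ : q₁ ∈ D.Sub := D.sub _ hq _ (by simp [stmts₁, stmts₁_self])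
    have hq₂ : q₂ ∈ D.Sub := D.sub _ hq _ (by simp [stmts₁, stmts₁_self])
    rw [stepAux]
    cases hf : f v
    · obtain ⟨t, ht, T', h1, h2⟩ := ih₂ hq₂ v _ _ h
      refine ⟨t + 1, by simp [size, ht], T', ?_, h2⟩
      rw [Function.iterate_succ_apply, step_sc (by simpa using hq), cond_false, ← h1]
      simp only [nxA, opA, stkA, if_true, Function.update_eq_self, hf, cond_false]
    · obtain ⟨t, ht, T', h1, h2⟩ := ih₁ hq₁ v _ _ h
      refine ⟨t + 1, by simp [size, ht], T', ?_, h2⟩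
      rw [Function.iterate_succ_apply, step_sc (by simpa using hq), cond_true, ← h1]
      simp only [nxA, opA, stkA, if_true, Function.update_eq_self, hf, cond_true]
  | goto f =>
    intro hq v S T h
    refine ⟨1, le_rfl, T, ?_, h⟩
    rw [Function.iterate_one, step_sc (by simpa using hq)]
    simp only [nxA, opA, stkA, if_true, Function.update_eq_self]
    rfl
  | halt =>
    intro hq v S T h
    refine ⟨1, le_rfl, T, ?_, h⟩
    rw [Function.iterate_one, step_sc (by simpa using hq)]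
    simp only [nxA, opA, stkA, if_true, Function.update_eq_self]
    rfl

lemma iter_none {α : Type} (f : α → Option α) (n : ℕ) : (flip bind f)^[n] none = none :=
  Function.iterate_fixed rfl n

lemma sim [DecidableEq K] {B : ℕ} (hB : ∀ l, size (D.m l) ≤ B) (n : ℕ) :
    ∀ (c c' : Cfg Γ Λ σ) (T : ℕ → List ℕ), (flip bind (step D.m))^[n] (some c) = some c' →
      D.Rel c.stk T → ∃ t ≤ B * n, ∃ T',
        D.sm.step^[t] (D.sc (D.lab c), T) = (D.sc (D.lab c'), T') ∧ D.Rel c'.stk T' := by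
  induction n with
  | zero =>
    intro c c' T h hr
    obtain rfl : c = c' := Option.some.inj h
    exact ⟨0, le_rfl, T, rfl, hr⟩
  | succ n ih =>
    rintro ⟨_ | l, v, S⟩ c' T h hr
    · rw [Function.iterate_succ_apply] at h
      exact absurd ((iter_none _ n).symm.trans h) (by simp)
    · rw [Function.iterate_succ_apply] at h
      obtain ⟨t, ht, T', h1, h2⟩ := sim_aux (D.m l) (D.subM l) v S T hr
      obtain ⟨t', ht', T'', h3, h4⟩ := ih _ c' T' h h2
      refine ⟨t' + t, by have := hB l; rw [Nat.mul_succ]; omega, T'', ?_, h4⟩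
      rw [Function.iterate_add_apply, ← h3, ← h1]
      rfl

end Data

/-- The symbol pushed by a statement. -/
def pv (d : Σ k, Γ k) : Stmt Γ Λ σ × σ → Σ k, Γ k
  | (Stmt.push k f _, v) => ⟨k, f v⟩
  | _ => d

lemma main [DecidableEq K] [Finite K] [Finite Λ] [Finite σ] (m : Λ → Stmt Γ Λ σ) (k₀ k₁ : K)
    (main : Λ) (init : σ) (inp : Bool → Γ k₀) (acc : Γ k₁) :
    ∃ (N : SM) (c : ℕ), N.WF ∧ ∀ (y : List Bool) (S : ∀ k, List (Γ k)) (c' : Cfg Γ Λ σ) (n : ℕ)
      (o : Γ k₁), S k₀ = y.map inp → (∀ k, k ≠ k₀ → S k = []) →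
      (flip bind (step m))^[n] (some ⟨some main, init, S⟩) = some c' → c'.l = none →
      c'.stk k₁ = [o] → ∃ t ≤ c * (n + 1),
        ((N.run y t).1 = 0 ∧ o = acc) ∨ ((N.run y t).1 = 1 ∧ o ≠ acc) := by
  classical
  let Sub : Set (Stmt Γ Λ σ) := ⋃ l, (stmts₁ (m l) : Set (Stmt Γ Λ σ))
  have hSub : Sub.Finite := Set.finite_iUnion fun l => Finset.finite_toSet _
  let Sym : Set (Σ k, Γ k) := (Set.range fun b => (⟨k₀, inp b⟩ : Σ k, Γ k)) ∪
    pv ⟨k₀, inp false⟩ '' (Sub ×ˢ (Set.univ : Set σ))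
  have hSym : Sym.Finite :=
    (Set.finite_range _).union ((hSub.prod Set.finite_univ).image _)
  have hSt : {x : Option (Stmt Γ Λ σ × σ) | ∀ p ∈ x, p.1 ∈ Sub}.Finite := by
    refine (((hSub.prod (Set.finite_univ (α := σ))).image some).insert none).subset ?_
    rintro (_ | p) hx
    · exact Or.inl rfl
    · exact Or.inr ⟨p, ⟨hx p rfl, trivial⟩, rfl⟩
  obtain ⟨nS, cS, ltS, injS⟩ := exists_code hSt
  obtain ⟨nK, cK, ltK, injK⟩ := exists_code (Set.finite_univ (α := K))
  obtain ⟨nA, cA, ltA, injA⟩ := exists_code hSym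
  let D : Data K Γ Λ σ :=
    { m := m, k₀ := k₀, k₁ := k₁, main := main, init := init, inp := inp, acc := acc
      Sub := Sub, Sym := Sym, nS := nS, nK := nK, nA := nA, cS := cS, cK := cK, cA := cA
      ltS := ltS, ltK := ltK, ltA := ltA, injS := injS
      injK := Set.injOn_univ.1 injK
      injA := injA
      subM := fun l => Set.mem_iUnion.2 ⟨l, stmts₁_self⟩
      sub := fun q hq q' hq' => by
        obtain ⟨l, hl⟩ := Set.mem_iUnion.1 hq
        exact Set.mem_iUnion.2 ⟨l, stmts₁_trans hl hq'⟩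
      symP := fun k f q v h => Or.inr ⟨(Stmt.push k f q, v), ⟨h, trivial⟩, rfl⟩
      symI := fun b => Or.inl ⟨b, rfl⟩ }
  obtain ⟨B, hB⟩ := (Set.finite_range fun l => size (m l)).bddAbove
  refine ⟨D.sm, B + 1, D.wf, fun y S c' n o h0 h1 h hl ho => ?_⟩
  have hR : D.Rel S (Function.update (fun _ => []) D.sm.k0 (y.map D.sm.sym)) := by
    intro k
    by_cases hk : k = k₀
    · subst hk
      refine ⟨?_, fun a ha => ?_⟩
      · rw [h0, List.map_map]
        exact Function.update_self ..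
      · rw [h0] at ha
        obtain ⟨b, -, rfl⟩ := List.mem_map.1 ha
        exact D.symI b
    · rw [h1 k hk]
      exact ⟨Function.update_of_ne (D.injK.ne hk) .., by simp⟩
  obtain ⟨t, ht, T', h2, h3⟩ :=
    Data.sim (D := D) (B := B) (fun l => hB ⟨l, rfl⟩) n ⟨some main, init, S⟩ c' _ h hR
  refine ⟨t + 1, by nlinarith, ?_⟩
  have h4 : D.lab c' = none := by simp [Data.lab, hl]
  have h5 : D.sm.run y (t + 1) = D.sm.step (D.sc none, T') := by
    rw [SM.run, Function.iterate_succ_apply', ← h4, ← h2]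
    rfl
  have h6 : D.dec k₁ ((T' (D.cK k₁)).headD 0) = some o := by
    rw [h3.dec_head, ho]; rfl
  rw [h5, Data.step_sc (by simp)]
  simp only [Data.nxA, Data.stkA]
  erw [h6]
  by_cases hoa : o = acc
  · exact Or.inl ⟨if_pos (congrArg some hoa), hoa⟩
  · exact Or.inr ⟨if_neg fun h => hoa (Option.some.inj h), hoa⟩

end TMSM

theorem tmsmStmt : TMSMStmt := by
  intro M pol
  letI := M.tm.kFin
  letI := M.tm.ΛFin
  letI := M.tm.σFin
  obtain ⟨N, c, hN, h⟩ := TMSM.main M.tm.m M.tm.k₀ M.tm.k₁ M.tm.main M.tm.initialState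
    M.inputAlphabet.invFun (M.outputAlphabet.invFun pol)
  refine ⟨N, c, hN, ?_⟩
  rintro y b t ⟨H⟩
  obtain ⟨t', ht', h'⟩ := h y (initList M.tm (y.map M.inputAlphabet.invFun)).stk
    (haltList M.tm ([b].map M.outputAlphabet.invFun)) H.steps (M.outputAlphabet.invFun b)
    (by simp [initList]) (fun k hk => by simp [initList, hk]) H.evals_in_steps rfl
    (by simp [haltList])
  refine ⟨t', ht'.trans (Nat.mul_le_mul_left _ (Nat.succ_le_succ H.steps_le_m)), ?_⟩
  rcases h' with ⟨h1, h2⟩ | ⟨h1, h2⟩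
  · rw [h1, if_pos (M.outputAlphabet.symm.injective h2)]
  · rw [h1, if_neg fun hb => h2 (by rw [hb])]

end Crest.Agent.R290
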