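import Crest.Agent.R290.Asm
import Crest.Agent.R290.Fin
import Crest.Agent.R290.Base
import Crest.Agent.R290.CRAlg
import Crest.Agent.R290.Col
import Crest.Agent.R290.Core
import Crest.Agent.R290.CoverD
import Crest.Agent.R290.CoverS
import Crest.Agent.R290.Par
import Crest.Agent.R290.Dec
import Crest.Agent.R290.Diag
import Crest.Agent.R290.EBF
import Crest.Agent.R290.Eval
import Crest.Agent.R290.Exp
import Crest.Agent.R290.GameB
import Crest.Agent.R290.GraphBG
import Crest.Agent.R290.GraphPT
import Crest.Agent.R290.GraphSp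
import Crest.Agent.R290.GridD
import Crest.Agent.R290.Hard
import Crest.Agent.R290.JAlg
import Crest.Agent.R290.Lift
import Crest.Agent.R290.Lin
import Crest.Agent.R290.MatAlg
import Crest.Agent.R290.Mem
import Crest.Agent.R290.Pad
import Crest.Agent.R290.Ram
import Crest.Agent.R290.Real
import Crest.Agent.R290.RowB
import Crest.Agent.R290.RowSp
import Crest.Agent.R290.SMH
import Crest.Agent.R290.Sys1D
import Crest.Agent.R290.Sys1S
import Crest.Agent.R290.SysPT
import Crest.Agent.R290.TMSM
import Crest.Agent.R290.Virt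

/-! Row 290: all interfaces discharged. -/

set_option autoImplicit false

namespace Crest.Agent.R290

theorem hornStmt : HornStmt := hornStmt_of tmsmStmt smHornStmt

theorem coreStmt : CoreStmt :=
  coreStmt_of expStmt rowBasicStmt goodRowStmt (liftStmt_of rowBasicStmt) (virtStmt_of bdryStmt)

theorem linStmt : LinStmt :=
  linStmt_of linBasicStmt coreStmt (rowSpStmt_of linBasicStmt rowBasicStmt)
    (gridDStmt_of linBasicStmt) (gridSStmt_of linBasicStmt)
    (coverDStmt_of linBasicStmt bdryStmt expStmt) (coverSStmt_of linBasicStmt) parStmt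
    (sys1DStmt_of linBasicStmt) (sys1SStmt_of linBasicStmt parStmt)

theorem redStmt : RedStmt :=
  redStmt_of linStmt (sysPTStmt_of primeStmt) graphPTStmt decStmt graphBasicStmt
    (graphBGStmt_of linBasicStmt) (graphSpStmt_of baseStmt (wireStmt_of baseStmt)) gameBasicStmt

theorem diagStmt : DiagStmt := diagStmt_of redStmt hornStmt padStmt gameBasicStmt apexStmt

theorem mem1Stmt : Mem1Stmt :=
  mem1Stmt_of inExpStmt jAlgStmt crAlgStmt matAlgStmt parseStmt gameBasicStmt bgEquivStmt equivBFStmt
theorem mem2Stmt : Mem2Stmt :=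
  mem2Stmt_of inExpStmt jAlgStmt crAlgStmt matAlgStmt parseStmt gameBasicStmt bgEquivStmt equivBFStmt
theorem mem3Stmt : Mem3Stmt :=
  mem3Stmt_of inExpStmt jAlgStmt crAlgStmt matAlgStmt parseStmt gameBasicStmt bgEquivStmt equivBFStmt
theorem hard1Stmt : Hard1Stmt :=
  hard1Stmt_of redStmt hornStmt gameBasicStmt bgEquivStmt equivBFStmt parseStmt
theorem hard2Stmt : Hard2Stmt :=
  hard2Stmt_of redStmt hornStmt gameBasicStmt bgEquivStmt equivBFStmt parseStmt
theorem hard3Stmt : Hard3Stmt :=
  hard3Stmt_of redStmt hornStmt gameBasicStmt bgEquivStmt equivBFStmt parseStmt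

end Crest.Agent.R290
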