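import Crest.Agent.R290.DefsG

/-! Row 290: assembly of the linear theorem and of the reduction. -/

set_option autoImplicit false

namespace Crest.Agent.R290

open Crest.WLRefine Crest.Agent.PT

namespace Asm

theorem rr_mono {a b : ℕ} (h : a ≤ b) : rr a ≤ rr b := by
  unfold rr
  have := Nat.pow_le_pow_left h 2
  omega

theorem pd_card (R : RS) (w : WI) (i : ℕ) : (R.pd w i).support.card ≤ 1 := by
  have hs : ∀ v : V0, (sg v).support.card ≤ 1 := fun v =>
    (Finset.card_le_card Finsupp.support_single_subset).trans (by simp)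
  rcases w with ⟨_ | ⟨σ, A⟩, l⟩
  · simp only [RS.pd]; split_ifs <;> exact hs _
  · simp only [RS.pd]; split_ifs
    · exact hs _
    · simp

end Asm

open Asm in
theorem linStmt_of (hL : LinBasicStmt) (hC : CoreStmt) (hR : RowSpStmt) (hGD : GridDStmt)
    (hGS : GridSStmt) (hCD : CoverDStmt) (hCS : CoverSStmt) (hP : ParStmt) (hD : Sys1DStmt)
    (hS : Sys1SStmt) : LinStmt := by
  intro a
  obtain ⟨hGood, hLines, hln, hom, hWF, hZ⟩ := hP a
  have hb : 1 ≤ a.b := by unfold Par.b bOf; omega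
  have hrd : ∀ g ≤ a.sys1.nv, ∀ s u, u < a.b * a.b → a.rdN g s u < a.sys1.nv :=
    fun g hg s u hu => hom _ (hln g hg s u hu)
  obtain ⟨h1, h2, h3⟩ := hCS a.sys1 a.b a.rdN hWF hZ hb hrd
  refine ⟨h1, h2, fun ρ B hρ hk hB hBox => ⟨fun hG => ?_, fun hG => ?_⟩⟩
  · have hk1 : 1 ≤ a.k := by omega
    refine h3 (3 * a.k + 5) (by omega) fun g hg s u hu => ?_
    have hl := hln g hg s u hu
    refine hS a _ _ (by omega) hl ?_
    have e1 := hR a.rs _ ρ (hGood _ ρ hB) hk1 hG _ hl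
    have e2 := hL.1 _ _ _ _ _ _ (3 * a.k + 5) _ subset_rfl subset_rfl (by
      show 3 * a.k ≤ 3 * a.k + 5
      omega) e1
    have e3 := hGS _ _ a.rs.En a.rs.ok a.rs.pd (a.k + 1) (3 * a.k + 5) _ (pd_card a.rs)
      (by omega) e2
    simpa [sg, Finsupp.mapDomain_single, Par.E1] using e3
  · have hk1 : 1 ≤ a.k := by omega
    have e1 := hC a.rs 1200 B ρ (by norm_num) (hGood _ ρ hB) hBox hG hk le_rfl
    have e2 := hGD _ _ a.rs.En a.rs.ok a.rs.pd (a.k + 1) omW (240 * a.k) (6 * 1200) (by omega)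
      (pd_card a.rs) (by
        have : 5 * (240 * a.k) = 1200 * a.rs.k := by show _ = 1200 * a.k; omega
        rw [this]; exact e1)
    have e3 := hD a (120 * a.k) (6 * 1200 + 240 * a.k) (by
      have : 2 * (120 * a.k) = 240 * a.k := by omega
      rw [this]; exact e2)
    refine hCD a.sys1 a.b a.rdN a.omSet (30 * a.k) (6 * 1200 + 240 * a.k) hWF hZ hLines
      (fun g hg s u hu => ⟨⟨_, hln g hg s u hu, rfl⟩, hrd g hg s u hu⟩) (by
        have : 4 * (30 * a.k) = 120 * a.k := by omega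
        rw [this]; exact e3) ?_
    have := rr_mono (a := 6 * (30 * a.k) + (6 * 1200 + 240 * a.k) + 1)
      (b := 1200 * a.k + 24 * 1200) (by omega)
    unfold Par.b bOf
    omega

theorem redStmt_of (hL : LinStmt) (hS : SysPTStmt) (hP : GraphPTStmt) (hD : DecStmt)
    (hB : GraphBasicStmt) (hBG : GraphBGStmt) (hSp : GraphSpStmt) (hG : GameBasicStmt) :
    RedStmt := by
  let S : Word × Word × Un × Un → Sys3 :=
    fun x => (Par.mk x.1 x.2.1 x.2.2.1.val x.2.2.2.val).sys3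
  have hS' : PSys fun x : (Word × Word × Un × Un) × Un => S x.1 := by
    obtain ⟨h1, h2, h3, h4⟩ := hS
    refine ⟨h1.comp PTime.fst', h2.comp PTime.fst', h3.comp PTime.fst', ?_⟩
    exact h4.comp (f := fun p : ((Word × Word × Un × Un) × Un) × ℕ × ℕ => (p.1.1, p.2))
      (by fun_prop)
  refine ⟨fun x => (S x).size, fun x n tw => (S x).gr n tw, M0 1200, 104 * 1200 + 6,
    (hP _ S (fun _ => 0) false hS (PU.const 0)).1,
    fun tw => (hP _ _ (fun x => x.2.val) tw hS' (by fun_prop)).2.1,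
    fun tw => (hP _ _ (fun x => x.2.val) tw hS' (by fun_prop)).2.2, ?_⟩
  intro h y k P n hn
  set a : Par := Par.mk h y k P with ha
  have hn' : a.sys3.size ≤ n := hn
  obtain ⟨hWF, ⟨w0, hw0⟩, hmain⟩ := hL a
  obtain ⟨e, he⟩ := hD a.sys3 n hn'
  have hgr : ∀ tw, a.sys3.gr n tw = fun v w => a.sys3.grV n tw (e v) (e w) := by
    intro tw; funext v w; simp [Sys3.gr, Sys3.grV, he]
  have htr := fun κ tw tw' => hG.2.1 κ _ _ _ _ (a.sys3.grV n tw) (a.sys3.grV n tw') e e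
  refine ⟨?_, fun tw => hB a.sys3 n tw hWF hn', ?_, fun ρ B hρ hk hBR hBox => ⟨fun hg => ?_,
    fun hg => ?_⟩⟩
  · have := hWF.2.1
    unfold Sys3.size at hn'
    omega
  · intro hiso
    have h1 : BG (w0 + 4) (a.sys3.gr n false) (a.sys3.gr n true) :=
      (hG.2.2 (w0 + 4) n n _ _).1 hiso
    have h2 := (hG.1 (w0 + 4) (w0 + 4) _ _ _ _ le_rfl).2.2 h1
    rw [hgr, hgr] at h2
    exact (hSp a.sys3 n (w0 + 4) w0 hWF hn' le_rfl).1 hw0 ((htr _ false true).2.1.2 h2)
  · obtain ⟨d1, d2⟩ := (hmain ρ B hρ hk hBR hBox).1 hg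
    obtain ⟨s1, s2⟩ := hSp a.sys3 n (3 * k + 9) (3 * k + 5) hWF hn' (by omega)
    show ¬ BF _ (a.sys3.gr n false) (a.sys3.gr n true) ∧ Rigid _ (a.sys3.gr n false)
    rw [hgr, hgr]
    exact ⟨fun h2 => s1 d1 ((htr _ false true).2.1.2 h2), (htr _ false true).2.2.1 (s2 d2)⟩
  · have d := (hmain ρ B hρ hk hBR hBox).2 hg
    show BG _ (a.sys3.gr n false) (a.sys3.gr n true)
    rw [hgr, hgr]
    exact (htr _ false true).1.1 (hBG a.sys3 n (10 * k) (30 * k) hWF hn' (by omega) d)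

end Crest.Agent.R290
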