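import Crest.Agent.R290.DefsL

/-!
Row 290, part 3: the subcubic graph of a three-slot system, and the top-level interfaces.

`no = 3 * ne` is the number of slots; slot `o` is slot `o % 3` of equation `o / 3`. Variable `x` has a
wire of blocks `i = x * no + o`, `o < no`: nodes `dd i b - cc i b - dd (i+1) b`. The node `cc i b` is
joined to the port `pt o b` when slot `o` holds `x`. Equation `e` has four middle nodes `md e b₁ b₂`.
A spine `sp 0 - sp 1 - …` with the chord `sp 1 - sp 3` and forks `sp (4 + 2 i) - fk i - dd i b` names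
all blocks; its tail pads the graph to exactly `n` vertices.
-/

set_option autoImplicit false

namespace Crest.Agent.R290

open Crest.WLRefine Crest.Agent.PT

inductive Nd : Type
  | sp (j : ℕ)
  | fk (i : ℕ)
  | dd (i : ℕ) (b : Bool)
  | cc (i : ℕ) (b : Bool)
  | pt (o : ℕ) (b : Bool)
  | md (e : ℕ) (b₁ b₂ : Bool)
  deriving DecidableEq

namespace Sys3

variable (S : Sys3)

def no : ℕ := 3 * S.ne
/-- Number of blocks. -/
def nb : ℕ := S.nv * S.no
/-- Least order of the graph. -/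
def size : ℕ := 4 + 7 * S.nb + 10 * S.ne
/-- Length of the spine. -/
def len (n : ℕ) : ℕ := n - 5 * S.nb - 10 * S.ne

/-- The bit of the middle node `md e b₁ b₂` at slot `j`; `tw` says whether the twist is present. -/
def mbit (tw : Bool) (e : ℕ) (b₁ b₂ : Bool) (j : ℕ) : Bool :=
  if j = 0 then b₁ else if j = 1 then b₂ else xor (xor b₁ b₂) (tw && decide (e = S.tw))

def arc (tw : Bool) : Nd → Nd → Bool
  | .sp i, .sp j => decide (j = i + 1 ∨ (i = 1 ∧ j = 3))
  | .sp j, .fk i => decide (j = 4 + 2 * i)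
  | .fk i, .dd i' _ => decide (i = i')
  | .dd i b, .cc i' b' => decide (i = i' ∧ b = b')
  | .cc i b, .dd i' b' => decide (i' = i + 1 ∧ i' % S.no ≠ 0 ∧ b = b')
  | .cc i b, .pt o b' => decide (o = i % S.no ∧ S.slot (o / 3) (o % 3) = i / S.no ∧ b = b')
  | .pt o b, .md e b₁ b₂ => decide (o / 3 = e ∧ b = S.mbit tw e b₁ b₂ (o % 3))
  | _, _ => false

def adj (tw : Bool) (a a' : Nd) : Bool := S.arc tw a a' || S.arc tw a' a

def Valid (n : ℕ) : Nd → Prop
  | .sp j => j < S.len n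
  | .fk i => i < S.nb
  | .dd i _ => i < S.nb
  | .cc i _ => i < S.nb
  | .pt o _ => o < S.no
  | .md e _ _ => e < S.ne

/-- The node with number `v < n`. -/
def dec (n v : ℕ) : Nd :=
  if v < S.len n then .sp v
  else if v < S.len n + 5 * S.nb then
    (if (v - S.len n) % 5 = 0 then .fk ((v - S.len n) / 5)
     else if (v - S.len n) % 5 ≤ 2 then .dd ((v - S.len n) / 5) (decide ((v - S.len n) % 5 = 2))
     else .cc ((v - S.len n) / 5) (decide ((v - S.len n) % 5 = 4)))
  else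
    (if (v - S.len n - 5 * S.nb) % 10 < 6 then
      .pt (3 * ((v - S.len n - 5 * S.nb) / 10) + (v - S.len n - 5 * S.nb) % 10 / 2)
        (decide ((v - S.len n - 5 * S.nb) % 10 % 2 = 1))
     else .md ((v - S.len n - 5 * S.nb) / 10) (decide (8 ≤ (v - S.len n - 5 * S.nb) % 10))
        (decide ((v - S.len n - 5 * S.nb) % 10 % 2 = 1)))

/-- The graph on the valid nodes. -/
def grV (n : ℕ) (tw : Bool) : {a // S.Valid n a} → {a // S.Valid n a} → Bool :=
  fun a a' => S.adj tw a.1 a'.1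

/-- The graph on `Fin n`. -/
def gr (n : ℕ) (tw : Bool) : Fin n → Fin n → Bool :=
  fun v w => S.adj tw (S.dec n v.val) (S.dec n w.val)

end Sys3

/-- A node without its bits. -/
def Nd.base : Nd → Nd
  | .sp j => .sp j
  | .fk i => .fk i
  | .dd i _ => .dd i false
  | .cc i _ => .cc i false
  | .pt o _ => .pt o false
  | .md e _ _ => .md e false false

/-- The bit of a wire or port node. -/
def Nd.bit : Nd → Bool
  | .dd _ b => b
  | .cc _ b => b
  | .pt _ b => b
  | _ => false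

/-- The variable of a wire or port node. -/
def Sys3.var (S : Sys3) : Nd → Option ℕ
  | .dd i _ => some (i / S.no)
  | .cc i _ => some (i / S.no)
  | .pt o _ => some (S.slot (o / 3) (o % 3))
  | _ => none

def DecStmt : Prop :=
  ∀ (S : Sys3) (n : ℕ), S.size ≤ n →
    ∃ e : Fin n ≃ {a // S.Valid n a}, ∀ v, (e v).1 = S.dec n v.val

def GraphBasicStmt : Prop :=
  ∀ (S : Sys3) (n : ℕ) (tw : Bool), S.WF → S.size ≤ n → SimpleConnSubcubic (S.gr n tw)

/-- Duplicator's strategy on the graphs. -/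
def GraphBGStmt : Prop :=
  ∀ (S : Sys3) (n κ K : ℕ), S.WF → S.size ≤ n → 3 * κ ≤ K → ¬ S.Der K (sg none) →
    BG κ (S.grV n false) (S.grV n true)

/-- Back-and-forth systems preserve the base of a node. -/
def BaseStmt : Prop :=
  ∀ (S : Sys3) (n κ : ℕ) (tw tw' : Bool) (P : List ({a // S.Valid n a} × {a // S.Valid n a}) → Prop),
    S.WF → S.size ≤ n → 4 ≤ κ → BFS κ (S.grV n tw) (S.grV n tw') P →
    ∀ a b, P [(a, b)] → a.1.base = b.1.base

/-- Two pebbles on the wire or ports of one variable see the same change of bit. -/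
def WireStmt : Prop :=
  ∀ (S : Sys3) (n κ : ℕ) (tw tw' : Bool) (P : List ({a // S.Valid n a} × {a // S.Valid n a}) → Prop),
    S.WF → S.size ≤ n → 4 ≤ κ → BFS κ (S.grV n tw) (S.grV n tw') P →
    ∀ a b a' b' x, P [(a, b), (a', b')] → S.var a.1 = some x → S.var a'.1 = some x →
      xor a.1.bit b.1.bit = xor a'.1.bit b'.1.bit

/-- Spoiler's strategies on the graphs. -/
def GraphSpStmt : Prop :=
  ∀ (S : Sys3) (n κ w : ℕ), S.WF → S.size ≤ n → w + 4 ≤ κ →
    (S.Der w (sg none) → ¬ BF κ (S.grV n false) (S.grV n true)) ∧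
    ((∀ v < S.nv, S.Der w (sg (some v))) → Rigid κ (S.grV n false))

def GraphPTStmt : Prop :=
  ∀ (α : Type) [Rp α] (S : α → Sys3) (n : α → ℕ) (tw : Bool), PSys S → PU n →
    PU (fun x => (S x).size) ∧ PTime (fun x => adjMatrixCode ((S x).gr (n x) tw)) ∧
      PTime (fun x => adjMatrixCode (apex ((S x).gr (n x) tw)))

/-- The reduction, with the construction hidden. -/
def RedStmt : Prop :=
  ∃ (sz : Word × Word × Un × Un → ℕ)
    (G : Word × Word × Un × Un → (n : ℕ) → Bool → Fin n → Fin n → Bool) (M R : ℕ),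
    PU sz ∧
    (∀ tw, PTime fun x : (Word × Word × Un × Un) × Un => adjMatrixCode (G x.1 x.2.val tw)) ∧
    (∀ tw, PTime fun x : (Word × Word × Un × Un) × Un => adjMatrixCode (apex (G x.1 x.2.val tw))) ∧
    ∀ (h y : Word) (k P n : ℕ), sz (h, y, ⟨k⟩, ⟨P⟩) ≤ n →
      5 ≤ n ∧ (∀ tw, SimpleConnSubcubic (G (h, y, ⟨k⟩, ⟨P⟩) n tw)) ∧
      ¬ AdjIso (G (h, y, ⟨k⟩, ⟨P⟩) n false) (G (h, y, ⟨k⟩, ⟨P⟩) n true) ∧
      ∀ ρ B, 1 ≤ ρ → M * ρ < k → B + R < P ^ (ρ + 1) → (horn h y).Box B →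
        ((horn h y).Goal →
          ¬ BF (3 * k + 9) (G (h, y, ⟨k⟩, ⟨P⟩) n false) (G (h, y, ⟨k⟩, ⟨P⟩) n true) ∧
          Rigid (3 * k + 9) (G (h, y, ⟨k⟩, ⟨P⟩) n false)) ∧
        (¬ (horn h y).Goal →
          BG (10 * k) (G (h, y, ⟨k⟩, ⟨P⟩) n false) (G (h, y, ⟨k⟩, ⟨P⟩) n true))

def Hard1Stmt : Prop := Crest.ExpTime.EXPHard varDimEquivLang
def Hard2Stmt : Prop := Crest.ExpTime.EXPHard subcubicVarDimEquivLang
def Hard3Stmt : Prop := Crest.ExpTime.EXPHard wlDimLeLang

/-- Diagonalisation: a clocked universal test `U` that decides a relation `Eq` between the two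
games on pairs of diameter two needs a clock of at least `n ^ (c κ)`. -/
def DiagStmt : Prop :=
  ∀ U : Word × Word × Un → Bool, PTime U → ∃ c : ℝ, 0 < c ∧ ∃ κ₀ : ℕ, ∀ κ ≥ κ₀,
    ∀ Eq : (n : ℕ) → (Fin n → Fin n → Bool) → (Fin n → Fin n → Bool) → Prop,
      (∀ n G H, BG (κ + 1) G H → Eq n G H) → (∀ n G H, Eq n G H → BF κ G H) →
      ∀ (dd : ℕ → Word) (C : ℕ), (∀ n, (dd n).length ≤ C * (Nat.size n + 1)) →
      ∀ T : ℕ → ℕ,
        (∀ n G H, SimpleConnDiamTwo G → SimpleConnDiamTwo H → ∀ τ, T n ≤ τ →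
          (U (dd n, adjMatrixCode G ++ adjMatrixCode H, ⟨τ⟩) = true ↔ Eq n G H)) →
        ∃ n₀ : ℕ, ∀ n ≥ n₀, (n : ℝ) ^ (c * κ) ≤ T n


/-- The equation lemmas are generated here once, for all importers. -/
theorem eqns_defsG : True := by
  have := @Sys3.arc.eq_1
  have := @Nd.base.eq_1
  have := @Sys3.Valid.eq_1
  trivial

end Crest.Agent.R290
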