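import Crest.Agent.R290.Defs

/-!
Row 290, part 2: bounded-width derivations in linear systems over `ZMod 2`, one-way gadgets, the
compressed row system of a Horn system, grids, and the explicit three-slot systems.
-/

set_option autoImplicit false

namespace Crest.Agent.R290

open Crest.Agent.PT Finset

/-! ### Bounded-width derivations -/

abbrev Fm (V : Type) := V →₀ ZMod 2

/-- The form consisting of one variable. -/
noncomputable def sg {V : Type} (v : V) : Fm V := Finsupp.single v 1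

/-- The variables of `f` lie in `W` (weightless) or in `S`. -/
def Cov {V : Type} (W : Set V) (S : Finset V) (f : Fm V) : Prop := ∀ v, f v ≠ 0 → v ∈ W ∨ v ∈ S

/-- Forms derivable from `E` in width `K`, the variables of `W` not being counted. -/
inductive Dv {V : Type} (E : Set (Fm V)) (W : Set V) (K : ℕ) : Fm V → Prop
  | zero : Dv E W K 0
  | base {e : Fm V} : e ∈ E → Dv E W K e
  | add {f g : Fm V} (S : Finset V) : Dv E W K f → Dv E W K g → Cov W S f → Cov W S g →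
      S.card ≤ K → Dv E W K (f + g)

/-- Narrow derivable forms contain at most `c` weightless variables. -/
def Few {V : Type} (E : Set (Fm V)) (W : Set V) (K c : ℕ) : Prop :=
  ∀ f S, Dv E W K f → Cov W S f → S.card ≤ K →
    ∃ T : Finset V, T.card ≤ c ∧ ∀ v ∈ W, f v ≠ 0 → v ∈ T

/-- Substitution of forms for variables. -/
noncomputable def sub {V V' : Type} (φ : V' → Fm V) : Fm V' →ₗ[ZMod 2] Fm V :=
  Finsupp.linearCombination (ZMod 2) φ

/-- Value of a form at an assignment. -/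
noncomputable def ev {V : Type} (δ : V → ZMod 2) : Fm V →ₗ[ZMod 2] ZMod 2 :=
  Finsupp.linearCombination (ZMod 2) δ

/-- `δ` satisfies all derivable forms with variables in `S` (and the constant `o`). -/
def Sat {V : Type} (E : Set (Fm V)) (o : V) (K : ℕ) (δ : V → ZMod 2) (S : Finset V) : Prop :=
  δ o = 1 ∧ ∀ f, Dv E {o} K f → Cov {o} S f → ev δ f = 0

def LinBasicStmt : Prop :=
  (∀ (V : Type) (E E' : Set (Fm V)) (W W' : Set V) (K K' : ℕ) (f : Fm V), E ⊆ E' → W ⊆ W' →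
    K ≤ K' → Dv E W K f → Dv E' W' K' f) ∧
  (∀ (V ι : Type) (E : Set (Fm V)) (W : Set V) (K : ℕ) (I : Finset ι) (f : ι → Fm V)
    (S : Finset V), S.card ≤ K → (∀ i ∈ I, Dv E W K (f i) ∧ Cov W S (f i)) →
      Dv E W K (∑ i ∈ I, f i)) ∧
  (∀ (V V' : Type) (E : Set (Fm V)) (E' : Set (Fm V')) (W : Set V) (W' : Set V') (K d : ℕ)
    (φ : V' → Fm V), (∀ v, v ∉ W' → ∃ T : Finset V, T.card ≤ d ∧ Cov W T (φ v)) →
    (∀ v ∈ W', Cov W ∅ (φ v)) → (∀ e ∈ E', Dv E W (d * K) (sub φ e)) →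
      ∀ f, Dv E' W' K f → Dv E W (d * K) (sub φ f)) ∧
  (∀ (V : Type) (E : Set (Fm V)) (o : V) (K : ℕ),
    (¬ Dv E {o} K (sg o) → ∃ δ, Sat E o K δ ∅) ∧
    (∀ δ S S', S ⊆ S' → S'.card ≤ K → Sat E o K δ S →
      ∃ δ', Sat E o K δ' S' ∧ ∀ v ∈ S, δ' v = δ v))

/-! ### One-way gadgets

A gadget `γ` is a path with positions `0, …, 4 b²` and private edges `(γ, 1), …, (γ, 4 b²)`. Position
`u` has the equation `edge u + pendant u + edge (u+1) = 0`. The first `2 b²` positions read the `b²`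
variables `rd γ false _` twice (row by row, then column by column), position `2 b²` reads the output,
the last `2 b²` positions read `rd γ true _` twice. -/

def trp (b u : ℕ) : ℕ := u % b * b + u / b

/-- Side and index read at a position `u ≠ 2 b²`. -/
def pside (b u : ℕ) : Bool := decide (2 * (b * b) < u)
def pidx (b u : ℕ) : ℕ :=
  if u < b * b then u else if u < 2 * (b * b) then trp b (u - b * b)
  else if u ≤ 3 * (b * b) then u - 2 * (b * b) - 1 else trp b (u - 3 * (b * b) - 1)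

def pend {Γ X : Type} (b : ℕ) (rd : Γ → Bool → ℕ → X) (out : Γ → X) (γ : Γ) (u : ℕ) : X :=
  if u = 2 * (b * b) then out γ else rd γ (pside b u) (pidx b u)

noncomputable def geq {Γ X : Type} (b : ℕ) (rd : Γ → Bool → ℕ → X) (out : Γ → X)
    (p : Γ × ℕ) : Fm (X ⊕ Γ × ℕ) :=
  (if p.2 = 0 then 0 else sg (Sum.inr (p.1, p.2))) + sg (Sum.inl (pend b rd out p.1 p.2)) +
    (if p.2 = 4 * (b * b) then 0 else sg (Sum.inr (p.1, p.2 + 1)))

/-- Sum of a set of gadget equations. -/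
noncomputable def gsum {Γ X : Type} (b : ℕ) (rd : Γ → Bool → ℕ → X) (out : Γ → X)
    (U : Fm (Γ × ℕ)) : Fm (X ⊕ Γ × ℕ) := sub (geq b rd out) U

open Classical in
/-- Number of chosen positions in gadget `γ`. -/
noncomputable def cnt {Γ : Type} (U : Fm (Γ × ℕ)) (γ : Γ) : ℕ :=
  (U.support.filter fun p => p.1 = γ).card

open Classical in
/-- Gadgets with a chosen position. -/
noncomputable def used {Γ : Type} (U : Fm (Γ × ℕ)) : Finset Γ := U.support.image Prod.fst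

/-- The chosen positions are positions of gadgets of `Gd`. -/
def Val {Γ : Type} (b : ℕ) (Gd : Set Γ) (U : Fm (Γ × ℕ)) : Prop :=
  ∀ p, U p ≠ 0 → p.1 ∈ Gd ∧ p.2 ≤ 4 * (b * b)

/-- Each half gadget reads `b²` distinct variables and two halves share at most one variable. -/
structure Lines {Γ X : Type} (b : ℕ) (rd : Γ → Bool → ℕ → X) (Gd : Set Γ) : Prop where
  inj : ∀ γ ∈ Gd, ∀ s u u', u < b * b → u' < b * b → rd γ s u = rd γ s u' → u = u'
  one : ∀ γ ∈ Gd, ∀ γ' ∈ Gd, ∀ s s', (γ, s) ≠ (γ', s') → ∀ u₁ u₂ v₁ v₂, u₁ < b * b →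
    u₂ < b * b → v₁ < b * b → v₂ < b * b → rd γ s u₁ = rd γ' s' v₁ → rd γ s u₂ = rd γ' s' v₂ →
      u₁ = u₂

def rr (κ : ℕ) : ℕ := 4 * κ ^ 2 + 14 * κ + 1

/-- Boundary edges: coefficients of private edges, and existence of a boundary edge in an interval. -/
def BdryStmt : Prop :=
  ∀ (Γ X : Type) (b : ℕ) (rd : Γ → Bool → ℕ → X) (out : Γ → X) (Gd : Set Γ) (U : Fm (Γ × ℕ)),
    Val b Gd U →
    (∀ γ u, 1 ≤ u → u ≤ 4 * (b * b) →
      gsum b rd out U (Sum.inr (γ, u)) = U (γ, u - 1) + U (γ, u)) ∧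
    (∀ γ lo hi u, lo ≤ u → u ≤ hi → hi ≤ 4 * (b * b) → U (γ, u) ≠ 0 → cnt U γ ≤ hi - lo →
      ∃ u', lo < u' ∧ u' ≤ hi ∧ gsum b rd out U (Sum.inr (γ, u')) ≠ 0)

/-- Expansion: small sets of gadget equations with a narrow sum are very small. -/
def ExpStmt : Prop :=
  ∀ (Γ X : Type) (b : ℕ) (rd : Γ → Bool → ℕ → X) (out : Γ → X) (Gd : Set Γ) (κ : ℕ)
    (U : Fm (Γ × ℕ)), Lines b rd Gd → Val b Gd U → (∀ γ, cnt U γ < b) →
    (gsum b rd out U).support.card ≤ κ → (used U).card ≤ κ ∧ ∀ γ, cnt U γ ≤ rr κ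

/-- The sum of all equations of one gadget is its output. -/
def GsumStmt : Prop :=
  ∀ (Γ X : Type) (b : ℕ) (rd : Γ → Bool → ℕ → X) (out : Γ → X) (γ : Γ),
    ∑ u ∈ range (4 * (b * b) + 1), geq b rd out (γ, u) = sg (Sum.inl (out γ))

/-! ### The compressed row system -/

structure RS extends Horn where
  b : ℕ
  Lm : ℕ
  k : ℕ
  line : ℕ → ℕ → Bool → ℕ → ℕ
  red : ℕ → ℤ × ℤ → ℤ × ℤ

/-- `(σ, l, i, t)`: copy `l` of sort `σ` in row `i` at residue `t`; or the global variable `ω l`. -/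
abbrev XV := (ℕ × ℕ × ℕ × (ℤ × ℤ)) ⊕ ℕ
/-- `(r, l, i, t)`: the gadget of rule `r` producing copy `l` in row `i` at residue `t`. -/
abbrev GI := ℕ × ℕ × ℕ × (ℤ × ℤ)
abbrev V0 := XV ⊕ GI × ℕ
/-- Wide equations: an initial fact or (`none`) the goal, and the copy `l`. -/
abbrev WI := Option (ℕ × (ℤ × ℤ)) × ℕ

namespace RS

variable (R : RS)

def rd (γ : GI) (s : Bool) (u : ℕ) : XV :=
  Sum.inl (R.pr γ.1 s, R.line γ.1 γ.2.1 s u, γ.2.2.1, R.red γ.2.2.1 (γ.2.2.2 + R.sh γ.1 s))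
def out (γ : GI) : XV := Sum.inl (R.cn γ.1, γ.2.1, γ.2.2.1, γ.2.2.2)
def Gd : Set GI := {γ | R.act γ.1 ∧ γ.2.1 < R.Lm ∧ γ.2.2.1 < R.k ∧ R.red γ.2.2.1 γ.2.2.2 = γ.2.2.2}
def En : Set (Fm V0) :=
  {f | ∃ γ ∈ R.Gd, ∃ u ≤ 4 * (R.b * R.b), f = geq R.b R.rd R.out (γ, u)}
def ok : WI → Prop
  | (some (σ, A), l) => R.ini σ A ∧ l < R.Lm
  | (none, l) => l < R.Lm
noncomputable def pd : WI → ℕ → Fm V0
  | (some (σ, A), l), i => if i < R.k then sg (Sum.inl (Sum.inl (σ, l, i, R.red i A))) else 0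
  | (none, l), i => if i < R.k then sg (Sum.inl (Sum.inl (0, l, i, R.red i (0, 0))))
      else sg (Sum.inl (Sum.inr l))

end RS

/-- Narrow equations together with wide equations `∑ i < q, pd w i`. -/
def wideE {V Wd : Type} (En : Set (Fm V)) (ok : Wd → Prop) (pd : Wd → ℕ → Fm V) (q : ℕ) :
    Set (Fm V) := En ∪ {f | ∃ w, ok w ∧ f = ∑ i ∈ range q, pd w i}

def RS.E0 (R : RS) : Set (Fm V0) := wideE R.En R.ok R.pd (R.k + 1)

def omW : Set V0 := {v | ∃ l, v = Sum.inl (Sum.inr l)}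

structure RS.Good (R : RS) (Bd ρ : ℕ) : Prop where
  sh : ∀ r s, R.act r → |(R.sh r s).1| ≤ 1 ∧ |(R.sh r s).2| ≤ 1
  pr : ∀ r s, R.act r → R.pr r s ≠ 0
  lt : ∀ r l s u, R.act r → l < R.Lm → u < R.b * R.b → R.line r l s u < R.Lm
  lines : Lines R.b (fun (γ : ℕ × ℕ) s u => R.line γ.1 γ.2 s u) {γ | R.act γ.1 ∧ γ.2 < R.Lm}
  red : ∀ i A d, R.red i (R.red i A + d) = R.red i (A + d)
  crt : ∀ x : ℤ × ℤ, x ≠ 0 → |x.1| ≤ Bd → |x.2| ≤ Bd →
    ((range R.k).filter fun i => R.red i x = R.red i 0).card ≤ ρ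

/-! The virtual (uncompressed) system. -/

/-- `(σ, l, A)`. -/
abbrev VX := ℕ × ℕ × (ℤ × ℤ)
/-- `(r, l, A)`. -/
abbrev VG := ℕ × ℕ × (ℤ × ℤ)
abbrev VV := VX ⊕ VG × ℕ

namespace RS

variable (R : RS)

def vrd (γ : VG) (s : Bool) (u : ℕ) : VX :=
  (R.pr γ.1 s, R.line γ.1 γ.2.1 s u, γ.2.2 + R.sh γ.1 s)
def vout (γ : VG) : VX := (R.cn γ.1, γ.2.1, γ.2.2)
def VGd : Set VG := {γ | R.act γ.1 ∧ γ.2.1 < R.Lm}
/-- Projection of a virtual gadget to row `i`. -/
def prG (i : ℕ) (γ : VG) : GI := (γ.1, γ.2.1, i, R.red i γ.2.2)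
/-- Projection of a virtual variable to row `i`. -/
def prj (i : ℕ) : VV → V0
  | Sum.inl x => Sum.inl (Sum.inl (x.1, x.2.1, i, R.red i x.2.2))
  | Sum.inr p => Sum.inr (R.prG i p.1, p.2)
/-- True virtual variables. -/
def VTrue : VV → Prop
  | Sum.inl x => R.Tr x.1 x.2.2
  | Sum.inr p => R.act p.1.1 ∧
      R.Tr (R.pr p.1.1 (pside R.b p.2)) (p.1.2.2 + R.sh p.1.1 (pside R.b p.2))

end RS

/-- Address of a virtual variable. -/
def adr : VV → ℤ × ℤ
  | Sum.inl x => x.2.2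
  | Sum.inr p => p.1.2.2

/-- Row of a variable (`none` for the global variables). -/
def rowOf : V0 → Option ℕ
  | Sum.inl (Sum.inl x) => some x.2.2.1
  | Sum.inl (Sum.inr _) => none
  | Sum.inr p => some p.1.2.2.1

/-- `A` is within distance `ϱ` of the address of a variable of `N`. -/
def Near (N : Fm VV) (ϱ : ℕ) (A : ℤ × ℤ) : Prop :=
  ∃ v, N v ≠ 0 ∧ |A.1 - (adr v).1| ≤ ϱ ∧ |A.2 - (adr v).2| ≤ ϱ

/-- Row lemmas: projections of virtual equations, and the row gadgets satisfy `Lines`. -/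
def RowBasicStmt : Prop :=
  ∀ (R : RS) (Bd ρ : ℕ), R.Good Bd ρ →
    Lines R.b R.rd R.Gd ∧
    ∀ i p, Finsupp.mapDomain (R.prj i) (geq R.b R.vrd R.vout p) =
      geq R.b R.rd R.out (R.prG i p.1, p.2)

/-- A good row exists. -/
def GoodRowStmt : Prop :=
  ∀ (R : RS) (Bd ρ C m B ϱ : ℕ) (N : Fm VV) (S : Finset V0), R.Good Bd ρ → 1 ≤ C →
    N.support.card ≤ m → (∀ v, N v ≠ 0 → -1 ≤ (adr v).1 ∧ (adr v).1 ≤ B + 1 ∧
      -1 ≤ (adr v).2 ∧ (adr v).2 ≤ B + 1) → B + 2 + 2 * ϱ ≤ Bd → S.card ≤ C * R.k →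
    2 * (m ^ 2 * (4 * ϱ + 1) ^ 2) * ρ < R.k →
    ∃ i < R.k, (S.filter fun v => rowOf v = some i).card ≤ 2 * C ∧
      ∀ A A', Near N ϱ A → Near N ϱ A' → R.red i A = R.red i A' → A = A'

/-- Lifting the equations of a good row to the virtual system. -/
def LiftStmt : Prop :=
  ∀ (R : RS) (Bd ρ κ i : ℕ) (N : Fm VV) (U : Fm (GI × ℕ)), R.Good Bd ρ → Val R.b R.Gd U →
    (∀ p, U p ≠ 0 → p.1.2.2.1 = i) → (used U).card ≤ κ →
    (∀ A A', Near N (2 * κ + 2) A → Near N (2 * κ + 2) A' → R.red i A = R.red i A' → A = A') →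
    ∃ U' : Fm (VG × ℕ), Val R.b R.VGd U' ∧ U'.support.card ≤ U.support.card ∧
      (∀ γ, cnt U' γ ≤ cnt U (R.prG i γ)) ∧
      (N + gsum R.b R.vrd R.vout U').support.card ≤
        (Finsupp.mapDomain (R.prj i) N + gsum R.b R.rd R.out U).support.card

/-- The reduction inside the virtual system. -/
def VirtStmt : Prop :=
  ∀ (R : RS) (Bd ρ κ : ℕ) (T : Fm VV) (J : Finset ℕ) (U : Fm (VG × ℕ)), R.Good Bd ρ →
    ¬ R.Goal → (∀ v, T v ≠ 0 → R.VTrue v) → Val R.b R.VGd U → (∀ γ, cnt U γ < R.b) →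
    (T + ∑ l ∈ J, sg (Sum.inl (0, l, (0, 0))) + gsum R.b R.vrd R.vout U).support.card ≤ κ →
    J.card ≤ 2 * κ ∧ ∃ U' : Fm (VG × ℕ), U'.support ⊆ U.support ∧
      (∀ v, (T + gsum R.b R.vrd R.vout U') v ≠ 0 → R.VTrue v) ∧
      (T + gsum R.b R.vrd R.vout U').support.card ≤ 3 * κ

def M0 (C : ℕ) : ℕ := 2 * ((24 * C) ^ 2 * (208 * C + 9) ^ 2)
def bOf (C k : ℕ) : ℕ := 2 * (rr (C * k + 24 * C) + 26 * C * rr (26 * C)) + 1

/-- Duplicator's side for the row system. -/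
def CoreStmt : Prop :=
  ∀ (R : RS) (C B ρ : ℕ), 1 ≤ C → R.Good (B + (104 * C + 6)) ρ → R.Box B → ¬ R.Goal →
    M0 C * ρ < R.k → bOf C R.k ≤ R.b → Few R.E0 omW (C * R.k) (6 * C)

/-- Spoiler's side for the row system. -/
def RowSpStmt : Prop :=
  ∀ (R : RS) (Bd ρ : ℕ), R.Good Bd ρ → 1 ≤ R.k → R.Goal →
    ∀ l < R.Lm, Dv R.E0 ∅ (3 * R.k) (sg (Sum.inl (Sum.inr l)))

/-! ### Replacing wide equations by grids -/

/-- The equation of cell `(i, c)` of the `q × q` grid of `w`; edges `(w, false, i, c)` are horizontal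
(left of the cell), edges `(w, true, i, c)` vertical (above the cell). -/
noncomputable def gcell {V Wd : Type} (pd : Wd → ℕ → Fm V) (q : ℕ) (w : Wd) (i c : ℕ) :
    Fm (V ⊕ Wd × Bool × ℕ × ℕ) :=
  (if c = 0 then Finsupp.mapDomain Sum.inl (pd w i) else sg (Sum.inr (w, false, i, c))) +
    (if c + 1 < q then sg (Sum.inr (w, false, i, c + 1)) else 0) +
    (if i = 0 then 0 else sg (Sum.inr (w, true, i, c))) +
    (if i + 1 < q then sg (Sum.inr (w, true, i + 1, c)) else 0)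

def gridE {V Wd : Type} (En : Set (Fm V)) (ok : Wd → Prop) (pd : Wd → ℕ → Fm V) (q : ℕ) :
    Set (Fm (V ⊕ Wd × Bool × ℕ × ℕ)) :=
  Finsupp.mapDomain Sum.inl '' En ∪
    {f | ∃ w i c, ok w ∧ i < q ∧ c < q ∧ f = gcell pd q w i c}

def GridDStmt : Prop :=
  ∀ (V Wd : Type) (En : Set (Fm V)) (ok : Wd → Prop) (pd : Wd → ℕ → Fm V) (q : ℕ) (W : Set V)
    (K c : ℕ), 2 ≤ q → (∀ w i, (pd w i).support.card ≤ 1) →
    Few (wideE En ok pd q) W (5 * K) c → Few (gridE En ok pd q) (Sum.inl '' W) K (c + K)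

def GridSStmt : Prop :=
  ∀ (V Wd : Type) (En : Set (Fm V)) (ok : Wd → Prop) (pd : Wd → ℕ → Fm V) (q w : ℕ) (f : Fm V),
    (∀ w i, (pd w i).support.card ≤ 1) → q + 4 ≤ w → Dv (wideE En ok pd q) ∅ w f →
    Dv (gridE En ok pd q) ∅ w (Finsupp.mapDomain Sum.inl f)

/-! ### Three-slot systems -/

/-- Variables `< nv`, equations `e < ne` saying `x (slot e 0) + x (slot e 1) + x (slot e 2) = [e = tw]`. -/
structure Sys3 where
  nv : ℕ
  ne : ℕ
  tw : ℕ
  slot : ℕ → ℕ → ℕ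

namespace Sys3

variable (S : Sys3)

def WF : Prop := 0 < S.nv ∧ 0 < S.ne ∧ ∀ e < S.ne, ∀ j < 3, S.slot e j < S.nv
noncomputable def eq0 (e : ℕ) : Fm ℕ := sg (S.slot e 0) + sg (S.slot e 1) + sg (S.slot e 2)
/-- The homogeneous system. -/
def E0 : Set (Fm ℕ) := {f | ∃ e < S.ne, f = S.eq0 e}
noncomputable def eqn (e : ℕ) : Fm (Option ℕ) :=
  sg (some (S.slot e 0)) + sg (some (S.slot e 1)) + sg (some (S.slot e 2)) +
    if e = S.tw then sg none else 0
/-- The twisted system; `none` is the constant `1`. -/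
def E : Set (Fm (Option ℕ)) := {f | ∃ e < S.ne, f = S.eqn e}
def Der (K : ℕ) (f : Fm (Option ℕ)) : Prop := Dv S.E {none} K f
/-- Equation `0` says that variable `0` vanishes. -/
def Zero : Prop := ∀ j, S.slot 0 j = 0

end Sys3

/-- Every variable gets a one-way gadget reading `rdN`; one more gadget carries the twist. -/
def cover (S : Sys3) (b : ℕ) (rdN : ℕ → Bool → ℕ → ℕ) : Sys3 where
  nv := S.nv + (S.nv + 1) * (4 * (b * b))
  ne := S.ne + (S.nv + 1) * (4 * (b * b) + 1)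
  tw := S.ne + S.nv * (4 * (b * b) + 1) + 2 * (b * b)
  slot e j :=
    if e < S.ne then S.slot e j else
      if j = 0 then
        (if (e - S.ne) % (4 * (b * b) + 1) = 0 then 0
         else S.nv + (e - S.ne) / (4 * (b * b) + 1) * (4 * (b * b)) +
           ((e - S.ne) % (4 * (b * b) + 1) - 1))
      else if j = 1 then
        pend b rdN (fun g => if g < S.nv then g else 0) ((e - S.ne) / (4 * (b * b) + 1))
          ((e - S.ne) % (4 * (b * b) + 1))
      else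
        (if (e - S.ne) % (4 * (b * b) + 1) = 4 * (b * b) then 0
         else S.nv + (e - S.ne) / (4 * (b * b) + 1) * (4 * (b * b)) +
           (e - S.ne) % (4 * (b * b) + 1))

def CoverDStmt : Prop :=
  ∀ (S : Sys3) (b : ℕ) (rdN : ℕ → Bool → ℕ → ℕ) (W : Set ℕ) (K c : ℕ), S.WF → S.Zero →
    Lines b rdN {g | g ≤ S.nv} →
    (∀ g ≤ S.nv, ∀ s u, u < b * b → rdN g s u ∈ W ∧ rdN g s u < S.nv) →
    Few S.E0 W (4 * K) c → 2 * rr (6 * K + c + 1) < b → ¬ (cover S b rdN).Der K (sg none)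

def CoverSStmt : Prop :=
  ∀ (S : Sys3) (b : ℕ) (rdN : ℕ → Bool → ℕ → ℕ), S.WF → S.Zero → 1 ≤ b →
    (∀ g ≤ S.nv, ∀ s u, u < b * b → rdN g s u < S.nv) →
    (cover S b rdN).WF ∧ (∃ w, (cover S b rdN).Der w (sg none)) ∧
    ∀ w, 4 ≤ w → (∀ g ≤ S.nv, ∀ s u, u < b * b → Dv S.E0 ∅ w (sg (rdN g s u))) →
      (cover S b rdN).Der w (sg none) ∧
      ∀ v < (cover S b rdN).nv, (cover S b rdN).Der w (sg (some v))

/-! ### The explicit system of a Horn description -/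

/-- The data `(h, y, k, P)`: description, input, number of rows, lower bound for the moduli. -/
structure Par where
  h : Word
  y : Word
  k : ℕ
  P : ℕ

namespace Par

variable (a : Par)

noncomputable def p (i : ℕ) : ℕ := Nat.nth Nat.Prime (a.P + i)
def s : ℕ := hs a.h
def b : ℕ := bOf 1200 a.k
noncomputable def Z : ℕ :=
  a.s + 81 * (a.s * a.s * a.s) + 4 * (a.b * a.b) + a.k + a.p a.k + a.y.length + 2
noncomputable def A : ℕ := 28 * a.Z ^ 5 * (a.b * a.b)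
noncomputable def B' : ℕ := a.A * (a.b * a.b)
noncomputable def Lm : ℕ := a.b * a.b * (2 * a.B')
/-- Point `u` of line number `num < A * B'`. -/
noncomputable def ln (num u : ℕ) : ℕ := u * (2 * a.B') + (num / a.B' * u + num % a.B')
noncomputable def line (r l : ℕ) (s : Bool) (u : ℕ) : ℕ := a.ln ((r * a.Lm + l) * 2 + s.toNat) u

noncomputable def rs : RS where
  toHorn := horn a.h a.y
  b := a.b
  Lm := a.Lm
  k := a.k
  line := a.line
  red i A := (A.1 % (a.p i : ℤ), A.2 % (a.p i : ℤ))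

/-- Codes of variables and of equations. Variables: tag `0` facts `(σ, i, t₁, t₂, 0)`, tag `1` gadget
edges `(r, u, i, t₁, t₂)`, tag `2` the `ω`, tags `3, 4, 5` horizontal, vertical and middle grid edges
`(σ, j, i, c, 0)` (`σ = s`, `j = 0` for the goal). Equations: tag `0` gadget equations, tags `1, 2` the
two halves of a grid cell. Code `0` is the zero variable and its equation. -/
noncomputable def cd (tag f1 f2 f3 f4 f5 l : ℕ) : ℕ :=
  1 + (l + a.Lm * (tag + 6 * (f1 + a.Z * (f2 + a.Z * (f3 + a.Z * (f4 + a.Z * f5))))))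

noncomputable def om (l : ℕ) : ℕ := a.cd 2 0 0 0 0 0 l

open Classical in
/-- Slots of the equation with the given fields. -/
noncomputable def slotF (tag f1 f2 f3 f4 f5 l j : ℕ) : ℕ :=
  if tag = 0 ∧ hact a.h f1 ∧ f2 ≤ 4 * (a.b * a.b) ∧ f3 < a.k ∧ f4 < a.p f3 ∧ f5 < a.p f3 then
    (if j = 0 then (if f2 = 0 then 0 else a.cd 1 f1 f2 f3 f4 f5 l)
     else if j = 1 then
       (if f2 = 2 * (a.b * a.b) then a.cd 0 (rCn a.s f1) f3 f4 f5 0 l
        else a.cd 0 (rPr a.s f1 (pside a.b f2)) f3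
          ((f4 + a.p f3 + rSh a.s f1 (pside a.b f2) / 3 - 1) % a.p f3)
          ((f5 + a.p f3 + rSh a.s f1 (pside a.b f2) % 3 - 1) % a.p f3) 0
          (a.line f1 l (pside a.b f2) (pidx a.b f2)))
     else (if f2 = 4 * (a.b * a.b) then 0 else a.cd 1 f1 (f2 + 1) f3 f4 f5 l))
  else if f5 = 0 ∧ f3 ≤ a.k ∧ f4 ≤ a.k ∧ (hini a.h a.y f1 f2 ∨ (f1 = a.s ∧ f2 = 0)) then
    (if tag = 1 then
      (if j = 0 then (if f3 = 0 then 0 else a.cd 4 f1 f2 f3 f4 0 l)
       else if j = 1 then (if f3 < a.k then a.cd 4 f1 f2 (f3 + 1) f4 0 l else 0)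
       else a.cd 5 f1 f2 f3 f4 0 l)
     else if tag = 2 then
      (if j = 0 then a.cd 5 f1 f2 f3 f4 0 l
       else if j = 1 then
        (if f4 = 0 then
          (if f1 = a.s then (if f3 < a.k then a.cd 0 0 f3 0 0 0 l else a.om l)
           else (if f3 < a.k then a.cd 0 f1 f3 0 (f2 % a.p f3) 0 l else 0))
         else a.cd 3 f1 f2 f3 f4 0 l)
       else (if f4 < a.k then a.cd 3 f1 f2 f3 (f4 + 1) 0 l else 0))
     else 0)
  else 0

noncomputable def sys1 : Sys3 where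
  nv := 1 + a.Lm * (6 * a.Z ^ 5)
  ne := 1 + a.Lm * (6 * a.Z ^ 5)
  tw := 0
  slot e j := if e = 0 then 0 else
    a.slotF ((e - 1) / a.Lm % 6) ((e - 1) / a.Lm / 6 % a.Z) ((e - 1) / a.Lm / 6 / a.Z % a.Z)
      ((e - 1) / a.Lm / 6 / a.Z / a.Z % a.Z) ((e - 1) / a.Lm / 6 / a.Z / a.Z / a.Z % a.Z)
      ((e - 1) / a.Lm / 6 / a.Z / a.Z / a.Z / a.Z) ((e - 1) % a.Lm) j

def omSet : Set ℕ := {v | ∃ l < a.Lm, v = a.om l}

noncomputable def rdN (g : ℕ) (s : Bool) (u : ℕ) : ℕ := a.om (a.ln (2 * g + s.toNat) u)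

noncomputable def sys3 : Sys3 := cover a.sys1 a.b a.rdN

def E1 : Set (Fm (V0 ⊕ WI × Bool × ℕ × ℕ)) := gridE a.rs.En a.rs.ok a.rs.pd (a.k + 1)

end Par

/-- Arithmetic of the parameters and codes. -/
def ParStmt : Prop :=
  ∀ a : Par,
    (∀ Bd ρ, Bd < a.P ^ (ρ + 1) → a.rs.Good Bd ρ) ∧
    Lines a.b a.rdN {g | g ≤ a.sys1.nv} ∧
    (∀ g ≤ a.sys1.nv, ∀ (s : Bool) u, u < a.b * a.b → a.ln (2 * g + s.toNat) u < a.Lm) ∧
    (∀ l < a.Lm, a.om l < a.sys1.nv) ∧ a.sys1.WF ∧ a.sys1.Zero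

def Sys1DStmt : Prop :=
  ∀ (a : Par) (K c : ℕ), Few a.E1 (Sum.inl '' omW) (2 * K) c → Few a.sys1.E0 a.omSet K c

def Sys1SStmt : Prop :=
  ∀ (a : Par) (w l : ℕ), 6 ≤ w → l < a.Lm →
    Dv a.E1 ∅ w (sg (Sum.inl (Sum.inl (Sum.inr l)))) → Dv a.sys1.E0 ∅ w (sg (a.om l))

/-- The main property of the explicit system. -/
def LinStmt : Prop :=
  ∀ a : Par, a.sys3.WF ∧ (∃ w, a.sys3.Der w (sg none)) ∧
    ∀ ρ B, 1 ≤ ρ → M0 1200 * ρ < a.k → B + (104 * 1200 + 6) < a.P ^ (ρ + 1) →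
      (horn a.h a.y).Box B →
      ((horn a.h a.y).Goal → a.sys3.Der (3 * a.k + 5) (sg none) ∧
        ∀ v < a.sys3.nv, a.sys3.Der (3 * a.k + 5) (sg (some v))) ∧
      (¬ (horn a.h a.y).Goal → ¬ a.sys3.Der (30 * a.k) (sg none))

/-- A family of three-slot systems computable in polynomial time. -/
def PSys {α : Type} [Rp α] (S : α → Sys3) : Prop :=
  PU (fun x => (S x).nv) ∧ PU (fun x => (S x).ne) ∧ PTime (fun x => (S x).tw) ∧
    PTime fun p : α × ℕ × ℕ => (S p.1).slot p.2.1 p.2.2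

def SysPTStmt : Prop :=
  PSys fun x : Word × Word × Un × Un => (Par.mk x.1 x.2.1 x.2.2.1.val x.2.2.2.val).sys3


/-- The equation lemmas are generated here once, for all importers. -/
theorem eqns_defsL : True := by
  have := @RS.prj.eq_1
  have := @RS.pd.eq_1
  have := @adr.eq_1
  trivial

end Crest.Agent.R290
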