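import Crest.Agent.R290.DefsG

/-!
Row 290: Spoiler's strategies on the graphs (`WireStmt`, `GraphSpStmt`).
-/

set_option autoImplicit false

namespace Crest.Agent.R290

namespace GraphSp

open Finset

/-- Wire and port nodes. -/
def IsW : Nd → Prop
  | .dd _ _ => True
  | .cc _ _ => True
  | .pt _ _ => True
  | _ => False

lemma isW_of_base {a b : Nd} (h : a.base = b.base) (ha : IsW a) : IsW b := by
  cases a <;> cases b <;> simp_all [IsW, Nd.base]

lemma isW_of_var {S : Sys3} {a : Nd} {x : ℕ} (h : S.var a = some x) : IsW a := by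
  cases a <;> simp_all [IsW, Sys3.var]

lemma bit_eq_of_adj (S : Sys3) (tw : Bool) {a a' : Nd} (ha : IsW a) (ha' : IsW a')
    (h : S.adj tw a a' = true) : a.bit = a'.bit := by
  cases a <;> cases a' <;> simp_all [IsW, Sys3.adj, Sys3.arc, Nd.bit]
  all_goals (rcases h with h | h <;> simp_all)

lemma eq_of_base_bit {a b : Nd} (ha : IsW a) (h : a.base = b.base) (hb : a.bit = b.bit) :
    a = b := by
  cases a <;> cases b <;> simp_all [IsW, Nd.base, Nd.bit]

lemma blk_lt (S : Sys3) {x o : ℕ} (hx : x < S.nv) (ho : o < S.no) : x * S.no + o < S.nb := by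
  unfold Sys3.nb
  calc x * S.no + o < x * S.no + S.no := by omega
    _ = (x + 1) * S.no := by ring
    _ ≤ S.nv * S.no := Nat.mul_le_mul_right _ hx

lemma blk_mod (S : Sys3) (x : ℕ) {o : ℕ} (ho : o < S.no) : (x * S.no + o) % S.no = o := by
  rw [Nat.mul_comm, Nat.mul_add_mod, Nat.mod_eq_of_lt ho]

lemma blk_div (S : Sys3) (x : ℕ) {o : ℕ} (ho : o < S.no) : (x * S.no + o) / S.no = x := by
  rw [Nat.mul_comm, Nat.mul_add_div (by omega), Nat.div_eq_of_lt ho, Nat.add_zero]

lemma no_pos {S : Sys3} (hS : S.WF) : 0 < S.no := by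
  have := hS.2.1
  unfold Sys3.no; omega

lemma slot_lt {S : Sys3} (hS : S.WF) {o : ℕ} (ho : o < S.no) :
    S.slot (o / 3) (o % 3) < S.nv := by
  apply hS.2.2
  · unfold Sys3.no at ho; omega
  · omega

lemma var_lt {S : Sys3} (hS : S.WF) {n : ℕ} {a : Nd} (ha : S.Valid n a) {x : ℕ}
    (h : S.var a = some x) : x < S.nv := by
  have hno := no_pos hS
  cases a with
  | sp j => simp [Sys3.var] at h
  | fk j => simp [Sys3.var] at h
  | md e b₁ b₂ => simp [Sys3.var] at h
  | dd i b =>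
    simp only [Sys3.var, Option.some.injEq] at h
    subst h
    exact (Nat.div_lt_iff_lt_mul hno).2 ha
  | cc i b =>
    simp only [Sys3.var, Option.some.injEq] at h
    subst h
    exact (Nat.div_lt_iff_lt_mul hno).2 ha
  | pt o b =>
    simp only [Sys3.var, Option.some.injEq] at h
    subst h
    exact slot_lt hS ha

section Game

variable {S : Sys3} {n κ : ℕ} {tw tw' : Bool}
  {P : List ({a // S.Valid n a} × {a // S.Valid n a}) → Prop}

/-- A pebble on `a` can be moved to `a₁`, keeping a second pebble and the change of bit. -/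
def Mv (P : List ({a // S.Valid n a} × {a // S.Valid n a}) → Prop)
    (a a₁ : {a // S.Valid n a}) : Prop :=
  ∀ b q, P [(a, b), q] → ∃ b₁, P [(a₁, b₁), q] ∧ xor a.1.bit b.1.bit = xor a₁.1.bit b₁.1.bit

lemma Mv.refl (a : {a // S.Valid n a}) : Mv P a a := fun b _ h => ⟨b, h, rfl⟩

lemma Mv.trans {a a₁ a₂ : {a // S.Valid n a}} (h₁ : Mv P a a₁) (h₂ : Mv P a₁ a₂) : Mv P a a₂ := by
  intro b q h
  obtain ⟨b₁, hb₁, e₁⟩ := h₁ b q h
  obtain ⟨b₂, hb₂, e₂⟩ := h₂ b₁ q hb₁
  exact ⟨b₂, hb₂, e₁.trans e₂⟩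

lemma base_mem (hP : BFS κ (S.grV n tw) (S.grV n tw') P)
    (hB : ∀ a b, P [(a, b)] → a.1.base = b.1.base) {p} (hp : P p) {q} (hq : q ∈ p) :
    q.1.1.base = q.2.1.base :=
  hB q.1 q.2 (hP.mono _ _ hp (by simpa using hq))

lemma mv_adj (hκ : 4 ≤ κ) (hP : BFS κ (S.grV n tw) (S.grV n tw') P)
    (hB : ∀ a b, P [(a, b)] → a.1.base = b.1.base) {a a₁ : {a // S.Valid n a}}
    (ha : IsW a.1) (ha₁ : IsW a₁.1) (h : S.adj tw a.1 a₁.1 = true) : Mv P a a₁ := by
  intro b q hp
  obtain ⟨b₁, hb₁⟩ := hP.forth _ hp (by simp; omega) a₁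
  refine ⟨b₁, hP.mono _ _ hb₁ (by simp), ?_⟩
  have e₁ := base_mem hP hB hb₁ (q := (a₁, b₁)) (by simp)
  have e₂ := base_mem hP hB hb₁ (q := (a, b)) (by simp)
  have hi := (hP.iso _ hb₁ (a, b) (by simp) (a₁, b₁) (by simp)).2
  simp only [Sys3.grV] at hi
  have h' : S.adj tw' b.1 b₁.1 = true := hi ▸ h
  rw [bit_eq_of_adj S tw ha ha₁ h,
    bit_eq_of_adj S tw' (isW_of_base e₂ ha) (isW_of_base e₁ ha₁) h']

lemma mv_dd (hκ : 4 ≤ κ) (hP : BFS κ (S.grV n tw) (S.grV n tw') P)
    (hB : ∀ a b, P [(a, b)] → a.1.base = b.1.base) (x : ℕ) (β : Bool)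
    (h0 : S.Valid n (.dd (x * S.no) β)) :
    ∀ (o : ℕ) (_ : o < S.no) (h : S.Valid n (.dd (x * S.no + o) β)),
      Mv P ⟨.dd (x * S.no + o) β, h⟩ ⟨.dd (x * S.no) β, h0⟩ := by
  intro o
  induction o with
  | zero => intro _ h; exact Mv.refl _
  | succ o ih =>
    intro ho h
    have hv : x * S.no + o < S.nb := by
      have : x * S.no + (o + 1) < S.nb := h
      omega
    have s1 : Mv P ⟨.dd (x * S.no + (o + 1)) β, h⟩ ⟨.cc (x * S.no + o) β, hv⟩ := by
      refine mv_adj hκ hP hB (by trivial) (by trivial) ?_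
      have := blk_mod S x ho
      simp only [Sys3.adj, Sys3.arc, Bool.or_eq_true, decide_eq_true_eq]
      right
      refine ⟨by omega, by omega, trivial⟩
    have s2 : Mv P ⟨.cc (x * S.no + o) β, hv⟩ ⟨.dd (x * S.no + o) β, hv⟩ := by
      refine mv_adj hκ hP hB (by trivial) (by trivial) ?_
      simp [Sys3.adj, Sys3.arc]
    exact s1.trans (s2.trans (ih (by omega) hv))

lemma mv_home (hS : S.WF) (hκ : 4 ≤ κ) (hP : BFS κ (S.grV n tw) (S.grV n tw') P)
    (hB : ∀ a b, P [(a, b)] → a.1.base = b.1.base) (a : {a // S.Valid n a}) (x : ℕ)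
    (hx : S.var a.1 = some x) :
    ∃ (β : Bool) (h0 : S.Valid n (.dd (x * S.no) β)), Mv P a ⟨.dd (x * S.no) β, h0⟩ := by
  have hno := no_pos hS
  have hxl := var_lt hS a.2 hx
  have h0 : ∀ β, S.Valid n (.dd (x * S.no) β) := fun β => by
    have := blk_lt S hxl hno
    exact this
  have hcc : ∀ (o : ℕ) (β : Bool) (_ : o < S.no) (h : S.Valid n (.cc (x * S.no + o) β)),
      Mv P ⟨.cc (x * S.no + o) β, h⟩ ⟨.dd (x * S.no) β, h0 β⟩ := by
    intro o β ho h
    have s2 : Mv P ⟨.cc (x * S.no + o) β, h⟩ ⟨.dd (x * S.no + o) β, h⟩ := by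
      refine mv_adj hκ hP hB (by trivial) (by trivial) ?_
      simp [Sys3.adj, Sys3.arc]
    exact s2.trans (mv_dd hκ hP hB x β (h0 β) o ho h)
  obtain ⟨a, ha⟩ := a
  cases a with
  | sp j => simp [Sys3.var] at hx
  | fk j => simp [Sys3.var] at hx
  | md e b₁ b₂ => simp [Sys3.var] at hx
  | dd i β =>
    simp only [Sys3.var, Option.some.injEq] at hx
    obtain ⟨o, ho, rfl⟩ : ∃ o, o < S.no ∧ i = x * S.no + o :=
      ⟨i % S.no, Nat.mod_lt _ hno, by
        rw [← hx, Nat.mul_comm]; exact (Nat.div_add_mod i S.no).symm⟩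
    exact ⟨β, h0 β, mv_dd hκ hP hB x β (h0 β) o ho ha⟩
  | cc i β =>
    simp only [Sys3.var, Option.some.injEq] at hx
    obtain ⟨o, ho, rfl⟩ : ∃ o, o < S.no ∧ i = x * S.no + o :=
      ⟨i % S.no, Nat.mod_lt _ hno, by
        rw [← hx, Nat.mul_comm]; exact (Nat.div_add_mod i S.no).symm⟩
    exact ⟨β, h0 β, hcc o β ho ha⟩
  | pt o β =>
    simp only [Sys3.var, Option.some.injEq] at hx
    have ho : o < S.no := ha
    have hv : S.Valid n (.cc (x * S.no + o) β) := blk_lt S hxl ho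
    refine ⟨β, h0 β, Mv.trans ?_ (hcc o β ho hv)⟩
    refine mv_adj hκ hP hB (by trivial) (by trivial) ?_
    simp only [Sys3.adj, Sys3.arc, Bool.or_eq_true, decide_eq_true_eq]
    right
    exact ⟨(blk_mod S x ho).symm, by rw [blk_div S x ho, hx], trivial⟩

end Game

end GraphSp

open GraphSp in
theorem wireStmt_of (h : BaseStmt) : WireStmt := by
  intro S n κ tw tw' P hS hn hκ hP a b a' b' x hp hx hx'
  have hB := h S n κ tw tw' P hS hn hκ hP
  obtain ⟨β, h0, hm⟩ := mv_home hS hκ hP hB a x hx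
  obtain ⟨β', h0', hm'⟩ := mv_home hS hκ hP hB a' x hx'
  obtain ⟨b₁, hb₁, e₁⟩ := hm b _ hp
  obtain ⟨b₂, hb₂, e₂⟩ := hm' b' (⟨_, h0⟩, b₁) (hP.mono _ _ hb₁ (by simp))
  rw [e₁, e₂]
  have f₁ := base_mem hP hB hb₂ (q := (⟨_, h0⟩, b₁)) (by simp)
  have f₂ := base_mem hP hB hb₂ (q := (⟨_, h0'⟩, b₂)) (by simp)
  have hi := (hP.iso _ hb₂ (⟨_, h0⟩, b₁) (by simp) (⟨_, h0'⟩, b₂) (by simp)).1
  obtain ⟨b₁, hv₁⟩ := b₁
  obtain ⟨b₂, hv₂⟩ := b₂
  simp only [Subtype.mk.injEq] at hi
  cases b₁ <;> simp only [Nd.base, reduceCtorEq, Nd.dd.injEq] at f₁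
  cases b₂ <;> simp only [Nd.base, reduceCtorEq, Nd.dd.injEq] at f₂
  obtain ⟨rfl, -⟩ := f₁
  obtain ⟨rfl, -⟩ := f₂
  simp only [Nd.dd.injEq, true_and] at hi
  simp only [Nd.bit]
  rename_i γ₁ γ₂
  revert hi
  cases β <;> cases β' <;> cases γ₁ <;> cases γ₂ <;> simp

namespace GraphSp

/-- A bit as an element of `ZMod 2`. -/
def bz (b : Bool) : ZMod 2 := if b then 1 else 0

lemma ev_congr {V : Type} {δ δ' : V → ZMod 2} {f : Fm V} (h : ∀ v, f v ≠ 0 → δ v = δ' v) :
    ev δ f = ev δ' f := by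
  simp only [ev, Finsupp.linearCombination_apply]
  refine Finsupp.sum_congr fun v hv => ?_
  rw [h v (Finsupp.mem_support_iff.1 hv)]

lemma ev_sg {V : Type} (δ : V → ZMod 2) (v : V) : ev δ (sg v) = δ v := by
  simp [ev, sg]

lemma eqn_mem {S : Sys3} {e x : ℕ} (h : S.eqn e (some x) ≠ 0) :
    x = S.slot e 0 ∨ x = S.slot e 1 ∨ x = S.slot e 2 := by
  by_contra hc
  push Not at hc
  obtain ⟨h0, h1, h2⟩ := hc
  apply h
  unfold Sys3.eqn sg
  split_ifs <;> simp [h0.symm, h1.symm, h2.symm]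

lemma der_lt {S : Sys3} (hS : S.WF) {w : ℕ} {f : Fm (Option ℕ)} (hf : S.Der w f) :
    ∀ x, f (some x) ≠ 0 → x < S.nv := by
  unfold Sys3.Der at hf
  induction hf with
  | zero => intro x hx; simp at hx
  | base he =>
    obtain ⟨e, he, rfl⟩ := he
    intro x hx
    rcases eqn_mem hx with rfl | rfl | rfl <;> exact hS.2.2 e he _ (by omega)
  | add T _ _ _ _ _ ihf ihg =>
    intro x hx
    by_contra hc
    apply hx
    rw [Finsupp.add_apply, not_not.1 fun h => hc (ihf x h), not_not.1 fun h => hc (ihg x h),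
      add_zero]

section Game

variable {S : Sys3} {n κ : ℕ} {tw tw' : Bool}
  {P : List ({a // S.Valid n a} × {a // S.Valid n a}) → Prop}

/-- The position `p` has a pebble on a node of variable `x` with change of bit `z`. -/
def Rep (p : List ({a // S.Valid n a} × {a // S.Valid n a})) (x : ℕ) (z : ZMod 2) : Prop :=
  ∃ q ∈ p, S.var q.1.1 = some x ∧ z = bz (xor q.1.1.bit q.2.1.bit)

lemma restrict (p : List ({a // S.Valid n a} × {a // S.Valid n a})) (δ : ℕ → ZMod 2)
    (T : Finset ℕ) (h : ∀ x ∈ T, Rep p x (δ x)) :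
    ∃ p₁ : List ({a // S.Valid n a} × {a // S.Valid n a}), (∀ q ∈ p₁, q ∈ p) ∧
      p₁.length ≤ T.card ∧ ∀ x ∈ T, Rep p₁ x (δ x) := by
  induction T using Finset.induction_on with
  | empty => exact ⟨[], by simp, by simp, by simp⟩
  | insert y T hy ih =>
    obtain ⟨p₁, h₁, h₂, h₃⟩ := ih fun x hx => h x (Finset.mem_insert_of_mem hx)
    obtain ⟨q, hq, hq'⟩ := h y (Finset.mem_insert_self _ _)
    refine ⟨q :: p₁, ?_, ?_, ?_⟩
    · intro r hr
      rcases List.mem_cons.1 hr with rfl | hr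
      · exact hq
      · exact h₁ r hr
    · rw [Finset.card_insert_of_notMem hy, List.length_cons]; omega
    · intro x hx
      rcases Finset.mem_insert.1 hx with rfl | hx
      · exact ⟨q, List.mem_cons_self, hq'⟩
      · obtain ⟨r, hr, hr'⟩ := h₃ x hx
        exact ⟨r, List.mem_cons_of_mem _ hr, hr'⟩

lemma extend (hS : S.WF) (hP : BFS κ (S.grV n tw) (S.grV n tw') P)
    (p : List ({a // S.Valid n a} × {a // S.Valid n a})) (hp : P p) (T : Finset ℕ)
    (hT : ∀ x ∈ T, x < S.nv) (hl : p.length + T.card ≤ κ) :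
    ∃ p₂ : List ({a // S.Valid n a} × {a // S.Valid n a}), P p₂ ∧ (∀ q ∈ p, q ∈ p₂) ∧
      p₂.length ≤ p.length + T.card ∧ ∀ x ∈ T, ∃ z, Rep p₂ x z := by
  induction T using Finset.induction_on with
  | empty => exact ⟨p, hp, fun _ h => h, by simp, by simp⟩
  | insert y T hy ih =>
    rw [Finset.card_insert_of_notMem hy] at hl ⊢
    obtain ⟨p₂, h₀, h₁, h₂, h₃⟩ := ih (fun x hx => hT x (Finset.mem_insert_of_mem hx)) (by omega)
    have hno := no_pos hS
    have hv : S.Valid n (.dd (y * S.no) false) := by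
      have := blk_lt S (hT y (Finset.mem_insert_self _ _)) hno
      exact this
    obtain ⟨b, hb⟩ := hP.forth p₂ h₀ (by omega) ⟨_, hv⟩
    refine ⟨_, hb, fun q hq => List.mem_cons_of_mem _ (h₁ q hq), ?_, ?_⟩
    · rw [List.length_cons]; omega
    · intro x hx
      rcases Finset.mem_insert.1 hx with rfl | hx
      · refine ⟨_, _, List.mem_cons_self, ?_, rfl⟩
        simp [Sys3.var, Nat.mul_div_cancel _ hno]
      · obtain ⟨z, r, hr, hr'⟩ := h₃ x hx
        exact ⟨z, r, List.mem_cons_of_mem _ hr, hr'⟩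

/-- Keep the pebbles of the variables in `A`, and cover all the variables of `T`. -/
lemma cover_by (hS : S.WF) (hP : BFS κ (S.grV n tw) (S.grV n tw') P)
    (p : List ({a // S.Valid n a} × {a // S.Valid n a})) (hp : P p) (T : Finset ℕ)
    (hT : ∀ x ∈ T, x < S.nv) (hl : T.card ≤ κ) (A : ℕ → Prop) (δ : Option ℕ → ZMod 2)
    (hA : ∀ x, A x → Rep p x (δ (some x))) :
    ∃ (p' : List ({a // S.Valid n a} × {a // S.Valid n a})) (δ' : Option ℕ → ZMod 2), P p' ∧
      p'.length ≤ T.card ∧ δ' none = δ none ∧ (∀ x, A x → δ' (some x) = δ (some x)) ∧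
      ∀ x ∈ T, Rep p' x (δ' (some x)) := by
  classical
  obtain ⟨p₁, h₁, h₂, h₃⟩ := restrict p (fun x => δ (some x)) (T.filter A)
    fun x hx => hA x (Finset.mem_filter.1 hx).2
  have hc := Finset.card_filter_add_card_filter_not (s := T) A
  obtain ⟨p₂, g₀, g₁, g₂, g₃⟩ := extend hS hP p₁ (hP.mono _ _ hp h₁) (T.filter fun x => ¬ A x)
    (fun x hx => hT x (Finset.mem_filter.1 hx).1) (by omega)
  choose! z hz using g₃
  refine ⟨p₂, fun o => o.elim (δ none) fun x => if A x then δ (some x) else z x, g₀, by omega,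
    rfl, fun x hx => by simp [hx], fun x hx => ?_⟩
  by_cases hx' : A x
  · obtain ⟨r, hr, hr'⟩ := h₃ x (Finset.mem_filter.2 ⟨hx, hx'⟩)
    refine ⟨r, g₁ r hr, ?_⟩
    simpa [hx'] using hr'
  · simpa [hx'] using hz x (Finset.mem_filter.2 ⟨hx, hx'⟩)

/-- Looking at a port of a pebbled middle node. -/
lemma port (hκ : 4 ≤ κ) (hP : BFS κ (S.grV n tw) (S.grV n tw') P)
    (hB : ∀ a b, P [(a, b)] → a.1.base = b.1.base) {e : ℕ} {b₁ b₂ c₁ c₂ : Bool}
    (hm : S.Valid n (.md e b₁ b₂)) (hm' : S.Valid n (.md e c₁ c₂)) (q)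
    (hp : P [(⟨_, hm⟩, ⟨_, hm'⟩), q]) {j : ℕ} (hj : j < 3) :
    ∃ (h : S.Valid n (.pt (3 * e + j) (S.mbit tw e b₁ b₂ j)))
      (h' : S.Valid n (.pt (3 * e + j) (S.mbit tw' e c₁ c₂ j))), P [(⟨_, h⟩, ⟨_, h'⟩), q] := by
  have he : e < S.ne := hm
  have hv : ∀ β, S.Valid n (.pt (3 * e + j) β) := fun β => by
    show 3 * e + j < 3 * S.ne
    omega
  have d3 : (3 * e + j) / 3 = e := by omega
  have m3 : (3 * e + j) % 3 = j := by omega
  obtain ⟨b, hb⟩ := hP.forth _ hp (by simp; omega) ⟨_, hv (S.mbit tw e b₁ b₂ j)⟩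
  refine ⟨hv _, hv _, ?_⟩
  have f := base_mem hP hB hb (q := (⟨_, hv _⟩, b)) List.mem_cons_self
  have hi := (hP.iso _ hb (⟨_, hv _⟩, b) List.mem_cons_self (⟨_, hm⟩, ⟨_, hm'⟩) (by simp)).2
  obtain ⟨b, hbv⟩ := b
  cases b <;> simp only [Nd.base, reduceCtorEq, Nd.pt.injEq] at f
  obtain ⟨rfl, -⟩ := f
  rename_i γ
  simp only [Sys3.grV, Sys3.adj, Sys3.arc, d3, m3, Bool.or_false, true_and, decide_true] at hi
  have hγ : γ = S.mbit tw' e c₁ c₂ j := by simpa using hi.symm
  subst hγ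
  exact hP.mono _ _ hb (by simp)

lemma claim (hS : S.WF) {w : ℕ} (hκ : w + 4 ≤ κ) (hP : BFS κ (S.grV n tw) (S.grV n tw') P)
    (hB : ∀ a b, P [(a, b)] → a.1.base = b.1.base)
    (hW : ∀ a b a' b' x, P [(a, b), (a', b')] → S.var a.1 = some x → S.var a'.1 = some x →
      xor a.1.bit b.1.bit = xor a'.1.bit b'.1.bit)
    {f : Fm (Option ℕ)} (hf : S.Der w f) :
    ∀ (p : List ({a // S.Valid n a} × {a // S.Valid n a})) (δ : Option ℕ → ZMod 2), P p →
      δ none = bz (xor tw tw') → (∀ x, f (some x) ≠ 0 → Rep p x (δ (some x))) → ev δ f = 0 := by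
  classical
  unfold Sys3.Der at hf
  induction hf with
  | zero => intro p δ _ _ _; simp
  | base he =>
    obtain ⟨e, he, rfl⟩ := he
    intro p δ hp h0 hr
    have hT : ∀ x ∈ ({S.slot e 0, S.slot e 1, S.slot e 2} : Finset ℕ), x < S.nv := by
      intro x hx
      simp only [Finset.mem_insert, Finset.mem_singleton] at hx
      rcases hx with rfl | rfl | rfl <;> exact hS.2.2 e he _ (by omega)
    have hc : ({S.slot e 0, S.slot e 1, S.slot e 2} : Finset ℕ).card ≤ 3 := Finset.card_le_three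
    obtain ⟨p', δ', hp', hl, g0, g1, g2⟩ := cover_by hS hP p hp _ hT (by omega) _ δ hr
    rw [ev_congr (δ' := δ') (by
      rintro (_ | x) hx
      · exact g0.symm
      · exact (g1 x hx).symm)]
    have hm : S.Valid n (.md e false false) := he
    obtain ⟨m, hb⟩ := hP.forth _ hp' (by omega) ⟨_, hm⟩
    have f := base_mem hP hB hb (q := (⟨_, hm⟩, m)) List.mem_cons_self
    obtain ⟨m, hm'⟩ := m
    cases m <;> simp only [Nd.base, reduceCtorEq, Nd.md.injEq] at f
    obtain ⟨rfl, -⟩ := f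
    rename_i c₁ c₂
    have key : ∀ j < 3, δ' (some (S.slot e j)) =
        bz (xor (S.mbit tw e false false j) (S.mbit tw' e c₁ c₂ j)) := by
      intro j hj
      obtain ⟨q, hq, hqv, hqz⟩ := g2 (S.slot e j) (by
        simp only [Finset.mem_insert, Finset.mem_singleton]
        interval_cases j <;> simp)
      obtain ⟨h, h', hpp⟩ := port (by omega) hP hB hm hm' q
        (hP.mono _ _ hb (by simp [hq])) hj
      have := hW _ _ q.1 q.2 (S.slot e j) hpp (by
        have d3 : (3 * e + j) / 3 = e := by omega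
        have m3 : (3 * e + j) % 3 = j := by omega
        simp [Sys3.var, d3, m3]) hqv
      rw [hqz, ← this]
      rfl
    have k0 := key 0 (by omega)
    have k1 := key 1 (by omega)
    have k2 := key 2 (by omega)
    unfold Sys3.eqn
    rw [map_add, map_add, map_add, ev_sg, ev_sg, ev_sg, k0, k1, k2]
    by_cases ht : e = S.tw
    · rw [if_pos ht, ev_sg, g0, h0]
      simp only [Sys3.mbit, ht]
      cases tw <;> cases tw' <;> cases c₁ <;> cases c₂ <;> decide
    · rw [if_neg ht, map_zero]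
      simp only [Sys3.mbit, ht]
      cases tw <;> cases tw' <;> cases c₁ <;> cases c₂ <;> decide
  | @add f g T hf hg cf cg hT ihf ihg =>
    intro p δ hp h0 hr
    have hfl := der_lt hS hf
    have hgl := der_lt hS hg
    set U : Finset ℕ := (T.preimage some (Option.some_injective _).injOn).filter (· < S.nv)
      with hU
    have hUc : U.card ≤ w := by
      refine le_trans (Finset.card_filter_le _ _) (le_trans ?_ hT)
      refine Finset.card_le_card_of_injOn some ?_ (Option.some_injective _).injOn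
      intro x hx
      simpa using hx
    obtain ⟨p', δ', hp', -, g0, g1, g2⟩ := cover_by hS hP p hp U
      (fun x hx => (Finset.mem_filter.1 hx).2) (by omega) _ δ hr
    rw [ev_congr (δ' := δ') (by
      rintro (_ | x) hx
      · exact g0.symm
      · exact (g1 x hx).symm)]
    rw [map_add, ihf p' δ' hp' (g0.trans h0), ihg p' δ' hp' (g0.trans h0), add_zero]
    · intro x hx
      refine g2 x (Finset.mem_filter.2 ⟨?_, hgl x hx⟩)
      simpa using cg _ hx
    · intro x hx
      refine g2 x (Finset.mem_filter.2 ⟨?_, hfl x hx⟩)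
      simpa using cf _ hx

end Game

end GraphSp

open GraphSp in
theorem graphSpStmt_of (h : BaseStmt) (hW : WireStmt) : GraphSpStmt := by
  intro S n κ w hS hn hκ
  constructor
  · rintro hd ⟨P, hP⟩
    have := claim hS hκ hP (h S n κ _ _ P hS hn (by omega) hP)
      (hW S n κ _ _ P hS hn (by omega) hP) hd [] (fun _ => 1) hP.nil rfl
      (fun x hx => by simp [sg] at hx)
    rw [ev_sg] at this
    exact one_ne_zero this
  · intro hd P hP a b hp
    have hB := h S n κ _ _ P hS hn (by omega) hP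
    have hW' := hW S n κ _ _ P hS hn (by omega) hP
    have wire : ∀ a b, P [(a, b)] → ∀ x, S.var a.1 = some x → a.1.bit = b.1.bit := by
      intro a b hp x hx
      have := claim hS hκ hP hB hW' (hd x (var_lt hS a.2 hx)) [(a, b)]
        (fun o => o.elim 0 fun _ => bz (xor a.1.bit b.1.bit)) hp rfl (fun y hy => by
          have : y = x := by
            by_contra hc
            exact hy (by simp [sg, Ne.symm hc])
          subst this
          exact ⟨(a, b), by simp, hx, rfl⟩)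
      rw [ev_sg] at this
      revert this
      cases a.1.bit <;> cases b.1.bit <;> simp [bz]
    have hab := hB a b hp
    apply Subtype.ext
    obtain ⟨a, ha⟩ := a
    obtain ⟨b, hb⟩ := b
    cases a with
    | sp j => cases b <;> simp_all [Nd.base]
    | fk j => cases b <;> simp_all [Nd.base]
    | dd i β => exact eq_of_base_bit trivial hab (wire _ _ hp _ rfl)
    | cc i β => exact eq_of_base_bit trivial hab (wire _ _ hp _ rfl)
    | pt i β => exact eq_of_base_bit trivial hab (wire _ _ hp _ rfl)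
    | md e b₁ b₂ =>
      cases b <;> simp only [Nd.base, reduceCtorEq, Nd.md.injEq] at hab
      obtain ⟨rfl, -⟩ := hab
      rename_i c₁ c₂
      have key : ∀ j < 3, S.mbit false e b₁ b₂ j = S.mbit false e c₁ c₂ j := by
        intro j hj
        obtain ⟨h₁, h₂, hpp⟩ := port (by omega) hP hB ha hb (⟨_, ha⟩, ⟨_, hb⟩)
          (hP.mono _ _ hp (by simp)) hj
        exact wire _ _ (hP.mono [(⟨_, h₁⟩, ⟨_, h₂⟩)] _ hpp (by simp)) _ rfl
      have k0 := key 0 (by omega)
      have k1 := key 1 (by omega)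
      simp only [Sys3.mbit] at k0 k1
      simp_all

end Crest.Agent.R290
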