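import Crest.Agent.R290.DefsG

/-! Row 290: neighbours in the graph of a three-slot system. -/

set_option autoImplicit false

namespace Crest.Agent.R290

namespace Sys3

variable {S : Sys3} {tw : Bool}

theorem adj_comm (a a' : Nd) : S.adj tw a a' = S.adj tw a' a := Bool.or_comm _ _

theorem adj_self (a : Nd) : S.adj tw a a = false := by
  cases a <;> simp [adj, arc]
  omega

theorem adj_sp {j : ℕ} {a : Nd} : S.adj tw (.sp j) a = true ↔
    a = .sp (j + 1) ∨ (∃ i, j = i + 1 ∧ a = .sp i) ∨ (j = 1 ∧ a = .sp 3) ∨ (j = 3 ∧ a = .sp 1) ∨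
      ∃ i, j = 4 + 2 * i ∧ a = .fk i := by
  cases a <;> simp [adj, arc]
  omega

theorem adj_fk {i : ℕ} {a : Nd} : S.adj tw (.fk i) a = true ↔
    a = .sp (4 + 2 * i) ∨ ∃ b, a = .dd i b := by
  cases a <;> simp [adj, arc, eq_comm]

theorem adj_dd {i : ℕ} {b : Bool} {a : Nd} : S.adj tw (.dd i b) a = true ↔
    a = .fk i ∨ a = .cc i b ∨ ∃ i', i = i' + 1 ∧ i % S.no ≠ 0 ∧ a = .cc i' b := by
  cases a <;> simp [adj, arc]
  exact or_congr_left (and_congr eq_comm eq_comm)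

theorem adj_cc {i : ℕ} {b : Bool} {a : Nd} : S.adj tw (.cc i b) a = true ↔
    a = .dd i b ∨ ((i + 1) % S.no ≠ 0 ∧ a = .dd (i + 1) b) ∨
      (S.slot (i % S.no / 3) (i % S.no % 3) = i / S.no ∧ a = .pt (i % S.no) b) := by
  cases a <;> simp [adj, arc]
  · constructor
    · rintro (⟨rfl, h, rfl⟩ | h)
      · exact Or.inr ⟨h, rfl, rfl⟩
      · exact Or.inl h
    · rintro (h | ⟨h, rfl, rfl⟩)
      · exact Or.inr h
      · exact Or.inl ⟨rfl, h, rfl⟩
  · constructor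
    · rintro ⟨rfl, h, rfl⟩; exact ⟨h, rfl, rfl⟩
    · rintro ⟨h, rfl, rfl⟩; exact ⟨rfl, h, rfl⟩

theorem adj_pt' {o : ℕ} {b : Bool} {a : Nd} : S.adj tw (.pt o b) a = true ↔
    (∃ i, o = i % S.no ∧ S.slot (o / 3) (o % 3) = i / S.no ∧ a = .cc i b) ∨
      ∃ b₁ b₂, b = S.mbit tw (o / 3) b₁ b₂ (o % 3) ∧ a = .md (o / 3) b₁ b₂ := by
  cases a with
  | cc i b' =>
    simp only [adj, arc, Bool.false_or, decide_eq_true_eq, Nd.cc.injEq, reduceCtorEq, and_false,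
      exists_false, or_false]
    constructor
    · rintro ⟨h1, h2, rfl⟩; exact ⟨i, h1, h2, rfl, rfl⟩
    · rintro ⟨_, h1, h2, rfl, rfl⟩; exact ⟨h1, h2, rfl⟩
  | md e b₁ b₂ =>
    simp only [adj, arc, Bool.or_false, decide_eq_true_eq, Nd.md.injEq, reduceCtorEq, and_false,
      exists_false, false_or]
    constructor
    · rintro ⟨rfl, h⟩; exact ⟨b₁, b₂, h, rfl, rfl, rfl⟩
    · rintro ⟨_, _, h, rfl, rfl, rfl⟩; exact ⟨rfl, h⟩
  | _ => simp [adj, arc]

theorem adj_pt {o : ℕ} (ho : o < S.no) {b : Bool} {a : Nd} : S.adj tw (.pt o b) a = true ↔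
    a = .cc (S.slot (o / 3) (o % 3) * S.no + o) b ∨
      ∃ b₁ b₂, b = S.mbit tw (o / 3) b₁ b₂ (o % 3) ∧ a = .md (o / 3) b₁ b₂ := by
  rw [adj_pt']
  refine or_congr_left ⟨?_, ?_⟩
  · rintro ⟨i, h1, h2, rfl⟩
    rw [h2]
    conv_rhs => rw [h1]
    rw [Nat.div_add_mod']
  · rintro rfl
    have hp : 0 < S.no := by omega
    refine ⟨_, ?_, ?_, rfl⟩
    · rw [Nat.mul_add_mod_self_right, Nat.mod_eq_of_lt ho]
    · rw [add_comm, Nat.add_mul_div_right _ _ hp, Nat.div_eq_of_lt ho, zero_add]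

theorem adj_md {e : ℕ} {b₁ b₂ : Bool} {a : Nd} : S.adj tw (.md e b₁ b₂) a = true ↔
    ∃ j < 3, a = .pt (3 * e + j) (S.mbit tw e b₁ b₂ j) := by
  cases a with
  | pt o b =>
    simp only [adj, arc, Bool.false_or, decide_eq_true_eq, Nd.pt.injEq]
    constructor
    · rintro ⟨rfl, rfl⟩
      exact ⟨o % 3, Nat.mod_lt _ (by norm_num), by omega, rfl⟩
    · rintro ⟨j, hj, rfl, rfl⟩
      have : (3 * e + j) % 3 = j := by omega
      exact ⟨by omega, by rw [this]⟩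
  | _ => simp [adj, arc]

theorem len_ge {n : ℕ} (h : S.size ≤ n) : 4 + 2 * S.nb ≤ S.len n := by
  unfold size at h; unfold len; omega

theorem len_add {n : ℕ} (h : S.size ≤ n) : S.len n + 5 * S.nb + 10 * S.ne = n := by
  unfold size at h; unfold len; omega

/-- The block holding the slot `o` is a block. -/
theorem slot_block_lt (hS : S.WF) {o : ℕ} (ho : o < S.no) :
    S.slot (o / 3) (o % 3) * S.no + o < S.nb := by
  have h1 : S.slot (o / 3) (o % 3) < S.nv :=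
    hS.2.2 _ (by unfold no at ho; omega) _ (Nat.mod_lt _ (by norm_num))
  have h2 : (S.slot (o / 3) (o % 3) + 1) * S.no ≤ S.nv * S.no := Nat.mul_le_mul_right _ h1
  unfold nb
  rw [add_mul] at h2
  omega

/-- Every node has at most three neighbours. -/
theorem three_nbrs (a : Nd) : ∃ x y z : Nd, ∀ a', S.adj tw a a' = true →
    a' = x ∨ a' = y ∨ a' = z := by
  cases a with
  | sp j =>
    refine ⟨.sp (j + 1), .sp (j - 1), if j = 1 then .sp 3 else if j = 3 then .sp 1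
      else .fk ((j - 4) / 2), fun a' h => ?_⟩
    rcases adj_sp.1 h with rfl | ⟨i, rfl, rfl⟩ | ⟨rfl, rfl⟩ | ⟨rfl, rfl⟩ | ⟨i, rfl, rfl⟩
    · simp
    · simp
    · simp
    · simp
    · rw [if_neg (by omega), if_neg (by omega)]; simp
  | fk i =>
    refine ⟨.sp (4 + 2 * i), .dd i false, .dd i true, fun a' h => ?_⟩
    rcases adj_fk.1 h with rfl | ⟨b, rfl⟩
    · simp
    · cases b <;> simp
  | dd i b =>
    refine ⟨.fk i, .cc i b, .cc (i - 1) b, fun a' h => ?_⟩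
    rcases adj_dd.1 h with rfl | rfl | ⟨i', rfl, -, rfl⟩ <;> simp
  | cc i b =>
    refine ⟨.dd i b, .dd (i + 1) b, .pt (i % S.no) b, fun a' h => ?_⟩
    rcases adj_cc.1 h with rfl | ⟨-, rfl⟩ | ⟨-, rfl⟩ <;> simp
  | pt o b =>
    have key : ∃ p q : Bool × Bool, ∀ b₁ b₂, b = S.mbit tw (o / 3) b₁ b₂ (o % 3) →
        (b₁, b₂) = p ∨ (b₁, b₂) = q := by
      unfold mbit
      generalize (tw && decide (o / 3 = S.tw)) = c
      split_ifs
      · revert b; decide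
      · revert b; decide
      · revert b c; decide
    obtain ⟨p, q, hpq⟩ := key
    refine ⟨.cc (S.slot (o / 3) (o % 3) * S.no + o) b, .md (o / 3) p.1 p.2, .md (o / 3) q.1 q.2,
      fun a' h => ?_⟩
    rcases adj_pt'.1 h with ⟨i, h1, h2, rfl⟩ | ⟨b₁, b₂, h1, rfl⟩
    · left
      rw [h2]
      conv_rhs => rw [h1]
      rw [Nat.div_add_mod']
    · rcases hpq b₁ b₂ h1 with rfl | rfl <;> simp
  | md e b₁ b₂ =>
    refine ⟨.pt (3 * e + 0) (S.mbit tw e b₁ b₂ 0), .pt (3 * e + 1) (S.mbit tw e b₁ b₂ 1),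
      .pt (3 * e + 2) (S.mbit tw e b₁ b₂ 2), fun a' h => ?_⟩
    obtain ⟨j, hj, rfl⟩ := adj_md.1 h
    interval_cases j <;> simp

end Sys3

end Crest.Agent.R290
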