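import Crest.Agent.R290.PLDefs

/-! Row 290, statement S0438: good cliques in the parity lifts. -/

set_option autoImplicit false

namespace Crest.Agent.R290

open Finset Crest.WLRefine Crest.WLRefine.ParityLift

namespace PLClq

theorem two_mul_card {α : Type} [DecidableEq α] (S : Finset α) (p : α → Prop) [DecidablePred p]
    (σ : α → α) (h1 : ∀ z ∈ S, σ z ∈ S) (h2 : ∀ z ∈ S, σ (σ z) = z)
    (h3 : ∀ z ∈ S, p (σ z) ↔ ¬ p z) : S.card = 2 * (S.filter p).card := by
  have e : (S.filter fun z => ¬ p z).card = (S.filter p).card := by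
    refine Finset.card_nbij' σ σ ?_ ?_ ?_ ?_
    · intro z hz
      simp only [coe_filter, Set.mem_ofPred_eq] at hz ⊢
      exact ⟨h1 z hz.1, (h3 z hz.1).2 hz.2⟩
    · intro z hz
      simp only [coe_filter, Set.mem_ofPred_eq] at hz ⊢
      exact ⟨h1 z hz.1, fun h => (h3 z hz.1).1 h hz.2⟩
    · intro z hz
      simp only [coe_filter, Set.mem_ofPred_eq] at hz
      exact h2 z hz.1
    · intro z hz
      simp only [coe_filter, Set.mem_ofPred_eq] at hz
      exact h2 z hz.1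
  rw [← Finset.card_filter_add_card_filter_not (s := S) p, e, two_mul]

variable {t : ℕ} {C : ChoiceSystem t} {b : TV t → Bool}

theorem tAdj_comm (a a' : TV t) : tAdj a a' = tAdj a' a := by
  cases a <;> cases a' <;> simp [tAdj, ne_comm]

theorem tAdj_self (a : TV t) : tAdj a a = false := by
  cases a <;> simp [tAdj]

theorem tAdj_of_bAdj {u v : BV C} (h : bAdj C u v = true) :
    tAdj (typeOf C u) (typeOf C v) = true := by
  rcases u with p | p <;> rcases v with q | q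
  · simp only [bAdj, mainAgree, Bool.or_eq_true, decide_eq_true_eq] at h
    simp only [typeOf, tAdj, decide_eq_true_eq]
    rcases h with ⟨h, -⟩ | ⟨h, -⟩
    · exact h.ne
    · exact h.ne'
  · simp only [bAdj, helperAgree, decide_eq_true_eq] at h
    simp only [typeOf, tAdj, decide_eq_true_eq]
    rcases h with ⟨h, -⟩ | ⟨h, -⟩ | h <;> simp [h]
  · simp only [bAdj, helperAgree, decide_eq_true_eq] at h
    simp only [typeOf, tAdj, decide_eq_true_eq]
    rcases h with ⟨h, -⟩ | ⟨h, -⟩ | h <;> simp [h]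
  · simp [bAdj] at h

/-- The type of a lift vertex. -/
def ty (x : LiftV C b) : TV t := typeOf C x.1.1

/-- The tag, extended by zero. -/
def tg (x : LiftV C b) (a : TV t) : ZMod 2 :=
  if h : tAdj (typeOf C x.1.1) a = true then (if x.1.2 ⟨a, h⟩ = true then 1 else 0) else 0

theorem tg_of_not {x : LiftV C b} {a : TV t} (h : ¬ tAdj (ty x) a = true) : tg x a = 0 :=
  dif_neg h

theorem tg_pos {x : LiftV C b} {a : TV t} (h : tAdj (typeOf C x.1.1) a = true) :
    tg x a = if x.1.2 ⟨a, h⟩ = true then 1 else 0 := dif_pos h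

theorem ite_inj {p q : Bool} (h : (if p = true then (1 : ZMod 2) else 0) = if q = true then 1 else 0) :
    p = q := by
  revert h; cases p <;> cases q <;> decide

theorem adj_iff {x y : LiftV C b} : liftAdj C b x y = true ↔
    bAdj C x.1.1 y.1.1 = true ∧ tg x (ty y) = tg y (ty x) := by
  simp only [liftAdj, decide_eq_true_eq]
  constructor
  · rintro ⟨h, h', h1, h2⟩
    refine ⟨h1, ?_⟩
    unfold ty
    rw [tg_pos h, tg_pos h', h2]
  · rintro ⟨h1, h2⟩
    have h := tAdj_of_bAdj h1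
    have h' : tAdj (typeOf C y.1.1) (typeOf C x.1.1) = true := by rw [tAdj_comm]; exact h
    refine ⟨h, h', h1, ?_⟩
    unfold ty at h2
    rw [tg_pos h, tg_pos h'] at h2
    exact ite_inj h2

theorem lift_ext {x y : LiftV C b} (h1 : x.1.1 = y.1.1) (h2 : ∀ a, tg x a = tg y a) : x = y := by
  obtain ⟨⟨u, f⟩, hf⟩ := x
  obtain ⟨⟨v, g⟩, hg⟩ := y
  simp only at h1
  subst h1
  have : f = g := by
    funext c
    have := h2 c.1
    simp only [tg, dif_pos c.2] at this
    exact ite_inj this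
  subst this
  rfl

theorem par_iff (n : ℕ) (β : Bool) :
    n % 2 = β.toNat ↔ (n : ZMod 2) = if β = true then 1 else 0 := by
  cases β
  · simp [ZMod.natCast_eq_zero_iff_even, Nat.even_iff]
  · simp [ZMod.natCast_eq_one_iff_odd, Nat.odd_iff]

theorem sum_nbr (s : TV t) (f : TV t → ZMod 2) (hf : ∀ a, ¬ tAdj s a = true → f a = 0) :
    ∑ a, f a = ∑ c : Nbr s, f c.1 := by
  rw [← Finset.sum_subtype (univ.filter fun a => tAdj s a = true) (by simp)]
  symm
  apply Finset.sum_subset (filter_subset _ _)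
  intro a _ ha
  exact hf a (by simpa using ha)

theorem sum_tg (x : LiftV C b) : ∑ a, tg x a = if b (ty x) = true then 1 else 0 := by
  rw [sum_nbr (ty x) (tg x) fun a => tg_of_not]
  have h := (par_iff _ _).1 x.2
  rw [← Finset.sum_boole] at h
  refine Eq.trans ?_ h
  refine Finset.sum_congr rfl fun c _ => ?_
  exact dif_pos c.2

theorem ite_dec (v : ZMod 2) : (if decide (v = 1) = true then (1 : ZMod 2) else 0) = v := by
  revert v; decide

/-- A lift vertex with a given tag. -/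
def mk (u : BV C) (f : TV t → ZMod 2) (h0 : ∀ a, ¬ tAdj (typeOf C u) a = true → f a = 0)
    (h1 : ∑ a, f a = if b (typeOf C u) = true then 1 else 0) : LiftV C b :=
  ⟨⟨u, fun c => decide (f c.1 = 1)⟩, by
    rw [par_iff, ← Finset.sum_boole, ← h1, sum_nbr _ f h0]
    exact Finset.sum_congr rfl fun c _ => ite_dec _⟩

theorem tg_mk (u : BV C) (f : TV t → ZMod 2) (h0) (h1) : tg (mk (b := b) u f h0 h1) = f := by
  funext a
  by_cases h : tAdj (typeOf C u) a = true
  · exact (dif_pos h).trans (ite_dec _)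
  · exact (dif_neg h).trans (h0 a h).symm

/-- Flip two coordinates of the tag. -/
def flip (z : LiftV C b) (a a' : TV t) : LiftV C b :=
  if h : tAdj (ty z) a = true ∧ tAdj (ty z) a' = true then
    mk z.1.1 (tg z + Pi.single a 1 + Pi.single a' 1)
      (fun s hs => by
        have e1 : s ≠ a := fun e => hs (e ▸ h.1)
        have e2 : s ≠ a' := fun e => hs (e ▸ h.2)
        simp [tg_of_not (x := z) hs, e1, e2])
      (by
        simp only [Pi.add_apply, Finset.sum_add_distrib, sum_tg, Finset.sum_pi_single', mem_univ,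
          if_true]
        rw [add_assoc, show (1 : ZMod 2) + 1 = 0 from rfl, add_zero]; rfl)
  else z

theorem flip_base (z : LiftV C b) (a a' : TV t) : (flip z a a').1.1 = z.1.1 := by
  unfold flip; split_ifs <;> rfl

theorem ty_flip (z : LiftV C b) (a a' : TV t) : ty (flip z a a') = ty z := by
  unfold ty; rw [flip_base]

theorem tg_flip {z : LiftV C b} {a a' : TV t} (h1 : tAdj (ty z) a = true)
    (h2 : tAdj (ty z) a' = true) : tg (flip z a a') = tg z + Pi.single a 1 + Pi.single a' 1 := by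
  unfold flip; rw [dif_pos ⟨h1, h2⟩, tg_mk]

theorem flip_flip {z : LiftV C b} {a a' : TV t} (h1 : tAdj (ty z) a = true)
    (h2 : tAdj (ty z) a' = true) : flip (flip z a a') a a' = z := by
  refine lift_ext (by rw [flip_base, flip_base]) fun s => ?_
  rw [tg_flip (by rwa [ty_flip]) (by rwa [ty_flip]), tg_flip h1 h2]
  simp only [Pi.add_apply]
  generalize (Pi.single a 1 : TV t → ZMod 2) s = p
  generalize (Pi.single a' 1 : TV t → ZMod 2) s = q
  generalize tg z s = r
  revert p q r; decide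

theorem adj_flip {z x : LiftV C b} {a a' : TV t} (h1 : tAdj (ty z) a = true)
    (h2 : tAdj (ty z) a' = true) (ha : ty x ≠ a) (ha' : ty x ≠ a')
    (h : liftAdj C b z x = true) : liftAdj C b (flip z a a') x = true := by
  rw [adj_iff] at h ⊢
  rw [flip_base, ty_flip, tg_flip h1 h2]
  simpa [ha, ha'] using h

/-- A helper. -/
def hp (i j l : Fin t) (h1 : i < j) (h2 : l ≠ i) (h3 : l ≠ j) : Helper t := ⟨(i, j, l), h1, h2, h3⟩

theorem helper_ext_iff {h h' : Helper t} :
    h = h' ↔ h.1.1 = h'.1.1 ∧ h.1.2.1 = h'.1.2.1 ∧ h.1.2.2 = h'.1.2.2 := by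
  constructor
  · rintro rfl; exact ⟨rfl, rfl, rfl⟩
  · rintro ⟨h1, h2, h3⟩
    exact Subtype.ext (Prod.ext h1 (Prod.ext h2 h3))

@[simp] theorem hp_1 (i j l : Fin t) (h1 h2 h3) : (hp i j l h1 h2 h3).1.1 = i := rfl
@[simp] theorem hp_2 (i j l : Fin t) (h1 h2 h3) : (hp i j l h1 h2 h3).1.2.1 = j := rfl
@[simp] theorem hp_3 (i j l : Fin t) (h1 h2 h3) : (hp i j l h1 h2 h3).1.2.2 = l := rfl

theorem exists_three (ht : 4 ≤ t) (m : Fin t) (α β γ : TV t) : ∃ c1 c2 c3 : TV t,
    (tAdj (Sum.inl m) c1 = true ∧ tAdj (Sum.inl m) c2 = true ∧ tAdj (Sum.inl m) c3 = true) ∧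
    (c1 ≠ c2 ∧ c1 ≠ c3 ∧ c2 ≠ c3) ∧ (α ≠ c1 ∧ α ≠ c2 ∧ α ≠ c3) ∧ (β ≠ c1 ∧ β ≠ c2 ∧ β ≠ c3) ∧
    (γ ≠ c1 ∧ γ ≠ c2 ∧ γ ≠ c3) := by
  obtain ⟨i, j, k, hij, hjk, hi, hj, hk⟩ : ∃ i j k : Fin t, i < j ∧ j < k ∧ m ≠ i ∧ m ≠ j ∧ m ≠ k := by
    by_cases h0 : m.val = 0
    · refine ⟨⟨1, by omega⟩, ⟨2, by omega⟩, ⟨3, by omega⟩, ?_⟩
      simp only [Fin.lt_def, ne_eq, Fin.ext_iff]; omega
    by_cases h1 : m.val = 1
    · refine ⟨⟨0, by omega⟩, ⟨2, by omega⟩, ⟨3, by omega⟩, ?_⟩
      simp only [Fin.lt_def, ne_eq, Fin.ext_iff]; omega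
    by_cases h2 : m.val = 2
    · refine ⟨⟨0, by omega⟩, ⟨1, by omega⟩, ⟨3, by omega⟩, ?_⟩
      simp only [Fin.lt_def, ne_eq, Fin.ext_iff]; omega
    · refine ⟨⟨0, by omega⟩, ⟨1, by omega⟩, ⟨2, by omega⟩, ?_⟩
      simp only [Fin.lt_def, ne_eq, Fin.ext_iff]; omega
  have hik := hij.trans hjk
  let N : Finset (TV t) := {Sum.inl i, Sum.inl j, Sum.inl k, Sum.inr (hp i j m hij hi hj),
    Sum.inr (hp i k m hik hi hk), Sum.inr (hp j k m hjk hj hk)}
  have hN : N.card = 6 := by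
    have e1 := hij.ne
    have e2 := hjk.ne
    have e3 := hik.ne
    simp only [N]
    rw [card_insert_of_notMem, card_insert_of_notMem, card_insert_of_notMem, card_insert_of_notMem,
      card_insert_of_notMem, card_singleton] <;>
    simp [helper_ext_iff, e1, e2, e3]
  have hA : ∀ c ∈ N, tAdj (Sum.inl m) c = true := by
    intro c hc
    simp only [N, mem_insert, mem_singleton] at hc
    rcases hc with rfl | rfl | rfl | rfl | rfl | rfl <;> simp [tAdj, hi, hj, hk]
  have h3 : 2 < (N \ {α, β, γ}).card := by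
    have h1 := Finset.le_card_sdiff ({α, β, γ} : Finset (TV t)) N
    have h2 : ({α, β, γ} : Finset (TV t)).card ≤ 3 := Finset.card_le_three
    omega
  obtain ⟨c1, h1, c2, h2, c3, h3, h12, h13, h23⟩ := Finset.two_lt_card.1 h3
  simp only [mem_sdiff, mem_insert, mem_singleton, not_or] at h1 h2 h3
  exact ⟨c1, c2, c3, ⟨hA c1 (by simpa [N] using h1.1), hA c2 (by simpa [N] using h2.1),
    hA c3 (by simpa [N] using h3.1)⟩, ⟨h12, h13, h23⟩,
    ⟨Ne.symm h1.2.1, Ne.symm h2.2.1, Ne.symm h3.2.1⟩,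
    ⟨Ne.symm h1.2.2.1, Ne.symm h2.2.2.1, Ne.symm h3.2.2.1⟩,
    ⟨Ne.symm h1.2.2.2, Ne.symm h2.2.2.2, Ne.symm h3.2.2.2⟩⟩

/-- Common neighbours. -/
def CN (x y w : LiftV C b) : Finset (LiftV C b) :=
  univ.filter fun z => liftAdj C b z x = true ∧ liftAdj C b z y = true ∧ liftAdj C b z w = true

theorem four_dvd_main (ht : 4 ≤ t) (x y w : LiftV C b) :
    4 ∣ ((CN x y w).filter fun z => ¬ (ty z).isRight = true).card := by
  choose c1 c2 c3 hA hD hx hy hw using fun m => exists_three ht m (ty x) (ty y) (ty w)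
  set S := (CN x y w).filter fun z => ¬ (ty z).isRight = true with hS
  let C1 : TV t → TV t := Sum.elim c1 Sum.inr
  let C2 : TV t → TV t := Sum.elim c2 Sum.inr
  let C3 : TV t → TV t := Sum.elim c3 Sum.inr
  have hm : ∀ z ∈ S, ∃ m, ty z = Sum.inl m := by
    intro z hz
    have := (mem_filter.1 hz).2
    cases h : ty z with
    | inl m => exact ⟨m, rfl⟩
    | inr q => rw [h] at this; simp at this
  have hfl : ∀ z ∈ S, ∀ a a', tAdj (ty z) a = true → tAdj (ty z) a' = true → ty x ≠ a →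
      ty x ≠ a' → ty y ≠ a → ty y ≠ a' → ty w ≠ a → ty w ≠ a' → flip z a a' ∈ S := by
    intro z hz a a' h1 h2 e1 e2 e3 e4 e5 e6
    simp only [hS, CN, mem_filter, mem_univ, true_and] at hz ⊢
    rw [ty_flip]
    exact ⟨⟨adj_flip h1 h2 e1 e2 hz.1.1, adj_flip h1 h2 e3 e4 hz.1.2.1,
      adj_flip h1 h2 e5 e6 hz.1.2.2⟩, hz.2⟩
  have hne : ∀ v : ZMod 2, v + 1 = 0 ↔ ¬ v = 0 := by decide
  have e1 := two_mul_card S (fun z => tg z (C2 (ty z)) = 0)
    (fun z => flip z (C1 (ty z)) (C2 (ty z))) (by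
      intro z hz
      obtain ⟨m, hm⟩ := hm z hz
      refine hfl z hz _ _ ?_ ?_ ?_ ?_ ?_ ?_ ?_ ?_ <;> rw [hm]
      exacts [(hA m).1, (hA m).2.1, (hx m).1, (hx m).2.1, (hy m).1, (hy m).2.1, (hw m).1,
        (hw m).2.1]) (by
      intro z hz
      obtain ⟨m, hm⟩ := hm z hz
      simp only [ty_flip]
      refine flip_flip ?_ ?_ <;> rw [hm]
      exacts [(hA m).1, (hA m).2.1]) (by
      intro z hz
      obtain ⟨m, hm⟩ := hm z hz
      simp only [ty_flip]
      rw [tg_flip (by rw [hm]; exact (hA m).1) (by rw [hm]; exact (hA m).2.1), hm]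
      have := (hD m).1
      simp only [C1, C2, Sum.elim_inl, Pi.add_apply, Pi.single_eq_same,
        Pi.single_eq_of_ne this.symm, add_zero]
      exact hne _)
  have e2 := two_mul_card (S.filter fun z => tg z (C2 (ty z)) = 0)
    (fun z => tg z (C3 (ty z)) = 0) (fun z => flip z (C1 (ty z)) (C3 (ty z))) (by
      intro z hz
      obtain ⟨hz, hz'⟩ := mem_filter.1 hz
      obtain ⟨m, hm⟩ := hm z hz
      refine mem_filter.2 ⟨?_, ?_⟩
      · refine hfl z hz _ _ ?_ ?_ ?_ ?_ ?_ ?_ ?_ ?_ <;> rw [hm]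
        exacts [(hA m).1, (hA m).2.2, (hx m).1, (hx m).2.2, (hy m).1, (hy m).2.2, (hw m).1,
          (hw m).2.2]
      · simp only [ty_flip]
        rw [tg_flip (by rw [hm]; exact (hA m).1) (by rw [hm]; exact (hA m).2.2)]
        rw [hm] at hz' ⊢
        have h1 := (hD m).1
        have h2 := (hD m).2.2
        simp only [C1, C2, C3, Sum.elim_inl, Pi.add_apply, Pi.single_eq_of_ne h1.symm,
          Pi.single_eq_of_ne h2, add_zero] at hz' ⊢
        exact hz') (by
      intro z hz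
      obtain ⟨m, hm⟩ := hm z (mem_filter.1 hz).1
      simp only [ty_flip]
      refine flip_flip ?_ ?_ <;> rw [hm]
      exacts [(hA m).1, (hA m).2.2]) (by
      intro z hz
      obtain ⟨m, hm⟩ := hm z (mem_filter.1 hz).1
      simp only [ty_flip]
      rw [tg_flip (by rw [hm]; exact (hA m).1) (by rw [hm]; exact (hA m).2.2), hm]
      have := (hD m).2.1
      simp only [C1, C3, Sum.elim_inl, Pi.add_apply, Pi.single_eq_same,
        Pi.single_eq_of_ne this.symm, add_zero]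
      exact hne _)
  rw [e1, e2, ← mul_assoc]
  exact Dvd.intro _ rfl

/-- Helpers adjacent to three template vertices. -/
def HT (α β γ : TV t) : Finset (TV t) :=
  univ.filter fun s => s.isRight = true ∧ tAdj s α = true ∧ tAdj s β = true ∧ tAdj s γ = true

theorem exists_hp {l p q : Fin t} (h1 : l ≠ p) (h2 : l ≠ q) (h3 : p ≠ q) : ∃ h : Helper t,
    h.1.2.2 = l ∧ ((h.1.1 = p ∧ h.1.2.1 = q) ∨ (h.1.1 = q ∧ h.1.2.1 = p)) := by
  rcases lt_or_gt_of_ne h3 with h | h
  · exact ⟨hp p q l h h1 h2, rfl, Or.inl ⟨rfl, rfl⟩⟩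
  · exact ⟨hp q p l h h2 h1, rfl, Or.inr ⟨rfl, rfl⟩⟩

theorem card_HT {i j k : Fin t} (hij : i ≠ j) (hik : i ≠ k) (hjk : j ≠ k) :
    (HT (Sum.inl i) (Sum.inl j) (Sum.inl k)).card = 3 := by
  rw [← Finset.card_eq_three.2 ⟨i, j, k, hij, hik, hjk, rfl⟩]
  refine Finset.card_nbij (Sum.elim id fun h : Helper t => h.1.2.2) ?_ ?_ ?_
  · rintro (s | h) hs
    · simp [HT] at hs
    · have h1 := h.2.1
      have h2 := h.2.2.1
      have h3 := h.2.2.2
      simp only [HT, coe_filter, mem_univ, true_and, Set.mem_ofPred_eq, Sum.isRight_inr, tAdj,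
        decide_eq_true_eq, Sum.elim_inr, coe_insert, coe_singleton, Set.mem_insert_iff,
        Set.mem_singleton_iff, Fin.ext_iff, ne_eq, Fin.lt_def] at hs h1 h2 h3 hij hik hjk ⊢
      omega
  · rintro (s | h) hs (s' | h') hs' e
    · simp [HT] at hs
    · simp [HT] at hs
    · simp [HT] at hs'
    · have h1 := h.2.1
      have h2 := h.2.2.1
      have h3 := h.2.2.2
      have h1' := h'.2.1
      have h2' := h'.2.2.1
      have h3' := h'.2.2.2
      simp only [HT, coe_filter, mem_univ, true_and, Set.mem_ofPred_eq, Sum.isRight_inr, tAdj,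
        decide_eq_true_eq, Sum.elim_inr, Fin.ext_iff, ne_eq, Fin.lt_def, Sum.inr.injEq,
        helper_ext_iff] at hs hs' e h1 h2 h3 h1' h2' h3' hij hik hjk ⊢
      omega
  · intro l hl
    simp only [coe_insert, coe_singleton, Set.mem_insert_iff, Set.mem_singleton_iff] at hl
    rcases hl with rfl | rfl | rfl
    · obtain ⟨h, e1, e2⟩ := exists_hp hij hik hjk
      refine ⟨Sum.inr h, ?_, e1⟩
      rcases e2 with ⟨e2, e3⟩ | ⟨e2, e3⟩ <;> simp [HT, tAdj, e1, e2, e3]
    · obtain ⟨h, e1, e2⟩ := exists_hp hij.symm hjk hik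
      refine ⟨Sum.inr h, ?_, e1⟩
      rcases e2 with ⟨e2, e3⟩ | ⟨e2, e3⟩ <;> simp [HT, tAdj, e1, e2, e3]
    · obtain ⟨h, e1, e2⟩ := exists_hp hik.symm hjk.symm hij
      refine ⟨Sum.inr h, ?_, e1⟩
      rcases e2 with ⟨e2, e3⟩ | ⟨e2, e3⟩ <;> simp [HT, tAdj, e1, e2, e3]

theorem main_of_mem_HT {α β γ s : TV t} (h : s ∈ HT α β γ) :
    ∃ i j k, α = Sum.inl i ∧ β = Sum.inl j ∧ γ = Sum.inl k := by
  rcases s with s | s
  · simp [HT] at h
  · rcases α with i | i <;> rcases β with j | j <;> rcases γ with k | k <;>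
      first | exact ⟨_, _, _, rfl, rfl, rfl⟩ | simp [HT, tAdj] at h

theorem nbr_of_mem_HT {α β γ s : TV t} (h : s ∈ HT α β γ) (h1 : α ≠ β) (h2 : α ≠ γ) (h3 : β ≠ γ)
    {a : TV t} (ha : tAdj s a = true) : a = α ∨ a = β ∨ a = γ := by
  obtain ⟨i, j, k, rfl, rfl, rfl⟩ := main_of_mem_HT h
  rcases s with s | s
  · simp [HT] at h
  rcases a with a | a
  · simp only [HT, mem_filter, mem_univ, true_and, Sum.isRight_inr, tAdj,
      decide_eq_true_eq, Fin.ext_iff, ne_eq, Sum.inl.injEq] at h ha h1 h2 h3 ⊢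
    omega
  · simp [tAdj] at ha

theorem card_HT_le {α β γ : TV t} (h1 : α ≠ β) (h2 : α ≠ γ) (h3 : β ≠ γ) :
    (HT α β γ).card ≤ 3 := by
  rcases (HT α β γ).eq_empty_or_nonempty with h | ⟨s, hs⟩
  · simp [h]
  · obtain ⟨i, j, k, rfl, rfl, rfl⟩ := main_of_mem_HT hs
    exact (card_HT (by simpa using h1) (by simpa using h2) (by simpa using h3)).le

/-- Common neighbours of helper type. -/
def HS (x y w : LiftV C b) : Finset (LiftV C b) := (CN x y w).filter fun z => (ty z).isRight = true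

theorem mem_HS {x y w z : LiftV C b} : z ∈ HS x y w ↔ (liftAdj C b z x = true ∧
    liftAdj C b z y = true ∧ liftAdj C b z w = true) ∧ (ty z).isRight = true := by
  simp [HS, CN]

theorem tAdj_of_adj {x y : LiftV C b} (h : liftAdj C b x y = true) : tAdj (ty x) (ty y) = true :=
  tAdj_of_bAdj (adj_iff.1 h).1

theorem ty_ne_of_adj {x y : LiftV C b} (h : liftAdj C b x y = true) : ty x ≠ ty y := by
  intro e
  have := tAdj_of_adj h
  rw [e, tAdj_self] at this
  exact Bool.false_ne_true this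

theorem ty_mem_HT {x y w z : LiftV C b} (h : z ∈ HS x y w) : ty z ∈ HT (ty x) (ty y) (ty w) := by
  obtain ⟨⟨h1, h2, h3⟩, h4⟩ := mem_HS.1 h
  simp only [HT, mem_filter, mem_univ, true_and]
  exact ⟨h4, tAdj_of_adj h1, tAdj_of_adj h2, tAdj_of_adj h3⟩

theorem base_eq {u u' v : BV C} {h : Helper t} (hu : typeOf C u = Sum.inr h)
    (hu' : typeOf C u' = Sum.inr h) (hv : typeOf C v = Sum.inl h.1.1) (h1 : bAdj C u v = true)
    (h2 : bAdj C u' v = true) : u = u' := by
  rcases u with u | ⟨g, q⟩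
  · simp [typeOf] at hu
  rcases u' with u' | ⟨g', q'⟩
  · simp [typeOf] at hu'
  rcases v with ⟨m, f⟩ | v
  swap
  · simp [typeOf] at hv
  simp only [typeOf, Sum.inr.injEq, Sum.inl.injEq] at hu hu' hv
  subst hu hu' hv
  have e1 := g'.2.1.ne
  have e2 := g'.2.2.1.symm
  simp only [bAdj, helperAgree, decide_eq_true_eq] at h1 h2
  rcases h1 with ⟨_, h1⟩ | ⟨h1, -⟩ | h1
  · rcases h2 with ⟨_, h2⟩ | ⟨h2, -⟩ | h2
    · rw [h1, h2]
    · exact absurd h2 e1
    · exact absurd h2 e2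
  · exact absurd h1 e1
  · exact absurd h1 e2

theorem ty_injOn {x y w : LiftV C b} (h1 : ty x ≠ ty y) (h2 : ty x ≠ ty w) (h3 : ty y ≠ ty w) :
    Set.InjOn ty (HS x y w : Set (LiftV C b)) := by
  intro z hz z' hz' e
  have hT := ty_mem_HT hz
  obtain ⟨⟨a1, a2, a3⟩, a4⟩ := mem_HS.1 hz
  obtain ⟨⟨b1, b2, b3⟩, -⟩ := mem_HS.1 hz'
  rw [adj_iff] at a1 a2 a3 b1 b2 b3
  obtain ⟨h, hh⟩ : ∃ h, ty z = Sum.inr h := by
    cases h : ty z with
    | inl m => rw [h] at a4; simp at a4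
    | inr q => exact ⟨q, rfl⟩
  refine lift_ext ?_ fun a => ?_
  · have : tAdj (ty z) (Sum.inl h.1.1) = true := by rw [hh]; simp [tAdj]
    rcases nbr_of_mem_HT hT h1 h2 h3 this with e' | e' | e'
    · exact base_eq hh (e.symm.trans hh) e'.symm a1.1 b1.1
    · exact base_eq hh (e.symm.trans hh) e'.symm a2.1 b2.1
    · exact base_eq hh (e.symm.trans hh) e'.symm a3.1 b3.1
  · by_cases ha : tAdj (ty z) a = true
    · rcases nbr_of_mem_HT hT h1 h2 h3 ha with rfl | rfl | rfl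
      · rw [a1.2, b1.2, e]
      · rw [a2.2, b2.2, e]
      · rw [a3.2, b3.2, e]
    · rw [tg_of_not ha, tg_of_not (by rw [← e]; exact ha)]

theorem cn_mod (ht : 4 ≤ t) (x y w : LiftV C b) :
    cn (liftAdj C b) x y w % 4 = (HS x y w).card % 4 := by
  have h1 := four_dvd_main ht x y w
  have h2 := Finset.card_filter_add_card_filter_not (s := CN x y w)
    (fun z => (ty z).isRight = true)
  have h3 : cn (liftAdj C b) x y w = (CN x y w).card := rfl
  unfold HS
  omega

theorem surj_of_mod (ht : 4 ≤ t) {x y w : LiftV C b} (h1 : ty x ≠ ty y) (h2 : ty x ≠ ty w)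
    (h3 : ty y ≠ ty w) (h : cn (liftAdj C b) x y w % 4 = 3) :
    (HT (ty x) (ty y) (ty w)).Nonempty ∧
      ∀ s ∈ HT (ty x) (ty y) (ty w), ∃ z ∈ HS x y w, ty z = s := by
  rw [cn_mod ht] at h
  have h4 : 3 ≤ (HS x y w).card := by omega
  obtain ⟨z, hz⟩ : (HS x y w).Nonempty := Finset.card_pos.1 (by omega)
  refine ⟨⟨_, ty_mem_HT hz⟩, fun s hs => ?_⟩
  exact Finset.surjOn_of_injOn_of_card_le ty (fun z hz => ty_mem_HT hz) (ty_injOn h1 h2 h3)
    ((card_HT_le h1 h2 h3).trans h4) hs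

/-- The vertex with zero tag in the even lift. -/
def zv (u : BV C) : LiftV C (lift0Parity t) := mk u 0 (fun _ _ => rfl) (by simp [lift0Parity])

theorem adj_zv {u v : BV C} (h : bAdj C u v = true) :
    liftAdj C (lift0Parity t) (zv u) (zv v) = true := by
  rw [adj_iff]
  refine ⟨h, ?_⟩
  unfold zv
  rw [tg_mk, tg_mk]; rfl

theorem even_clique (ht : 4 ≤ t) (h : C.Successful) :
    ∃ c : Fin t → LiftV C (lift0Parity t), GoodClique (liftAdj C (lift0Parity t)) c := by
  obtain ⟨d, hd⟩ := h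
  refine ⟨fun i => zv (Sum.inl ⟨i, d i⟩), fun i j hij => adj_zv ?_, fun i j k hij hik hjk => ?_⟩
  · simp only [bAdj, mainAgree, Bool.or_eq_true, decide_eq_true_eq]
    rcases lt_or_gt_of_ne hij with h | h
    · exact Or.inl ⟨h, hd i j h⟩
    · exact Or.inr ⟨h, hd j i h⟩
  · rw [cn_mod ht]
    have e : (HS (zv (C := C) (Sum.inl ⟨i, d i⟩)) (zv (Sum.inl ⟨j, d j⟩))
        (zv (Sum.inl ⟨k, d k⟩))).card = (HT (Sum.inl i) (Sum.inl j) (Sum.inl k)).card := by
      refine Finset.card_nbij ty (fun z hz => ty_mem_HT hz)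
        (ty_injOn (by simpa [ty, zv, mk, typeOf] using hij) (by simpa [ty, zv, mk, typeOf] using hik)
          (by simpa [ty, zv, mk, typeOf] using hjk)) ?_
      rintro (s | h) hs
      · simp [HT] at hs
      have key : ∀ m : Fin t, tAdj (Sum.inr h) (Sum.inl m) = true →
          bAdj C (Sum.inr ⟨h, C.lamL h.1.1 h.1.2.1 (d h.1.1)⟩) (Sum.inl ⟨m, d m⟩) = true := by
        intro m hm
        simp only [tAdj, decide_eq_true_eq] at hm
        simp only [bAdj, helperAgree, decide_eq_true_eq]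
        rcases hm with rfl | rfl | rfl
        · exact Or.inl ⟨rfl, rfl⟩
        · exact Or.inr (Or.inl ⟨rfl, hd _ _ h.2.1⟩)
        · exact Or.inr (Or.inr rfl)
      simp only [HT, coe_filter, mem_univ, true_and, Set.mem_ofPred_eq] at hs
      exact ⟨zv (Sum.inr ⟨h, C.lamL h.1.1 h.1.2.1 (d h.1.1)⟩),
        mem_HS.2 ⟨⟨adj_zv (key i hs.2.1), adj_zv (key j hs.2.2.1), adj_zv (key k hs.2.2.2)⟩, rfl⟩,
        rfl⟩
    rw [e, card_HT hij hik hjk]

theorem sum_symm_zero {ι : Type} [Fintype ι] [DecidableEq ι] (f : ι → ι → ZMod 2)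
    (h1 : ∀ i j, i ≠ j → f i j = f j i) (h2 : ∀ i, f i i = 0) : ∑ i, ∑ j, f i j = 0 := by
  rw [← Finset.sum_product']
  refine Finset.sum_involution (fun p _ => p.swap) ?_ ?_ (fun _ _ => by simp) (fun _ _ => rfl)
  · rintro ⟨i, j⟩ -
    by_cases h : i = j
    · subst h; simp [h2]
    · simp only [Prod.swap_prod_mk]
      rw [h1 i j h]
      exact (by decide : ∀ v : ZMod 2, v + v = 0) _
  · rintro ⟨i, j⟩ - h e
    simp only [Prod.swap_prod_mk, Prod.mk.injEq] at e
    obtain ⟨rfl, -⟩ := e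
    exact h (h2 _)

theorem odd_aux (ht : 4 ≤ t) (c : Fin t → LiftV C (liftStarParity t))
    (hc : GoodClique (liftAdj C (liftStarParity t)) c) (hty : ∀ m, ty (c m) = Sum.inl m) : False := by
  have h1 : ∑ m, ∑ a, tg (c m) a = 1 := by
    simp only [sum_tg, hty, liftStarParity, decide_eq_true_eq]
    rw [Finset.sum_eq_single (⟨0, by omega⟩ : Fin t)]
    · rw [if_pos ⟨by omega, rfl⟩]
    · intro m _ hm
      rw [if_neg]
      rintro ⟨_, e⟩
      exact hm (Sum.inl.inj e)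
    · simp
  have h2 : ∑ m, ∑ m', tg (c m) (Sum.inl m') = 0 := by
    refine sum_symm_zero _ (fun i j hij => ?_) (fun i => tg_of_not ?_)
    · have := (adj_iff.1 (hc.1 i j hij)).2
      rwa [hty, hty] at this
    · rw [hty, tAdj_self]; simp
  have h3 : ∀ h : Helper t, ∑ m, tg (c m) (Sum.inr h) = 0 := by
    intro h
    have e1 := h.2.1.ne
    have e2 := h.2.2.1.symm
    have e3 := h.2.2.2.symm
    obtain ⟨z, hz, hz'⟩ := (surj_of_mod ht (ty_ne_of_adj (hc.1 _ _ e1)) (ty_ne_of_adj (hc.1 _ _ e2))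
      (ty_ne_of_adj (hc.1 _ _ e3)) (hc.2 _ _ _ e1 e2 e3)).2 (Sum.inr h)
      (by simp [HT, hty, tAdj])
    obtain ⟨⟨a1, a2, a3⟩, -⟩ := mem_HS.1 hz
    have h4 := sum_tg z
    rw [hz', Fintype.sum_sum_type] at h4
    have h5 : ∑ g : Helper t, tg z (Sum.inr g) = 0 :=
      Finset.sum_eq_zero fun g _ => tg_of_not (by rw [hz']; simp [tAdj])
    rw [h5, add_zero, if_neg (by simp [liftStarParity])] at h4
    rw [← h4]
    refine Finset.sum_congr rfl fun m _ => ?_
    by_cases hm : tAdj (Sum.inr h) (Sum.inl m) = true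
    · have : liftAdj C _ z (c m) = true := by
        simp only [tAdj, decide_eq_true_eq] at hm
        rcases hm with rfl | rfl | rfl
        exacts [a1, a2, a3]
      have := (adj_iff.1 this).2
      rw [hty, hz'] at this
      exact this.symm
    · rw [tg_of_not (by rw [hty, tAdj_comm]; exact hm), tg_of_not (by rw [hz']; exact hm)]
  simp only [Fintype.sum_sum_type, Finset.sum_add_distrib] at h1
  rw [h2, Finset.sum_comm, Finset.sum_eq_zero fun h _ => h3 h] at h1
  exact absurd h1 (by decide)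

theorem odd_clique (ht : 4 ≤ t) (c : Fin t → LiftV C (liftStarParity t)) :
    ¬ GoodClique (liftAdj C (liftStarParity t)) c := by
  intro hc
  have hm : ∀ i, ∃ m, ty (c i) = Sum.inl m := by
    intro i
    obtain ⟨j, k, hij, hik, hjk⟩ : ∃ j k : Fin t, i ≠ j ∧ i ≠ k ∧ j ≠ k := by
      by_cases h0 : i.val = 0
      · refine ⟨⟨1, by omega⟩, ⟨2, by omega⟩, ?_⟩
        simp only [ne_eq, Fin.ext_iff]; omega
      by_cases h1 : i.val = 1
      · refine ⟨⟨0, by omega⟩, ⟨2, by omega⟩, ?_⟩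
        simp only [ne_eq, Fin.ext_iff]; omega
      · refine ⟨⟨0, by omega⟩, ⟨1, by omega⟩, ?_⟩
        simp only [ne_eq, Fin.ext_iff]; omega
    obtain ⟨s, hs⟩ := (surj_of_mod ht (ty_ne_of_adj (hc.1 _ _ hij)) (ty_ne_of_adj (hc.1 _ _ hik))
      (ty_ne_of_adj (hc.1 _ _ hjk)) (hc.2 _ _ _ hij hik hjk)).1
    obtain ⟨m, -, -, e, -⟩ := main_of_mem_HT hs
    exact ⟨m, e⟩
  choose π hπ using hm
  have hinj : Function.Injective π := by
    intro i j e
    by_contra hij
    exact ty_ne_of_adj (hc.1 _ _ hij) (by rw [hπ, hπ, e])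
  let e : Fin t ≃ Fin t := Equiv.ofBijective π (Finite.injective_iff_bijective.1 hinj)
  refine odd_aux ht (fun m => c (e.symm m)) ⟨fun i j hij => hc.1 _ _ (e.symm.injective.ne hij),
    fun i j k hij hik hjk => hc.2 _ _ _ (e.symm.injective.ne hij) (e.symm.injective.ne hik)
      (e.symm.injective.ne hjk)⟩ fun m => ?_
  rw [hπ]
  exact congrArg Sum.inl (e.apply_symm_apply m)

end PLClq

theorem plCliqueStmt : PLCliqueStmt :=
  fun _ _ ht => ⟨PLClq.even_clique ht, PLClq.odd_clique ht⟩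

end Crest.Agent.R290
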