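import Crest.Agent.R290.PLDefs

/-! Row 290, statement S0438: simplicity and orders of the parity lifts. -/

set_option autoImplicit false

namespace Crest.Agent.R290

open Finset Crest.WLRefine Crest.WLRefine.ParityLift

namespace PLCnt

variable {t : ℕ}

lemma tAdj_self (a : TV t) : tAdj a a = false := by
  rcases a with i | h <;> simp [tAdj]

lemma bAdj_symm (C : ChoiceSystem t) (u v : BV C) : bAdj C u v = bAdj C v u := by
  rcases u with p | p <;> rcases v with q | q <;> simp [bAdj, Bool.or_comm]

lemma liftAdj_symm (C : ChoiceSystem t) (b : TV t → Bool) (x y : LiftV C b) :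
    liftAdj C b x y = liftAdj C b y x := by
  unfold liftAdj
  apply decide_eq_decide.2
  constructor
  · rintro ⟨h, h', e1, e2⟩
    exact ⟨h', h, by rw [bAdj_symm]; exact e1, e2.symm⟩
  · rintro ⟨h, h', e1, e2⟩
    exact ⟨h', h, by rw [bAdj_symm]; exact e1, e2.symm⟩

lemma liftAdj_self (C : ChoiceSystem t) (b : TV t → Bool) (x : LiftV C b) :
    liftAdj C b x x = false := by
  unfold liftAdj
  apply decide_eq_false
  rintro ⟨h, -⟩
  rw [tAdj_self] at h
  exact Bool.false_ne_true h

/-- Flipping one coordinate changes the parity of the number of `true` entries. -/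
lemma flip_parity {N : Type} [Fintype N] [DecidableEq N] (n0 : N) (z : N → Bool) :
    ((univ.filter fun a => Function.update z n0 (!z n0) a = true).card +
      (univ.filter fun a => z a = true).card) % 2 = 1 := by
  cases h : z n0
  · have : (univ.filter fun a => Function.update z n0 (!false) a = true) =
        insert n0 (univ.filter fun a => z a = true) := by
      ext a
      by_cases ha : a = n0
      · subst ha; simp
      · simp [ha]
    rw [this, card_insert_of_notMem (by simp [h])]
    omega
  · have : (univ.filter fun a => z a = true) =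
        insert n0 (univ.filter fun a => Function.update z n0 (!true) a = true) := by
      ext a
      by_cases ha : a = n0
      · subst ha; simp [h]
      · simp [ha]
    rw [this, card_insert_of_notMem (by simp)]
    omega

lemma card_parity {N : Type} [Fintype N] [DecidableEq N] (n0 : N) (b : Bool) :
    (univ.filter fun z : N → Bool =>
      (univ.filter fun a => z a = true).card % 2 = b.toNat).card = 2 ^ (Fintype.card N - 1) := by
  set E := univ.filter fun z : N → Bool => (univ.filter fun a => z a = true).card % 2 = 0 with hE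
  set O := univ.filter fun z : N → Bool => ¬ (univ.filter fun a => z a = true).card % 2 = 0 with hO
  have h1 : E.card + O.card = 2 ^ Fintype.card N := by
    rw [hE, hO, card_filter_add_card_filter_not]
    simp
  have h2 : E.card = O.card := by
    apply card_nbij' (fun z => Function.update z n0 (!z n0)) (fun z => Function.update z n0 (!z n0))
    · intro z hz
      have := flip_parity n0 z
      simp only [hE, hO, coe_filter, mem_univ, true_and, Set.mem_ofPred_eq] at hz ⊢
      omega
    · intro z hz
      have := flip_parity n0 z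
      simp only [hE, hO, coe_filter, mem_univ, true_and, Set.mem_ofPred_eq] at hz ⊢
      omega
    · intro z _
      simp
    · intro z _
      simp
  have h3 : 2 ^ Fintype.card N = 2 * 2 ^ (Fintype.card N - 1) := by
    have : 0 < Fintype.card N := Fintype.card_pos_iff.2 ⟨n0⟩
    rw [← pow_succ']
    congr 1
    omega
  cases b
  · change E.card = _
    omega
  · have : (univ.filter fun z : N → Bool =>
        (univ.filter fun a => z a = true).card % 2 = true.toNat) = O := by
      ext z
      simp only [hO, mem_filter, mem_univ, true_and, Bool.toNat_true]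
      omega
    rw [this]
    omega

lemma nbr_nonempty (ht : 2 ≤ t) (a : TV t) : Nonempty (Nbr a) := by
  rcases a with i | h
  · have : Nontrivial (Fin t) := Fin.nontrivial_iff_two_le.2 ht
    obtain ⟨j, hj⟩ := exists_ne i
    exact ⟨⟨Sum.inl j, by simp [tAdj, hj.symm]⟩⟩
  · exact ⟨⟨Sum.inl h.1.1, by simp [tAdj]⟩⟩

lemma card_lift (ht : 2 ≤ t) (C : ChoiceSystem t) (b : TV t → Bool) :
    Fintype.card (LiftV C b) = ∑ u : BV C, 2 ^ (Fintype.card (Nbr (typeOf C u)) - 1) := by
  have e : LiftV C b ≃ Σ u : BV C, {z : Nbr (typeOf C u) → Bool //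
      (univ.filter fun a' => z a' = true).card % 2 = (b (typeOf C u)).toNat} :=
    { toFun := fun x => ⟨x.1.1, ⟨x.1.2, x.2⟩⟩
      invFun := fun y => ⟨⟨y.1, y.2.1⟩, y.2.2⟩
      left_inv := fun _ => rfl
      right_inv := fun _ => rfl }
  rw [Fintype.card_congr e, Fintype.card_sigma]
  refine sum_congr rfl fun u _ => ?_
  obtain ⟨n0⟩ := nbr_nonempty ht (typeOf C u)
  rw [Fintype.card_subtype, ← card_parity n0 (b (typeOf C u))]

/-- The three mains of a helper. -/
def tri (h : Helper t) : Finset (Fin t) := {h.1.1, h.1.2.1, h.1.2.2}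

lemma card_tri (h : Helper t) : (tri h).card = 3 := by
  obtain ⟨⟨i, j, l⟩, h1, h2, h3⟩ := h
  simp only at h1 h2 h3
  exact card_eq_three.2 ⟨i, j, l, h1.ne, h2.symm, h3.symm, rfl⟩

lemma helper_ext {h h' : Helper t} (e1 : tri h = tri h') (e2 : h.1.2.2 = h'.1.2.2) : h = h' := by
  obtain ⟨⟨i, j, l⟩, h1, h2, h3⟩ := h
  obtain ⟨⟨i', j', l'⟩, h1', h2', h3'⟩ := h'
  simp only [tri] at e1 e2 h1 h2 h3 h1' h2' h3'
  subst e2
  have a1 : i ∈ ({i', j', l} : Finset (Fin t)) := by rw [← e1]; simp
  have a2 : j ∈ ({i', j', l} : Finset (Fin t)) := by rw [← e1]; simp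
  have a3 : i' ∈ ({i, j, l} : Finset (Fin t)) := by rw [e1]; simp
  have a4 : j' ∈ ({i, j, l} : Finset (Fin t)) := by rw [e1]; simp
  simp only [mem_insert, mem_singleton] at a1 a2 a3 a4
  have : i = i' ∧ j = j' := by
    simp only [Fin.ext_iff, Fin.lt_def, ne_eq] at *
    omega
  obtain ⟨rfl, rfl⟩ := this
  rfl

lemma card_fibre (S : Finset (Fin t)) (hS : S.card = 3) (F : Finset (Helper t))
    (hF : ∀ h ∈ F, tri h = S) : F.card ≤ 3 := by
  rw [← hS]
  apply card_le_card_of_injOn (fun h => h.1.2.2)
  · intro h hh
    rw [mem_coe, ← hF h hh]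
    simp [tri]
  · intro h hh h' hh' e
    exact helper_ext ((hF h hh).trans (hF h' hh').symm) e

lemma card_helper : Fintype.card (Helper t) ≤ 3 * t.choose 3 := by
  have := card_le_mul_card_image_of_maps_to (f := tri) (s := (univ : Finset (Helper t)))
    (t := powersetCard 3 (univ : Finset (Fin t)))
    (fun h _ => mem_powersetCard.2 ⟨subset_univ _, card_tri h⟩) 3
    (fun S hS => card_fibre S (mem_powersetCard.1 hS).2 _ fun h hh => (mem_filter.1 hh).2)
  simpa [card_powersetCard] using this

lemma card_helper_at (i : Fin t) :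
    (univ.filter fun h : Helper t => i ∈ tri h).card ≤ 3 * (t - 1).choose 2 := by
  have := card_le_mul_card_image_of_maps_to (f := fun h => (tri h).erase i)
    (s := (univ.filter fun h : Helper t => i ∈ tri h))
    (t := powersetCard 2 ((univ : Finset (Fin t)).erase i))
    (fun h hh => mem_powersetCard.2 ⟨erase_subset_erase _ (subset_univ _), by
      rw [card_erase_of_mem (mem_filter.1 hh).2, card_tri]⟩) 3
    (fun S hS => card_fibre (insert i S) (by
        rw [card_insert_of_notMem, (mem_powersetCard.1 hS).2]
        intro hi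
        simpa using (mem_powersetCard.1 hS).1 hi) _ fun h hh => by
      rw [← (mem_filter.1 hh).2, insert_erase (mem_filter.1 (mem_filter.1 hh).1).2])
  simpa [card_powersetCard, card_erase_of_mem] using this

lemma card_nbr_helper (h : Helper t) : Fintype.card (Nbr (Sum.inr h : TV t)) ≤ 3 := by
  have h1 : Fintype.card (Nbr (Sum.inr h : TV t)) ≤
      ((tri h).disjSum (∅ : Finset (Helper t))).card := by
    rw [Fintype.card_subtype]
    apply card_le_card
    intro a ha
    rw [mem_filter] at ha
    rcases a with i | h'
    · simpa [tAdj, tri] using ha.2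
    · simp [tAdj] at ha
  rw [card_disjSum, card_tri, card_empty] at h1
  exact h1

lemma card_nbr_main (i : Fin t) :
    Fintype.card (Nbr (Sum.inl i : TV t)) ≤ t - 1 + 3 * (t - 1).choose 2 := by
  have h1 : Fintype.card (Nbr (Sum.inl i : TV t)) ≤
      (((univ : Finset (Fin t)).erase i).disjSum (univ.filter fun h : Helper t => i ∈ tri h)).card := by
    rw [Fintype.card_subtype]
    apply card_le_card
    intro a ha
    rw [mem_filter] at ha
    rcases a with j | h'
    · have : i ≠ j := by simpa [tAdj] using ha.2
      simpa using this.symm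
    · simpa [tAdj, tri] using ha.2
  rw [card_disjSum, card_erase_of_mem (mem_univ _), card_univ, Fintype.card_fin] at h1
  exact h1.trans (Nat.add_le_add_left (card_helper_at i) _)

lemma card_le (ht : 2 ≤ t) (C : ChoiceSystem t) (b : TV t → Bool) (A : ℕ) (hA : C.SizeAtMost A) :
    Fintype.card (LiftV C b) ≤ A * orderFactor t := by
  rw [card_lift ht, Fintype.sum_sum_type, Fintype.sum_sigma, Fintype.sum_sigma, orderFactor, mul_add]
  apply Nat.add_le_add
  · calc _ ≤ ∑ _i : Fin t, A * 2 ^ (t - 2 + 3 * (t - 1).choose 2) := by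
          refine sum_le_sum fun i _ => ?_
          change ∑ _y : Fin (C.dom i), 2 ^ (Fintype.card (Nbr (Sum.inl i : TV t)) - 1) ≤ _
          simp only [sum_const, card_univ, Fintype.card_fin, smul_eq_mul]
          refine Nat.mul_le_mul (hA.1 i) (Nat.pow_le_pow_right (by norm_num) ?_)
          have := card_nbr_main i
          omega
      _ = _ := by
          simp only [sum_const, card_univ, Fintype.card_fin, smul_eq_mul]
          ring
  · calc _ ≤ ∑ _h : Helper t, A * 4 := by
          refine sum_le_sum fun h _ => ?_
          change ∑ _y : Fin (C.lab h.1.1 h.1.2.1),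
            2 ^ (Fintype.card (Nbr (Sum.inr h : TV t)) - 1) ≤ _
          simp only [sum_const, card_univ, Fintype.card_fin, smul_eq_mul]
          refine Nat.mul_le_mul (hA.2 _ _ h.2.1) ?_
          have := card_nbr_helper h
          calc _ ≤ 2 ^ 2 := Nat.pow_le_pow_right (by norm_num) (by omega)
            _ = 4 := by norm_num
      _ ≤ _ := by
          simp only [sum_const, card_univ, smul_eq_mul]
          have := Nat.mul_le_mul_left (A * 4) (card_helper (t := t))
          nlinarith

end PLCnt

theorem plCountStmt : PLCountStmt := by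
  intro t C ht
  refine ⟨fun b => ⟨fun v w => PLCnt.liftAdj_symm C b _ _, fun v => PLCnt.liftAdj_self C b _⟩, ?_,
    fun A hA => PLCnt.card_le ht C _ A hA⟩
  rw [PLCnt.card_lift ht, PLCnt.card_lift ht]

end Crest.Agent.R290
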