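import Crest.Agent.R290.Defs

/-!
Row 290, statement S0438 (parity lifts): interface of the four parts.
-/

set_option autoImplicit false

namespace Crest.Agent.R290

open Finset Crest.WLRefine Crest.WLRefine.ParityLift

/-- Number of common neighbours of three vertices. -/
def cn {V : Type} [Fintype V] (G : V → V → Bool) (a b c : V) : ℕ :=
  (univ.filter fun z => G z a = true ∧ G z b = true ∧ G z c = true).card

/-- A clique all of whose triples have `3 mod 4` common neighbours. -/
def GoodClique {V : Type} [Fintype V] (G : V → V → Bool) {t : ℕ} (c : Fin t → V) : Prop :=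
  (∀ a b, a ≠ b → G (c a) (c b) = true) ∧
    ∀ a b d, a ≠ b → a ≠ d → b ≠ d → cn G (c a) (c b) (c d) % 4 = 3

/-- Simplicity and orders of the lifts. -/
def PLCountStmt : Prop :=
  ∀ (t : ℕ) (C : ChoiceSystem t), 2 ≤ t →
    (∀ b, IsSimple (asMatrix (liftAdj C b))) ∧
    Fintype.card (LiftV C (lift0Parity t)) = Fintype.card (LiftV C (liftStarParity t)) ∧
    ∀ A : ℕ, C.SizeAtMost A → Fintype.card (LiftV C (lift0Parity t)) ≤ A * orderFactor t

/-- Duplicator wins when there is no successful choice. -/
def PLDupStmt : Prop :=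
  ∀ (t : ℕ) (C : ChoiceSystem t), 2 ≤ t → ¬ C.Successful →
    BG t (liftAdj C (lift0Parity t)) (liftAdj C (liftStarParity t))

/-- Good cliques: present in the even lift of a successful system, never in the odd lift. -/
def PLCliqueStmt : Prop :=
  ∀ (t : ℕ) (C : ChoiceSystem t), 4 ≤ t →
    (C.Successful → ∃ c : Fin t → LiftV C (lift0Parity t), GoodClique (liftAdj C (lift0Parity t)) c) ∧
    ∀ c : Fin t → LiftV C (liftStarParity t), ¬ GoodClique (liftAdj C (liftStarParity t)) c

/-- Good cliques are seen by the colours (round 2 joint, round 1 separate), in both comparisons. -/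
def PLSeeStmt : Prop :=
  ∀ (k : ℕ) (V W : Type) [Fintype V] [Fintype W] (G : V → V → Bool) (H : W → W → Bool), 4 ≤ k →
    ((∃ c : Fin (k + 1) → V, GoodClique G c) → (∀ c : Fin (k + 1) → W, ¬ GoodClique H c) →
      univ.val.map (jcolor (asMatrix G) k 2) ≠ univ.val.map (jcolor (asMatrix H) k 2) ∧
        ¬ PureJHistEq k 2 (asMatrix G) (asMatrix H)) ∧
    ((∃ c : Fin k → V, GoodClique G c) → (∀ c : Fin k → W, ¬ GoodClique H c) →
      univ.val.map (scolor (asMatrix G) k 1) ≠ univ.val.map (scolor (asMatrix H) k 1) ∧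
        ¬ PureSHistEq k 1 (asMatrix G) (asMatrix H))

/-- Bijective strategies give the four equivalences of the matrices. -/
def PLPureStmt : Prop :=
  ∀ (k : ℕ) (V W : Type) [Fintype V] [Fintype W] (G : V → V → Bool) (H : W → W → Bool),
    (BG (k + 1) G H → JEquiv k (asMatrix G) (asMatrix H) ∧ PureJEquiv k (asMatrix G) (asMatrix H)) ∧
    (BG k G H → SEquiv k (asMatrix G) (asMatrix H) ∧ PureSEquiv k (asMatrix G) (asMatrix H))

end Crest.Agent.R290
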