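import Crest.Agent.R290.PLMove

/-! Row 290, statement S0438: Duplicator's strategy on the two parity lifts. -/

set_option autoImplicit false

namespace Crest.Agent.R290

open Finset Crest.WLRefine Crest.WLRefine.ParityLift

namespace PLDup

variable {t : ℕ} {C : ChoiceSystem t}

/-- A Boolean as an element of `ZMod 2`. -/
def bz (b : Bool) : ZMod 2 := if b then 1 else 0

lemma bz_inj {a b : Bool} (h : bz a = bz b) : a = b := by
  revert a b
  decide

lemma parity_iff {N : Type} [Fintype N] (z : N → Bool) (b : Bool) :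
    (univ.filter fun a => z a = true).card % 2 = b.toNat ↔ ∑ a, bz (z a) = bz b := by
  have h1 : ∑ a, bz (z a) = ((univ.filter fun a => z a = true).card : ZMod 2) := by
    simp only [bz]
    rw [sum_boole]
  rw [h1]
  generalize (univ.filter fun a => z a = true).card = n
  rw [← ZMod.natCast_mod n 2]
  rcases Nat.mod_two_eq_zero_or_one n with h | h <;> rw [h] <;> cases b <;> decide

/-- The tag of a lift vertex, extended by zero. -/
def tg {b : TV t → Bool} (x : LiftV C b) (c : TV t) : ZMod 2 :=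
  if h : tAdj (typeOf C x.1.1) c = true then bz (x.1.2 ⟨c, h⟩) else 0

lemma lift_ext {b : TV t → Bool} {x y : LiftV C b} (h1 : x.1.1 = y.1.1)
    (h2 : ∀ c, tAdj (typeOf C x.1.1) c = true → tg x c = tg y c) : x = y := by
  obtain ⟨⟨u, z⟩, hx⟩ := x
  obtain ⟨⟨u', z'⟩, hy⟩ := y
  simp only at h1 h2
  subst h1
  have : z = z' := funext fun a => bz_inj (by
    have := h2 a.1 a.2
    simpa only [tg, dif_pos a.2] using this)
  subst this
  rfl

lemma liftAdj_iff {b : TV t → Bool} (x y : LiftV C b) : liftAdj C b x y = true ↔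
    bAdj C x.1.1 y.1.1 = true ∧ tg x (typeOf C y.1.1) = tg y (typeOf C x.1.1) := by
  simp only [liftAdj, decide_eq_true_eq]
  constructor
  · rintro ⟨h, h', e1, e2⟩
    exact ⟨e1, by rw [tg, tg, dif_pos h, dif_pos h', e2]⟩
  · rintro ⟨e1, e2⟩
    have h := tAdj_of_bAdj e1
    have h' := tAdj_of_bAdj (bAdj_comm _ _ ▸ e1)
    rw [tg, tg, dif_pos h, dif_pos h'] at e2
    exact ⟨h, h', e1, bz_inj e2⟩

lemma ps_tg {b : TV t → Bool} (x : LiftV C b) :
    ps (typeOf C x.1.1) (tg x) = bz (b (typeOf C x.1.1)) := by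
  rw [← (parity_iff _ _).1 x.2, ps]
  exact sum_congr rfl fun a _ => by rw [tg, dif_pos a.2]

/-- Shifting tags fibre by fibre. -/
def shift {b b' : TV t → Bool} (D : BV C → TV t → ZMod 2)
    (hD : ∀ u, ps (typeOf C u) (D u) = bz (b (typeOf C u)) + bz (b' (typeOf C u)))
    (x : LiftV C b) : LiftV C b' :=
  ⟨⟨x.1.1, fun a => decide (tg x a.1 + D x.1.1 a.1 = 1)⟩, by
    rw [parity_iff]
    have h1 : ∀ y : ZMod 2, bz (decide (y = 1)) = y := by decide
    simp only [h1]
    have := ps_add (typeOf C x.1.1) (tg x) (D x.1.1)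
    rw [ps_tg, hD] at this
    refine Eq.trans this ?_
    generalize bz (b (typeOf C x.1.1)) = y
    generalize bz (b' (typeOf C x.1.1)) = w
    revert y w
    decide⟩

lemma tg_shift {b b' : TV t → Bool} (D : BV C → TV t → ZMod 2)
    (hD : ∀ u, ps (typeOf C u) (D u) = bz (b (typeOf C u)) + bz (b' (typeOf C u)))
    (x : LiftV C b) (c : TV t) (hc : tAdj (typeOf C x.1.1) c = true) :
    tg (shift D hD x) c = tg x c + D x.1.1 c := by
  have h1 : ∀ y : ZMod 2, bz (decide (y = 1)) = y := by decide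
  rw [tg, dif_pos (show tAdj (typeOf C (shift D hD x).1.1) c = true from hc)]
  exact h1 _

/-- The shift as a bijection. -/
def shiftEquiv {b b' : TV t → Bool} (D : BV C → TV t → ZMod 2)
    (hD : ∀ u, ps (typeOf C u) (D u) = bz (b (typeOf C u)) + bz (b' (typeOf C u))) :
    LiftV C b ≃ LiftV C b' where
  toFun := shift D hD
  invFun := shift D fun u => by rw [hD, add_comm]
  left_inv x := lift_ext rfl fun c hc => by
    have two : ∀ x y : ZMod 2, x + y + y = x := by decide
    rw [tg_shift D _ (shift D hD x) c hc, tg_shift D _ x c hc]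
    exact two _ _
  right_inv x := lift_ext rfl fun c hc => by
    have two : ∀ x y : ZMod 2, x + y + y = x := by decide
    rw [tg_shift D hD (shift D (fun u => by rw [hD, add_comm]) x) c hc, tg_shift D _ x c hc]
    exact two _ _

/-- `y` is `x` shifted by `δ`. -/
def Rel {b b' : TV t → Bool} (δ : BV C → TV t → ZMod 2) (x : LiftV C b) (y : LiftV C b') : Prop :=
  x.1.1 = y.1.1 ∧ ∀ c, tAdj (typeOf C x.1.1) c = true → tg y c = tg x c + δ x.1.1 c

lemma Rel.ps {b b' : TV t → Bool} {δ : BV C → TV t → ZMod 2} {x : LiftV C b} {y : LiftV C b'}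
    (h : Rel δ x y) :
    ps (typeOf C x.1.1) (δ x.1.1) = bz (b (typeOf C x.1.1)) + bz (b' (typeOf C x.1.1)) := by
  have h1 : PLDup.ps (typeOf C x.1.1) (tg y) = PLDup.ps (typeOf C x.1.1) (tg x + δ x.1.1) :=
    sum_congr rfl fun a _ => h.2 a.1 a.2
  rw [ps_add, ps_tg] at h1
  have h2 := ps_tg y
  rw [← h.1] at h2
  rw [← h2, h1]
  generalize bz (b (typeOf C x.1.1)) = u
  generalize PLDup.ps (typeOf C x.1.1) (δ x.1.1) = w
  revert u w
  decide

lemma Rel.iso {b b' : TV t → Bool} {δ : BV C → TV t → ZMod 2} (hδ : OK δ) {x x' : LiftV C b}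
    {y y' : LiftV C b'} (h : Rel δ x y) (h' : Rel δ x' y') :
    (x = x' ↔ y = y') ∧ liftAdj C b x x' = liftAdj C b' y y' := by
  constructor
  · constructor
    · rintro rfl
      refine lift_ext (h.1.symm.trans h'.1) fun c hc => ?_
      rw [← h.1] at hc
      rw [h.2 c hc, h'.2 c hc]
    · rintro rfl
      have e : x.1.1 = x'.1.1 := h.1.trans h'.1.symm
      refine lift_ext e fun c hc => ?_
      have h1 := h.2 c hc
      rw [h'.2 c (e ▸ hc), e] at h1
      exact (add_right_cancel h1).symm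
  · rw [Bool.eq_iff_iff, liftAdj_iff, liftAdj_iff, ← h.1, ← h'.1]
    refine and_congr_right fun e => ?_
    rw [h.2 _ (tAdj_of_bAdj e), h'.2 _ (tAdj_of_bAdj (bAdj_comm _ _ ▸ e)), hδ _ _ e, add_left_inj]

/-- States of Duplicator. -/
def State (δ : BV C → TV t → ZMod 2) : Prop :=
  OK δ ∧ ∃ a b S, a ≠ b ∧ ∀ u, ps (typeOf C u) (δ u) +
    (bz (lift0Parity t (typeOf C u)) + bz (liftStarParity t (typeOf C u))) = xs a b S u

lemma state_zero (ht : 2 ≤ t) : State (0 : BV C → TV t → ZMod 2) := by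
  refine ⟨fun _ _ _ => rfl, ⟨0, by omega⟩, ⟨1, by omega⟩, fun _ => 1, by simp, fun u => ?_⟩
  rw [xs_one, Pi.zero_apply, ps_zero, zero_add]
  rcases u with p | g
  · have h0 : 0 < t := by omega
    simp only [lift0Parity, liftStarParity, typeOf, full, bz, Sum.inl.injEq, h0, exists_true_left,
      decide_eq_true_eq, Bool.false_eq_true, if_false, zero_add]
  · simp [lift0Parity, liftStarParity, typeOf, full, bz]

lemma state_step (hC : ¬ C.Successful) {δ : BV C → TV t → ZMod 2} (hδ : State δ)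
    {Pb : Finset (BV C)} (hc : Pb.card < t)
    (hP : ∀ u ∈ Pb, ps (typeOf C u) (δ u) =
      bz (lift0Parity t (typeOf C u)) + bz (liftStarParity t (typeOf C u))) (z : BV C) :
    ∃ δ', State δ' ∧ (∀ u ∈ Pb, δ' u = δ u) ∧ ps (typeOf C z) (δ' z) =
      bz (lift0Parity t (typeOf C z)) + bz (liftStarParity t (typeOf C z)) := by
  have two : ∀ x : ZMod 2, x + x = 0 := by decide
  obtain ⟨h1, a, b, S, hab, h2⟩ := hδ
  obtain ⟨a', b', S', hab', ⟨η, k1, k2, k3⟩, hz⟩ := step hC hc hab S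
    (fun u hu => by rw [← h2, hP u hu, two]) z
  have key : ∀ u, ps (typeOf C u) ((δ + η) u) +
      (bz (lift0Parity t (typeOf C u)) + bz (liftStarParity t (typeOf C u))) = xs a' b' S' u :=
    fun u => by
      rw [Pi.add_apply, ps_add, k3, add_right_comm, h2, Pi.add_apply, ← add_assoc, two, zero_add]
  refine ⟨δ + η, ⟨h1.add k1, a', b', S', hab', key⟩, fun u hu => by simp [k2 u hu], ?_⟩
  have := key z
  rw [hz] at this
  revert this
  generalize ps (typeOf C z) ((δ + η) z) = x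
  generalize bz (lift0Parity t (typeOf C z)) + bz (liftStarParity t (typeOf C z)) = y
  revert x y
  decide

end PLDup

open PLDup in
theorem plDupStmt : PLDupStmt := by
  intro t C ht hC
  refine ⟨fun p => ∃ δ, State δ ∧ ∀ x ∈ p, Rel δ x.1 x.2,
    ⟨⟨0, state_zero ht, by simp⟩, ?_, ?_⟩, ?_⟩
  · rintro p q ⟨δ, h1, h2⟩ h
    exact ⟨δ, h1, fun x hx => h2 x (h x hx)⟩
  · rintro p ⟨δ, h1, h2⟩ x hx y hy
    exact Rel.iso h1.1 (h2 x hx) (h2 y hy)
  · rintro p ⟨δ, h1, h2⟩ hp
    have hc : (p.map fun x => x.1.1.1).toFinset.card < t :=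
      lt_of_le_of_lt ((List.toFinset_card_le _).trans (List.length_map _).le) hp
    choose D hD1 hD2 hD3 using state_step hC h1 hc (fun u hu => by
      obtain ⟨x, hx, rfl⟩ := List.mem_map.1 (List.mem_toFinset.1 hu)
      exact (h2 x hx).ps)
    refine ⟨shiftEquiv (fun u => D u u) hD3, fun a => ⟨D a.1.1, hD1 _, fun x hx => ?_⟩⟩
    rcases List.mem_cons.1 hx with rfl | hx
    · exact ⟨rfl, fun c hc => tg_shift _ hD3 a c hc⟩
    · refine ⟨(h2 x hx).1, fun c hc => ?_⟩
      rw [hD2 _ _ (List.mem_toFinset.2 (List.mem_map.2 ⟨x, hx, rfl⟩))]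
      exact (h2 x hx).2 c hc

end Crest.Agent.R290
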