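import Crest.Agent.R290.PLDefs

/-! Row 290, statement S0438: assembly from the five parts. -/

set_option autoImplicit false

namespace Crest.Agent.R290

open Finset Crest.WLRefine Crest.WLRefine.ParityLift

theorem pl_main (h1 : PLCountStmt) (h2 : PLDupStmt) (h3 : PLCliqueStmt) (h4 : PLSeeStmt)
    (h5 : PLPureStmt) (k : ℕ) (hk : 4 ≤ k) :
    (∀ C : ChoiceSystem (k + 1),
      IsSimple (asMatrix (liftAdj C (lift0Parity (k + 1)))) ∧ IsSimple (asMatrix (liftAdj C (liftStarParity (k + 1)))) ∧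
      Fintype.card (LiftV C (lift0Parity (k + 1))) = Fintype.card (LiftV C (liftStarParity (k + 1))) ∧
      (∀ A : ℕ, 1 ≤ A → C.SizeAtMost A →
        Fintype.card (LiftV C (lift0Parity (k + 1))) ≤ A * orderFactor (k + 1)) ∧
      (JEquiv k (asMatrix (liftAdj C (lift0Parity (k + 1)))) (asMatrix (liftAdj C (liftStarParity (k + 1)))) ↔ ¬ C.Successful) ∧
      (PureJEquiv k (asMatrix (liftAdj C (lift0Parity (k + 1)))) (asMatrix (liftAdj C (liftStarParity (k + 1)))) ↔ ¬ C.Successful) ∧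
      (C.Successful → (Finset.univ.val.map (jcolor (asMatrix (liftAdj C (lift0Parity (k + 1)))) k 2)) ≠
          Finset.univ.val.map (jcolor (asMatrix (liftAdj C (liftStarParity (k + 1)))) k 2) ∧
        ¬ PureJHistEq k 2 (asMatrix (liftAdj C (lift0Parity (k + 1)))) (asMatrix (liftAdj C (liftStarParity (k + 1)))))) ∧
    (∀ C : ChoiceSystem k,
      IsSimple (asMatrix (liftAdj C (lift0Parity k))) ∧ IsSimple (asMatrix (liftAdj C (liftStarParity k))) ∧
      Fintype.card (LiftV C (lift0Parity k)) = Fintype.card (LiftV C (liftStarParity k)) ∧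
      (∀ A : ℕ, 1 ≤ A → C.SizeAtMost A →
        Fintype.card (LiftV C (lift0Parity k)) ≤ A * orderFactor k) ∧
      (SEquiv k (asMatrix (liftAdj C (lift0Parity k))) (asMatrix (liftAdj C (liftStarParity k))) ↔ ¬ C.Successful) ∧
      (PureSEquiv k (asMatrix (liftAdj C (lift0Parity k))) (asMatrix (liftAdj C (liftStarParity k))) ↔ ¬ C.Successful) ∧
      (C.Successful → (Finset.univ.val.map (scolor (asMatrix (liftAdj C (lift0Parity k))) k 1)) ≠
          Finset.univ.val.map (scolor (asMatrix (liftAdj C (liftStarParity k))) k 1) ∧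
        ¬ PureSHistEq k 1 (asMatrix (liftAdj C (lift0Parity k))) (asMatrix (liftAdj C (liftStarParity k))))) := by
  constructor
  · intro C
    obtain ⟨a1, a2, a3⟩ := h1 (k + 1) C (by omega)
    obtain ⟨b1, b2⟩ := h3 (k + 1) C (by omega)
    have hs := fun hC : C.Successful => (h4 k _ _ _ _ hk).1 (b1 hC) b2
    have hd := fun hC : ¬ C.Successful => (h5 k _ _ _ _).1 (h2 (k + 1) C (by omega) hC)
    exact ⟨a1 _, a1 _, a2, fun A _ hA => a3 A hA,
      ⟨fun h hC => (hs hC).1 (h 2), fun hC => (hd hC).1⟩,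
      ⟨fun h hC => (hs hC).2 (h 2), fun hC => (hd hC).2⟩, hs⟩
  · intro C
    obtain ⟨a1, a2, a3⟩ := h1 k C (by omega)
    obtain ⟨b1, b2⟩ := h3 k C hk
    have hs := fun hC : C.Successful => (h4 k _ _ _ _ hk).2 (b1 hC) b2
    have hd := fun hC : ¬ C.Successful => (h5 k _ _ _ _).2 (h2 k C (by omega) hC)
    exact ⟨a1 _, a1 _, a2, fun A _ hA => a3 A hA,
      ⟨fun h hC => (hs hC).1 (h 1), fun hC => (hd hC).1⟩,
      ⟨fun h hC => (hs hC).2 (h 1), fun hC => (hd hC).2⟩, hs⟩

end Crest.Agent.R290
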