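import Crest.Agent.R290.PLDefs

/-! Row 290, statement S0438: moving the parity defect around the base graph. -/

set_option autoImplicit false

namespace Crest.Agent.R290

open Finset Crest.WLRefine Crest.WLRefine.ParityLift

namespace PLDup

variable {t : ℕ} (C : ChoiceSystem t)

/-- Elements of the domains. -/
abbrev MV : Type := Σ i : Fin t, Fin (C.dom i)

variable {C}

/-- The label of `p` for the pair formed by its type and `b`. -/
def lb (p : MV C) (b : Fin t) : ℕ :=
  if p.1 < b then (C.lamL p.1 b p.2).val else (C.lamR b p.1 p.2).val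

lemma bAdj_mm (p q : MV C) :
    bAdj C (Sum.inl p) (Sum.inl q) = true ↔ p.1 ≠ q.1 ∧ lb p q.1 = lb q p.1 := by
  simp only [bAdj, mainAgree, Bool.or_eq_true, decide_eq_true_eq, lb, exists_prop]
  rcases lt_trichotomy p.1 q.1 with h | h | h
  · simp [h, h.ne, h.not_gt, Fin.ext_iff]
  · simp [h]
  · simp [h, h.ne', h.not_gt, Fin.ext_iff, eq_comm]

lemma helperAgree_iff (p : MV C) (h : Helper t) (q : Fin (C.lab h.1.1 h.1.2.1)) :
    helperAgree C p ⟨h, q⟩ = true ↔ (p.1 = h.1.1 ∧ q.val = lb p h.1.2.1) ∨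
      (p.1 = h.1.2.1 ∧ q.val = lb p h.1.1) ∨ p.1 = h.1.2.2 := by
  obtain ⟨i, d⟩ := p
  obtain ⟨⟨a, b, c⟩, hab, hca, hcb⟩ := h
  simp only [helperAgree, decide_eq_true_eq, lb]
  refine or_congr ?_ (or_congr ?_ Iff.rfl)
  · constructor
    · rintro ⟨rfl, h⟩
      exact ⟨rfl, by rw [if_pos hab, h]; rfl⟩
    · rintro ⟨rfl, h⟩
      exact ⟨rfl, Fin.ext (by rw [h, if_pos hab]; rfl)⟩
  · constructor
    · rintro ⟨rfl, h⟩
      exact ⟨rfl, by rw [if_neg hab.not_gt, h]; rfl⟩
    · rintro ⟨rfl, h⟩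
      exact ⟨rfl, Fin.ext (by rw [h, if_neg hab.not_gt]; rfl)⟩

lemma tAdj_of_bAdj {u v : BV C} (h : bAdj C u v = true) :
    tAdj (typeOf C u) (typeOf C v) = true := by
  rcases u with p | ⟨g, q⟩ <;> rcases v with p' | ⟨g', q'⟩
  · simpa [typeOf, tAdj] using ((bAdj_mm p p').1 h).1
  · have := (helperAgree_iff p g' q').1 h
    simp only [typeOf, tAdj, decide_eq_true_eq]
    tauto
  · have := (helperAgree_iff p' g q).1 h
    simp only [typeOf, tAdj, decide_eq_true_eq]
    tauto
  · exact h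

lemma bAdj_comm (u v : BV C) : bAdj C u v = bAdj C v u := by
  rcases u with p | ⟨g, q⟩ <;> rcases v with p' | ⟨g', q'⟩ <;> simp [bAdj, Bool.or_comm]

/-- Sum of a vector over the template neighbours. -/
def ps (τ : TV t) (f : TV t → ZMod 2) : ZMod 2 := ∑ a : Nbr τ, f a.1

lemma ps_add (τ : TV t) (f g : TV t → ZMod 2) : ps τ (f + g) = ps τ f + ps τ g := by
  simp [ps, sum_add_distrib]

lemma ps_zero (τ : TV t) : ps τ 0 = 0 := by simp [ps]

lemma ps_single {τ c : TV t} (h : tAdj τ c = true) (x : ZMod 2) : ps τ (Pi.single c x) = x := by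
  rw [ps, sum_eq_single ⟨c, h⟩]
  · simp
  · intro b _ hb
    exact Pi.single_eq_of_ne (fun e => hb (Subtype.ext e)) _
  · simp

/-- No violated base edge. -/
def OK (δ : BV C → TV t → ZMod 2) : Prop :=
  ∀ u v, bAdj C u v = true → δ u (typeOf C v) = δ v (typeOf C u)

/-- `y` is the parity vector of a shift vanishing on `Pb`. -/
def Bd (Pb : Finset (BV C)) (y : BV C → ZMod 2) : Prop :=
  ∃ η : BV C → TV t → ZMod 2, OK η ∧ (∀ u ∈ Pb, η u = 0) ∧ ∀ u, ps (typeOf C u) (η u) = y u

lemma OK.add {δ η : BV C → TV t → ZMod 2} (h : OK δ) (h' : OK η) : OK (δ + η) := fun u v e => by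
  simp only [Pi.add_apply, h u v e, h' u v e]

lemma Bd.zero (Pb : Finset (BV C)) : Bd Pb 0 :=
  ⟨0, fun _ _ _ => rfl, fun _ _ => rfl, fun _ => ps_zero _⟩

lemma Bd.add {Pb : Finset (BV C)} {y y' : BV C → ZMod 2} (h : Bd Pb y) (h' : Bd Pb y') :
    Bd Pb (y + y') := by
  obtain ⟨η, h1, h2, h3⟩ := h
  obtain ⟨η', h1', h2', h3'⟩ := h'
  exact ⟨η + η', h1.add h1', fun u hu => by simp [h2 u hu, h2' u hu],
    fun u => by rw [Pi.add_apply, ps_add, h3, h3', Pi.add_apply]⟩

/-- The defect set of a pair: labels with `S = 1` sit on type `a`, the others on type `b`. -/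
def xs (a b : Fin t) (S : ℕ → ZMod 2) : BV C → ZMod 2
  | Sum.inl p => if p.1 = a then S (lb p b) else if p.1 = b then 1 + S (lb p a) else 0
  | Sum.inr _ => 0

/-- A whole type. -/
def full (i : Fin t) : BV C → ZMod 2
  | Sum.inl p => if p.1 = i then 1 else 0
  | Sum.inr _ => 0

lemma one_add_one : (1 : ZMod 2) + 1 = 0 := rfl

lemma xs_swap {a b : Fin t} (hab : a ≠ b) (S : ℕ → ZMod 2) :
    (xs a b S : BV C → ZMod 2) = xs b a fun q => 1 + S q := by
  funext u
  rcases u with p | _
  · simp only [xs]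
    by_cases h1 : p.1 = a
    · have h2 : p.1 ≠ b := h1 ▸ hab
      rw [if_pos h1, if_neg h2, if_pos h1, ← add_assoc, one_add_one, zero_add]
    · by_cases h2 : p.1 = b
      · rw [if_neg h1, if_pos h2, if_pos h2]
      · rw [if_neg h1, if_neg h2, if_neg h2, if_neg h1]
  · rfl

lemma xs_one (a b : Fin t) : (xs a b (fun _ => 1) : BV C → ZMod 2) = full a := by
  funext u
  rcases u with p | _
  · simp only [xs, full, one_add_one, ite_self]
  · rfl

/-- First move: switching the side of a set of labels. -/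
lemma move1 {Pb : Finset (BV C)} {a b : Fin t} (hab : a ≠ b) (S S' : ℕ → ZMod 2)
    (ha : ∀ p : MV C, Sum.inl p ∈ Pb → p.1 = a → S (lb p b) = S' (lb p b))
    (hb : ∀ p : MV C, Sum.inl p ∈ Pb → p.1 = b → S (lb p a) = S' (lb p a)) :
    Bd Pb (xs a b S + xs a b S') := by
  have two : ∀ x : ZMod 2, x + x = 0 := by decide
  refine ⟨fun u => match u with
    | Sum.inl p => if p.1 = a then Pi.single (Sum.inl b) (S (lb p b) + S' (lb p b))
        else if p.1 = b then Pi.single (Sum.inl a) (S (lb p a) + S' (lb p a)) else 0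
    | Sum.inr _ => 0, ?_, ?_, ?_⟩
  · intro u v huv
    rcases u with p | ⟨g, q⟩ <;> rcases v with p' | ⟨g', q'⟩
    · obtain ⟨h1, h2⟩ := (bAdj_mm p p').1 huv
      simp only [typeOf]
      by_cases e1 : p.1 = a
      · have e2 : p'.1 ≠ a := e1 ▸ h1.symm
        by_cases e3 : p'.1 = b
        · rw [if_pos e1, if_neg e2, if_pos e3, e1, e3, Pi.single_eq_same, Pi.single_eq_same,
            ← e3, ← e1, h2]
        · simp [e1, e2, e3]
      · by_cases e2 : p.1 = b
        · have e3 : p'.1 ≠ b := e2 ▸ h1.symm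
          by_cases e4 : p'.1 = a
          · rw [if_neg e1, if_pos e2, if_pos e4, e2, e4, Pi.single_eq_same, Pi.single_eq_same,
              ← e4, ← e2, h2]
          · simp [e2, e3, e4, hab.symm]
        · simp only [e1, e2, if_false, Pi.zero_apply]
          split_ifs <;> simp [e1, e2]
    · simp only [typeOf, Pi.zero_apply]
      split_ifs <;> simp
    · simp only [typeOf, Pi.zero_apply]
      split_ifs <;> simp
    · rfl
  · intro u hu
    rcases u with p | _
    · by_cases e1 : p.1 = a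
      · simp only [if_pos e1, ha p hu e1, two, Pi.single_zero]
      · by_cases e2 : p.1 = b
        · simp only [if_neg e1, if_pos e2, hb p hu e2, two, Pi.single_zero]
        · simp only [if_neg e1, if_neg e2]
    · rfl
  · intro u
    rcases u with p | _
    · simp only [typeOf, Pi.add_apply, xs]
      by_cases e1 : p.1 = a
      · simp only [if_pos e1]
        exact ps_single (by simp [tAdj, e1, hab]) _
      · by_cases e2 : p.1 = b
        · simp only [if_neg e1, if_pos e2]
          rw [ps_single (by simp [tAdj, e2, hab.symm])]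
          generalize S (lb p a) = x
          generalize S' (lb p a) = y
          revert x y
          decide
        · simp only [if_neg e1, if_neg e2, ps_zero, add_zero]
    · simp only [Pi.add_apply, xs, ps_zero, add_zero]

/-- Second move, through a helper. -/
lemma move2' {Pb : Finset (BV C)} (h : Helper t) (S : ℕ → ZMod 2)
    (h1 : ∀ u ∈ Pb, xs h.1.1 h.1.2.1 S u = 0) (h2 : ∀ u ∈ Pb, typeOf C u ≠ Sum.inl h.1.2.2)
    (h3 : ∀ u ∈ Pb, typeOf C u ≠ Sum.inr h) :
    Bd Pb (xs h.1.1 h.1.2.1 S + full h.1.2.2) := by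
  obtain ⟨⟨a, b, i⟩, hab, hia, hib⟩ := h
  simp only at h1 h2 hab hia hib ⊢
  set h : Helper t := ⟨(a, b, i), hab, hia, hib⟩ with hh
  refine ⟨fun u => match u with
    | Sum.inl p => Pi.single (Sum.inr h) (xs a b S (Sum.inl p) + full i (Sum.inl p))
    | Sum.inr g => if g.1 = h then Pi.single (Sum.inl a) (S g.2.val) +
        Pi.single (Sum.inl b) (1 + S g.2.val) + Pi.single (Sum.inl i) 1 else 0, ?_, ?_, ?_⟩
  · have key : ∀ (p : MV C) (g : Helper t) (q : Fin (C.lab g.1.1 g.1.2.1)),
        helperAgree C p ⟨g, q⟩ = true →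
        (Pi.single (Sum.inr h) (xs a b S (Sum.inl p) + full i (Sum.inl p)) : TV t → ZMod 2)
          (Sum.inr g) = (if g = h then Pi.single (Sum.inl a) (S q.val) +
        Pi.single (Sum.inl b) (1 + S q.val) + Pi.single (Sum.inl i) 1 else 0 : TV t → ZMod 2)
          (Sum.inl p.1) := by
      intro p g q hg
      by_cases e : g = h
      · subst e
        rw [Pi.single_eq_same, if_pos rfl]
        simp only [Pi.add_apply, Pi.single_apply, Sum.inl.injEq, xs, full]
        rcases (helperAgree_iff p _ q).1 hg with ⟨e1, e2⟩ | ⟨e1, e2⟩ | e1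
        · change p.1 = a at e1
          change q.val = lb p b at e2
          simp [e1, e2, hab.ne, hia.symm]
        · change p.1 = b at e1
          change q.val = lb p a at e2
          simp [e1, e2, hab.ne', hib.symm]
        · change p.1 = i at e1
          simp [e1, hia, hib]
      · rw [Pi.single_eq_of_ne (fun e' => e (Sum.inr.inj e')), if_neg e]
        rfl
    intro u v huv
    rcases u with p | ⟨g, q⟩ <;> rcases v with p' | ⟨g', q'⟩
    · simp [typeOf]
    · exact key p g' q' huv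
    · exact (key p' g q huv).symm
    · exact absurd huv (by simp [bAdj])
  · intro u hu
    rcases u with p | g
    · have e1 := h1 _ hu
      have e2 : p.1 ≠ i := fun e => h2 _ hu (by simp [typeOf, e])
      simp only [e1, full, if_neg e2, add_zero, Pi.single_zero]
    · have e : g.1 ≠ h := fun e => h3 _ hu (by simp [typeOf, e])
      simp only [if_neg e]
  · intro u
    rcases u with p | g
    · simp only [typeOf, Pi.add_apply]
      by_cases e : p.1 = a ∨ p.1 = b ∨ p.1 = i
      · exact ps_single (by simpa [tAdj] using e) _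
      · push Not at e
        simp only [xs, full, if_neg e.1, if_neg e.2.1, if_neg e.2.2, add_zero, Pi.single_zero,
          ps_zero]
    · simp only [typeOf, Pi.add_apply, xs, full, add_zero]
      by_cases e : g.1 = h
      · rw [if_pos e]
        generalize S g.2.val = x
        rw [e, ps_add, ps_add, ps_single (by simp [tAdj, hh]),
          ps_single (by simp [tAdj, hh]), ps_single (by simp [tAdj, hh])]
        revert x
        decide
      · rw [if_neg e, ps_zero]

/-- The third vertex of a helper, the type of a main. -/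
def rt : BV C → Fin t
  | Sum.inl p => p.1
  | Sum.inr g => g.1.1.2.2

/-- Second move, in terms of `rt`. -/
lemma move2 {Pb : Finset (BV C)} {a b i : Fin t} (hab : a ≠ b) (hia : i ≠ a) (hib : i ≠ b)
    (S : ℕ → ZMod 2) (h1 : ∀ u ∈ Pb, xs a b S u = 0) (h2 : ∀ u ∈ Pb, rt u ≠ i) :
    Bd Pb (xs a b S + full i) := by
  have k2 : ∀ u ∈ Pb, typeOf C u ≠ Sum.inl i := by
    rintro (p | g) hu e
    · exact h2 _ hu (Sum.inl.inj e)
    · exact absurd e (by simp [typeOf])
  have k3 : ∀ h : Helper t, h.1.2.2 = i → ∀ u ∈ Pb, typeOf C u ≠ Sum.inr h := by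
    rintro h hh (p | g) hu e
    · exact absurd e (by simp [typeOf])
    · refine h2 _ hu ?_
      rw [← hh, ← Sum.inr.inj e]
      rfl
  rcases lt_or_gt_of_ne hab with h | h
  · exact move2' ⟨(a, b, i), h, hia, hib⟩ S h1 k2 (k3 _ rfl)
  · rw [xs_swap hab] at h1 ⊢
    exact move2' ⟨(b, a, i), h, hib, hia⟩ _ h1 k2 (k3 _ rfl)

lemma pigeon {Pb : Finset (BV C)} (hc : Pb.card < t) (j : Fin t)
    (h : ∀ i, i ≠ j → ∃ u ∈ Pb, rt u = i) :
    (∀ u ∈ Pb, rt u ≠ j) ∧ Set.InjOn rt (Pb : Set (BV C)) := by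
  have h1 : univ.erase j ⊆ Pb.image rt := fun i hi => mem_image.2 (h i (ne_of_mem_erase hi))
  have h2 : (univ.erase j).card = t - 1 := by simp
  have h3 : (Pb.image rt).card ≤ Pb.card := card_image_le
  have h4 := card_le_card h1
  have h5 : univ.erase j = Pb.image rt := eq_of_subset_of_card_le h1 (by omega)
  refine ⟨fun u hu e => ?_, card_image_iff.1 (by omega)⟩
  have : j ∈ Pb.image rt := mem_image.2 ⟨u, hu, e⟩
  rw [← h5] at this
  exact notMem_erase j univ this

lemma agree_of_lb (p p' : MV C) {i j : Fin t} (e1 : p.1 = i) (e2 : p'.1 = j) (hij : i < j)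
    (h : lb p j = lb p' i) : C.lamL i j (Fin.cast (congrArg C.dom e1) p.2) =
      C.lamR i j (Fin.cast (congrArg C.dom e2) p'.2) := by
  subst e1 e2
  simp only [lb, if_pos hij, if_neg hij.not_gt] at h
  exact Fin.ext h

/-- From a whole unpebbled type the defect can be moved off any given vertex. -/
lemma step_full (hC : ¬ C.Successful) {Pb : Finset (BV C)} (hc : Pb.card < t) (z : MV C)
    (hP : ∀ p : MV C, Sum.inl p ∈ Pb → p.1 ≠ z.1) :
    ∃ a b S, a ≠ b ∧ Bd Pb (full z.1 + xs a b S) ∧ xs a b S (Sum.inl z) = 0 := by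
  by_cases hA : ∃ i, i ≠ z.1 ∧ ∀ p : MV C, Sum.inl p ∈ Pb → p.1 = i → lb p z.1 ≠ lb z i
  · obtain ⟨i, hi, hA⟩ := hA
    refine ⟨z.1, i, fun q => if q = lb z i then 0 else 1, hi.symm, ?_, by simp [xs]⟩
    rw [← xs_one z.1 i]
    exact move1 hi.symm _ _ (fun p hp e => absurd e (hP p hp)) fun p hp e => by
      rw [if_neg (hA p hp e)]
  · push Not at hA
    obtain ⟨k1, k2⟩ := pigeon hc z.1 fun i hi => by
      obtain ⟨p, hp, e, -⟩ := hA i hi
      exact ⟨_, hp, e⟩
    obtain ⟨f, hf1, hf2, hf3⟩ : ∃ f : Fin t → MV C, (∀ i, (f i).1 = i) ∧ f z.1 = z ∧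
        ∀ i, i ≠ z.1 → Sum.inl (f i) ∈ Pb ∧ lb (f i) z.1 = lb z i := by
      have : ∀ i, ∃ p : MV C, p.1 = i ∧ (i = z.1 → p = z) ∧
          (i ≠ z.1 → Sum.inl p ∈ Pb ∧ lb p z.1 = lb z i) := fun i => by
        by_cases hi : i = z.1
        · exact ⟨z, hi.symm, fun _ => rfl, fun h => absurd hi h⟩
        · obtain ⟨p, hp, e, e'⟩ := hA i hi
          exact ⟨p, e, fun h => absurd h hi, fun _ => ⟨hp, e'⟩⟩
      choose f h1 h2 h3 using this
      exact ⟨f, h1, h2 _ rfl, h3⟩
    obtain ⟨a, b, hab, hne⟩ : ∃ a b, a < b ∧ lb (f a) b ≠ lb (f b) a := by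
      by_contra hcon
      push Not at hcon
      refine hC ⟨fun i => Fin.cast (congrArg C.dom (hf1 i)) (f i).2, fun i j hij => ?_⟩
      exact agree_of_lb _ _ (hf1 i) (hf1 j) hij (hcon i j hij)
    have ha : a ≠ z.1 := fun e => hne (by
      rw [e, hf2, (hf3 b (e ▸ hab.ne')).2])
    have hb : b ≠ z.1 := fun e => hne (by
      rw [e, hf2, (hf3 a ha).2])
    refine ⟨a, b, fun q => if q = lb (f a) b then 0 else 1, hab.ne, ?_, by
      simp [xs, ha.symm, hb.symm]⟩
    rw [add_comm]
    refine move2 hab.ne ha.symm hb.symm _ ?_ k1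
    rintro (p | g) hu
    · simp only [xs]
      split_ifs with e1 e2 e3 e4
      · rfl
      · have : Sum.inl p = Sum.inl (f a) := k2 hu (hf3 a ha).1 (e1.trans (hf1 a).symm)
        exact absurd (by rw [Sum.inl.inj this]) e2
      · have : Sum.inl p = Sum.inl (f b) := k2 hu (hf3 b hb).1 (e3.trans (hf1 b).symm)
        rw [Sum.inl.inj this] at e4
        exact absurd e4.symm hne
      · rfl
      · rfl
    · rfl

lemma step_side (hC : ¬ C.Successful) {Pb : Finset (BV C)} (hc : Pb.card < t) {l : Fin t}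
    (z : MV C) (hl : z.1 ≠ l) (S : ℕ → ZMod 2) (hP : ∀ u ∈ Pb, xs z.1 l S u = 0) :
    ∃ a b S', a ≠ b ∧ Bd Pb (xs z.1 l S + xs a b S') ∧ xs a b S' (Sum.inl z) = 0 := by
  by_cases h1 : ∀ p : MV C, Sum.inl p ∈ Pb → p.1 = l → lb p z.1 ≠ lb z l
  · refine ⟨z.1, l, fun q => if q = lb z l then 0 else S q, hl, ?_, by simp [xs]⟩
    refine move1 hl _ _ (fun p hp e => ?_) fun p hp e => by rw [if_neg (h1 p hp e)]
    have := hP _ hp
    simp only [xs, if_pos e] at this
    split_ifs
    · exact this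
    · rfl
  push Not at h1
  obtain ⟨p0, hp0, e0, -⟩ := h1
  by_cases h2 : ∃ i, i ≠ z.1 ∧ i ≠ l ∧ ∀ u ∈ Pb, rt u ≠ i
  · obtain ⟨i, hi1, hi2, h2⟩ := h2
    refine ⟨i, l, fun _ => 1, hi2, ?_, by simp [xs_one, full, hi1.symm]⟩
    rw [xs_one]
    exact move2 hl hi1 hi2 S hP h2
  push Not at h2
  obtain ⟨k1, -⟩ := pigeon hc z.1 fun i hi => by
    by_cases e : i = l
    · exact ⟨_, hp0, e0.trans e.symm⟩
    · exact h2 i hi e
  have k3 : ∀ p : MV C, Sum.inl p ∈ Pb → p.1 ≠ z.1 := fun p hp => k1 _ hp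
  obtain ⟨a, b, S', hab, hB, hz'⟩ := step_full hC hc z k3
  have hB' : Bd Pb (xs z.1 l S + xs z.1 l fun _ => 1) :=
    move1 hl _ _ (fun p hp e => absurd e (k3 p hp)) fun p hp e => by
      have := hP _ hp
      simp only [xs, if_neg (k3 p hp), if_pos e] at this
      revert this
      generalize S (lb p z.1) = x
      revert x
      decide
  refine ⟨a, b, S', hab, ?_, hz'⟩
  have := hB'.add hB
  rw [xs_one] at this
  convert this using 1
  funext u
  simp only [Pi.add_apply]
  generalize xs z.1 l S u = x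
  generalize full z.1 u = y
  generalize xs a b S' u = w
  revert x y w
  decide

/-- The defect can be moved off any vertex without touching fewer than `t` pebbled vertices. -/
theorem step (hC : ¬ C.Successful) {Pb : Finset (BV C)} (hc : Pb.card < t) {a b : Fin t}
    (hab : a ≠ b) (S : ℕ → ZMod 2) (hP : ∀ u ∈ Pb, xs a b S u = 0) (z : BV C) :
    ∃ a' b' S', a' ≠ b' ∧ Bd Pb (xs a b S + xs a' b' S') ∧ xs a' b' S' z = 0 := by
  by_cases hz : xs a b S z = 0
  · refine ⟨a, b, S, hab, ?_, hz⟩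
    convert Bd.zero Pb using 1
    funext u
    simp only [Pi.add_apply, Pi.zero_apply]
    generalize xs a b S u = x
    revert x
    decide
  rcases z with z | _
  · by_cases e1 : z.1 = a
    · subst e1
      exact step_side hC hc z hab S hP
    · by_cases e2 : z.1 = b
      · subst e2
        rw [xs_swap hab] at hP ⊢
        exact step_side hC hc z hab.symm _ hP
      · exact absurd (by simp [xs, e1, e2]) hz
  · exact absurd rfl hz

end PLDup

end Crest.Agent.R290
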