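import Crest.Agent.R290.PLDefs
import Crest.Agent.R290.Col

/-! Row 290, statement S0438: bijective strategies give the plain and the pure-tuple equivalences. -/

set_option autoImplicit false

namespace Crest.Agent.R290

open Crest.WLRefine Crest.WLRefine.ParityLift

namespace PLPure

/-- Transport of a bijective strategy along relabellings. -/
lemma transport {κ : ℕ} {V W V' W' : Type} {G : V → V → Bool} {H : W → W → Bool}
    {P : List (V × W) → Prop} (hP : BGS κ G H P) (e : V' ≃ V) (e' : W' ≃ W) :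
    BGS κ (fun a b => G (e a) (e b)) (fun a b => H (e' a) (e' b))
      (fun p => P (p.map (Prod.map e e'))) where
  nil := hP.nil
  mono p q h hs := hP.mono _ _ h fun x hx => by
    obtain ⟨y, hy, rfl⟩ := List.mem_map.1 hx
    exact List.mem_map_of_mem (hs y hy)
  iso p h x hx y hy := by
    have := hP.iso _ h _ (List.mem_map_of_mem hx) _ (List.mem_map_of_mem hy)
    simpa using this
  bij p h hl := by
    obtain ⟨β, hβ⟩ := hP.bij _ h (by simpa using hl)
    exact ⟨(e.trans β).trans e'.symm, fun a => by simpa using hβ (e a)⟩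

def f1 {A B : Type} : (A ⊕ B) × (A ⊕ B) → Option (A × B)
  | (Sum.inl a, Sum.inr b) => some (a, b)
  | _ => none

def f2 {A B : Type} : (A ⊕ B) × (A ⊕ B) → Option (A × B)
  | (Sum.inr b, Sum.inl a) => some (a, b)
  | _ => none

/-- The strategy on the disjoint union that swaps the two parts. -/
def UQ {A B : Type} (P : List (A × B) → Prop) (q : List ((A ⊕ B) × (A ⊕ B))) : Prop :=
  P (q.filterMap f1) ∧ P (q.filterMap f2) ∧
    ∀ x ∈ q, (∃ a b, x = (Sum.inl a, Sum.inr b)) ∨ ∃ a b, x = (Sum.inr b, Sum.inl a)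

lemma union {κ n m : ℕ} {G : Fin n → Fin n → Bool} {H : Fin m → Fin m → Bool}
    {P : List (Fin n × Fin m) → Prop} (hP : BGS κ G H P) :
    BGS κ (unionAdj G H) (unionAdj G H) (UQ P) where
  nil := ⟨hP.nil, hP.nil, by simp⟩
  mono p q h hs := by
    refine ⟨hP.mono _ _ h.1 fun x hx => ?_, hP.mono _ _ h.2.1 fun x hx => ?_,
      fun x hx => h.2.2 x (hs x hx)⟩
    · obtain ⟨y, hy, hxy⟩ := List.mem_filterMap.1 hx
      exact List.mem_filterMap.2 ⟨y, hs y hy, hxy⟩
    · obtain ⟨y, hy, hxy⟩ := List.mem_filterMap.1 hx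
      exact List.mem_filterMap.2 ⟨y, hs y hy, hxy⟩
  iso p h x hx y hy := by
    rcases h.2.2 x hx with ⟨a, b, rfl⟩ | ⟨a, b, rfl⟩ <;>
      rcases h.2.2 y hy with ⟨a', b', rfl⟩ | ⟨a', b', rfl⟩
    · have := hP.iso _ h.1 (a, b) (List.mem_filterMap.2 ⟨_, hx, rfl⟩) (a', b')
        (List.mem_filterMap.2 ⟨_, hy, rfl⟩)
      simpa [unionAdj] using this
    · simp [unionAdj]
    · simp [unionAdj]
    · have := hP.iso _ h.2.1 (a, b) (List.mem_filterMap.2 ⟨_, hx, rfl⟩) (a', b')
        (List.mem_filterMap.2 ⟨_, hy, rfl⟩)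
      refine ⟨?_, this.2.symm⟩
      simpa using this.1.symm
  bij p h hl := by
    obtain ⟨β1, h1⟩ := hP.bij _ h.1 (lt_of_le_of_lt (List.length_filterMap_le _ _) hl)
    obtain ⟨β2, h2⟩ := hP.bij _ h.2.1 (lt_of_le_of_lt (List.length_filterMap_le _ _) hl)
    refine ⟨(Equiv.sumCongr β1 β2.symm).trans (Equiv.sumComm _ _), fun z => ?_⟩
    rcases z with a | b
    · refine ⟨h1 a, h.2.1, fun x hx => ?_⟩
      rcases List.mem_cons.1 hx with rfl | hx
      · exact Or.inl ⟨a, β1 a, rfl⟩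
      · exact h.2.2 x hx
    · refine ⟨h.1, ?_, fun x hx => ?_⟩
      · have := h2 (β2.symm b)
        rw [Equiv.apply_symm_apply] at this
        exact this
      · rcases List.mem_cons.1 hx with rfl | hx
        · exact Or.inr ⟨β2.symm b, b, rfl⟩
        · exact h.2.2 x hx

lemma uq_pure {κ k n m : ℕ} {G : Fin n → Fin n → Bool} {H : Fin m → Fin m → Bool}
    {P : List (Fin n × Fin m) → Prop} (hP : BGS κ G H P) (u : Fin k → Fin n) (v : Fin k → Fin m)
    (h : P (List.ofFn fun i => (u i, v i))) :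
    UQ P (List.ofFn fun i => (Sum.inl (u i), Sum.inr (v i))) := by
  refine ⟨hP.mono _ _ h fun x hx => ?_, hP.mono _ _ hP.nil fun x hx => ?_, fun x hx => ?_⟩
  · obtain ⟨y, hy, hxy⟩ := List.mem_filterMap.1 hx
    obtain ⟨i, rfl⟩ := List.mem_ofFn.1 hy
    obtain rfl := Option.some.inj hxy
    exact List.mem_ofFn.2 ⟨i, rfl⟩
  · obtain ⟨y, hy, hxy⟩ := List.mem_filterMap.1 hx
    obtain ⟨i, rfl⟩ := List.mem_ofFn.1 hy
    exact absurd hxy (by simp [f2])
  · obtain ⟨i, rfl⟩ := List.mem_ofFn.1 hx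
    exact Or.inl ⟨_, _, rfl⟩

/-- The strategy on the matrix of the union, together with the bijection of pure tuples. -/
lemma pure {κ k n m : ℕ} {G : Fin n → Fin n → Bool} {H : Fin m → Fin m → Bool}
    (h : BG κ G H) (hk : k ≤ κ) :
    ∃ (R : List (Fin (Fintype.card (Fin n ⊕ Fin m)) × Fin (Fintype.card (Fin n ⊕ Fin m))) → Prop)
      (Φ : (Fin k → Fin n) ≃ (Fin k → Fin m)),
      BGS κ (asMatrix (unionAdj G H)) (asMatrix (unionAdj G H)) R ∧
      ∀ u, R (List.ofFn fun i => ((Fintype.equivFin _ ∘ Sum.inl ∘ u) i,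
        (Fintype.equivFin _ ∘ Sum.inr ∘ Φ u) i)) := by
  obtain ⟨P, hP⟩ := h
  obtain ⟨Φ, hΦ⟩ := tupStmt κ k _ _ G H P hP hk
  refine ⟨_, Φ, transport (union hP) (Fintype.equivFin _).symm (Fintype.equivFin _).symm,
    fun u => ?_⟩
  have := uq_pure hP u (Φ u) (hΦ u)
  rw [List.map_ofFn]
  convert this using 2
  funext i
  simp

lemma bg_matrix {κ : ℕ} {V W : Type} [Fintype V] [Fintype W] {G : V → V → Bool}
    {H : W → W → Bool} (h : BG κ G H) : BG κ (asMatrix G) (asMatrix H) := by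
  obtain ⟨P, hP⟩ := h
  exact ⟨_, transport hP (Fintype.equivFin V).symm (Fintype.equivFin W).symm⟩

end PLPure

theorem plPureStmt' : PLPureStmt := by
  intro k V W _ _ G H
  refine ⟨fun h => ?_, fun h => ?_⟩
  · have h' := PLPure.bg_matrix h
    refine ⟨(bgEquivStmt k _ _ _ _).1 h', fun s => ?_⟩
    obtain ⟨R, Φ, hR, hΦ⟩ := PLPure.pure h' (Nat.le_succ k)
    exact Col.map_equiv Φ fun u => Col.joint hR s _ _ (hΦ u)
  · have h' := PLPure.bg_matrix h
    refine ⟨(bgEquivStmt k _ _ _ _).2.1 h', fun s => ?_⟩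
    obtain ⟨R, Φ, hR, hΦ⟩ := PLPure.pure h' (le_refl k)
    exact Col.map_equiv Φ fun u => Col.sep hR s _ _ (hΦ u)

theorem plPureStmt (_hC : ColStmt) (_hT : TupStmt) : PLPureStmt := plPureStmt'

end Crest.Agent.R290
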