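import Crest.Agent.R290.PLDefs

/-!
Row 290: good cliques are seen by the colours (`plSeeStmt`).
-/

set_option autoImplicit false

namespace Crest.Agent.R290

open Finset Crest.WLRefine Crest.WLRefine.ParityLift

namespace PLSee

lemma exists_notin {k : ℕ} {ι : Type} [DecidableEq ι] (hk : 4 ≤ k) (f : Fin k → ι)
    (hf : Function.Injective f) (a b c : ι) : ∃ i, a ≠ f i ∧ b ≠ f i ∧ c ≠ f i := by
  by_contra h
  have h1 : (univ.image f) ⊆ {a, b, c} := by
    intro x hx
    obtain ⟨i, -, rfl⟩ := mem_image.1 hx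
    by_contra hx'
    simp only [mem_insert, mem_singleton, not_or] at hx'
    exact h ⟨i, Ne.symm hx'.1, Ne.symm hx'.2.1, Ne.symm hx'.2.2⟩
  have h2 := card_le_card h1
  rw [card_image_of_injective _ hf, card_univ, Fintype.card_fin] at h2
  have h3 : ({a, b, c} : Finset ι).card ≤ 3 := card_le_three
  omega

lemma cn_eq_countP {n k : ℕ} (X : Fin n → Fin n → Bool) (u : Fin k → Fin n) {i a b c : Fin k}
    (ha : a ≠ i) (hb : b ≠ i) (hc : c ≠ i) :
    cn X (u a) (u b) (u c) =
      Multiset.countP (fun T : (Fin k → Fin k → Bool) × (Fin k → Fin k → Bool) =>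
        T.2 i a = true ∧ T.2 i b = true ∧ T.2 i c = true)
        (univ.val.map fun z => atomicType X (Function.update u i z)) := by
  rw [Multiset.countP_map]
  simp only [atomicType, Function.update_self, Function.update_of_ne ha, Function.update_of_ne hb,
    Function.update_of_ne hc]
  rfl

/-- Same adjacencies and same numbers of common neighbours. -/
def Same {n m k : ℕ} (X : Fin n → Fin n → Bool) (Y : Fin m → Fin m → Bool) (u : Fin k → Fin n)
    (v : Fin k → Fin m) : Prop :=
  (∀ a b, X (u a) (u b) = Y (v a) (v b)) ∧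
    ∀ a b c, cn X (u a) (u b) (u c) = cn Y (v a) (v b) (v c)

variable {n m k : ℕ} {X : Fin n → Fin n → Bool} {Y : Fin m → Fin m → Bool}

lemma same_of_s (hk : 4 ≤ k) {u : Fin k → Fin n} {v : Fin k → Fin m}
    (h : scolor X k 1 u = scolor Y k 1 v) : Same X Y u v := by
  have h1 : atomicType X u = atomicType Y v := congrArg Prod.fst h
  have h2 : ∀ i, (univ.val.map fun z => atomicType X (Function.update u i z)) =
      (univ.val.map fun z => atomicType Y (Function.update v i z)) :=
    fun i => congrFun (congrArg Prod.snd h) i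
  refine ⟨fun a b => congrFun (congrFun (congrArg Prod.snd h1) a) b, fun a b c => ?_⟩
  obtain ⟨i, ha, hb, hc⟩ := exists_notin hk id Function.injective_id a b c
  rw [cn_eq_countP X u ha hb hc, cn_eq_countP Y v ha hb hc, h2]

lemma s_of_j {u : Fin k → Fin n} {v : Fin k → Fin m} (h : jcolor X k 1 u = jcolor Y k 1 v) :
    scolor X k 1 u = scolor Y k 1 v := by
  have h1 : atomicType X u = atomicType Y v := congrArg (fun c : JColor k 1 => c.1) h
  refine Prod.ext h1 (funext fun i => ?_)
  have h2 := congrArg (fun c : JColor k 1 => c.2.map fun w => w i) h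
  simp only [jcolor, Multiset.map_map] at h2
  exact h2

lemma good_of_same {u : Fin k → Fin n} {v : Fin k → Fin m} (h : Same X Y u v)
    (hu : GoodClique X u) : GoodClique Y v :=
  ⟨fun a b hab => by rw [← h.1]; exact hu.1 a b hab,
    fun a b d h1 h2 h3 => by rw [← h.2]; exact hu.2 a b d h1 h2 h3⟩

lemma good_of_j (hk : 4 ≤ k) {c : Fin (k + 1) → Fin n} {v : Fin k → Fin m}
    (h : jcolor X k 2 (fun i => c i.castSucc) = jcolor Y k 2 v) (hc : GoodClique X c) :
    ∃ z, GoodClique Y (Fin.snoc (α := fun _ => Fin m) v z) := by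
  have h2 : (univ.val.map fun z => fun i =>
        jcolor X k 1 (Function.update (fun i => c i.castSucc) i z)) =
      (univ.val.map fun z => fun i => jcolor Y k 1 (Function.update v i z)) :=
    congrArg Prod.snd h
  have h3 : (fun i => jcolor X k 1 (Function.update (fun i => c i.castSucc) i (c (Fin.last k)))) ∈
      (univ.val.map fun z => fun i => jcolor Y k 1 (Function.update v i z)) := by
    rw [← h2]; exact Multiset.mem_map.2 ⟨c (Fin.last k), mem_univ (c (Fin.last k)), rfl⟩
  obtain ⟨z, -, hz⟩ := Multiset.mem_map.1 h3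
  have key : ∀ a b d : Fin (k + 1),
      X (c a) (c b) = Y (Fin.snoc (α := fun _ => Fin m) v z a) (Fin.snoc (α := fun _ => Fin m) v z b) ∧
      cn X (c a) (c b) (c d) = cn Y (Fin.snoc (α := fun _ => Fin m) v z a)
        (Fin.snoc (α := fun _ => Fin m) v z b) (Fin.snoc (α := fun _ => Fin m) v z d) := by
    intro a b d
    obtain ⟨i, ha, hb, hd⟩ := exists_notin hk Fin.castSucc (Fin.castSucc_injective k) a b d
    have hs := same_of_s hk (s_of_j (congrFun hz i).symm)
    have hρ : ∀ a : Fin (k + 1), a ≠ i.castSucc → ∃ r : Fin k,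
        Function.update (fun i => c i.castSucc) i (c (Fin.last k)) r = c a ∧
        Function.update v i z r = Fin.snoc (α := fun _ => Fin m) v z a := by
      intro a ha
      induction a using Fin.lastCases with
      | last => exact ⟨i, by simp, by simp⟩
      | cast a =>
        have : a ≠ i := fun e => ha (e ▸ rfl)
        exact ⟨a, by simp [Function.update_of_ne this], by simp [Function.update_of_ne this]⟩
    obtain ⟨ra, a1, a2⟩ := hρ a ha
    obtain ⟨rb, b1, b2⟩ := hρ b hb
    obtain ⟨rd, d1, d2⟩ := hρ d hd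
    rw [← a1, ← a2, ← b1, ← b2, ← d1, ← d2]
    exact ⟨hs.1 _ _, hs.2 _ _ _⟩
  exact ⟨z, fun a b hab => by rw [← (key a b a).1]; exact hc.1 a b hab,
    fun a b d h1 h2 h3 => by rw [← (key a b d).2]; exact hc.2 a b d h1 h2 h3⟩

/-- An embedding onto a union of components. -/
structure Emb {V U : Type} (G : V → V → Bool) (X : U → U → Bool) (f : V → U) : Prop where
  inj : Function.Injective f
  adj : ∀ a b, X (f a) (f b) = G a b
  cl : ∀ z a, X z (f a) = true → ∃ b, f b = z

section Emb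

variable {V U : Type} [Fintype V] [Fintype U] {G : V → V → Bool} {Z : U → U → Bool} {f : V → U}

lemma Emb.cn_eq (h : Emb G Z f) (a b c : V) : cn Z (f a) (f b) (f c) = cn G a b c := by
  unfold cn
  symm
  refine card_bij (fun z _ => f z) (fun z hz => ?_) (fun z _ z' _ e => h.inj e) fun z hz => ?_
  · simpa only [mem_filter, mem_univ, true_and, h.adj] using hz
  · obtain ⟨w, rfl⟩ := h.cl z a (mem_filter.1 hz).2.1
    exact ⟨w, by simpa only [mem_filter, mem_univ, true_and, h.adj] using hz, rfl⟩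

lemma Emb.good_iff (h : Emb G Z f) {t : ℕ} (c : Fin t → V) :
    GoodClique Z (f ∘ c) ↔ GoodClique G c := by
  simp only [GoodClique, Function.comp, h.adj, h.cn_eq]

lemma Emb.pull (h : Emb G Z f) {t : ℕ} {y : Fin t → U} (hy : GoodClique Z y) (a : Fin t) (w : V)
    (hw : y a = f w) : ∃ c : Fin t → V, GoodClique G c := by
  have : ∀ b, ∃ x, f x = y b := fun b => by
    by_cases e : b = a
    · exact ⟨w, by rw [e, hw]⟩
    · exact h.cl _ w (hw ▸ hy.1 b a e)
  choose c hc using this
  refine ⟨c, (h.good_iff c).1 ?_⟩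
  rwa [show f ∘ c = y from funext hc]

omit [Fintype V] [Fintype U] in
lemma Emb.comp {T : Type} {Z' : T → T → Bool} {g : U → T} (h : Emb G Z f) (h' : Emb Z Z' g) :
    Emb G Z' (g ∘ f) := by
  refine ⟨h'.inj.comp h.inj, fun a b => (h'.adj _ _).trans (h.adj a b), fun z a hz => ?_⟩
  obtain ⟨u, rfl⟩ := h'.cl z _ hz
  obtain ⟨b, rfl⟩ := h.cl u a ((h'.adj _ _).symm.trans hz)
  exact ⟨b, rfl⟩

omit [Fintype U] in
lemma emb_asMatrix (G : V → V → Bool) : Emb G (asMatrix G) (Fintype.equivFin V) :=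
  ⟨(Fintype.equivFin V).injective, fun a b => by simp [asMatrix],
    fun z _ _ => (Fintype.equivFin V).surjective z⟩

end Emb

lemma emb_refl {U : Type} (Z : U → U → Bool) : Emb Z Z id :=
  ⟨Function.injective_id, fun _ _ => rfl, fun z _ _ => ⟨z, rfl⟩⟩

lemma emb_inl (X : Fin n → Fin n → Bool) (Y : Fin m → Fin m → Bool) :
    Emb X (asMatrix (unionAdj X Y)) (Fintype.equivFin _ ∘ Sum.inl) := by
  refine Emb.comp ⟨Sum.inl_injective, fun _ _ => rfl, fun z a hz => ?_⟩ (emb_asMatrix _)
  cases z with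
  | inl b => exact ⟨b, rfl⟩
  | inr b => simp [unionAdj] at hz

lemma emb_inr (X : Fin n → Fin n → Bool) (Y : Fin m → Fin m → Bool) :
    Emb Y (asMatrix (unionAdj X Y)) (Fintype.equivFin _ ∘ Sum.inr) := by
  refine Emb.comp ⟨Sum.inr_injective, fun _ _ => rfl, fun z a hz => ?_⟩ (emb_asMatrix _)
  cases z with
  | inr b => exact ⟨b, rfl⟩
  | inl b => simp [unionAdj] at hz

section main

variable {n' m' : ℕ} {X' : Fin n' → Fin n' → Bool} {Y' : Fin m' → Fin m' → Bool}
  {f : Fin n → Fin n'} {g : Fin m → Fin m'}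

lemma mainJ (hk : 4 ≤ k) (hf : Emb X X' f) (hg : Emb Y Y' g)
    (h : (univ.val.map fun v : Fin k → Fin n => jcolor X' k 2 (f ∘ v)) =
      univ.val.map fun v : Fin k → Fin m => jcolor Y' k 2 (g ∘ v))
    {c : Fin (k + 1) → Fin n} (hc : GoodClique X c) : ∃ d : Fin (k + 1) → Fin m, GoodClique Y d := by
  have h1 : jcolor X' k 2 (f ∘ fun i => c i.castSucc) ∈
      univ.val.map fun v : Fin k → Fin m => jcolor Y' k 2 (g ∘ v) := by
    rw [← h]; exact Multiset.mem_map.2 ⟨_, mem_univ _, rfl⟩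
  obtain ⟨v, -, hv⟩ := Multiset.mem_map.1 h1
  obtain ⟨z, hz⟩ := good_of_j hk (c := f ∘ c) hv.symm ((hf.good_iff c).2 hc)
  exact hg.pull hz (Fin.castSucc ⟨0, by omega⟩) (v ⟨0, by omega⟩)
    (by rw [Fin.snoc_castSucc]; rfl)

lemma mainS (hk : 4 ≤ k) (hf : Emb X X' f) (hg : Emb Y Y' g)
    (h : (univ.val.map fun v : Fin k → Fin n => scolor X' k 1 (f ∘ v)) =
      univ.val.map fun v : Fin k → Fin m => scolor Y' k 1 (g ∘ v))
    {c : Fin k → Fin n} (hc : GoodClique X c) : ∃ d : Fin k → Fin m, GoodClique Y d := by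
  have h1 : scolor X' k 1 (f ∘ c) ∈ univ.val.map fun v : Fin k → Fin m => scolor Y' k 1 (g ∘ v) := by
    rw [← h]; exact Multiset.mem_map.2 ⟨_, mem_univ _, rfl⟩
  obtain ⟨v, -, hv⟩ := Multiset.mem_map.1 h1
  exact ⟨v, (hg.good_iff v).1 (good_of_same (same_of_s hk hv.symm) ((hf.good_iff c).2 hc))⟩

end main

lemma pull_asMatrix {W : Type} [Fintype W] {H : W → W → Bool} {t : ℕ} (ht : 0 < t)
    (h : ∃ d : Fin t → Fin (Fintype.card W), GoodClique (asMatrix H) d) :
    ∃ c : Fin t → W, GoodClique H c := by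
  obtain ⟨d, hd⟩ := h
  exact (emb_asMatrix H).pull hd ⟨0, ht⟩ ((Fintype.equivFin W).symm (d ⟨0, ht⟩)) (by simp)

end PLSee

open PLSee in
theorem plSeeStmt : PLSeeStmt := by
  intro k V W _ _ G H hk
  refine ⟨?_, ?_⟩
  · rintro ⟨c, hc⟩ hH
    have hc' := ((emb_asMatrix G).good_iff c).2 hc
    refine ⟨fun h => ?_, fun h => ?_⟩
    · obtain ⟨d, hd⟩ := pull_asMatrix (by omega) (mainJ hk (emb_refl _) (emb_refl _) h hc')
      exact hH d hd
    · obtain ⟨d, hd⟩ := pull_asMatrix (by omega) (mainJ hk (emb_inl _ _) (emb_inr _ _) h hc')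
      exact hH d hd
  · rintro ⟨c, hc⟩ hH
    have hc' := ((emb_asMatrix G).good_iff c).2 hc
    refine ⟨fun h => ?_, fun h => ?_⟩
    · obtain ⟨d, hd⟩ := pull_asMatrix (by omega) (mainS hk (emb_refl _) (emb_refl _) h hc')
      exact hH d hd
    · obtain ⟨d, hd⟩ := pull_asMatrix (by omega) (mainS hk (emb_inl _ _) (emb_inr _ _) h hc')
      exact hH d hd

end Crest.Agent.R290
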