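import Crest.Agent.R290.Defs

/-! Row 290: tools for partition refinement algorithms (shared by the joint and the colour
refinement algorithm): stabilisation, histograms, tables of relations in polynomial time. -/

set_option autoImplicit false

namespace Crest.Agent.R290.Refine

open Crest.Agent.PT Finset

/-! ### Combinatorics -/

/-- A decreasing deterministic sequence of predicates is stable after `card β` rounds. -/
theorem stable {β : Type} [Fintype β] (E : ℕ → β → Prop) (h1 : ∀ s x, E (s + 1) x → E s x)
    (h2 : ∀ s t, E s = E t → E (s + 1) = E (t + 1)) {s t : ℕ} (hs : Fintype.card β ≤ s)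
    (ht : Fintype.card β ≤ t) : E s = E t := by
  classical
  have key : ∀ s, (∃ t ≤ s, E (t + 1) = E t) ∨
      (univ.filter (E (s + 1))).card + (s + 1) ≤ Fintype.card β := by
    have dec : ∀ s, E (s + 1) ≠ E s → (univ.filter (E (s + 1))).card < (univ.filter (E s)).card := by
      intro s hne
      refine card_lt_card ⟨fun x hx => ?_, fun hsub => hne (funext fun x => propext
        ⟨h1 s x, fun hx => ?_⟩)⟩
      · simp only [mem_filter, mem_univ, true_and] at hx ⊢; exact h1 s x hx
      · simpa using hsub (mem_filter.2 ⟨mem_univ x, hx⟩)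
    intro s
    induction s with
    | zero =>
      by_cases h : E 1 = E 0
      · exact Or.inl ⟨0, le_rfl, h⟩
      · have := dec 0 h
        have h3 := card_le_univ (univ.filter (E 0))
        right; omega
    | succ s ih =>
      rcases ih with ⟨t, ht, h⟩ | ih
      · exact Or.inl ⟨t, by omega, h⟩
      · by_cases h : E (s + 1 + 1) = E (s + 1)
        · exact Or.inl ⟨s + 1, le_rfl, h⟩
        · have := dec (s + 1) h
          right; omega
  obtain ⟨t0, ht0, h⟩ := (key (Fintype.card β)).resolve_right (by omega)
  have all : ∀ u, E (t0 + u) = E t0 := by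
    intro u
    induction u with
    | zero => rfl
    | succ u ih => exact (h2 _ _ ih).trans h
  have e1 := all (s - t0)
  have e2 := all (t - t0)
  rw [Nat.add_sub_cancel' (by omega)] at e1 e2
  exact e1.trans e2.symm

open Classical in
/-- Histograms over sets of the same size agree iff the counts of the values of the first agree. -/
theorem map_eq_iff {X Y C : Type} (A : Finset X) (B : Finset Y) (hc : A.card = B.card)
    (f : X → C) (g : Y → C) : A.val.map f = B.val.map g ↔
      ∀ x ∈ A, (A.filter fun x' => f x = f x').card = (B.filter fun y => f x = g y).card := by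
  have c1 : ∀ c, Multiset.count c (A.val.map f) = (A.filter fun x' => c = f x').card :=
    fun c => Multiset.count_map f A.val c
  have c2 : ∀ c, Multiset.count c (B.val.map g) = (B.filter fun y => c = g y).card :=
    fun c => Multiset.count_map g B.val c
  refine ⟨fun h x _ => by rw [← c1, ← c2, h], fun h => ?_⟩
  refine Multiset.eq_of_le_of_card_le (Multiset.le_iff_count.2 fun c => ?_) (by simp [hc])
  by_cases hm : c ∈ A.val.map f
  · obtain ⟨x, hx, rfl⟩ := Multiset.mem_map.1 hm
    rw [c1, c2, h x hx]
  · rw [Multiset.count_eq_zero_of_notMem hm]; exact Nat.zero_le _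

open Classical in
/-- The number of `i < n` with `P i`. -/
noncomputable def cnt (n : ℕ) (P : ℕ → Prop) : ℕ := ∑ i ∈ range n, if P i then 1 else 0

open Classical in
theorem cnt_equiv {X : Type} [Fintype X] {n : ℕ} (e : X ≃ Fin n) {P : ℕ → Prop} {Q : X → Prop}
    (h : ∀ x, P (e x) ↔ Q x) : cnt n P = (univ.filter Q).card := by
  rw [cnt, card_filter, sum_range]
  exact (Fintype.sum_equiv e _ _ fun x => by simp only [h]).symm

open Classical in
theorem cnt_fin {n : ℕ} {P : ℕ → Prop} {Q : Fin n → Prop} (h : ∀ x : Fin n, P x ↔ Q x) :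
    cnt n P = (univ.filter Q).card := cnt_equiv (Equiv.refl _) h

theorem cnt_congr {n : ℕ} {P Q : ℕ → Prop} (h : ∀ i < n, P i ↔ Q i) : cnt n P = cnt n Q :=
  sum_congr rfl fun i hi => by rw [propext (h i (mem_range.1 hi))]

/-! ### Tables -/

open Classical in
/-- The table of a relation on `{0, …, M - 1}`. -/
noncomputable def table (M : ℕ) (r : ℕ → ℕ → Prop) : Word :=
  (List.range (M * M)).map fun c => decide (r (c / M) (c % M))

/-- Reading a table. -/
def look (M : ℕ) (T : Word) (a b : ℕ) : Prop := T.getD (a * M + b) false = true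

theorem look_table {M a b : ℕ} (ha : a < M) (hb : b < M) (r : ℕ → ℕ → Prop) :
    look M (table M r) a b ↔ r a b := by
  have h1 : a * M + b < M * M := by nlinarith
  have h2 : (a * M + b) / M = a := by
    rw [Nat.add_comm, Nat.add_mul_div_right _ _ (by omega), Nat.div_eq_of_lt hb, zero_add]
  have h3 : (a * M + b) % M = b := by
    rw [Nat.add_comm, Nat.add_mul_mod_self_right, Nat.mod_eq_of_lt hb]
  simp [look, table, List.getD, h1, h2, h3]

/-- The tables of an iteratively defined relation. -/
noncomputable def tabs (M : ℕ) (base : ℕ → ℕ → Prop) (step : Word → ℕ → ℕ → Prop) : ℕ → Word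
  | 0 => table M base
  | s + 1 => table M (step (tabs M base step s))

/-! ### Polynomial time -/

section
variable {α : Type} [Rp α]

@[fun_prop] theorem pt_getD {f : α → Word} {n : α → ℕ} (hf : PTime f) (hn : PTime n) :
    PTime fun a => (f a).getD (n a) false := by
  refine (PTime.headI (PTime.drop (PU.min_right hn (PU.length hf)) hf)).congr fun a => ?_
  rcases Nat.lt_or_ge (n a) (f a).length with h | h
  · rw [min_eq_left h.le, List.drop_eq_getElem_cons h, List.headI_cons]
    simp [List.getD, h]
  · rw [min_eq_right h]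
    simp [List.getD, h]

@[fun_prop] theorem pt_look {M a b : α → ℕ} {T : α → Word} (hM : PTime M) (hT : PTime T)
    (ha : PTime a) (hb : PTime b) : PTime fun x => look (M x) (T x) (a x) (b x) := by
  unfold look; fun_prop

@[fun_prop] theorem pt_iff {c d : α → Prop} (hc : PTime c) (hd : PTime d) :
    PTime fun a => (c a ↔ d a) := by
  classical
  exact (hc.decide.beq hd.decide).congr fun a => by simp

@[fun_prop] theorem pt_imp {c d : α → Prop} (hc : PTime c) (hd : PTime d) :
    PTime fun a => (c a → d a) :=
  (hc.not.or hd).congr fun a => by simp only [eq_iff_iff]; tauto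

theorem pt_cnt {n : α → ℕ} {P : α → ℕ → Prop} (hn : PU n)
    (hP : PTime fun p : α × Un => P p.1 p.2.val) : PTime fun a => cnt (n a) (P a) := by
  classical
  exact PTime.sum_range (g := fun a i => if P a i then 1 else 0) hn
    (PTime.ite hP (PTime.const 1) (PTime.const 0))

theorem pt_forall {n : α → ℕ} {P : α → ℕ → Prop} (hn : PU n)
    (hP : PTime fun p : α × Un => P p.1 p.2.val) : PTime fun a => ∀ i < n a, P a i := by
  refine (PTime.eq (pt_cnt (P := fun a i => ¬ P a i) hn hP.not) (PTime.const 0)).congr fun a => ?_
  simp [cnt, sum_eq_zero_iff]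

theorem pt_exists {n : α → ℕ} {P : α → ℕ → Prop} (hn : PU n)
    (hP : PTime fun p : α × Un => P p.1 p.2.val) : PTime fun a => ∃ i < n a, P a i := by
  refine (pt_forall (P := fun a i => ¬ P a i) hn hP.not).not.congr fun a => ?_
  simp

theorem pt_mapRange {n : α → ℕ} {g : α → ℕ → Bool} (hn : PU n)
    (hg : PTime fun p : α × Un => g p.1 p.2.val) :
    PTime fun a => (List.range (n a)).map (g a) := by
  refine (PTime.flatRange (g := fun a i => [g a i]) hn (hg.cons (PTime.const []))).congr
    fun a => ?_
  induction List.range (n a) with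
  | nil => rfl
  | cons x l ih => simp [ih]

theorem pt_table {M : α → ℕ} {r : α → ℕ → ℕ → Prop} (hM : PU M)
    (hr : PTime fun p : α × ℕ × ℕ => r p.1 p.2.1 p.2.2) : PTime fun a => table (M a) (r a) := by
  classical
  refine pt_mapRange (g := fun a c => decide (r a (c / M a) (c % M a))) (hM.mul hM)
    (PTime.decide ?_)
  have := hM.ptime
  exact hr.comp (f := fun p : α × Un => (p.1, p.2.val / M p.1, p.2.val % M p.1)) (by fun_prop)

theorem pt_tabs {M s : α → ℕ} {base : α → ℕ → ℕ → Prop} {step : α → Word → ℕ → ℕ → Prop}
    (hM : PU M) (hs : PU s) (hb : PTime fun p : α × ℕ × ℕ => base p.1 p.2.1 p.2.2)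
    (hstep : PTime fun p : (α × Word) × ℕ × ℕ => step p.1.1 p.1.2 p.2.1 p.2.2) :
    PTime fun a => tabs (M a) (base a) (step a) (s a) := by
  refine PTime.loop (fun a k => tabs (M a) (base a) (step a) k)
    (fun a T _ => table (M a) (step a T)) hs (pt_table hM hb) ?_ (fun _ _ _ => rfl)
    (hM.pb.mul hM.pb) (fun a k _ => ?_)
  · exact (pt_table (α := α × Word) (M := fun p => M p.1) (r := fun p => step p.1 p.2)
      (hM.comp PTime.fst') hstep).comp (f := fun p : α × Word × Un => (p.1, p.2.1)) (by fun_prop)
  · cases k <;> simp [tabs, table]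

end

end Crest.Agent.R290.Refine
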