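import Crest.Agent.R290.DefsL

/-! Row 290: the reduction inside the virtual system. -/

set_option autoImplicit false

namespace Crest.Agent.R290

open Finset

namespace Virt

theorem sg_ne {V : Type} {v w : V} (h : sg w v ≠ 0) : v = w := by
  by_contra e
  exact h (Finsupp.single_eq_of_ne e)

theorem add_ne {V : Type} {f g : Fm V} {v : V} (h : (f + g) v ≠ 0) : f v ≠ 0 ∨ g v ≠ 0 := by
  by_contra e
  rw [not_or, not_not, not_not] at e
  exact h (by rw [Finsupp.add_apply, e.1, e.2, add_zero])

theorem add_self {V : Type} (f : Fm V) : f + f = 0 := by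
  ext v
  rw [Finsupp.add_apply]
  exact CharTwo.add_self_eq_zero _

section
variable {Γ X : Type} {b : ℕ} {rd : Γ → Bool → ℕ → X} {out : Γ → X}

theorem gsum_ne {U : Fm (Γ × ℕ)} {v : X ⊕ Γ × ℕ} (h : gsum b rd out U v ≠ 0) :
    ∃ p, U p ≠ 0 ∧ geq b rd out p v ≠ 0 := by
  rw [gsum, sub, Finsupp.linearCombination_apply, Finsupp.sum, Finsupp.finsetSum_apply] at h
  obtain ⟨p, hp, h⟩ := exists_ne_zero_of_sum_ne_zero h
  refine ⟨p, Finsupp.mem_support_iff.1 hp, fun e => h ?_⟩
  rw [Finsupp.smul_apply, e, smul_zero]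

theorem geq_ne {p : Γ × ℕ} {v : X ⊕ Γ × ℕ} (h : geq b rd out p v ≠ 0) :
    v = Sum.inr (p.1, p.2) ∨ v = Sum.inl (pend b rd out p.1 p.2) ∨ v = Sum.inr (p.1, p.2 + 1) := by
  rcases add_ne h with h | h
  · rcases add_ne h with h | h
    · split_ifs at h
      · exact absurd rfl h
      · exact Or.inl (sg_ne h)
    · exact Or.inr (Or.inl (sg_ne h))
  · split_ifs at h
    · exact absurd rfl h
    · exact Or.inr (Or.inr (sg_ne h))

end

variable (R : RS)

/-- premise `s` of the gadget `γ` is true -/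
def Pm (γ : VG) (s : Bool) : Prop := R.Tr (R.pr γ.1 s) (γ.2.2 + R.sh γ.1 s)

/-- true positions -/
def TP (p : VG × ℕ) : Prop :=
  (Pm R p.1 false ∧ Pm R p.1 true) ∨ (Pm R p.1 false ∧ p.2 < 2 * (R.b * R.b)) ∨
    (Pm R p.1 true ∧ 2 * (R.b * R.b) < p.2)

variable {R}

theorem pside_le {b u : ℕ} (h : u ≤ 2 * (b * b)) : pside b u = false := by simp [pside, h]

theorem pside_gt {b u : ℕ} (h : 2 * (b * b) < u) : pside b u = true := by simp [pside, h]

theorem vtrue_edge {γ : VG} {u : ℕ} :
    R.VTrue (Sum.inr (γ, u)) ↔ R.act γ.1 ∧ Pm R γ (pside R.b u) := Iff.rfl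

theorem vtrue_read {γ : VG} {u : ℕ} (h : u ≠ 2 * (R.b * R.b)) :
    R.VTrue (Sum.inl (pend R.b R.vrd R.vout γ u)) ↔ Pm R γ (pside R.b u) := by
  rw [pend, if_neg h]; rfl

theorem true_of_tp {p : VG × ℕ} (ha : R.act p.1.1) (h : TP R p) {v : VV}
    (hv : geq R.b R.vrd R.vout p v ≠ 0) : R.VTrue v := by
  obtain ⟨γ, u⟩ := p
  have h1 : Pm R γ (pside R.b u) ∧ Pm R γ (pside R.b (u + 1)) := by
    rcases h with h | h | h
    · constructor
      · cases pside R.b u
        · exact h.1
        · exact h.2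
      · cases pside R.b (u + 1)
        · exact h.1
        · exact h.2
    · rw [pside_le h.2.le, pside_le h.2]
      exact ⟨h.1, h.1⟩
    · rw [pside_gt h.2, pside_gt (Nat.lt_succ_of_lt h.2)]
      exact ⟨h.1, h.1⟩
  rcases geq_ne hv with rfl | rfl | rfl
  · exact ⟨ha, h1.1⟩
  · by_cases e : u = 2 * (R.b * R.b)
    · subst e
      rw [pside_le le_rfl, pside_gt (Nat.lt_succ_self _)] at h1
      rw [pend, if_pos rfl]
      exact Horn.Tr.rule ha h1.1 h1.2
    · exact (vtrue_read e).2 h1.1
  · exact ⟨ha, h1.2⟩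

open Classical in
/-- the only edge of a false position that can be true -/
noncomputable def edg (R : RS) (γ : VG) : VV :=
  Sum.inr (γ, if Pm R γ false then 2 * (R.b * R.b) else 2 * (R.b * R.b) + 1)

theorem of_not_tp {p : VG × ℕ} (h : ¬ TP R p) {v : VV}
    (hv : geq R.b R.vrd R.vout p v ≠ 0) (ht : R.VTrue v) :
    v = Sum.inl (R.vout p.1) ∨ v = edg R p.1 := by
  obtain ⟨γ, u⟩ := p
  simp only [TP, not_or, not_and, not_lt] at h
  obtain ⟨h1, h2, h3⟩ := h
  rcases geq_ne hv with rfl | rfl | rfl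
  · right
    have h4 := (vtrue_edge.1 ht).2
    rcases le_or_gt u (2 * (R.b * R.b)) with e | e
    · rw [pside_le e] at h4
      rw [edg, if_pos h4, le_antisymm e (h2 h4)]
    · rw [pside_gt e] at h4
      exact absurd (h3 h4) (by omega)
  · left
    by_cases e : u = 2 * (R.b * R.b)
    · rw [pend, if_pos e]
    · exfalso
      have h4 := (vtrue_read e).1 ht
      rcases le_or_gt u (2 * (R.b * R.b)) with e' | e'
      · rw [pside_le e'] at h4
        exact e (le_antisymm e' (h2 h4))
      · rw [pside_gt e'] at h4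
        exact absurd (h3 h4) (by omega)
  · right
    have h4 := (vtrue_edge.1 ht).2
    rcases le_or_gt (u + 1) (2 * (R.b * R.b)) with e | e
    · rw [pside_le e] at h4
      exact absurd (h2 h4) (by omega)
    · rw [pside_gt e] at h4
      have h5 := h3 h4
      rw [edg, if_neg fun h6 => h1 h6 h4, show u = 2 * (R.b * R.b) by omega]

/-- a false position lies in an interval of false edges -/
theorem exists_interval {γ : VG} {u : ℕ} (h : ¬ TP R (γ, u)) (hu : u ≤ 4 * (R.b * R.b)) :
    ∃ lo hi, lo ≤ u ∧ u ≤ hi ∧ hi ≤ 4 * (R.b * R.b) ∧ 2 * (R.b * R.b) ≤ hi - lo ∧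
      ∀ u', lo < u' → u' ≤ hi → ¬ R.VTrue (Sum.inr (γ, u')) := by
  simp only [TP, not_or, not_and, not_lt] at h
  obtain ⟨h1, h2, h3⟩ := h
  by_cases ha : Pm R γ false
  · refine ⟨2 * (R.b * R.b), 4 * (R.b * R.b), h2 ha, hu, le_rfl, by omega, fun u' e _ ht => ?_⟩
    have h4 := (vtrue_edge.1 ht).2
    rw [pside_gt e] at h4
    exact h1 ha h4
  by_cases hb : Pm R γ true
  · refine ⟨0, 2 * (R.b * R.b), Nat.zero_le _, h3 hb, by omega, by omega, fun u' _ e ht => ?_⟩
    have h4 := (vtrue_edge.1 ht).2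
    rw [pside_le e] at h4
    exact ha h4
  · refine ⟨0, 4 * (R.b * R.b), Nat.zero_le _, hu, le_rfl, by omega, fun u' _ _ ht => ?_⟩
    have h4 := (vtrue_edge.1 ht).2
    revert h4
    cases pside R.b u'
    · exact ha
    · exact hb

end Virt

open Virt in
theorem virtStmt_of (hB : BdryStmt) : VirtStmt := by
  classical
  intro R Bd ρ κ T J U hR hG hT hU hc hκ
  set SJ : Fm VV := ∑ l ∈ J, sg (Sum.inl (0, l, (0, 0))) with hSJ
  set N := T + SJ + gsum R.b R.vrd R.vout U with hN
  set U' := U.filter (TP R) with hU'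
  set UF := U.filter fun p => ¬ TP R p with hUF
  have hsplit : gsum R.b R.vrd R.vout U =
      gsum R.b R.vrd R.vout U' + gsum R.b R.vrd R.vout UF := by
    rw [gsum, gsum, gsum, ← map_add, hU', hUF, Finsupp.filter_add_filter_not]
  have hU'ne : ∀ p, U' p ≠ 0 → U p ≠ 0 ∧ TP R p := fun p hp => by
    rw [hU', Finsupp.filter_apply] at hp
    split_ifs at hp with e
    · exact ⟨hp, e⟩
    · exact absurd rfl hp
  have hUFne : ∀ p, UF p ≠ 0 → U p ≠ 0 ∧ ¬ TP R p := fun p hp => by
    rw [hUF, Finsupp.filter_apply] at hp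
    split_ifs at hp with e
    · exact absurd rfl hp
    · exact ⟨hp, e⟩
  have hJ : ∀ v, SJ v ≠ 0 → ∃ l, v = Sum.inl (0, l, (0, 0)) := fun v hv => by
    rw [hSJ, Finsupp.finsetSum_apply] at hv
    obtain ⟨l, _, h⟩ := exists_ne_zero_of_sum_ne_zero hv
    exact ⟨l, sg_ne h⟩
  have hJf : ∀ l, ¬ R.VTrue (Sum.inl (0, l, (0, 0))) := fun _ => hG
  have htrue' : ∀ v, gsum R.b R.vrd R.vout U' v ≠ 0 → R.VTrue v := fun v hv => by
    obtain ⟨p, hp, h⟩ := gsum_ne hv
    exact true_of_tp (hU p (hU'ne p hp).1).1.1 (hU'ne p hp).2 h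
  have htrue : ∀ v, (T + gsum R.b R.vrd R.vout U') v ≠ 0 → R.VTrue v := fun v hv =>
    (add_ne hv).elim (hT v) (htrue' v)
  have hused : (UF.support.image Prod.fst).card ≤ κ := by
    refine le_trans (card_le_card (t := N.support.image
      (Sum.elim (fun x : VX => (x : VG)) Prod.fst)) ?_) (card_image_le.trans hκ)
    intro γ hγ
    obtain ⟨⟨γ', u⟩, hp, rfl⟩ := mem_image.1 hγ
    obtain ⟨h1, h2⟩ := hUFne _ (Finsupp.mem_support_iff.1 hp)
    obtain ⟨lo, hi, e1, e2, e3, e4, e5⟩ := exists_interval h2 (hU _ h1).2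
    have hb : R.b ≤ R.b * R.b := Nat.le_mul_self _
    obtain ⟨u', f1, f2, f3⟩ := (hB _ _ R.b R.vrd R.vout R.VGd U hU).2 γ' lo hi u e1 e2 e3 h1
      (by have := hc γ'; omega)
    refine mem_image.2 ⟨Sum.inr (γ', u'), Finsupp.mem_support_iff.2 ?_, rfl⟩
    have g1 : T (Sum.inr (γ', u')) = 0 := by
      by_contra e
      exact e5 u' f1 f2 (hT _ e)
    have g2 : SJ (Sum.inr (γ', u')) = 0 := by
      by_contra e
      obtain ⟨l, e⟩ := hJ _ e
      cases e
    rwa [hN, Finsupp.add_apply, Finsupp.add_apply, g1, g2, zero_add, zero_add]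
  refine ⟨?_, U', ?_, htrue, ?_⟩
  · have hinj : Function.Injective fun l : ℕ => (Sum.inl (0, l, (0, 0)) : VV) := fun l l' e => by
      simpa using e
    rw [← card_image_of_injective J hinj]
    refine le_trans (card_le_card (t := N.support ∪
      (UF.support.image Prod.fst).image fun γ => Sum.inl (R.vout γ)) ?_) ?_
    · intro v hv
      obtain ⟨l, hl, rfl⟩ := mem_image.1 hv
      by_cases e : N (Sum.inl (0, l, (0, 0))) = 0
      · refine mem_union_right _ ?_
        have g1 : T (Sum.inl (0, l, (0, 0))) = 0 := by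
          by_contra e
          exact hJf l (hT _ e)
        have g2 : gsum R.b R.vrd R.vout U' (Sum.inl (0, l, (0, 0))) = 0 := by
          by_contra e
          exact hJf l (htrue' _ e)
        have g3 : SJ (Sum.inl (0, l, (0, 0))) = 1 := by
          rw [hSJ, Finsupp.finsetSum_apply, sum_eq_single l]
          · exact Finsupp.single_eq_same
          · intro l' _ hl'
            exact Finsupp.single_eq_of_ne fun e => hl' (hinj e).symm
          · intro h; exact absurd hl h
        rw [hN, hsplit, Finsupp.add_apply, Finsupp.add_apply, Finsupp.add_apply, g1, g2, g3,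
          zero_add, zero_add] at e
        obtain ⟨p, hp, h⟩ := gsum_ne (b := R.b) (rd := R.vrd) (out := R.vout) (U := UF)
          (v := Sum.inl (0, l, (0, 0)))
          (fun e' => by rw [e', add_zero] at e; exact one_ne_zero e)
        refine mem_image.2 ⟨p.1, mem_image_of_mem _ (Finsupp.mem_support_iff.2 hp), ?_⟩
        rcases geq_ne h with h | h | h
        · cases h
        · rw [pend] at h
          split_ifs at h
          · exact h.symm
          · exact absurd (congrArg Prod.fst (Sum.inl.inj h)).symm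
              (hR.pr _ _ (hU p (hUFne p hp).1).1.1)
        · cases h
      · exact mem_union_left _ (Finsupp.mem_support_iff.2 e)
    · refine (card_union_le _ _).trans ?_
      have := card_image_le (s := UF.support.image Prod.fst)
        (f := fun γ => (Sum.inl (R.vout γ) : VV))
      omega
  · intro p hp
    exact Finsupp.mem_support_iff.2 (hU'ne p (Finsupp.mem_support_iff.1 hp)).1
  · have heq : T + gsum R.b R.vrd R.vout U' = N + SJ + gsum R.b R.vrd R.vout UF := by
      rw [hN, hsplit]
      calc T + gsum R.b R.vrd R.vout U' = T + gsum R.b R.vrd R.vout U' + (SJ + SJ) +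
            (gsum R.b R.vrd R.vout UF + gsum R.b R.vrd R.vout UF) := by
            rw [add_self, add_self, add_zero, add_zero]
        _ = _ := by abel
    refine le_trans (card_le_card (t := N.support ∪
      ((UF.support.image Prod.fst).image fun γ => Sum.inl (R.vout γ)) ∪
      (UF.support.image Prod.fst).image (edg R)) ?_) ?_
    · intro v hv
      have h1 := Finsupp.mem_support_iff.1 hv
      have h2 := htrue v h1
      rw [heq] at h1
      rcases add_ne h1 with h1 | h1
      · rcases add_ne h1 with h1 | h1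
        · exact mem_union_left _ (mem_union_left _ (Finsupp.mem_support_iff.2 h1))
        · obtain ⟨l, rfl⟩ := hJ v h1
          exact absurd h2 (hJf l)
      · obtain ⟨p, hp, h⟩ := gsum_ne h1
        have h3 : p.1 ∈ UF.support.image Prod.fst :=
          mem_image_of_mem _ (Finsupp.mem_support_iff.2 hp)
        rcases of_not_tp (hUFne p hp).2 h h2 with rfl | rfl
        · exact mem_union_left _ (mem_union_right _ (mem_image_of_mem _ h3))
        · exact mem_union_right _ (mem_image_of_mem _ h3)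
    · refine (card_union_le _ _).trans ((Nat.add_le_add_right (card_union_le _ _) _).trans ?_)
      have := card_image_le (s := UF.support.image Prod.fst)
        (f := fun γ => (Sum.inl (R.vout γ) : VV))
      have := card_image_le (s := UF.support.image Prod.fst) (f := edg R)
      omega

end Crest.Agent.R290
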